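import Mathlib.Order.Hom.Basic
import Mathlib.Algebra.BigOperators.Fin
import Mathlib.Algebra.BigOperators.Ring.Finset
import Mathlib.Algebra.Module.BigOperators
import Mathlib.Data.Fin.Basic
import Mathlib.Tactic.Abel

/-!
# P263, block S: the maps between the ordered sets `[p] = Fin (p + 1)`

Cofaces `dl`, codegeneracies `sg`, the maps `th p c : [p] → [1]`, their relations, and the double
sum `prism_sum` which is the combinatorial core of the prism lemma.
-/

namespace Vale.Agent.P263.S

/-- the coface `[p] → [p+1]` which omits `i` -/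
def dl (p i : ℕ) : Fin (p + 1) →o Fin (p + 2) where
  toFun x := ⟨if x.1 < i then x.1 else x.1 + 1, by have := x.2; split_ifs <;> omega⟩
  monotone' x y h := by
    simp only [Fin.le_def] at *
    split_ifs <;> omega

/-- the codegeneracy `[p+1] → [p]` which repeats `i` -/
def sg (p i : ℕ) : Fin (p + 2) →o Fin (p + 1) where
  toFun x := ⟨if x.1 ≤ i then min x.1 p else x.1 - 1, by have := x.2; split_ifs <;> omega⟩
  monotone' x y h := by
    have := x.2; have := y.2
    simp only [Fin.le_def] at *
    split_ifs <;> omega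

/-- the map `[p] → [1]` which is `0` exactly on the elements `< c` -/
def th (p c : ℕ) : Fin (p + 1) →o Fin 2 where
  toFun x := if x.1 < c then 0 else 1
  monotone' x y h := by
    simp only [Fin.le_def] at h
    show (if x.1 < c then (0 : Fin 2) else 1) ≤ (if y.1 < c then (0 : Fin 2) else 1)
    split_ifs with h1 h2
    · exact le_rfl
    · exact Fin.zero_le _
    · omega
    · exact le_rfl

theorem dl_val (p i : ℕ) (x : Fin (p + 1)) :
    (dl p i x).1 = if x.1 < i then x.1 else x.1 + 1 := rfl

theorem sg_val (p i : ℕ) (x : Fin (p + 2)) :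
    (sg p i x).1 = if x.1 ≤ i then min x.1 p else x.1 - 1 := rfl

theorem th_val (p c : ℕ) (x : Fin (p + 1)) : th p c x = if x.1 < c then 0 else 1 := rfl

theorem sg_dl_lt {p i j : ℕ} (h : j < i) (hi : i ≤ p + 1) :
    (sg (p + 1) i).comp (dl (p + 1) j) = (dl p j).comp (sg p (i - 1)) := by
  ext x
  have := x.2
  simp only [OrderHom.comp_coe, Function.comp, dl_val, sg_val]
  split_ifs <;> omega

theorem sg_dl_self {p i : ℕ} (_hi : i ≤ p + 1) :
    (sg (p + 1) i).comp (dl (p + 1) i) = OrderHom.id := by
  ext x
  have := x.2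
  simp only [OrderHom.comp_coe, Function.comp, dl_val, sg_val, OrderHom.id_coe, id]
  split_ifs <;> omega

theorem sg_dl_succ {p i : ℕ} (_hi : i ≤ p + 1) :
    (sg (p + 1) i).comp (dl (p + 1) (i + 1)) = OrderHom.id := by
  ext x
  have := x.2
  simp only [OrderHom.comp_coe, Function.comp, dl_val, sg_val, OrderHom.id_coe, id]
  split_ifs <;> omega

theorem sg_dl_gt {p i j : ℕ} (h : i + 1 < j) (hi : j ≤ p + 2) :
    (sg (p + 1) i).comp (dl (p + 1) j) = (dl p (j - 1)).comp (sg p i) := by
  ext x
  have := x.2
  simp only [OrderHom.comp_coe, Function.comp, dl_val, sg_val]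
  split_ifs <;> omega

theorem th_dl_le {p c j : ℕ} (h : j ≤ c) :
    (th (p + 1) (c + 1)).comp (dl p j) = th p c := by
  apply OrderHom.ext
  funext x
  have := x.2
  simp only [OrderHom.comp_coe, Function.comp, dl_val, th_val]
  split_ifs <;> omega

theorem th_dl_gt {p c j : ℕ} (h : c ≤ j) :
    (th (p + 1) c).comp (dl p j) = th p c := by
  apply OrderHom.ext
  funext x
  have := x.2
  simp only [OrderHom.comp_coe, Function.comp, dl_val, th_val]
  split_ifs <;> omega

theorem dl_dl {p i j : ℕ} (h : i ≤ j) :
    (dl (p + 1) (j + 1)).comp (dl p i) = (dl (p + 1) i).comp (dl p j) := by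
  ext x
  have := x.2
  simp only [OrderHom.comp_coe, Function.comp, dl_val]
  split_ifs <;> omega

/-! ### two double sums -/

section sums

variable {M : Type*} [AddCommGroup M]

/-- the sign `(-1)^k` -/
def sn (k : ℕ) (x : M) : M := ((-1 : ℤ) ^ k) • x

theorem sn_add (k : ℕ) (x y : M) : sn k (x + y) = sn k x + sn k y := smul_add _ _ _

theorem sn_succ (k : ℕ) (x : M) : sn (k + 1) x = - sn k x := by
  simp [sn, pow_succ]

theorem sn_sn (k l : ℕ) (x : M) : sn k (sn l x) = sn (k + l) x := by
  simp [sn, pow_add, mul_smul]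

theorem sn_sum {ι : Type*} (k : ℕ) (s : Finset ι) (f : ι → M) :
    sn k (∑ i ∈ s, f i) = ∑ i ∈ s, sn k (f i) := Finset.smul_sum

theorem sn_zero_val (k : ℕ) : sn k (0 : M) = 0 := smul_zero _

theorem sn_double (k : ℕ) (x : M) : sn (k + k) x = x := by
  simp [sn, pow_add, ← mul_pow]

/-- the combinatorial core of the prism lemma -/
theorem prism_sum (n : ℕ) (F G : ℕ → ℕ → M) (C : ℕ → M)
    (h1 : ∀ i j, i < n → j ≤ i → F (i + 1) j = G i j)
    (h2 : ∀ i, i ≤ n → F i i = C i) (h3 : ∀ i, i ≤ n → F i (i + 1) = C (i + 1))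
    (h4 : ∀ i j, i < n → i < j → j ≤ n → F i (j + 1) = G i j) :
    ∑ i ∈ Finset.range (n + 1), ∑ j ∈ Finset.range (n + 2), sn (i + j) (F i j) =
      C 0 - C (n + 1) -
        ∑ i ∈ Finset.range n, ∑ j ∈ Finset.range (n + 1), sn (i + j) (G i j) := by
  classical
  have e : ∀ i ∈ Finset.range (n + 1), ∀ j ∈ Finset.range (n + 2), sn (i + j) (F i j) =
      (if j < i then sn (i + j) (G (i - 1) j) else 0) + (if j = i then C i else 0) +
      ((if j = i + 1 then - C (i + 1) else 0) +
        (if i + 1 < j then sn (i + j) (G i (j - 1)) else 0)) := by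
    intro i hi j hj
    rw [Finset.mem_range] at hi hj
    rcases lt_trichotomy j i with h | h | h
    · obtain ⟨i, rfl⟩ : ∃ k, i = k + 1 := ⟨i - 1, by omega⟩
      rw [if_pos h, if_neg (by omega), if_neg (by omega), if_neg (by omega),
        h1 i j (by omega) (by omega)]
      simp
    · subst h
      rw [if_neg (by omega), if_pos rfl, if_neg (by omega), if_neg (by omega), h2 j (by omega),
        sn_double]
      simp
    · rcases Nat.lt_or_ge (i + 1) j with h' | h'
      · obtain ⟨j, rfl⟩ : ∃ k, j = k + 1 := ⟨j - 1, by omega⟩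
        rw [if_neg (by omega), if_neg (by omega), if_neg (by omega), if_pos h',
          h4 i j (by omega) (by omega) (by omega)]
        simp
      · obtain rfl : j = i + 1 := by omega
        rw [if_neg (by omega), if_neg (by omega), if_pos rfl, if_neg (by omega),
          h3 i (by omega), ← add_assoc, sn_succ, sn_double]
        simp
  rw [Finset.sum_congr rfl fun i hi => Finset.sum_congr rfl (e i hi)]
  simp only [Finset.sum_add_distrib]
  have s1 : ∑ i ∈ Finset.range (n + 1), ∑ j ∈ Finset.range (n + 2),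
      (if j < i then sn (i + j) (G (i - 1) j) else 0) =
      ∑ i ∈ Finset.range n, ∑ j ∈ Finset.range (n + 1),
        (if j ≤ i then - sn (i + j) (G i j) else 0) := by
    rw [Finset.sum_range_succ']
    simp only [Nat.not_lt_zero, if_false, Finset.sum_const_zero, add_zero]
    refine Finset.sum_congr rfl fun i hi => ?_
    rw [Finset.mem_range] at hi
    rw [Finset.sum_range_succ, if_neg (by omega), add_zero]
    refine Finset.sum_congr rfl fun j _ => ?_
    by_cases h : j ≤ i
    · rw [if_pos (by omega), if_pos h, Nat.add_sub_cancel, show i + 1 + j = i + j + 1 by omega,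
        sn_succ]
    · rw [if_neg (by omega), if_neg h]
  have s4 : ∑ i ∈ Finset.range (n + 1), ∑ j ∈ Finset.range (n + 2),
      (if i + 1 < j then sn (i + j) (G i (j - 1)) else 0) =
      ∑ i ∈ Finset.range n, ∑ j ∈ Finset.range (n + 1),
        (if ¬ j ≤ i then - sn (i + j) (G i j) else 0) := by
    rw [Finset.sum_range_succ, Finset.sum_eq_zero (s := Finset.range (n + 2)), add_zero]
    · refine Finset.sum_congr rfl fun i hi => ?_
      rw [Finset.sum_range_succ', if_neg (by omega), add_zero]
      refine Finset.sum_congr rfl fun j _ => ?_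
      by_cases h : j ≤ i
      · rw [if_neg (by omega), if_neg (by omega)]
      · rw [if_pos (by omega), if_pos h, Nat.add_sub_cancel, ← add_assoc, sn_succ]
    · intro j hj
      rw [Finset.mem_range] at hj
      rw [if_neg (by omega)]
  have s2 : ∑ i ∈ Finset.range (n + 1), ∑ j ∈ Finset.range (n + 2),
      (if j = i then C i else 0) = ∑ i ∈ Finset.range (n + 1), C i := by
    refine Finset.sum_congr rfl fun i hi => ?_
    rw [Finset.mem_range] at hi
    rw [Finset.sum_ite_eq' (Finset.range (n + 2)) i (fun _ => C i),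
      if_pos (Finset.mem_range.2 (by omega))]
  have s3 : ∑ i ∈ Finset.range (n + 1), ∑ j ∈ Finset.range (n + 2),
      (if j = i + 1 then - C (i + 1) else 0) = - ∑ i ∈ Finset.range (n + 1), C (i + 1) := by
    rw [← Finset.sum_neg_distrib]
    refine Finset.sum_congr rfl fun i hi => ?_
    rw [Finset.mem_range] at hi
    rw [Finset.sum_ite_eq' (Finset.range (n + 2)) (i + 1) (fun _ => - C (i + 1)),
      if_pos (Finset.mem_range.2 (by omega))]
  rw [s1, s2, s3, s4]
  have s5 : ∑ i ∈ Finset.range n, ∑ j ∈ Finset.range (n + 1), sn (i + j) (G i j) =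
      - (∑ i ∈ Finset.range n, ∑ j ∈ Finset.range (n + 1),
          (if j ≤ i then - sn (i + j) (G i j) else 0)) -
        ∑ i ∈ Finset.range n, ∑ j ∈ Finset.range (n + 1),
          (if ¬ j ≤ i then - sn (i + j) (G i j) else 0) := by
    rw [← Finset.sum_neg_distrib, ← Finset.sum_sub_distrib]
    refine Finset.sum_congr rfl fun i _ => ?_
    rw [← Finset.sum_neg_distrib, ← Finset.sum_sub_distrib]
    refine Finset.sum_congr rfl fun j _ => ?_
    by_cases h : j ≤ i
    · rw [if_pos h, if_neg (by simpa using h)]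
      simp
    · rw [if_neg h, if_pos h]
      simp
  have s6 : ∑ i ∈ Finset.range (n + 1), C i - ∑ i ∈ Finset.range (n + 1), C (i + 1) =
      C 0 - C (n + 1) := Finset.sum_range_sub' C (n + 1) ▸ (Finset.sum_sub_distrib _ _).symm
  rw [s5, ← s6]
  abel

end sums

end Vale.Agent.P263.S
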