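import Mathlib.LinearAlgebra.Quotient.Basic
import Mathlib.LinearAlgebra.Quotient.Defs
import Vale.Agent.P263.S.FinMaps

/-!
# P263, block S: cosimplicial modules and their cohomology

`CosMod R` : cosimplicial `R`-modules, hand-rolled.  `A.d p : A.obj p →ₗ[R] A.obj (p + 1)` is the
alternating sum of ALL cofaces (no normalisation), `A.Z p` the cocycles, `A.Bd p` the coboundaries,
`A.H p = Z p / Bd p`.
-/

namespace Vale.Agent.P263.S

/-- The monotone maps `[p] → [q]`. -/
abbrev Op (p q : ℕ) : Type := Fin (p + 1) →o Fin (q + 1)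

/-- Cosimplicial modules over `R`. -/
structure CosMod (R : Type) [CommRing R] where
  /-- the modules -/
  obj : ℕ → Type
  [grp : ∀ p, AddCommGroup (obj p)]
  [mod : ∀ p, Module R (obj p)]
  /-- the action of the monotone maps `[p] → [q]` -/
  map : ∀ {p q : ℕ}, Op p q → obj p →ₗ[R] obj q
  map_id : ∀ {p : ℕ}, map (OrderHom.id : Op p p) = LinearMap.id
  map_comp : ∀ {p q r : ℕ} (f : Op q r) (g : Op p q), map (f.comp g) = (map f).comp (map g)

attribute [instance] CosMod.grp CosMod.mod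

variable {R : Type} [CommRing R]

namespace CosMod

theorem map_id_apply (A : CosMod R) {p : ℕ} (x : A.obj p) : A.map OrderHom.id x = x := by
  rw [A.map_id]; rfl

theorem map_map (A : CosMod R) {p q r : ℕ} (f : Op q r) (g : Op p q) (x : A.obj p) : A.map f (A.map g x) = A.map (f.comp g) x := by
  rw [A.map_comp]; rfl

/-- the coboundary -/
def d (A : CosMod R) (p : ℕ) : A.obj p →ₗ[R] A.obj (p + 1) :=
  ∑ i ∈ Finset.range (p + 2), ((-1 : ℤ) ^ i) • A.map (dl p i)

theorem d_apply (A : CosMod R) (p : ℕ) (x : A.obj p) :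
    A.d p x = ∑ i ∈ Finset.range (p + 2), sn i (A.map (dl p i) x) := by
  simp [d, sn, LinearMap.sum_apply]

theorem sn_map {A : Type*} {B : Type*} [AddCommGroup A] [AddCommGroup B] (f : A →+ B) (k : ℕ)
    (x : A) : f (sn k x) = sn k (f x) := map_zsmul f _ _

theorem sn_lin {A : Type*} {B : Type*} [AddCommGroup A] [AddCommGroup B] [Module R A]
    [Module R B] (f : A →ₗ[R] B) (k : ℕ) (x : A) : f (sn k x) = sn k (f x) := map_zsmul f _ _

theorem sn_smul {A : Type*} [AddCommGroup A] [Module R A] (r : R) (k : ℕ) (x : A) :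
    sn k (r • x) = r • sn k x := smul_comm _ _ _

/-- the combinatorial core of `d ∘ d = 0` -/
theorem dd_sum {M : Type*} [AddCommGroup M] (n : ℕ) (F : ℕ → ℕ → M)
    (h : ∀ i j, i ≤ j → j ≤ n → F (j + 1) i = F i j) :
    ∑ i ∈ Finset.range (n + 2), ∑ j ∈ Finset.range (n + 1), sn (i + j) (F i j) = 0 := by
  have e : ∀ i ∈ Finset.range (n + 2), ∀ j ∈ Finset.range (n + 1), sn (i + j) (F i j) =
      (if j < i then sn (i + j) (F i j) else 0) + (if i ≤ j then sn (i + j) (F i j) else 0) := by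
    intro i _ j _
    rcases Nat.lt_or_ge j i with h | h
    · rw [if_pos h, if_neg (by omega), add_zero]
    · rw [if_neg (by omega), if_pos h, zero_add]
  rw [Finset.sum_congr rfl fun i hi => Finset.sum_congr rfl (e i hi)]
  simp only [Finset.sum_add_distrib]
  have s1 : ∑ i ∈ Finset.range (n + 2), ∑ j ∈ Finset.range (n + 1),
      (if j < i then sn (i + j) (F i j) else 0) =
      ∑ i ∈ Finset.range (n + 1), ∑ j ∈ Finset.range (n + 1),
        (if j ≤ i then - sn (i + j) (F j i) else 0) := by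
    rw [Finset.sum_range_succ']
    simp only [Nat.not_lt_zero, if_false, Finset.sum_const_zero, add_zero]
    refine Finset.sum_congr rfl fun i hi => Finset.sum_congr rfl fun j _ => ?_
    rw [Finset.mem_range] at hi
    by_cases h' : j ≤ i
    · rw [if_pos (by omega), if_pos h', show i + 1 + j = i + j + 1 by omega, sn_succ,
        h j i h' (by omega)]
    · rw [if_neg (by omega), if_neg h']
  have s2 : ∑ i ∈ Finset.range (n + 2), ∑ j ∈ Finset.range (n + 1),
      (if i ≤ j then sn (i + j) (F i j) else 0) =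
      ∑ i ∈ Finset.range (n + 1), ∑ j ∈ Finset.range (n + 1),
        (if i ≤ j then sn (i + j) (F i j) else 0) := by
    rw [Finset.sum_range_succ, add_eq_left]
    refine Finset.sum_eq_zero fun j hj => ?_
    rw [Finset.mem_range] at hj
    rw [if_neg (by omega)]
  rw [s1, s2, Finset.sum_comm, ← Finset.sum_add_distrib]
  refine Finset.sum_eq_zero fun i _ => ?_
  rw [← Finset.sum_add_distrib]
  refine Finset.sum_eq_zero fun j _ => ?_
  by_cases h' : i ≤ j
  · rw [if_pos h', if_pos h', add_comm j i]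
    simp
  · rw [if_neg h', if_neg h', add_zero]

theorem d_d (A : CosMod R) (p : ℕ) (x : A.obj p) : A.d (p + 1) (A.d p x) = 0 := by
  rw [d_apply]
  have e : ∀ i ∈ Finset.range (p + 3), sn i (A.map (dl (p + 1) i) (A.d p x)) =
      ∑ j ∈ Finset.range (p + 2), sn (i + j) (A.map ((dl (p + 1) i).comp (dl p j)) x) := by
    intro i _
    rw [d_apply, map_sum, sn_sum]
    refine Finset.sum_congr rfl fun j _ => ?_
    rw [sn_lin, sn_sn, A.map_map]
  rw [Finset.sum_congr rfl e]
  exact dd_sum (p + 1) (fun i j => A.map ((dl (p + 1) i).comp (dl p j)) x)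
    fun i j hij _ => by rw [dl_dl hij]

/-- the cocycles -/
def Z (A : CosMod R) (p : ℕ) : Submodule R (A.obj p) := LinearMap.ker (A.d p)

/-- the coboundaries -/
def Bd (A : CosMod R) : (p : ℕ) → Submodule R (A.obj p)
  | 0 => ⊥
  | p + 1 => LinearMap.range (A.d p)

theorem mem_Z {A : CosMod R} {p : ℕ} {x : A.obj p} : x ∈ A.Z p ↔ A.d p x = 0 := Iff.rfl

theorem mem_Bd_zero {A : CosMod R} {x : A.obj 0} : x ∈ A.Bd 0 ↔ x = 0 := Iff.rfl

theorem mem_Bd_succ {A : CosMod R} {p : ℕ} {x : A.obj (p + 1)} :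
    x ∈ A.Bd (p + 1) ↔ ∃ y, A.d p y = x := Iff.rfl

theorem d_mem_Bd (A : CosMod R) {p : ℕ} (y : A.obj p) : A.d p y ∈ A.Bd (p + 1) := ⟨y, rfl⟩

theorem Bd_le_Z (A : CosMod R) (p : ℕ) : A.Bd p ≤ A.Z p := by
  cases p with
  | zero => exact bot_le
  | succ p =>
    rintro _ ⟨y, rfl⟩
    exact A.d_d p y

/-- the cohomology -/
abbrev H (A : CosMod R) (p : ℕ) : Type := A.Z p ⧸ (A.Bd p).comap (A.Z p).subtype

/-- the class of a cocycle -/
def cls (A : CosMod R) (p : ℕ) : A.Z p →ₗ[R] A.H p := Submodule.mkQ _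

theorem cls_surjective (A : CosMod R) (p : ℕ) : Function.Surjective (A.cls p) :=
  Submodule.mkQ_surjective _

theorem cls_eq_zero_iff {A : CosMod R} {p : ℕ} {x : A.Z p} :
    A.cls p x = 0 ↔ (x : A.obj p) ∈ A.Bd p := by
  rw [cls, Submodule.mkQ_apply, Submodule.Quotient.mk_eq_zero]
  rfl

theorem cls_eq_iff {A : CosMod R} {p : ℕ} {x y : A.Z p} :
    A.cls p x = A.cls p y ↔ (x - y : A.obj p) ∈ A.Bd p := by
  rw [← sub_eq_zero, ← map_sub, cls_eq_zero_iff]
  rfl

end CosMod

/-- Maps of cosimplicial modules. -/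
structure Hom (A : CosMod R) (B : CosMod R) where
  /-- the components -/
  app : ∀ p, A.obj p →ₗ[R] B.obj p
  nat : ∀ {p q : ℕ} (f : Op p q) (x : A.obj p),
    app q (A.map f x) = B.map f (app p x)

namespace Hom

variable {A : CosMod R} {B : CosMod R} {C : CosMod R}

@[ext] theorem ext {f g : Hom A B} (h : ∀ p x, f.app p x = g.app p x) : f = g := by
  cases f; cases g
  congr
  funext p
  exact LinearMap.ext (h p)

/-- the identity -/
def id (A : CosMod R) : Hom A A := ⟨fun _ => LinearMap.id, fun _ _ => rfl⟩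

/-- the composite `g ∘ f` -/
def comp (g : Hom B C) (f : Hom A B) : Hom A C :=
  ⟨fun p => (g.app p).comp (f.app p), fun a x => by
    simp only [LinearMap.comp_apply]; rw [f.nat, g.nat]⟩

theorem app_d (f : Hom A B) (p : ℕ) (x : A.obj p) : f.app (p + 1) (A.d p x) = B.d p (f.app p x) := by
  rw [CosMod.d_apply, CosMod.d_apply, map_sum]
  refine Finset.sum_congr rfl fun i _ => ?_
  rw [CosMod.sn_lin, f.nat]

theorem app_mem_Z (f : Hom A B) {p : ℕ} {x : A.obj p} (hx : x ∈ A.Z p) : f.app p x ∈ B.Z p := by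
  rw [CosMod.mem_Z] at *
  rw [← f.app_d, hx, map_zero]

theorem app_mem_Bd (f : Hom A B) {p : ℕ} {x : A.obj p} (hx : x ∈ A.Bd p) : f.app p x ∈ B.Bd p := by
  cases p with
  | zero =>
    rw [CosMod.mem_Bd_zero] at *
    rw [hx, map_zero]
  | succ p =>
    obtain ⟨y, rfl⟩ := hx
    exact ⟨f.app p y, (f.app_d p y).symm⟩

/-- the map on cocycles -/
def mapZ (f : Hom A B) (p : ℕ) : A.Z p →ₗ[R] B.Z p :=
  (f.app p).restrict fun _ hx => f.app_mem_Z hx

@[simp] theorem coe_mapZ (f : Hom A B) (p : ℕ) (x : A.Z p) :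
    (f.mapZ p x : B.obj p) = f.app p x := rfl

/-- the map on cohomology -/
def mapH (f : Hom A B) (p : ℕ) : A.H p →ₗ[R] B.H p :=
  Submodule.mapQ _ _ (f.mapZ p) fun _ hx => f.app_mem_Bd hx

@[simp] theorem mapH_cls (f : Hom A B) (p : ℕ) (x : A.Z p) :
    f.mapH p (A.cls p x) = B.cls p (f.mapZ p x) := rfl

@[simp] theorem mapH_id (p : ℕ) (x : A.H p) : (id A).mapH p x = x := by
  obtain ⟨x, rfl⟩ := A.cls_surjective p x
  rfl

theorem mapH_comp (g : Hom B C) (f : Hom A B) (p : ℕ) (x : A.H p) :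
    (g.comp f).mapH p x = g.mapH p (f.mapH p x) := by
  obtain ⟨x, rfl⟩ := A.cls_surjective p x
  rfl

end Hom

end Vale.Agent.P263.S
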