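import Vale.Agent.P263.S.Core
import Mathlib.Tactic.Abel

/-!
# P263, block S1: the long exact sequence (helper801)

`SES A B C` : short exact sequences of cosimplicial modules; `S.conn n : C.H n →ₗ[R] A.H (n+1)` is
the connecting homomorphism, computed by zig-zags (`conn_cls`); exactness: `exact_A`, `exact_B`,
`exact_C`, `inj_zero`; naturality: `conn_nat`.
-/

namespace Vale.Agent.P263.S

variable {R : Type} [CommRing R]

namespace CosMod

/-- induction principle: every class is the class of a cocycle -/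
theorem H_ind {K : CosMod R} {n : ℕ} {P : K.H n → Prop} (h : ∀ z, P (K.cls n z)) (x : K.H n) :
    P x := by
  obtain ⟨z, rfl⟩ := K.cls_surjective n x
  exact h z

/-- linear maps out of the cohomology -/
def liftH {K : CosMod R} {n : ℕ} {M : Type*} [AddCommGroup M] [Module R M]
    (f : K.Z n →ₗ[R] M) (hf : ∀ z : K.Z n, (z : K.obj n) ∈ K.Bd n → f z = 0) : K.H n →ₗ[R] M :=
  Submodule.liftQ ((K.Bd n).comap (K.Z n).subtype) f (fun z hz => hf z hz)

@[simp] theorem liftH_cls {K : CosMod R} {n : ℕ} {M : Type*} [AddCommGroup M] [Module R M]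
    (f : K.Z n →ₗ[R] M) (hf) (z : K.Z n) : liftH f hf (K.cls n z) = f z := rfl

theorem H_hom_ext {K : CosMod R} {n : ℕ} {M : Type*} [AddCommGroup M] [Module R M]
    {f g : K.H n →ₗ[R] M} (h : ∀ z, f (K.cls n z) = g (K.cls n z)) : f = g := by
  apply LinearMap.ext
  intro x
  induction x using H_ind with
  | h z => exact h z

/-- the vanishing of `H^n` in elementwise form -/
theorem H_eq_zero_iff {K : CosMod R} {n : ℕ} :
    (∀ x : K.H n, x = 0) ↔ K.Z n ≤ K.Bd n := by
  constructor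
  · intro h x hx
    exact cls_eq_zero_iff.1 (h (K.cls n ⟨x, hx⟩))
  · intro h x
    induction x using H_ind with
    | h z => exact cls_eq_zero_iff.2 (h z.2)

end CosMod

open CosMod

namespace Hom

variable {K : CosMod R} {L : CosMod R} {M : CosMod R}

@[simp] theorem comp_app (ψ : Hom L M) (φ : Hom K L) (n : ℕ) (x : K.obj n) :
    (ψ.comp φ).app n x = ψ.app n (φ.app n x) := rfl

@[simp] theorem id_app (n : ℕ) (x : K.obj n) : (Hom.id K).app n x = x := rfl

/-- chain homotopic maps agree in cohomology (pointwise form on cocycles) -/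
theorem mapH_eq_of_sub_mem (φ ψ : Hom K L) (n : ℕ)
    (h : ∀ x ∈ K.Z n, φ.app n x - ψ.app n x ∈ L.Bd n) (x : K.H n) : φ.mapH n x = ψ.mapH n x := by
  induction x using H_ind with
  | h z => rw [mapH_cls, mapH_cls, cls_eq_iff]; exact h z z.2

theorem mapH_eq_of_homotopy (φ ψ : Hom K L) (k : ∀ n, K.obj (n+1) →ₗ[R] L.obj n)
    (h0 : ∀ x, φ.app 0 x - ψ.app 0 x = k 0 (K.d 0 x))
    (h : ∀ n x, φ.app (n+1) x - ψ.app (n+1) x = k (n+1) (K.d (n+1) x) + L.d n (k n x))
    (n : ℕ) (x : K.H n) : φ.mapH n x = ψ.mapH n x := by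
  apply mapH_eq_of_sub_mem
  intro z hz
  rw [mem_Z] at hz
  cases n with
  | zero => rw [mem_Bd_zero, h0, hz, map_zero]
  | succ n => rw [h, hz, map_zero, zero_add]; exact d_mem_Bd _ _

instance : Zero (Hom K L) := ⟨⟨fun _ => 0, fun _ _ => by simp⟩⟩
instance : Add (Hom K L) :=
  ⟨fun φ ψ => ⟨fun n => φ.app n + ψ.app n, fun f x => by simp [φ.nat, ψ.nat]⟩⟩
instance : Neg (Hom K L) := ⟨fun φ => ⟨fun n => - φ.app n, fun f x => by simp [φ.nat]⟩⟩
instance : Sub (Hom K L) :=
  ⟨fun φ ψ => ⟨fun n => φ.app n - ψ.app n, fun f x => by simp [φ.nat, ψ.nat]⟩⟩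
instance : SMul R (Hom K L) := ⟨fun r φ => ⟨fun n => r • φ.app n, fun f x => by simp [φ.nat]⟩⟩

@[simp] theorem add_app (φ ψ : Hom K L) (n : ℕ) (x : K.obj n) :
    (φ + ψ).app n x = φ.app n x + ψ.app n x := rfl
@[simp] theorem sub_app (φ ψ : Hom K L) (n : ℕ) (x : K.obj n) :
    (φ - ψ).app n x = φ.app n x - ψ.app n x := rfl
@[simp] theorem neg_app (φ : Hom K L) (n : ℕ) (x : K.obj n) :
    (-φ).app n x = - φ.app n x := rfl
@[simp] theorem zero_app (n : ℕ) (x : K.obj n) : (0 : Hom K L).app n x = 0 := rfl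
@[simp] theorem smul_app (r : R) (φ : Hom K L) (n : ℕ) (x : K.obj n) :
    (r • φ).app n x = r • φ.app n x := rfl

theorem mapH_add (φ ψ : Hom K L) (n : ℕ) (x : K.H n) :
    (φ + ψ).mapH n x = φ.mapH n x + ψ.mapH n x := by
  induction x using H_ind with
  | h z => rw [mapH_cls, mapH_cls, mapH_cls, ← map_add]; rfl

theorem mapH_sub (φ ψ : Hom K L) (n : ℕ) (x : K.H n) :
    (φ - ψ).mapH n x = φ.mapH n x - ψ.mapH n x := by
  induction x using H_ind with
  | h z => rw [mapH_cls, mapH_cls, mapH_cls, ← map_sub]; rfl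

theorem mapH_neg (φ : Hom K L) (n : ℕ) (x : K.H n) :
    (-φ).mapH n x = - φ.mapH n x := by
  induction x using H_ind with
  | h z => rw [mapH_cls, mapH_cls, ← map_neg]; rfl

theorem mapH_zero (n : ℕ) (x : K.H n) : (0 : Hom K L).mapH n x = 0 := by
  induction x using H_ind with
  | h z => rw [mapH_cls, cls_eq_zero_iff]; exact Submodule.zero_mem _

theorem mapH_smul (r : R) (φ : Hom K L) (n : ℕ) (x : K.H n) :
    (r • φ).mapH n x = r • φ.mapH n x := by
  induction x using H_ind with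
  | h z => rw [mapH_cls, mapH_cls, ← map_smul]; rfl

/-- a levelwise bijection with inverse in both directions induces an isomorphism -/
theorem mapH_bijective_of_inverse (φ : Hom K L) (ψ : Hom L K)
    (h1 : ∀ n x, ψ.app n (φ.app n x) = x) (h2 : ∀ n x, φ.app n (ψ.app n x) = x) (n : ℕ) :
    Function.Bijective (φ.mapH n) := by
  refine Function.bijective_iff_has_inverse.2 ⟨ψ.mapH n, fun x => ?_, fun x => ?_⟩
  · rw [← mapH_comp, show ψ.comp φ = Hom.id K from Hom.ext h1, mapH_id]
  · rw [← mapH_comp, show φ.comp ψ = Hom.id L from Hom.ext h2, mapH_id]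

/-- the inverse of a levelwise bijective map -/
noncomputable def inv (φ : Hom K L) (h : ∀ n, Function.Bijective (φ.app n)) : Hom L K where
  app n := (LinearEquiv.ofBijective (φ.app n) (h n)).symm
  nat {p q} f x := by
    apply (h q).1
    have e : ∀ n (y : L.obj n), φ.app n ((LinearEquiv.ofBijective (φ.app n) (h n)).symm y) = y :=
      fun n y => (LinearEquiv.ofBijective (φ.app n) (h n)).apply_symm_apply y
    simp only [LinearEquiv.coe_coe]
    rw [e, φ.nat, e]

theorem mapH_bijective (φ : Hom K L) (h : ∀ n, Function.Bijective (φ.app n)) (n : ℕ) :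
    Function.Bijective (φ.mapH n) :=
  φ.mapH_bijective_of_inverse (φ.inv h)
    (fun n x => (LinearEquiv.ofBijective (φ.app n) (h n)).symm_apply_apply x)
    (fun n x => (LinearEquiv.ofBijective (φ.app n) (h n)).apply_symm_apply x) n

end Hom

/-- short exact sequences of cosimplicial modules -/
structure SES (A : CosMod R) (B : CosMod R) (C : CosMod R) where
  i : Hom A B
  p : Hom B C
  inj : ∀ n, Function.Injective (i.app n)
  surj : ∀ n, Function.Surjective (p.app n)
  pi : ∀ n x, p.app n (i.app n x) = 0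
  ex : ∀ n x, p.app n x = 0 → ∃ a, i.app n a = x

namespace SES

variable {A : CosMod R} {B : CosMod R} {C : CosMod R} (S : SES A B C)

include S in
theorem exists_lift {n : ℕ} {c : C.obj n} (hc : c ∈ C.Z n) :
    ∃ (b : B.obj n) (a : A.obj (n+1)), S.p.app n b = c ∧ S.i.app (n+1) a = B.d n b ∧
      a ∈ A.Z (n+1) := by
  obtain ⟨b, rfl⟩ := S.surj n c
  rw [mem_Z] at hc
  obtain ⟨a, ha⟩ := S.ex (n+1) (B.d n b) (by rw [S.p.app_d]; exact hc)
  refine ⟨b, a, rfl, ha, ?_⟩
  rw [mem_Z]
  apply S.inj (n+2)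
  rw [S.i.app_d, ha, B.d_d, map_zero]

include S in
/-- independence of choices of the connecting map. -/
theorem conn_unique {n : ℕ} {b : B.obj n} {a : A.obj (n+1)} (hc : S.p.app n b ∈ C.Bd n)
    (ha : S.i.app (n+1) a = B.d n b) : a ∈ A.Bd (n+1) := by
  cases n with
  | zero =>
    rw [mem_Bd_zero] at hc
    obtain ⟨a', ha'⟩ := S.ex 0 b hc
    refine ⟨a', S.inj _ ?_⟩
    rw [S.i.app_d, ha', ha]
  | succ n =>
    obtain ⟨c, hc⟩ := hc
    obtain ⟨b', rfl⟩ := S.surj n c
    obtain ⟨a', ha'⟩ := S.ex (n+1) (b - B.d n b') (by rw [map_sub, ← hc, S.p.app_d, sub_self])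
    refine ⟨a', S.inj _ ?_⟩
    rw [S.i.app_d, ha', ha, map_sub, B.d_d, sub_zero]

/-- the connecting map on cocycles (a choice) -/
noncomputable def connFun (n : ℕ) (z : C.Z n) : A.Z (n+1) :=
  ⟨(S.exists_lift z.2).choose_spec.choose, (S.exists_lift z.2).choose_spec.choose_spec.2.2⟩

theorem connFun_spec (n : ℕ) (z : C.Z n) :
    ∃ b : B.obj n, S.p.app n b = z ∧ S.i.app (n+1) (S.connFun n z) = B.d n b :=
  ⟨(S.exists_lift z.2).choose, (S.exists_lift z.2).choose_spec.choose_spec.1,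
    (S.exists_lift z.2).choose_spec.choose_spec.2.1⟩

/-- the connecting map on cocycles, with values in classes -/
noncomputable def connZ (n : ℕ) : C.Z n →ₗ[R] A.H (n+1) where
  toFun z := A.cls (n+1) (S.connFun n z)
  map_add' z w := by
    rw [← map_add, cls_eq_iff]
    obtain ⟨b1, h1, h1'⟩ := S.connFun_spec n z
    obtain ⟨b2, h2, h2'⟩ := S.connFun_spec n w
    obtain ⟨b3, h3, h3'⟩ := S.connFun_spec n (z + w)
    refine S.conn_unique (b := b3 - (b1 + b2)) ?_ ?_
    · rw [map_sub, map_add, h1, h2, h3]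
      simp
    · rw [map_sub, map_sub, map_add, Submodule.coe_add, map_add, h1', h2', h3']
  map_smul' r z := by
    rw [RingHom.id_apply, ← map_smul, cls_eq_iff]
    obtain ⟨b1, h1, h1'⟩ := S.connFun_spec n z
    obtain ⟨b3, h3, h3'⟩ := S.connFun_spec n (r • z)
    refine S.conn_unique (b := b3 - r • b1) ?_ ?_
    · rw [map_sub, map_smul, h1, h3]
      simp
    · rw [map_sub, map_sub, map_smul, Submodule.coe_smul, map_smul, h1', h3']

/-- the connecting homomorphism -/
noncomputable def conn (n : ℕ) : C.H n →ₗ[R] A.H (n+1) :=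
  liftH (S.connZ n) (fun z hz => by
    change A.cls (n+1) (S.connFun n z) = 0
    rw [cls_eq_zero_iff]
    obtain ⟨b, hb, hb'⟩ := S.connFun_spec n z
    exact S.conn_unique (b := b) (by rw [hb]; exact hz) hb')

/-- the defining property of the connecting homomorphism: zig-zags compute it. -/
theorem conn_cls {n : ℕ} {z : C.Z n} {b : B.obj n} {a : A.Z (n+1)} (hb : S.p.app n b = z)
    (ha : S.i.app (n+1) a = B.d n b) : S.conn n (C.cls n z) = A.cls (n+1) a := by
  change A.cls (n+1) (S.connFun n z) = _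
  rw [cls_eq_iff]
  obtain ⟨b', hb', ha'⟩ := S.connFun_spec n z
  refine S.conn_unique (b := b' - b) ?_ ?_
  · rw [map_sub, hb, hb', sub_self]; exact Submodule.zero_mem _
  · rw [map_sub, map_sub, ha, ha']

theorem conn_exists (n : ℕ) (z : C.Z n) : ∃ (b : B.obj n) (a : A.Z (n+1)), S.p.app n b = z ∧
    S.i.app (n+1) a = B.d n b ∧ S.conn n (C.cls n z) = A.cls (n+1) a := by
  obtain ⟨b, a, hb, ha, haz⟩ := S.exists_lift z.2
  exact ⟨b, ⟨a, haz⟩, hb, ha, S.conn_cls (a := ⟨a, haz⟩) hb ha⟩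

/-- exactness at `H^n(B)` -/
theorem exact_B (n : ℕ) (x : B.H n) : S.p.mapH n x = 0 ↔ ∃ y, S.i.mapH n y = x := by
  constructor
  · induction x using H_ind with
    | h z =>
      intro h
      rw [Hom.mapH_cls, cls_eq_zero_iff, Hom.coe_mapZ] at h
      cases n with
      | zero =>
        rw [mem_Bd_zero] at h
        obtain ⟨a, ha⟩ := S.ex 0 z h
        refine ⟨A.cls 0 ⟨a, ?_⟩, ?_⟩
        · rw [mem_Z]; apply S.inj; rw [S.i.app_d, ha, map_zero]; exact z.2
        · rw [Hom.mapH_cls]; congr 1; exact Subtype.ext ha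
      | succ n =>
        obtain ⟨c, hc⟩ := h
        obtain ⟨b, rfl⟩ := S.surj n c
        obtain ⟨a, ha⟩ := S.ex (n+1) (z - B.d n b) (by rw [map_sub, ← hc, S.p.app_d, sub_self])
        refine ⟨A.cls (n+1) ⟨a, ?_⟩, ?_⟩
        · rw [mem_Z]; apply S.inj; rw [S.i.app_d, ha, map_sub, B.d_d, sub_zero, map_zero]
          exact z.2
        · rw [Hom.mapH_cls, cls_eq_iff]
          refine ⟨-b, ?_⟩
          rw [Hom.coe_mapZ, map_neg]
          change _ = S.i.app (n+1) a - _
          rw [ha]; abel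
  · rintro ⟨y, rfl⟩
    induction y using H_ind with
    | h z =>
      rw [Hom.mapH_cls, Hom.mapH_cls, cls_eq_zero_iff]
      rw [Hom.coe_mapZ, Hom.coe_mapZ, S.pi]
      exact Submodule.zero_mem _

/-- exactness at `H^n(C)` -/
theorem exact_C (n : ℕ) (x : C.H n) : S.conn n x = 0 ↔ ∃ y, S.p.mapH n y = x := by
  constructor
  · induction x using H_ind with
    | h z =>
      intro h
      obtain ⟨b, a, hb, ha, hconn⟩ := S.conn_exists n z
      rw [hconn, cls_eq_zero_iff] at h
      obtain ⟨a', ha'⟩ := h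
      refine ⟨B.cls n ⟨b - S.i.app n a', ?_⟩, ?_⟩
      · rw [mem_Z, map_sub, ← S.i.app_d, ha', ha, sub_self]
      · rw [Hom.mapH_cls]; congr 1; apply Subtype.ext
        rw [Hom.coe_mapZ]
        change S.p.app n (b - S.i.app n a') = _
        rw [map_sub, S.pi, sub_zero, hb]
  · rintro ⟨y, rfl⟩
    induction y using H_ind with
    | h z =>
      rw [Hom.mapH_cls, S.conn_cls (b := (z : B.obj n)) (a := 0) rfl, map_zero]
      rw [Submodule.coe_zero, map_zero]; exact z.2.symm

/-- exactness at `H^(n+1)(A)` -/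
theorem exact_A (n : ℕ) (x : A.H (n+1)) : S.i.mapH (n+1) x = 0 ↔ ∃ y, S.conn n y = x := by
  constructor
  · induction x using H_ind with
    | h z =>
      intro h
      rw [Hom.mapH_cls, cls_eq_zero_iff] at h
      obtain ⟨b, hb⟩ := h
      refine ⟨C.cls n ⟨S.p.app n b, ?_⟩, ?_⟩
      · rw [mem_Z, ← S.p.app_d, hb, Hom.coe_mapZ, S.pi]
      · exact S.conn_cls rfl hb.symm
  · rintro ⟨y, rfl⟩
    induction y using H_ind with
    | h z =>
      obtain ⟨b, a, hb, ha, hconn⟩ := S.conn_exists n z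
      rw [hconn, Hom.mapH_cls, cls_eq_zero_iff, Hom.coe_mapZ, ha]
      exact d_mem_Bd _ _

/-- injectivity at `H^0(A)` -/
theorem inj_zero (x : A.H 0) (h : S.i.mapH 0 x = 0) : x = 0 := by
  induction x using H_ind with
  | h z =>
    rw [Hom.mapH_cls, cls_eq_zero_iff, mem_Bd_zero, Hom.coe_mapZ] at h
    rw [cls_eq_zero_iff, mem_Bd_zero]
    apply S.inj; rw [h, map_zero]

/-- if `H^n(B) = 0` and `H^(n+1)(B) = 0` the connecting map is bijective -/
theorem conn_bijective (n : ℕ) (h1 : ∀ x : B.H n, x = 0) (h2 : ∀ x : B.H (n+1), x = 0) :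
    Function.Bijective (S.conn n) := by
  constructor
  · rw [injective_iff_map_eq_zero]
    intro x hx
    obtain ⟨y, rfl⟩ := (S.exact_C n x).1 hx
    rw [h1 y, map_zero]
  · intro x
    exact (S.exact_A n x).1 (h2 _)

/-- a morphism of short exact sequences induces a morphism of the connecting maps -/
theorem conn_nat {A' B' C' : CosMod R} (S' : SES A' B' C') (fA : Hom A A') (fB : Hom B B')
    (fC : Hom C C') (hi : ∀ n x, fB.app n (S.i.app n x) = S'.i.app n (fA.app n x))
    (hp : ∀ n x, fC.app n (S.p.app n x) = S'.p.app n (fB.app n x)) (n : ℕ) (x : C.H n) :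
    fA.mapH (n+1) (S.conn n x) = S'.conn n (fC.mapH n x) := by
  induction x using H_ind with
  | h z =>
    obtain ⟨b, a, hb, ha, hconn⟩ := S.conn_exists n z
    rw [hconn, Hom.mapH_cls, Hom.mapH_cls]
    refine (S'.conn_cls (b := fB.app n b) ?_ ?_).symm
    · rw [← hp, hb]; rfl
    · rw [Hom.coe_mapZ, ← hi, ha, fB.app_d]

/-- `conn` for cocycles given elementwise -/
theorem conn_mk {n : ℕ} {b : B.obj n} {a : A.obj (n+1)} (hz : S.p.app n b ∈ C.Z n)
    (ha' : a ∈ A.Z (n+1)) (ha : S.i.app (n+1) a = B.d n b) :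
    S.conn n (C.cls n ⟨S.p.app n b, hz⟩) = A.cls (n+1) ⟨a, ha'⟩ :=
  S.conn_cls rfl ha

end SES

end Vale.Agent.P263.S
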