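import Vale.Agent.P263.S.Core

/-!
# P263, block S: the prism lemma

A `Prism A B` is a cosimplicial homotopy: a natural family of maps `h p θ : A.obj p → B.obj p`
indexed by the monotone maps `θ : [p] → [1]`.  The two end maps `h (const 1)` and `h (const 0)`
are chain homotopic, hence agree on cohomology.
-/

namespace Vale.Agent.P263.S

variable {R : Type} [CommRing R]

/-- A cosimplicial homotopy from `A` to `B`. -/
structure Prism (A B : CosMod R) where
  /-- the family of maps -/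
  h : ∀ p, Op p 1 → A.obj p →ₗ[R] B.obj p
  nat : ∀ {p q : ℕ} (α : Op p q) (θ : Op q 1) (x : A.obj p),
    h q θ (A.map α x) = B.map α (h p (θ.comp α) x)

/-- the constant map `[p] → [1]` with value `0` -/
abbrev c0 (p : ℕ) : Op p 1 := th p (p + 1)

/-- the constant map `[p] → [1]` with value `1` -/
abbrev c1 (p : ℕ) : Op p 1 := th p 0

theorem c0_val (p : ℕ) (x : Fin (p + 1)) : c0 p x = 0 := by
  rw [c0, th_val, if_pos x.2]

theorem c1_val (p : ℕ) (x : Fin (p + 1)) : c1 p x = 1 := by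
  rw [c1, th_val, if_neg (Nat.not_lt_zero _)]

theorem c0_comp {p q : ℕ} (α : Op p q) : (c0 q).comp α = c0 p := by
  apply OrderHom.ext
  funext x
  show c0 q (α x) = c0 p x
  rw [c0_val, c0_val]

theorem c1_comp {p q : ℕ} (α : Op p q) : (c1 q).comp α = c1 p := by
  apply OrderHom.ext
  funext x
  show c1 q (α x) = c1 p x
  rw [c1_val, c1_val]

theorem eq_c0 {p : ℕ} {θ : Op p 1} (h : ∀ x, θ x = 0) : θ = c0 p := by
  apply OrderHom.ext
  funext x
  rw [h, c0_val]

theorem eq_c1 {p : ℕ} {θ : Op p 1} (h : ∀ x, θ x = 1) : θ = c1 p := by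
  apply OrderHom.ext
  funext x
  rw [h, c1_val]

namespace Prism

variable {A B : CosMod R} (P : Prism A B)

/-- the chain homotopy of a prism -/
def k (p : ℕ) : A.obj (p + 1) →ₗ[R] B.obj p :=
  ∑ i ∈ Finset.range (p + 1),
    ((-1 : ℤ) ^ i) • (B.map (sg p i)).comp (P.h (p + 1) (th (p + 1) (i + 1)))

theorem k_apply (p : ℕ) (x : A.obj (p + 1)) :
    P.k p x = ∑ i ∈ Finset.range (p + 1),
      sn i (B.map (sg p i) (P.h (p + 1) (th (p + 1) (i + 1)) x)) := by
  simp [k, sn, LinearMap.sum_apply]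

theorem k_d (p : ℕ) (x : A.obj p) :
    P.k p (A.d p x) = ∑ i ∈ Finset.range (p + 1), ∑ j ∈ Finset.range (p + 2),
      sn (i + j) (B.map ((sg p i).comp (dl p j))
        (P.h p ((th (p + 1) (i + 1)).comp (dl p j)) x)) := by
  rw [k_apply]
  refine Finset.sum_congr rfl fun i _ => ?_
  rw [A.d_apply, map_sum, map_sum, sn_sum]
  refine Finset.sum_congr rfl fun j _ => ?_
  rw [CosMod.sn_lin, CosMod.sn_lin, sn_sn, P.nat, B.map_map]

/-- **The prism lemma** (positive degrees). -/
theorem k_d_add_d_k (p : ℕ) (x : A.obj (p + 1)) :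
    P.k (p + 1) (A.d (p + 1) x) + B.d p (P.k p x) =
      P.h (p + 1) (c1 (p + 1)) x - P.h (p + 1) (c0 (p + 1)) x := by
  have e2 : B.d p (P.k p x) = ∑ i ∈ Finset.range (p + 1), ∑ j ∈ Finset.range (p + 2),
      sn (i + j) (B.map ((dl p j).comp (sg p i)) (P.h (p + 1) (th (p + 1) (i + 1)) x)) := by
    rw [k_apply, map_sum]
    refine Finset.sum_congr rfl fun i _ => ?_
    rw [B.d_apply]
    refine Finset.sum_congr rfl fun j _ => ?_
    rw [CosMod.sn_lin, sn_sn, B.map_map, add_comm j i]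
  rw [k_d, prism_sum (p + 1)
    (fun i j => B.map ((sg (p + 1) i).comp (dl (p + 1) j))
      (P.h (p + 1) ((th (p + 1 + 1) (i + 1)).comp (dl (p + 1) j)) x))
    (fun i j => B.map ((dl p j).comp (sg p i)) (P.h (p + 1) (th (p + 1) (i + 1)) x))
    (fun i => P.h (p + 1) (th (p + 1) i) x), e2]
  · show _ - _ - _ + _ = _
    rw [sub_add_cancel]
  · intro i j hi hj
    rw [sg_dl_lt (by omega) (by omega), th_dl_le (by omega), Nat.add_sub_cancel]
  · intro i hi
    rw [sg_dl_self hi, th_dl_le le_rfl, B.map_id_apply]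
  · intro i hi
    rw [sg_dl_succ hi, th_dl_gt le_rfl, B.map_id_apply]
  · intro i j hi hij hj
    rw [sg_dl_gt (by omega) (by omega), th_dl_gt (by omega), Nat.add_sub_cancel]

/-- **The prism lemma** in degree `0`. -/
theorem k_d_zero (x : A.obj 0) :
    P.k 0 (A.d 0 x) = P.h 0 (c1 0) x - P.h 0 (c0 0) x := by
  have e : ∀ j, (sg 0 0).comp (dl 0 j) = OrderHom.id := by
    intro j
    apply OrderHom.ext
    funext y
    exact Subsingleton.elim (α := Fin 1) _ _
  have e1 : (th 1 1).comp (dl 0 0) = c1 0 := eq_c1 fun y => by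
    show th 1 1 (dl 0 0 y) = 1
    rw [th_val, dl_val]
    simp
  have e2 : (th 1 1).comp (dl 0 1) = c0 0 := eq_c0 fun y => by
    show th 1 1 (dl 0 1 y) = 0
    rw [th_val, dl_val]
    have := y.2
    simp
  rw [k_d]
  simp only [zero_add, Finset.sum_range_succ, Finset.sum_range_zero, e, e1, e2, B.map_id_apply]
  rw [show sn 0 (P.h 0 (c1 0) x) = P.h 0 (c1 0) x by simp [sn],
    show sn 1 (P.h 0 (c0 0) x) = - P.h 0 (c0 0) x by simp [sn], sub_eq_add_neg]

/-- The two ends of a prism agree on cocycles up to coboundaries. -/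
theorem sub_mem {p : ℕ} {x : A.obj p} (hx : x ∈ A.Z p) :
    P.h p (c1 p) x - P.h p (c0 p) x ∈ B.Bd p := by
  rw [CosMod.mem_Z] at hx
  cases p with
  | zero =>
    rw [← P.k_d_zero, hx, map_zero]
    exact zero_mem _
  | succ p =>
    rw [← P.k_d_add_d_k, hx, map_zero, zero_add]
    exact B.d_mem_Bd _

/-- An end of a prism is a map. -/
def end0 : Hom A B := ⟨fun p => P.h p (c0 p), fun α x => by rw [P.nat, c0_comp]⟩

/-- An end of a prism is a map. -/
def end1 : Hom A B := ⟨fun p => P.h p (c1 p), fun α x => by rw [P.nat, c1_comp]⟩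

theorem mapH_end (p : ℕ) (x : A.H p) : P.end1.mapH p x = P.end0.mapH p x := by
  obtain ⟨x, rfl⟩ := A.cls_surjective p x
  rw [Hom.mapH_cls, Hom.mapH_cls, CosMod.cls_eq_iff]
  exact P.sub_mem x.2

end Prism

/-- Maps which are the two ends of a prism agree on cohomology. -/
theorem Hom.mapH_eq_of_prism {A B : CosMod R} {f g : Hom A B} (P : Prism A B)
    (hf : ∀ p x, P.h p (c1 p) x = f.app p x) (hg : ∀ p x, P.h p (c0 p) x = g.app p x) (p : ℕ)
    (x : A.H p) : f.mapH p x = g.mapH p x := by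
  have e1 : P.end1 = f := Hom.ext hf
  have e2 : P.end0 = g := Hom.ext hg
  rw [← e1, ← e2, P.mapH_end]

/-- A cosimplicial module which is contractible has no cohomology. -/
theorem CosMod.Z_le_Bd_of_prism {A : CosMod R} (P : Prism A A)
    (h1 : ∀ p x, P.h p (c1 p) x = x) (h0 : ∀ p x, P.h p (c0 p) x = 0) (p : ℕ) :
    A.Z p ≤ A.Bd p := by
  intro x hx
  have := P.sub_mem hx
  rwa [h1, h0, sub_zero] at this

/-- Same with the two ends exchanged. -/
theorem CosMod.Z_le_Bd_of_prism' {A : CosMod R} (P : Prism A A)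
    (h1 : ∀ p x, P.h p (c1 p) x = 0) (h0 : ∀ p x, P.h p (c0 p) x = x) (p : ℕ) :
    A.Z p ≤ A.Bd p := by
  intro x hx
  have := P.sub_mem hx
  rw [h1, h0, zero_sub] at this
  simpa using this

end Vale.Agent.P263.S
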