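import Mathlib.LinearAlgebra.TensorProduct.Basic
import Mathlib.LinearAlgebra.TensorProduct.RightExactness
import Vale.Agent.P263.S.Htpy

/-!
# P263, block S: the levelwise tensor product of cosimplicial modules
-/

open scoped TensorProduct

namespace Vale.Agent.P263.S

variable {R : Type} [CommRing R]

/-- The levelwise tensor product. -/
def tensor (A B : CosMod R) : CosMod R where
  obj p := A.obj p ⊗[R] B.obj p
  map f := TensorProduct.map (A.map f) (B.map f)
  map_id := by
    intro p
    rw [A.map_id, B.map_id, TensorProduct.map_id]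
  map_comp f g := by
    rw [A.map_comp, B.map_comp, TensorProduct.map_comp]

theorem tensor_map_tmul (A B : CosMod R) {p q : ℕ} (f : Op p q) (a : A.obj p) (b : B.obj p) :
    (tensor A B).map f (a ⊗ₜ b) = A.map f a ⊗ₜ[R] B.map f b := rfl

/-- Tensor product of maps. -/
def Hom.tens {A A' B B' : CosMod R} (f : Hom A A') (g : Hom B B') :
    Hom (tensor A B) (tensor A' B') where
  app p := TensorProduct.map (f.app p) (g.app p)
  nat {p q} α x := by
    have h : (TensorProduct.map (f.app q) (g.app q)).comp (TensorProduct.map (A.map α) (B.map α))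
        = (TensorProduct.map (A'.map α) (B'.map α)).comp
          (TensorProduct.map (f.app p) (g.app p)) := by
      rw [← TensorProduct.map_comp, ← TensorProduct.map_comp]
      congr 1
      · exact LinearMap.ext (f.nat α)
      · exact LinearMap.ext (g.nat α)
    exact LinearMap.congr_fun h x

theorem Hom.tens_app_tmul {A A' B B' : CosMod R} (f : Hom A A') (g : Hom B B') (p : ℕ)
    (a : A.obj p) (b : B.obj p) : (f.tens g).app p (a ⊗ₜ b) = f.app p a ⊗ₜ[R] g.app p b := rfl

/-- A prism on the first factor gives a prism on the tensor product. -/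
def Prism.tens {A A' : CosMod R} (P : Prism A A') (B : CosMod R) :
    Prism (tensor A B) (tensor A' B) where
  h p θ := TensorProduct.map (P.h p θ) LinearMap.id
  nat {p q} α θ x := by
    have h : (TensorProduct.map (P.h q θ) LinearMap.id).comp
          (TensorProduct.map (A.map α) (B.map α))
        = (TensorProduct.map (A'.map α) (B.map α)).comp
          (TensorProduct.map (P.h p (θ.comp α)) LinearMap.id) := by
      rw [← TensorProduct.map_comp, ← TensorProduct.map_comp]
      congr 1
      exact LinearMap.ext (P.nat α θ)
    exact LinearMap.congr_fun h x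

/-- If `A` is contracted by the prism `P` then `A ⊗ B` has no cohomology. -/
theorem tensor_Z_le_Bd {A : CosMod R} (P : Prism A A)
    (h1 : ∀ p x, P.h p (c1 p) x = x) (h0 : ∀ p x, P.h p (c0 p) x = 0) (B : CosMod R) (p : ℕ) :
    (tensor A B).Z p ≤ (tensor A B).Bd p := by
  refine CosMod.Z_le_Bd_of_prism (P.tens B) ?_ ?_ p
  · intro p x
    have : P.h p (c1 p) = LinearMap.id := LinearMap.ext (h1 p)
    show TensorProduct.map (P.h p (c1 p)) LinearMap.id x = x
    rw [this, TensorProduct.map_id]
    rfl
  · intro p x
    have : P.h p (c0 p) = 0 := LinearMap.ext (h0 p)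
    show TensorProduct.map (P.h p (c0 p)) LinearMap.id x = 0
    rw [this, TensorProduct.map_zero_left]
    rfl

end Vale.Agent.P263.S
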