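import Mathlib
import Vale.Agent.P263.S.Core
import Vale.Agent.P263.S.LES
import Vale.Agent.P263.S.Tens

/-!
# P263, block S: definitions on top of `Core`, `LES`, `Tens`

Sub- and quotient objects, the universal objects `L n`, `M n`,
bilinear pairings, group actions and homotopy fixed points `hG`.
-/

noncomputable section

namespace Vale.Agent.P263.S

open TensorProduct

variable {R : Type} [CommRing R]

/-- The constant cosimplicial module. -/
def const (V : Type) [AddCommGroup V] [Module R V] : CosMod R where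
  obj _ := V
  map _ := LinearMap.id
  map_id := rfl
  map_comp _ _ := rfl

/-- Sub-cosimplicial module. -/
def sub (B : CosMod R) (S : ∀ p, Submodule R (B.obj p))
    (hS : ∀ {p q : ℕ} (φ : Op p q) (x : B.obj p), x ∈ S p → B.map φ x ∈ S q) : CosMod R where
  obj p := S p
  map {p q} φ := (B.map φ).restrict (fun x hx => hS φ x hx)
  map_id {p} := by
    ext x
    exact B.map_id_apply x.1
  map_comp g f := by
    ext x
    exact (B.map_map g f x.1).symm

@[simp] theorem sub_map_coe (B : CosMod R) (S : ∀ p, Submodule R (B.obj p))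
    (hS : ∀ {p q : ℕ} (φ : Op p q) (x : B.obj p), x ∈ S p → B.map φ x ∈ S q) {p q : ℕ}
    (φ : Op p q) (x : (sub B S hS).obj p) : ((sub B S hS).map φ x).1 = B.map φ x.1 := rfl

/-- The inclusion of a sub-cosimplicial module. -/
def subHom (B : CosMod R) (S : ∀ p, Submodule R (B.obj p))
    (hS : ∀ {p q : ℕ} (φ : Op p q) (x : B.obj p), x ∈ S p → B.map φ x ∈ S q) :
    Hom (sub B S hS) B where
  app p := (S p).subtype
  nat _ _ := rfl

/-- Quotient of a cosimplicial module by a sub-cosimplicial module. -/
def quot (B : CosMod R) (S : ∀ p, Submodule R (B.obj p))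
    (hS : ∀ {p q : ℕ} (φ : Op p q) (x : B.obj p), x ∈ S p → B.map φ x ∈ S q) : CosMod R where
  obj p := B.obj p ⧸ S p
  map {p q} φ := (S p).mapQ (S q) (B.map φ) (fun x hx => hS φ x hx)
  map_id {p} := by
    refine LinearMap.ext fun x => ?_
    obtain ⟨x, rfl⟩ := Submodule.Quotient.mk_surjective _ x
    simp [B.map_id]
  map_comp g f := by
    refine LinearMap.ext fun x => ?_
    obtain ⟨x, rfl⟩ := Submodule.Quotient.mk_surjective _ x
    simp [B.map_comp]

/-- The projection to a quotient. -/
def quotHom (B : CosMod R) (S : ∀ p, Submodule R (B.obj p))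
    (hS : ∀ {p q : ℕ} (φ : Op p q) (x : B.obj p), x ∈ S p → B.map φ x ∈ S q) :
    Hom B (quot B S hS) where
  app p := (S p).mkQ
  nat _ _ := rfl

/-- Maps out of a quotient. -/
def quotLift {B C : CosMod R} {S : ∀ p, Submodule R (B.obj p)}
    (hS : ∀ {p q : ℕ} (φ : Op p q) (x : B.obj p), x ∈ S p → B.map φ x ∈ S q) (f : Hom B C)
    (hf : ∀ p, ∀ x ∈ S p, f.app p x = 0) : Hom (quot B S hS) C where
  app p := (S p).liftQ (f.app p) (fun x hx => hf p x hx)
  nat φ x := by
    obtain ⟨x, rfl⟩ := Submodule.Quotient.mk_surjective _ x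
    exact f.nat φ x

/-! ### The universal objects -/

/-- `L n p = R[Hom([n],[p])]`: the free cosimplicial module on one generator in degree `n`
(the `n`-chains of the simplex `Δ^p`). -/
def L (R : Type) [CommRing R] (n : ℕ) : CosMod R where
  obj p := Op n p →₀ R
  map φ := Finsupp.lmapDomain R R (fun τ => φ.comp τ)
  map_id {p} := by
    have : (fun τ : Op n p => (OrderHom.id : Op p p).comp τ) = _root_.id := by
      funext τ; rfl
    rw [this, Finsupp.lmapDomain_id]
  map_comp g f := by
    rw [← Finsupp.lmapDomain_comp]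
    rfl

@[simp] theorem L_map_single (n : ℕ) {p q : ℕ} (φ : Op p q) (τ : Op n p) (r : R) :
    (L R n).map φ (Finsupp.single τ r : Op n p →₀ R) = Finsupp.single (φ.comp τ) r :=
  Finsupp.mapDomain_single

/-- The fundamental element `id : [n] → [n]` of `L n`. -/
def iotaL (R : Type) [CommRing R] (n : ℕ) : (L R n).obj n :=
  (Finsupp.single OrderHom.id 1 : Op n n →₀ R)

/-- Yoneda: a map `L n → B` is an element of `B^n`. -/
def ofL {B : CosMod R} {n : ℕ} (x : B.obj n) : Hom (L R n) B where
  app p := Finsupp.lift (B.obj p) R (Op n p) (fun τ => B.map τ x)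
  nat {p q} φ y := by
    have h : ((Finsupp.lift (B.obj q) R (Op n q) (fun τ => B.map τ x)).comp
        (Finsupp.lmapDomain R R (fun τ => φ.comp τ)) : (Op n p →₀ R) →ₗ[R] B.obj q) =
        (B.map φ).comp (Finsupp.lift (B.obj p) R (Op n p) (fun τ => B.map τ x)) := by
      apply Finsupp.lhom_ext
      intro τ r
      simp [B.map_comp]
    exact LinearMap.congr_fun h y

@[simp] theorem ofL_single {B : CosMod R} {n : ℕ} (x : B.obj n) {p : ℕ} (τ : Op n p) (r : R) :
    (ofL x).app p (Finsupp.single τ r : Op n p →₀ R) = r • B.map τ x := by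
  change (Finsupp.lift (B.obj p) R (Op n p) (fun τ => B.map τ x)) (Finsupp.single τ r) = _
  simp

@[simp] theorem ofL_iota {B : CosMod R} {n : ℕ} (x : B.obj n) : (ofL x).app n (iotaL R n) = x := by
  rw [iotaL, ofL_single, one_smul, B.map_id_apply]

/-- Two maps out of `L n` agree if they agree on `iotaL`. -/
theorem hom_L_ext {B : CosMod R} {n : ℕ} {f g : Hom (L R n) B}
    (h : f.app n (iotaL R n) = g.app n (iotaL R n)) : f = g := by
  apply Hom.ext
  intro p x
  have key : f.app p = g.app p := by
    apply Finsupp.lhom_ext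
    intro τ r
    have e : (Finsupp.single τ r : Op n p →₀ R) = r • (L R n).map τ (iotaL R n) := by
      rw [iotaL, L_map_single]
      change _ = r • (Finsupp.single (τ.comp OrderHom.id) 1 : Op n p →₀ R)
      rw [Finsupp.smul_single, smul_eq_mul, mul_one]
      rfl
    rw [e]
    erw [map_smul, map_smul, f.nat, g.nat, h]
  rw [key]

/-- The boundary map `L (n+1) → L n`, `id ↦ d id`. -/
def bdL (R : Type) [CommRing R] (n : ℕ) : Hom (L R (n + 1)) (L R n) :=
  ofL ((L R n).d n (iotaL R n))

theorem bdL_range_map (R : Type) [CommRing R] (n : ℕ) {p q : ℕ} (φ : Op p q)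
    (x : (L R n).obj p) (hx : x ∈ LinearMap.range ((bdL R n).app p)) :
    (L R n).map φ x ∈ LinearMap.range ((bdL R n).app q) := by
  obtain ⟨y, rfl⟩ := hx
  exact ⟨(L R (n + 1)).map φ y, (bdL R n).nat φ y⟩

/-- `M n p = C_n(Δ^p) / B_n(Δ^p)`: corepresents the (unnormalised) cocycles of degree `n`. -/
def M (R : Type) [CommRing R] (n : ℕ) : CosMod R :=
  quot (L R n) (fun p => LinearMap.range ((bdL R n).app p)) (bdL_range_map R n)

/-- The projection `L n → M n`. -/
def prM (R : Type) [CommRing R] (n : ℕ) : Hom (L R n) (M R n) :=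
  quotHom (L R n) (fun p => LinearMap.range ((bdL R n).app p)) (bdL_range_map R n)

theorem prM_surjective (n : ℕ) (p : ℕ) : Function.Surjective ((prM R n).app p) :=
  Submodule.Quotient.mk_surjective _

theorem prM_eq_zero {n p : ℕ} {x : (L R n).obj p} :
    (prM R n).app p x = 0 ↔ ∃ y, (bdL R n).app p y = x :=
  (Submodule.Quotient.mk_eq_zero (LinearMap.range ((bdL R n).app p))).trans
    LinearMap.mem_range

/-- The universal cocycle. -/
def iotaM (R : Type) [CommRing R] (n : ℕ) : (M R n).obj n := (prM R n).app n (iotaL R n)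

theorem iotaM_mem_Z (R : Type) [CommRing R] (n : ℕ) : iotaM R n ∈ (M R n).Z n := by
  rw [CosMod.mem_Z, iotaM, ← (prM R n).app_d, prM_eq_zero]
  exact ⟨iotaL R (n + 1), by rw [bdL, ofL_iota]⟩

/-- `M n` corepresents cocycles. -/
def ofM {B : CosMod R} {n : ℕ} (x : B.obj n) (hx : x ∈ B.Z n) : Hom (M R n) B :=
  quotLift (S := fun p => LinearMap.range ((bdL R n).app p)) (bdL_range_map R n) (ofL x) (by
    rintro p _ ⟨y, rfl⟩
    have h : (ofL x).comp (bdL R n) = (0 : Hom (L R (n + 1)) B) := by
      apply hom_L_ext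
      rw [Hom.comp_app, bdL, ofL_iota, (ofL x).app_d, ofL_iota, CosMod.mem_Z.mp hx, Hom.zero_app]
    exact congrArg (fun k : Hom (L R (n + 1)) B => k.app p y) h)

@[simp] theorem ofM_iota {B : CosMod R} {n : ℕ} (x : B.obj n) (hx : x ∈ B.Z n) :
    (ofM x hx).app n (iotaM R n) = x := ofL_iota x

/-! ### Pairings -/

/-- Levelwise bilinear natural pairings `A × B → C`. -/
structure Bil (A B C : CosMod R) where
  app : ∀ p, A.obj p →ₗ[R] B.obj p →ₗ[R] C.obj p
  nat : ∀ {p q : ℕ} (φ : Op p q) (x : A.obj p) (y : B.obj p),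
    app q (A.map φ x) (B.map φ y) = C.map φ (app p x y)

/-- The map `A ⊗ B → C` of a pairing. -/
def Bil.lift {A B C : CosMod R} (μ : Bil A B C) : Hom (tensor A B) C where
  app p := TensorProduct.lift (μ.app p)
  nat {p q} φ x := by
    have h : (TensorProduct.lift (μ.app q)).comp (TensorProduct.map (A.map φ) (B.map φ)) =
        (C.map φ).comp (TensorProduct.lift (μ.app p)) := by
      apply TensorProduct.ext'
      intro a b
      simp [μ.nat]
    exact LinearMap.congr_fun h x

@[simp] theorem Bil.lift_tmul {A B C : CosMod R} (μ : Bil A B C) (p : ℕ) (a : A.obj p)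
    (b : B.obj p) : μ.lift.app p (a ⊗ₜ[R] b : A.obj p ⊗[R] B.obj p) = μ.app p a b :=
  TensorProduct.lift.tmul _ _

/-- The universal pairing `A × B → A ⊗ B`. -/
def Bil.univ (A B : CosMod R) : Bil A B (tensor A B) where
  app p := TensorProduct.mk R (A.obj p) (B.obj p)
  nat _ _ _ := rfl

/-! ### Group actions and homotopy fixed points -/

/-- An action of a group `G` on a cosimplicial module. -/
structure Act (G : Type) [Group G] (B : CosMod R) where
  act : ∀ p, G →* (B.obj p →ₗ[R] B.obj p)
  nat : ∀ {p q : ℕ} (φ : Op p q) (g : G) (x : B.obj p),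
    act q g (B.map φ x) = B.map φ (act p g x)

/-- The trivial action. -/
def Act.triv (G : Type) [Group G] (B : CosMod R) : Act G B where
  act _ := 1
  nat _ _ _ := rfl

/-- Each group element acts by a map of cosimplicial modules. -/
def Act.hom {G : Type} [Group G] {B : CosMod R} (a : Act G B) (g : G) : Hom B B where
  app p := a.act p g
  nat φ x := a.nat φ g x

/-- Functions `EG_p → B^p` where `EG_p = G^(p+1)` (no equivariance). -/
def fnE (G : Type) (B : CosMod R) : CosMod R where
  obj p := (Fin (p + 1) → G) → B.obj p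
  map φ :=
    { toFun := fun f s => B.map φ (f (s ∘ φ))
      map_add' := fun f g => by funext s; simp
      map_smul' := fun r f => by funext s; simp }
  map_id {p} := by
    refine LinearMap.ext fun f => ?_
    funext s
    exact B.map_id_apply _
  map_comp g f := by
    refine LinearMap.ext fun x => ?_
    funext s
    exact (B.map_map g f _).symm

@[simp] theorem fnE_map {G : Type} (B : CosMod R) {p q : ℕ} (φ : Op p q)
    (f : (Fin (p + 1) → G) → B.obj p) (s : Fin (q + 1) → G) :
    ((fnE G B).map φ f : (Fin (q + 1) → G) → B.obj q) s = B.map φ (f (s ∘ φ)) := rfl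

/-- The equivariant functions on `EG_p`. -/
def eqv {G : Type} [Group G] {B : CosMod R} (a : Act G B) (p : ℕ) :
    Submodule R ((fnE G B).obj p) where
  carrier := {f | ∀ (g : G) (s : Fin (p + 1) → G), f (fun i => g * s i) = a.act p g (f s)}
  add_mem' := by
    intro f f' hf hf' g s
    show f _ + f' _ = a.act p g (f s + f' s)
    rw [hf g s, hf' g s, map_add]
  zero_mem' := by
    intro g s
    show (0 : B.obj p) = a.act p g 0
    rw [map_zero]
  smul_mem' := by
    intro r f hf g s
    show r • f _ = a.act p g (r • f s)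
    rw [hf g s, map_smul]

theorem mem_eqv {G : Type} [Group G] {B : CosMod R} {a : Act G B} {p : ℕ}
    {f : (fnE G B).obj p} :
    f ∈ eqv a p ↔ ∀ (g : G) (s : Fin (p + 1) → G), f (fun i => g * s i) = a.act p g (f s) :=
  Iff.rfl

/-- Homotopy fixed points: equivariant functions on `EG`. -/
def hG {G : Type} [Group G] {B : CosMod R} (a : Act G B) : CosMod R :=
  sub (fnE G B) (eqv a) (by
      intro p q φ f hf g s
      show B.map φ (f ((fun i => g * s i) ∘ φ)) = a.act q g (B.map φ (f (s ∘ φ)))
      rw [a.nat]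
      exact congrArg (B.map φ) (hf g (s ∘ φ)))

/-- Elements of `hG` as functions. -/
def hG.fn {G : Type} [Group G] {B : CosMod R} {a : Act G B} {p : ℕ} (f : (hG a).obj p) :
    (Fin (p + 1) → G) → B.obj p := f.1

/-- Make an element of `hG`. -/
def hG.mk {G : Type} [Group G] {B : CosMod R} (a : Act G B) {p : ℕ}
    (f : (Fin (p + 1) → G) → B.obj p)
    (hf : ∀ (g : G) (s : Fin (p + 1) → G), f (fun i => g * s i) = a.act p g (f s)) :
    (hG a).obj p := ⟨f, hf⟩

@[simp] theorem hG.fn_mk {G : Type} [Group G] {B : CosMod R} (a : Act G B) {p : ℕ}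
    (f : (Fin (p + 1) → G) → B.obj p)
    (hf : ∀ (g : G) (s : Fin (p + 1) → G), f (fun i => g * s i) = a.act p g (f s)) :
    hG.fn (hG.mk a f hf) = f := rfl

theorem hG.ext {G : Type} [Group G] {B : CosMod R} {a : Act G B} {p : ℕ}
    {f g : (hG a).obj p} (h : ∀ s, hG.fn f s = hG.fn g s) : f = g :=
  Subtype.ext (funext h)

theorem hG.fn_mul {G : Type} [Group G] {B : CosMod R} {a : Act G B} {p : ℕ} (f : (hG a).obj p)
    (g : G) (s : Fin (p + 1) → G) : hG.fn f (fun i => g * s i) = a.act p g (hG.fn f s) := f.2 g s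

@[simp] theorem hG.fn_map {G : Type} [Group G] {B : CosMod R} {a : Act G B} {p q : ℕ}
    (φ : Op p q) (f : (hG a).obj p) (s : Fin (q + 1) → G) :
    hG.fn ((hG a).map φ f) s = B.map φ (hG.fn f (s ∘ φ)) := rfl

@[simp] theorem hG.fn_add {G : Type} [Group G] {B : CosMod R} {a : Act G B} {p : ℕ}
    (f g : (hG a).obj p) (s : Fin (p + 1) → G) :
    hG.fn (f + g) s = hG.fn f s + hG.fn g s := rfl

@[simp] theorem hG.fn_zero {G : Type} [Group G] {B : CosMod R} {a : Act G B} {p : ℕ}
    (s : Fin (p + 1) → G) : hG.fn (0 : (hG a).obj p) s = 0 := rfl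

@[simp] theorem hG.fn_smul {G : Type} [Group G] {B : CosMod R} {a : Act G B} {p : ℕ} (r : R)
    (f : (hG a).obj p) (s : Fin (p + 1) → G) : hG.fn (r • f) s = r • hG.fn f s := rfl

/-- Equivariant maps induce maps of homotopy fixed points. -/
def hG.mapHom {G : Type} [Group G] {B C : CosMod R} (a : Act G B) (b : Act G C) (f : Hom B C)
    (hf : ∀ p (g : G) (x : B.obj p), f.app p (a.act p g x) = b.act p g (f.app p x)) :
    Hom (hG a) (hG b) where
  app p :=
    { toFun := fun x => hG.mk b (fun s => f.app p (hG.fn x s)) (fun g s => by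
        rw [hG.fn_mul, hf])
      map_add' := fun x y => hG.ext fun s => by simp
      map_smul' := fun r x => hG.ext fun s => by simp }
  nat φ x := hG.ext fun s => f.nat φ _

@[simp] theorem hG.mapHom_fn {G : Type} [Group G] {B C : CosMod R} (a : Act G B) (b : Act G C)
    (f : Hom B C) (hf : ∀ p (g : G) (x : B.obj p), f.app p (a.act p g x) = b.act p g (f.app p x))
    {p : ℕ} (x : (hG a).obj p) (s : Fin (p + 1) → G) :
    hG.fn ((hG.mapHom a b f hf).app p x) s = f.app p (hG.fn x s) := rfl

/-- Restriction to the trivial group: evaluation at the constant simplex `1`. -/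
def hG.res {G : Type} [Group G] {B : CosMod R} (a : Act G B) : Hom (hG a) B where
  app p :=
    { toFun := fun x => hG.fn x (fun _ => 1)
      map_add' := fun x y => rfl
      map_smul' := fun r x => rfl }
  nat φ x := rfl

@[simp] theorem hG.res_app {G : Type} [Group G] {B : CosMod R} (a : Act G B) {p : ℕ}
    (x : (hG a).obj p) : (hG.res a).app p x = hG.fn x (fun _ => 1) := rfl

/-- The cyclic group of order two. -/
abbrev C2 := Multiplicative (ZMod 2)

/-- The swap action of `C2` from an involution. -/
def Act.ofInvol {B : CosMod R} (T : Hom B B) (hT : ∀ p (x : B.obj p), T.app p (T.app p x) = x) :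
    Act C2 B where
  act p :=
    { toFun := fun g => if Multiplicative.toAdd g = 0 then LinearMap.id else T.app p
      map_one' := by simp; rfl
      map_mul' := by
        have h : (T.app p).comp (T.app p) = LinearMap.id := LinearMap.ext fun x => hT p x
        intro g g'
        have key : ∀ a b : ZMod 2,
            (if a + b = 0 then LinearMap.id else T.app p : B.obj p →ₗ[R] B.obj p) =
            (if a = 0 then LinearMap.id else T.app p) * (if b = 0 then LinearMap.id else T.app p) := by
          intro a b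
          fin_cases a <;> fin_cases b <;> simp [Module.End.mul_eq_comp, h] <;> rfl
        exact key _ _ }
  nat φ g x := by
    change (if Multiplicative.toAdd g = 0 then LinearMap.id else T.app _ :
        B.obj _ →ₗ[R] B.obj _) (B.map φ x) =
      B.map φ ((if Multiplicative.toAdd g = 0 then LinearMap.id else T.app _ :
        B.obj _ →ₗ[R] B.obj _) x)
    split_ifs
    · rfl
    · exact T.nat φ x

end Vale.Agent.P263.S
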