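import Vale.Agent.P263.S.LES
import Mathlib.LinearAlgebra.Prod

/-!
# P263: products and kernels of cosimplicial modules (helper727)

`A.prod B`, `Hom.fst`, `Hom.snd`, `Hom.pair`, `f.ker`, `f.kerI : Hom f.ker A`, `f.toKer`,
`f.kerSES : SES f.ker A B` for a levelwise surjection `f`.
-/

namespace Vale.Agent.P263.S

variable {R : Type} [CommRing R]

namespace CosMod

/-- the product of two cosimplicial modules -/
def prod (A B : CosMod R) : CosMod R where
  obj p := A.obj p × B.obj p
  map f := (A.map f).prodMap (B.map f)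
  map_id := by
    intro p
    rw [A.map_id, B.map_id]; rfl
  map_comp f g := by
    rw [A.map_comp, B.map_comp]; rfl

@[simp] theorem prod_map {A B : CosMod R} {p q : ℕ} (f : Op p q) (x : (A.prod B).obj p) :
    (A.prod B).map f x = (A.map f x.1, B.map f x.2) := rfl

end CosMod

namespace Hom

variable {A B C : CosMod R}

/-- the kernel of a map -/
def ker (f : Hom A B) : CosMod R where
  obj p := LinearMap.ker (f.app p)
  map θ := (A.map θ).restrict fun x hx => by
    rw [LinearMap.mem_ker] at hx ⊢
    rw [f.nat, hx, map_zero]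
  map_id := by
    intro p
    ext x
    exact A.map_id_apply x.1
  map_comp θ η := by
    ext x
    exact (A.map_map θ η x.1).symm

/-- the inclusion of the kernel -/
def kerI (f : Hom A B) : Hom f.ker A := ⟨fun p => (LinearMap.ker (f.app p)).subtype, fun _ _ => rfl⟩

@[simp] theorem kerI_app (f : Hom A B) (p : ℕ) (x : f.ker.obj p) : f.kerI.app p x = x.1 := rfl

theorem kerI_inj (f : Hom A B) (p : ℕ) : Function.Injective (f.kerI.app p) :=
  Subtype.val_injective

@[simp] theorem ker_map {f : Hom A B} {p q : ℕ} (θ : Op p q) (x : f.ker.obj p) :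
    (f.ker.map θ x).1 = A.map θ x.1 := rfl

/-- maps into the kernel -/
def toKer (f : Hom A B) (g : Hom C A) (h : ∀ p x, f.app p (g.app p x) = 0) : Hom C f.ker :=
  ⟨fun p => (g.app p).codRestrict _ fun x => h p x, fun θ x => Subtype.ext (g.nat θ x)⟩

@[simp] theorem toKer_coe (f : Hom A B) (g : Hom C A) (h) (p : ℕ) (x : C.obj p) :
    ((f.toKer g h).app p x).1 = g.app p x := rfl

/-- first projection -/
def fst (A B : CosMod R) : Hom (A.prod B) A := ⟨fun _ => LinearMap.fst _ _ _, fun _ _ => rfl⟩

/-- second projection -/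
def snd (A B : CosMod R) : Hom (A.prod B) B := ⟨fun _ => LinearMap.snd _ _ _, fun _ _ => rfl⟩

@[simp] theorem fst_app (A B : CosMod R) (p : ℕ) (x : (A.prod B).obj p) :
    (fst A B).app p x = x.1 := rfl

@[simp] theorem snd_app (A B : CosMod R) (p : ℕ) (x : (A.prod B).obj p) :
    (snd A B).app p x = x.2 := rfl

/-- the map into a product -/
def pair (f : Hom C A) (g : Hom C B) : Hom C (A.prod B) :=
  ⟨fun p => (f.app p).prod (g.app p), fun θ x => Prod.ext (f.nat θ x) (g.nat θ x)⟩

@[simp] theorem pair_app (f : Hom C A) (g : Hom C B) (p : ℕ) (x : C.obj p) :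
    (pair f g).app p x = (f.app p x, g.app p x) := rfl

/-- the short exact sequence of the kernel of a levelwise surjection -/
def kerSES (f : Hom A B) (hf : ∀ p, Function.Surjective (f.app p)) : SES f.ker A B where
  i := f.kerI
  p := f
  inj := f.kerI_inj
  surj := hf
  pi _ x := x.2
  ex _ x hx := ⟨⟨x, hx⟩, rfl⟩

end Hom

end Vale.Agent.P263.S
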