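import Vale.Agent.P263.S.Defs

/-!
# P263, block S: `hG` is exact (helper659)

`Act.Eqv a b f` : the map `f` is equivariant.  `hG.ses` : the short exact sequence of homotopy fixed
points of a short exact sequence of cosimplicial `G`-modules.
-/

namespace Vale.Agent.P263.S

variable {R : Type} [CommRing R] {G : Type} [Group G]

theorem Act.act_mul {A : CosMod R} (a : Act G A) (p : ℕ) (g h : G) (x : A.obj p) :
    a.act p (g * h) x = a.act p g (a.act p h x) := by
  rw [map_mul]; rfl

theorem Act.act_one {A : CosMod R} (a : Act G A) (p : ℕ) (x : A.obj p) :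
    a.act p 1 x = x := by
  rw [map_one]; rfl

theorem Act.act_inv_act {A : CosMod R} (a : Act G A) (p : ℕ) (g : G) (x : A.obj p) :
    a.act p g⁻¹ (a.act p g x) = x := by
  rw [← a.act_mul, inv_mul_cancel, a.act_one]

theorem Act.act_act_inv {A : CosMod R} (a : Act G A) (p : ℕ) (g : G) (x : A.obj p) :
    a.act p g (a.act p g⁻¹ x) = x := by
  rw [← a.act_mul, mul_inv_cancel, a.act_one]

/-- Short exact sequences of homotopy fixed points. -/
def hG.ses {A B C : CosMod R} (S : SES A B C) (a : Act G A) (b : Act G B) (c : Act G C)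
    (hi : ∀ p (g : G) (x : A.obj p), S.i.app p (a.act p g x) = b.act p g (S.i.app p x))
    (hp : ∀ p (g : G) (x : B.obj p), S.p.app p (b.act p g x) = c.act p g (S.p.app p x)) :
    SES (hG a) (hG b) (hG c) where
  i := hG.mapHom a b S.i hi
  p := hG.mapHom b c S.p hp
  inj n x y h := hG.ext fun s => S.inj n (congrArg (fun f => hG.fn f s) h)
  surj n w := by
    have h := fun s : Fin (n + 1) → G =>
      S.surj n (c.act n (s 0)⁻¹ (hG.fn w s))
    have key : ∀ s : Fin (n + 1) → G, c.act n (s 0)⁻¹ (hG.fn w s) =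
        hG.fn w (fun i => (s 0)⁻¹ * s i) := fun s => (hG.fn_mul w _ _).symm
    choose σ hσ using S.surj n
    refine ⟨hG.mk b (fun s => b.act n (s 0) (σ (hG.fn w (fun i => (s 0)⁻¹ * s i)))) ?_, ?_⟩
    · intro g s
      rw [← b.act_mul]
      congr 3
      funext i
      group
    · refine hG.ext fun s => ?_
      rw [hG.mapHom_fn, hG.fn_mk, hp, hσ, ← key, c.act_act_inv]
  pi n x := hG.ext fun s => S.pi n _
  ex n x h := by
    have h1 : ∀ s, ∃ y, S.i.app n y = hG.fn x s := fun s =>
      S.ex n _ (congrArg (fun f => hG.fn f s) h)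
    choose y hy using h1
    refine ⟨hG.mk a y ?_, ?_⟩
    · intro g s
      apply S.inj n
      rw [hy, hi, hy, hG.fn_mul]
    · exact hG.ext fun s => hy s

section
variable {A B C : CosMod R} (S : SES A B C) (a : Act G A) (b : Act G B) (c : Act G C)
  (hi : ∀ p (g : G) (x : A.obj p), S.i.app p (a.act p g x) = b.act p g (S.i.app p x))
  (hp : ∀ p (g : G) (x : B.obj p), S.p.app p (b.act p g x) = c.act p g (S.p.app p x))

@[simp] theorem hG.ses_i : (hG.ses S a b c hi hp).i = hG.mapHom a b S.i hi := rfl
@[simp] theorem hG.ses_p : (hG.ses S a b c hi hp).p = hG.mapHom b c S.p hp := rfl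
end

end Vale.Agent.P263.S
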