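import Vale.Agent.P263.S.Defs
import Vale.Agent.P263.S.Htpy

/-!
# P263, block S3a: homotopy fixed points `hG`, contraction of `EG`, the lowest class principle
(helper801)
-/

namespace Vale.Agent.P263.S

open CosMod

variable {R : Type} [CommRing R]

section

variable (B : CosMod R)

variable {G : Type}

/-- constant functions -/
def constE : Hom B (fnE G B) where
  app _ := { toFun := fun b _ => b, map_add' := fun _ _ => rfl, map_smul' := fun _ _ => rfl }
  nat := fun _ _ => rfl

@[simp] theorem constE_app (p : ℕ) (b : B.obj p) (s : Fin (p+1) → G) :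
    (constE B (G := G)).app p b s = b := rfl

end

section

variable {G : Type} [Group G] (B : CosMod R)

/-- restriction to the base point of `EG` -/
def resE : Hom (fnE G B) B where
  app _ := { toFun := fun f => f (fun _ => 1), map_add' := fun _ _ => rfl,
             map_smul' := fun _ _ => rfl }
  nat := fun _ _ => rfl

@[simp] theorem resE_app (p : ℕ) (f : (fnE G B).obj p) :
    (resE B (G := G)).app p f = f (fun _ => 1) := rfl

open Classical in
/-- the contraction of `EG` -/
noncomputable def prismE : Prism (fnE G B) (fnE G B) where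
  h p θ := { toFun := fun f s => f (fun i => if θ i = 1 then s i else 1)
             map_add' := fun _ _ => rfl
             map_smul' := fun _ _ => rfl }
  nat α θ x := by
    funext s
    rfl

theorem prismE_c1 (p : ℕ) (f : (fnE G B).obj p) : (prismE B (G := G)).h p (c1 p) f = f := by
  funext s
  change f (fun i => if c1 p i = 1 then s i else 1) = f s
  simp only [c1_val, if_true]

theorem prismE_c0 (p : ℕ) (f : (fnE G B).obj p) :
    (prismE B (G := G)).h p (c0 p) f = (constE B).app p ((resE B).app p f) := by
  funext s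
  change f (fun i => if c0 p i = 1 then s i else 1) = f (fun _ => 1)
  simp only [c0_val]
  rfl

/-- a cocycle on `EG` whose restriction to the base point is a coboundary is a coboundary -/
theorem fnE_mem_Bd {p : ℕ} {f : (fnE G B).obj p} (hf : f ∈ (fnE G B).Z p)
    (h : (resE B).app p f ∈ B.Bd p) : f ∈ (fnE G B).Bd p := by
  have h1 := (prismE B (G := G)).sub_mem hf
  rw [prismE_c1, prismE_c0] at h1
  have h2 := (constE B (G := G)).app_mem_Bd h
  have := Submodule.add_mem _ h1 h2
  rwa [sub_add_cancel] at this

variable {B}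

/-- forget equivariance -/
def hG.incl (a : Act G B) : Hom (hG a) (fnE G B) where
  app p := (eqv a p).subtype
  nat := fun _ _ => rfl

@[simp] theorem hG.incl_app (a : Act G B) (p : ℕ) (f : (hG a).obj p) :
    (hG.incl a).app p f = f.1 := rfl

theorem hG.eqv' (a : Act G B) {p : ℕ} (f : (hG a).obj p) (g : G) (s : Fin (p+1) → G) :
    f.1 (fun i => g * s i) = a.act p g (f.1 s) := f.2 g s

/-! ### the coefficient object for dimension shifting -/

/-- functions `G → B` vanishing at `1` -/
def kco (G : Type) [Group G] (B : CosMod R) : CosMod R where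
  obj p := (LinearMap.ker (LinearMap.proj (R := R) (φ := fun _ : G => B.obj p) 1) :
    Submodule R (G → B.obj p))
  map φ := (LinearMap.compLeft (B.map φ) G).restrict (fun f hf => by
    rw [LinearMap.mem_ker, LinearMap.proj_apply] at hf ⊢
    change B.map φ (f 1) = 0
    rw [hf, map_zero])
  map_id := by
    intro p; apply LinearMap.ext; intro f; apply Subtype.ext; funext x
    exact B.map_id_apply _
  map_comp := by
    intro p q r f g; apply LinearMap.ext; intro F; apply Subtype.ext; funext x
    exact (B.map_map f g _).symm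

theorem kco_one {p : ℕ} (f : (kco G B).obj p) : f.1 1 = 0 := f.2

theorem kco_map_apply {p q : ℕ} (φ : Op p q) (f : (kco G B).obj p) (x : G) :
    ((kco G B).map φ f).1 x = B.map φ (f.1 x) := rfl

theorem kco_d_apply {p : ℕ} (f : (kco G B).obj p) (x : G) :
    ((kco G B).d p f).1 x = B.d p (f.1 x) := by
  let ev : Hom (kco G B) B := ⟨fun p => (LinearMap.proj x).comp (Submodule.subtype _),
    fun _ _ => rfl⟩
  exact ev.app_d p f

/-- the action on `kco` -/
def kcoAct (a : Act G B) : Act G (kco G B) where
  act p :=
    { toFun := fun g =>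
        { toFun := fun f => ⟨fun x => f.1 (x * g) - a.act p x (f.1 g), by
            change f.1 (1 * g) - a.act p 1 (f.1 g) = 0
            rw [one_mul, map_one, Module.End.one_apply, sub_self]⟩
          map_add' := fun f f' => by
            apply Subtype.ext; funext x
            change (f.1 (x*g) + f'.1 (x*g)) - a.act p x (f.1 g + f'.1 g) =
              (f.1 (x*g) - a.act p x (f.1 g)) + (f'.1 (x*g) - a.act p x (f'.1 g))
            rw [map_add]; abel
          map_smul' := fun r f => by
            apply Subtype.ext; funext x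
            change (r • f.1 (x*g)) - a.act p x (r • f.1 g) =
              r • (f.1 (x*g) - a.act p x (f.1 g))
            rw [map_smul, smul_sub] }
      map_one' := by
        apply LinearMap.ext; intro f; apply Subtype.ext; funext x
        change f.1 (x * 1) - a.act p x (f.1 1) = f.1 x
        rw [mul_one, kco_one, map_zero, sub_zero]
      map_mul' := by
        intro g h
        apply LinearMap.ext; intro f; apply Subtype.ext; funext x
        change f.1 (x * (g * h)) - a.act p x (f.1 (g * h)) =
          (f.1 (x * g * h) - a.act p (x * g) (f.1 h)) -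
            a.act p x (f.1 (g * h) - a.act p g (f.1 h))
        rw [map_sub, ← mul_assoc, map_mul, Module.End.mul_apply]
        abel }
  nat {p q} f g x := by
    apply Subtype.ext; funext y
    change B.map f (x.1 (y * g)) - a.act q y (B.map f (x.1 g)) =
      B.map f (x.1 (y * g) - a.act p y (x.1 g))
    rw [a.nat, map_sub]

@[simp] theorem kcoAct_apply (a : Act G B) {p : ℕ} (g : G) (f : (kco G B).obj p) (x : G) :
    ((kcoAct a).act p g f).1 x = f.1 (x * g) - a.act p x (f.1 g) := rfl

/-- the vanishing range of `kco` -/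
theorem kco_mem_Bd {p : ℕ} {f : (kco G B).obj p} (h : ∀ x, f.1 x ∈ B.Bd p) :
    f ∈ (kco G B).Bd p := by
  classical
  cases p with
  | zero =>
    rw [mem_Bd_zero]
    apply Subtype.ext; funext x
    exact mem_Bd_zero.1 (h x)
  | succ p =>
    choose y hy using h
    have h0 : (fun x => if x = 1 then 0 else y x : G → B.obj p) ∈
        LinearMap.ker (LinearMap.proj (R := R) (φ := fun _ : G => B.obj p) 1) := by
      rw [LinearMap.mem_ker, LinearMap.proj_apply, if_pos rfl]
    refine ⟨⟨fun x => if x = 1 then 0 else y x, h0⟩, ?_⟩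
    apply Subtype.ext; funext x
    refine (kco_d_apply _ _).trans ?_
    change B.d p (if x = 1 then 0 else y x) = f.1 x
    split_ifs with hx
    · rw [map_zero, hx, kco_one]
    · exact hy x

theorem kco_Z_le_Bd {p : ℕ} (h : B.Z p ≤ B.Bd p) : (kco G B).Z p ≤ (kco G B).Bd p := by
  intro f hf
  apply kco_mem_Bd
  intro x
  apply h
  rw [mem_Z] at hf ⊢
  rw [← kco_d_apply, hf]; rfl

/-- the comparison map `fnE → hG (kco)`, `(cF)(s)(x) = F(xs) - x F(s)` -/
def shft (a : Act G B) : Hom (fnE G B) (hG (kcoAct a)) where
  app p :=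
    { toFun := fun F => ⟨fun s => ⟨fun x => F (fun i => x * s i) - a.act p x (F s), by
          change F (fun i => 1 * s i) - a.act p 1 (F s) = 0
          simp only [one_mul]
          rw [map_one, Module.End.one_apply, sub_self]⟩, by
          intro g s
          apply Subtype.ext; funext x
          change F (fun i => x * (g * s i)) - a.act p x (F (fun i => g * s i)) =
            (F (fun i => (x * g) * s i) - a.act p (x * g) (F s)) -
              a.act p x (F (fun i => g * s i) - a.act p g (F s))
          rw [map_sub, map_mul, Module.End.mul_apply]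
          simp only [mul_assoc]
          abel⟩
      map_add' := fun F F' => by
        apply Subtype.ext; funext s; apply Subtype.ext; funext x
        change (F _ + F' _) - a.act p x (F s + F' s) =
          (F _ - a.act p x (F s)) + (F' _ - a.act p x (F' s))
        rw [map_add]; abel
      map_smul' := fun r F => by
        apply Subtype.ext; funext s; apply Subtype.ext; funext x
        change (r • F _) - a.act p x (r • F s) = r • (F _ - a.act p x (F s))
        rw [map_smul, smul_sub] }
  nat {p q} φ F := by
    apply Subtype.ext; funext s; apply Subtype.ext; funext x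
    change B.map φ (F _) - a.act q x (B.map φ (F _)) = B.map φ (F _ - a.act p x (F _))
    rw [map_sub, a.nat]
    rfl

@[simp] theorem shft_apply (a : Act G B) {p : ℕ} (F : (fnE G B).obj p) (s : Fin (p+1) → G)
    (x : G) : ((((shft a).app p F).1 s).1 x) = F (fun i => x * s i) - a.act p x (F s) := rfl

/-- the dimension shifting exact sequence -/
def shSES (a : Act G B) : SES (hG a) (fnE G B) (hG (kcoAct a)) where
  i := hG.incl a
  p := shft a
  inj _ := Subtype.val_injective
  surj p := by
    intro f
    refine ⟨fun s => (f.1 (fun i => (s 0)⁻¹ * s i)).1 (s 0), ?_⟩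
    apply Subtype.ext; funext s; apply Subtype.ext; funext x
    change (f.1 (fun i => (x * s 0)⁻¹ * (x * s i))).1 (x * s 0) -
      a.act p x ((f.1 (fun i => (s 0)⁻¹ * s i)).1 (s 0)) = (f.1 s).1 x
    have e := hG.eqv' _ f (s 0) (fun i => (s 0)⁻¹ * s i)
    simp only [mul_inv_cancel_left] at e
    have e' := congrArg (fun t => t.1 x) e
    have e'' : ((f.1 s).1 x) = (f.1 (fun i => (s 0)⁻¹ * s i)).1 (x * s 0) -
      a.act p x ((f.1 (fun i => (s 0)⁻¹ * s i)).1 (s 0)) := e'
    rw [e'']
    simp only [mul_inv_rev, mul_assoc, inv_mul_cancel_left]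
  pi p f := by
    apply Subtype.ext; funext s; apply Subtype.ext; funext x
    rw [shft_apply, hG.incl_app, hG.eqv', sub_self]; rfl
  ex p F hF := by
    refine ⟨⟨F, ?_⟩, rfl⟩
    intro g s
    have := congrArg (fun t => (t.1 s).1 g) hF
    simp only [shft_apply] at this
    exact sub_eq_zero.1 this

/-- **Lowest class principle, injectivity.** -/
theorem hG_mem_Bd (j : ℕ) : ∀ (B : CosMod R) (a : Act G B), (∀ i, i < j → B.Z i ≤ B.Bd i) →
    ∀ f ∈ (hG a).Z j, (hG.res a).app j f ∈ B.Bd j → f ∈ (hG a).Bd j := by
  induction j with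
  | zero =>
    intro B a _ f hf h
    rw [mem_Bd_zero] at h ⊢
    apply Subtype.ext; funext s
    have e := hG.eqv' a f (s 0) (fun _ => 1)
    simp only [mul_one] at e
    have hs : s = fun _ => s 0 := by
      funext i; exact congrArg s (Subsingleton.elim (α := Fin 1) _ _)
    rw [hs]
    refine e.trans ?_
    have h' : f.1 (fun _ => 1) = 0 := h
    refine (congrArg _ h').trans ?_
    exact map_zero _
  | succ j ih =>
    intro B a hB f hf h
    have h1 : (hG.incl a).app (j+1) f ∈ (fnE G B).Bd (j+1) :=
      fnE_mem_Bd B ((hG.incl a).app_mem_Z hf) h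
    obtain ⟨F, hF⟩ := h1
    have hz : (shft a).app j F ∈ (hG (kcoAct a)).Z j := by
      rw [mem_Z, ← Hom.app_d, hF]
      exact (shSES a).pi _ _
    have hk : ∀ i, i < j → (kco G B).Z i ≤ (kco G B).Bd i :=
      fun i hi => kco_Z_le_Bd (hB i (Nat.lt_succ_of_lt hi))
    have hb := ih (kco G B) (kcoAct a) hk _ hz
      (kco_Z_le_Bd (hB j (Nat.lt_succ_self j)) (Hom.app_mem_Z _ hz))
    refine (shSES a).conn_unique (b := F) hb ?_
    exact hF.symm

/-- **Lowest class principle, vanishing.** -/
theorem hG_Z_le_Bd {m : ℕ} (a : Act G B) (hB : ∀ i, i < m → B.Z i ≤ B.Bd i) (j : ℕ)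
    (hj : j < m) : (hG a).Z j ≤ (hG a).Bd j := by
  intro f hf
  exact hG_mem_Bd j B a (fun i hi => hB i (hi.trans hj)) f hf
    (hB j hj (Hom.app_mem_Z _ hf))

/-- **Lowest class principle, existence.** -/
theorem hG_exists {m : ℕ} (a : Act G B) (hB : ∀ i, i < m → B.Z i ≤ B.Bd i) {y : B.obj m}
    (hy : y ∈ B.Z m) (hinv : ∀ g, a.act m g y - y ∈ B.Bd m) :
    ∃ f ∈ (hG a).Z m, (hG.res a).app m f - y ∈ B.Bd m := by
  have hc : (constE B (G := G)).app m y ∈ (fnE G B).Z m := Hom.app_mem_Z _ hy
  have hz : (shft a).app m ((constE B (G := G)).app m y) ∈ (hG (kcoAct a)).Z m :=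
    Hom.app_mem_Z _ hc
  have hk : ∀ i, i < m → (kco G B).Z i ≤ (kco G B).Bd i := fun i hi => kco_Z_le_Bd (hB i hi)
  have hr : (hG.res (kcoAct a)).app m ((shft a).app m ((constE B (G := G)).app m y)) ∈
      (kco G B).Bd m := by
    apply kco_mem_Bd
    intro x
    change y - a.act m x y ∈ B.Bd m
    rw [← neg_sub]
    exact Submodule.neg_mem _ (hinv x)
  have hb := hG_mem_Bd m (kco G B) (kcoAct a) hk _ hz hr
  cases m with
  | zero =>
    rw [mem_Bd_zero] at hb
    obtain ⟨f, hf⟩ := (shSES a).ex 0 _ hb
    refine ⟨f, ?_, ?_⟩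
    · rw [mem_Z]
      apply (shSES a).inj
      rw [Hom.app_d, hf, map_zero]
      exact hc
    · have : (hG.res a).app 0 f = y := by
        have e := congrArg (fun t : (fnE G B).obj 0 => t (fun _ => 1)) hf
        exact e
      rw [this, sub_self]
      exact Submodule.zero_mem _
  | succ m =>
    obtain ⟨w, hw⟩ := hb
    obtain ⟨F, rfl⟩ := (shSES a).surj m w
    obtain ⟨f, hf⟩ := (shSES a).ex (m+1) ((constE B (G := G)).app (m+1) y - (fnE G B).d m F)
      (by rw [map_sub, Hom.app_d]
          change _ - (hG (kcoAct a)).d m ((shft a).app m F) = 0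
          have hw' : (hG (kcoAct a)).d m ((shft a).app m F) =
            (shft a).app (m+1) ((constE B (G := G)).app (m+1) y) := hw
          rw [hw', ← sub_self]; rfl)
    refine ⟨f, ?_, ?_⟩
    · rw [mem_Z]
      apply (shSES a).inj
      rw [Hom.app_d, hf, map_zero, map_sub, (fnE G B).d_d, sub_zero]
      exact hc
    · have e := congrArg (fun t => (resE B).app (m+1) t) hf
      have e2 : (hG.res a).app (m+1) f = y - B.d m ((resE B).app m F) := by
        refine Eq.trans e ?_
        rw [map_sub, Hom.app_d]
        rfl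
      rw [e2, sub_sub_cancel_left]
      exact Submodule.neg_mem _ (d_mem_Bd _ _)

/-! ### statements in cohomology -/

theorem hG_H_zero {m : ℕ} (a : Act G B) (hB : ∀ i, i < m → ∀ x : B.H i, x = 0) (j : ℕ)
    (hj : j < m) (x : (hG a).H j) : x = 0 :=
  H_eq_zero_iff.2 (hG_Z_le_Bd a (fun i hi => H_eq_zero_iff.1 (hB i hi)) j hj) x

/-- **Lowest class principle**: `H^m(hG B) → H^m(B)` is injective -/
theorem hG_res_injective {m : ℕ} (a : Act G B) (hB : ∀ i, i < m → ∀ x : B.H i, x = 0) :
    Function.Injective ((hG.res a).mapH m) := by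
  rw [injective_iff_map_eq_zero]
  intro x
  induction x using H_ind with
  | h z =>
    intro h
    rw [Hom.mapH_cls, cls_eq_zero_iff] at h
    rw [cls_eq_zero_iff]
    exact hG_mem_Bd m B a (fun i hi => H_eq_zero_iff.1 (hB i hi)) z z.2 h

/-- the restriction of a class of `hG` is invariant -/
theorem hG_res_inv (a : Act G B) (g : G) (m : ℕ) (x : (hG a).H m) :
    (a.hom g).mapH m ((hG.res a).mapH m x) = (hG.res a).mapH m x := by
  induction x using H_ind with
  | h z =>
    rw [Hom.mapH_cls, Hom.mapH_cls, cls_eq_iff]
    have h1 := (prismE B (G := G)).sub_mem ((hG.incl a).app_mem_Z z.2)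
    rw [prismE_c1, prismE_c0] at h1
    let ev : Hom (fnE G B) B :=
      ⟨fun p => { toFun := fun f => f (fun _ => g), map_add' := fun _ _ => rfl,
                  map_smul' := fun _ _ => rfl }, fun _ _ => rfl⟩
    have h2 := ev.app_mem_Bd h1
    have e := hG.eqv' a z.1 g (fun _ => 1)
    simp only [mul_one] at e
    have e2 : ev.app m ((hG.incl a).app m z.1 - (constE B).app m ((resE B).app m
      ((hG.incl a).app m z.1))) = a.act m g (z.1.1 (fun _ => 1)) - z.1.1 (fun _ => 1) := by
      rw [← e, map_sub]
      rfl
    rw [e2] at h2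
    exact h2

/-- **Lowest class principle**: the image of `H^m(hG B) → H^m(B)` consists of the invariants -/
theorem hG_res_surj {m : ℕ} (a : Act G B) (hB : ∀ i, i < m → ∀ x : B.H i, x = 0)
    (y : B.H m) (hy : ∀ g, (a.hom g).mapH m y = y) : ∃ x, (hG.res a).mapH m x = y := by
  induction y using H_ind with
  | h z =>
    obtain ⟨f, hf, hf'⟩ := hG_exists a (fun i hi => H_eq_zero_iff.1 (hB i hi)) z.2
      (fun g => by
        have := hy g
        rw [Hom.mapH_cls, cls_eq_iff] at this
        exact this)
    refine ⟨(hG a).cls m ⟨f, hf⟩, ?_⟩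
    rw [Hom.mapH_cls, cls_eq_iff]
    exact hf'

end

end Vale.Agent.P263.S
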