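import Vale.Agent.P263.S.Defs
import Vale.Agent.P263.S.HGses
import Vale.Agent.P263.S.LCP

/-!
# P263, block S: formal properties of the homotopy fixed points `hG` (helper57)

* `Act.comap θ a`, `hG.pull a c θ f hf` : functoriality in the group and the coefficients;
* `hG.cst c f hf`, `hG.pstar G B` : constant functions (maps with invariant image);
* `hG.rmul a g` : right translation, homotopic to the identity (`hG.mapH_rmul`);
* `hG.tr a : Hom B (hG a)` (finite `G`): `(tr b)(s) = ∑ g, g b`, and the general transfer
  `hG.trE a : Hom (fnE G B) (hG a)`;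
* commuting actions: `Act.Comm a b`, `Act.onHG`, `Act.prod`, the isomorphisms
  `hG.iter : hG G (hG K B) → hG (G × K) B` and `hG.flip : hG G (hG K B) → hG K (hG G B)`.
-/

noncomputable section

namespace Vale.Agent.P263.S

variable {R : Type} [CommRing R] {G K : Type} [Group G] [Group K]

/-! ### functoriality -/

/-- Restriction of an action along a homomorphism. -/
def Act.comap (θ : K →* G) {B : CosMod R} (a : Act G B) : Act K B where
  act p := (a.act p).comp θ
  nat φ g x := a.nat φ (θ g) x

@[simp] theorem Act.comap_act (θ : K →* G) {B : CosMod R} (a : Act G B) (p : ℕ) (k : K)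
    (x : B.obj p) : (a.comap θ).act p k x = a.act p (θ k) x := rfl

@[simp] theorem Act.triv_act {B : CosMod R} (p : ℕ) (g : G) (x : B.obj p) :
    (Act.triv G B).act p g x = x := rfl

@[simp] theorem Act.hom_app {B : CosMod R} (a : Act G B) (g : G) (p : ℕ) (x : B.obj p) :
    (a.hom g).app p x = a.act p g x := rfl

namespace hG

variable {B C D : CosMod R}

/-- Functoriality of the homotopy fixed points in the group and the coefficients. -/
def pull (a : Act G B) (c : Act K C) (θ : K →* G) (f : Hom B C)
    (hf : ∀ p (k : K) (x : B.obj p), f.app p (a.act p (θ k) x) = c.act p k (f.app p x)) :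
    Hom (hG a) (hG c) where
  app p :=
    { toFun := fun x => hG.mk c (fun s => f.app p (hG.fn x (θ ∘ s))) (fun k s => by
        rw [← hf, ← hG.fn_mul]
        congr 2
        funext i
        exact map_mul θ k (s i))
      map_add' := fun x y => hG.ext fun s => by simp
      map_smul' := fun r x => hG.ext fun s => by simp }
  nat φ x := hG.ext fun s => f.nat φ _

@[simp] theorem pull_fn (a : Act G B) (c : Act K C) (θ : K →* G) (f : Hom B C)
    (hf : ∀ p (k : K) (x : B.obj p), f.app p (a.act p (θ k) x) = c.act p k (f.app p x))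
    {p : ℕ} (x : (hG a).obj p) (s : Fin (p + 1) → K) :
    hG.fn ((pull a c θ f hf).app p x) s = f.app p (hG.fn x (θ ∘ s)) := rfl

/-- Restriction to the trivial subgroup commutes with functoriality. -/
theorem res_pull (a : Act G B) (c : Act K C) (θ : K →* G) (f : Hom B C)
    (hf : ∀ p (k : K) (x : B.obj p), f.app p (a.act p (θ k) x) = c.act p k (f.app p x)) :
    (hG.res c).comp (pull a c θ f hf) = f.comp (hG.res a) := by
  apply Hom.ext
  intro p x
  show f.app p (hG.fn x (θ ∘ fun _ => 1)) = f.app p (hG.fn x (fun _ => 1))
  congr 2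
  funext i
  exact map_one θ

theorem res_mapHom (a : Act G B) (b : Act G C) (f : Hom B C)
    (hf : ∀ p (g : G) (x : B.obj p), f.app p (a.act p g x) = b.act p g (f.app p x)) :
    (hG.res b).comp (hG.mapHom a b f hf) = f.comp (hG.res a) := rfl

/-- Restriction along a homomorphism. -/
def rst (a : Act G B) (θ : K →* G) : Hom (hG a) (hG (a.comap θ)) :=
  pull a (a.comap θ) θ (Hom.id B) (fun _ _ _ => rfl)

@[simp] theorem rst_fn (a : Act G B) (θ : K →* G) {p : ℕ} (x : (hG a).obj p)
    (s : Fin (p + 1) → K) : hG.fn ((rst a θ).app p x) s = hG.fn x (θ ∘ s) := rfl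

/-! ### constant functions -/

/-- A map with invariant image gives a map to the homotopy fixed points (constant functions). -/
def cst (c : Act G C) (f : Hom B C)
    (hf : ∀ p (g : G) (x : B.obj p), c.act p g (f.app p x) = f.app p x) : Hom B (hG c) where
  app p :=
    { toFun := fun x => hG.mk c (fun _ => f.app p x) (fun g s => (hf p g x).symm)
      map_add' := fun x y => hG.ext fun s => by simp
      map_smul' := fun r x => hG.ext fun s => by simp }
  nat φ x := hG.ext fun s => f.nat φ _

@[simp] theorem cst_fn (c : Act G C) (f : Hom B C)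
    (hf : ∀ p (g : G) (x : B.obj p), c.act p g (f.app p x) = f.app p x) {p : ℕ} (x : B.obj p)
    (s : Fin (p + 1) → G) : hG.fn ((cst c f hf).app p x) s = f.app p x := rfl

theorem res_cst (c : Act G C) (f : Hom B C)
    (hf : ∀ p (g : G) (x : B.obj p), c.act p g (f.app p x) = f.app p x) :
    (hG.res c).comp (cst c f hf) = f := rfl

/-- The projection `BG → pt` in cohomology, for the trivial action. -/
def pstar (G : Type) [Group G] (B : CosMod R) : Hom B (hG (Act.triv G B)) :=
  cst (Act.triv G B) (Hom.id B) (fun _ _ _ => rfl)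

@[simp] theorem pstar_fn {p : ℕ} (x : B.obj p) (s : Fin (p + 1) → G) :
    hG.fn ((pstar G B).app p x) s = x := rfl

theorem res_pstar (G : Type) [Group G] (B : CosMod R) :
    (hG.res (Act.triv G B)).comp (pstar G B) = Hom.id B := rfl

@[simp] theorem mapH_res_pstar (G : Type) [Group G] (B : CosMod R) (n : ℕ) (x : B.H n) :
    (hG.res (Act.triv G B)).mapH n ((pstar G B).mapH n x) = x := by
  rw [← Hom.mapH_comp, res_pstar, Hom.mapH_id]

/-! ### translations -/

/-- Right translation by a group element. -/
def rmul (a : Act G B) (g : G) : Hom (hG a) (hG a) where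
  app p :=
    { toFun := fun x => hG.mk a (fun s => hG.fn x (fun i => s i * g)) (fun h s => by
        rw [← hG.fn_mul]
        congr 1
        funext i
        exact mul_assoc _ _ _)
      map_add' := fun x y => hG.ext fun s => by simp
      map_smul' := fun r x => hG.ext fun s => by simp }
  nat φ x := hG.ext fun s => rfl

@[simp] theorem rmul_fn (a : Act G B) (g : G) {p : ℕ} (x : (hG a).obj p)
    (s : Fin (p + 1) → G) : hG.fn ((rmul a g).app p x) s = hG.fn x (fun i => s i * g) := rfl

/-- The homotopy between right translation and the identity. -/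
def rmulPrism (a : Act G B) (g : G) : Prism (hG a) (hG a) where
  h p θ :=
    { toFun := fun x => hG.mk a (fun s => hG.fn x (fun i => if θ i = 0 then s i * g else s i))
        (fun h s => by
          rw [← hG.fn_mul]
          congr 1
          funext i
          split_ifs
          · exact mul_assoc _ _ _
          · rfl)
      map_add' := fun x y => hG.ext fun s => by simp
      map_smul' := fun r x => hG.ext fun s => by simp }
  nat {p q} α θ x := hG.ext fun s => rfl

/-- Right translation acts trivially on cohomology. -/
theorem mapH_rmul (a : Act G B) (g : G) (n : ℕ) (x : (hG a).H n) :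
    (rmul a g).mapH n x = x := by
  have h := (Hom.mapH_eq_of_prism (f := Hom.id (hG a)) (g := rmul a g) (rmulPrism a g) ?_ ?_ n x)
  · rw [← h, Hom.mapH_id]
  · intro p x
    apply hG.ext
    intro s
    show hG.fn x (fun i => if c1 p i = 0 then s i * g else s i) = hG.fn x s
    simp only [c1_val]
    rfl
  · intro p x
    apply hG.ext
    intro s
    show hG.fn x (fun i => if c0 p i = 0 then s i * g else s i) = hG.fn x (fun i => s i * g)
    congr 1
    funext i
    rw [c0_val, if_pos rfl]

/-! ### transfers -/

section tr

variable [Fintype G]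

/-- The transfer `EG`-functions to `hG`. -/
def trE (a : Act G B) : Hom (fnE G B) (hG a) where
  app p :=
    { toFun := fun F => hG.mk a
        (fun s => ∑ g : G, a.act p g ((F : (Fin (p + 1) → G) → B.obj p) (fun i => g⁻¹ * s i)))
        (fun h s => by
          rw [map_sum]
          refine Fintype.sum_equiv (Equiv.mulLeft h⁻¹) _ _ fun g => ?_
          rw [← Act.act_mul]
          simp only [Equiv.coe_mulLeft, mul_inv_cancel_left, mul_inv_rev, inv_inv, mul_assoc])
      map_add' := fun x y => hG.ext fun s => by
        show ∑ g : G, a.act p g ((x : (Fin (p + 1) → G) → B.obj p) (fun i => g⁻¹ * s i) +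
          (y : (Fin (p + 1) → G) → B.obj p) (fun i => g⁻¹ * s i)) = _
        simp only [map_add, Finset.sum_add_distrib]
        rfl
      map_smul' := fun r x => hG.ext fun s => by
        show ∑ g : G, a.act p g (r • (x : (Fin (p + 1) → G) → B.obj p) (fun i => g⁻¹ * s i)) = _
        simp only [map_smul, ← Finset.smul_sum]
        rfl }
  nat {p q} φ x := hG.ext fun s => by
    show ∑ g : G, a.act q g (B.map φ ((x : (Fin (p + 1) → G) → B.obj p)
      ((fun i => g⁻¹ * s i) ∘ φ))) = B.map φ (∑ g : G, a.act p g
        ((x : (Fin (p + 1) → G) → B.obj p) (fun i => g⁻¹ * (s ∘ φ) i)))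
    rw [map_sum]
    refine Finset.sum_congr rfl fun g _ => ?_
    rw [a.nat]
    rfl

theorem trE_fn (a : Act G B) {p : ℕ} (F : (fnE G B).obj p) (s : Fin (p + 1) → G) :
    hG.fn ((trE a).app p F) s =
      ∑ g : G, a.act p g ((F : (Fin (p + 1) → G) → B.obj p) (fun i => g⁻¹ * s i)) := rfl

/-- The transfer from the trivial group. -/
def tr (a : Act G B) : Hom B (hG a) where
  app p :=
    { toFun := fun b => hG.mk a (fun _ => ∑ g : G, a.act p g b) (fun h s => by
        rw [map_sum]
        refine Fintype.sum_equiv (Equiv.mulLeft h⁻¹) _ _ fun g => ?_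
        rw [← Act.act_mul]
        simp)
      map_add' := fun _ _ => hG.ext fun _ => by
        simp [Finset.sum_add_distrib]
      map_smul' := fun _ _ => hG.ext fun _ => by
        simp [Finset.smul_sum] }
  nat {p q} φ x := hG.ext fun s => by
    show ∑ g : G, a.act q g (B.map φ x) = B.map φ (∑ g : G, a.act p g x)
    rw [map_sum]
    exact Finset.sum_congr rfl fun g _ => a.nat φ g x

@[simp] theorem tr_fn (a : Act G B) {p : ℕ} (b : B.obj p) (s : Fin (p + 1) → G) :
    hG.fn ((tr a).app p b) s = ∑ g : G, a.act p g b := rfl

/-- The transfer is natural. -/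
theorem mapHom_tr (a : Act G B) (c : Act G C) (f : Hom B C)
    (hf : ∀ p (g : G) (x : B.obj p), f.app p (a.act p g x) = c.act p g (f.app p x)) :
    (hG.mapHom a c f hf).comp (tr a) = (tr c).comp f := by
  apply Hom.ext
  intro p x
  apply hG.ext
  intro s
  show f.app p (∑ g : G, a.act p g x) = ∑ g : G, c.act p g (f.app p x)
  rw [map_sum]
  exact Finset.sum_congr rfl fun g _ => hf p g x

/-- Transfer does not see translations. -/
theorem tr_comp_hom (a : Act G B) (g : G) : (tr a).comp (a.hom g) = tr a := by
  apply Hom.ext
  intro p x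
  apply hG.ext
  intro s
  show ∑ h : G, a.act p h (a.act p g x) = ∑ h : G, a.act p h x
  refine Fintype.sum_equiv (Equiv.mulRight g) _ _ fun h => ?_
  rw [← Act.act_mul]
  rfl

end tr

/-! ### commuting actions -/

end hG

/-- Two commuting actions. -/
def Act.Comm {B : CosMod R} (a : Act G B) (b : Act K B) : Prop :=
  ∀ p (g : G) (k : K) (x : B.obj p), a.act p g (b.act p k x) = b.act p k (a.act p g x)

theorem Act.Comm.symm {B : CosMod R} {a : Act G B} {b : Act K B} (h : Act.Comm a b) :
    Act.Comm b a := fun p k g x => (h p g k x).symm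

theorem Act.Comm.triv_left {B : CosMod R} (b : Act K B) : Act.Comm (Act.triv G B) b :=
  fun _ _ _ _ => rfl

theorem Act.Comm.triv_right {B : CosMod R} (a : Act G B) : Act.Comm a (Act.triv K B) :=
  fun _ _ _ _ => rfl

/-- An action which commutes with `b` acts on `hG b`. -/
def Act.onHG {B : CosMod R} (a : Act G B) (b : Act K B) (h : Act.Comm a b) : Act G (hG b) where
  act p :=
    { toFun := fun g => (hG.mapHom b b (a.hom g) (fun p k x => h p g k x)).app p
      map_one' := LinearMap.ext fun _ => hG.ext fun _ => Act.act_one a p _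
      map_mul' := fun g g' => LinearMap.ext fun _ => hG.ext fun _ => Act.act_mul a p g g' _ }
  nat φ g x := (hG.mapHom b b (a.hom g) (fun p k x => h p g k x)).nat φ x

@[simp] theorem Act.onHG_fn {B : CosMod R} (a : Act G B) (b : Act K B) (h : Act.Comm a b)
    {p : ℕ} (g : G) (x : (hG b).obj p) (s : Fin (p + 1) → K) :
    hG.fn ((a.onHG b h).act p g x) s = a.act p g (hG.fn x s) := rfl

theorem Act.onHG_triv {B : CosMod R} (b : Act K B) :
    (Act.triv G B).onHG b (Act.Comm.triv_left b) = Act.triv G (hG b) := rfl

/-- The action of the product of two groups with commuting actions. -/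
def Act.prod {B : CosMod R} (a : Act G B) (b : Act K B) (h : Act.Comm a b) : Act (G × K) B where
  act p :=
    { toFun := fun g => (a.act p g.1) * (b.act p g.2)
      map_one' := by
        rw [Prod.fst_one, Prod.snd_one, map_one, map_one, one_mul]
      map_mul' := fun g g' => by
        rw [Prod.fst_mul, Prod.snd_mul, map_mul, map_mul]
        refine LinearMap.ext fun x => ?_
        show a.act p g.1 (a.act p g'.1 (b.act p g.2 (b.act p g'.2 x))) =
          a.act p g.1 (b.act p g.2 (a.act p g'.1 (b.act p g'.2 x)))
        rw [h] }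
  nat φ g x := by
    show a.act _ g.1 (b.act _ g.2 _) = B.map φ (a.act _ g.1 (b.act _ g.2 _))
    rw [b.nat, a.nat]

@[simp] theorem Act.prod_act {B : CosMod R} (a : Act G B) (b : Act K B) (h : Act.Comm a b)
    (p : ℕ) (g : G × K) (x : B.obj p) :
    (a.prod b h).act p g x = a.act p g.1 (b.act p g.2 x) := rfl

namespace hG

variable {B C : CosMod R}

/-- Exchange of the two variables of iterated homotopy fixed points. -/
def flip (a : Act G B) (b : Act K B) (h : Act.Comm a b) :
    Hom (hG (a.onHG b h)) (hG (b.onHG a h.symm)) where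
  app p :=
    { toFun := fun x => hG.mk _ (fun t => hG.mk a (fun s => hG.fn (hG.fn x s) t) (fun g s => by
          rw [hG.fn_mul]; rfl)) (fun k t => hG.ext fun s => by
          show hG.fn (hG.fn x s) (fun i => k * t i) = b.act p k (hG.fn (hG.fn x s) t)
          rw [hG.fn_mul])
      map_add' := fun x y => hG.ext fun t => hG.ext fun s => rfl
      map_smul' := fun r x => hG.ext fun t => hG.ext fun s => rfl }
  nat φ x := hG.ext fun t => hG.ext fun s => rfl

@[simp] theorem flip_fn (a : Act G B) (b : Act K B) (h : Act.Comm a b) {p : ℕ}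
    (x : (hG (a.onHG b h)).obj p) (t : Fin (p + 1) → K) (s : Fin (p + 1) → G) :
    hG.fn (hG.fn ((flip a b h).app p x) t) s = hG.fn (hG.fn x s) t := rfl

theorem flip_flip (a : Act G B) (b : Act K B) (h : Act.Comm a b) :
    (flip b a h.symm).comp (flip a b h) = Hom.id _ := rfl

theorem mapH_flip_flip (a : Act G B) (b : Act K B) (h : Act.Comm a b) (n : ℕ)
    (x : (hG (a.onHG b h)).H n) : (flip b a h.symm).mapH n ((flip a b h).mapH n x) = x := by
  rw [← Hom.mapH_comp, flip_flip, Hom.mapH_id]

theorem mapH_flip_bijective (a : Act G B) (b : Act K B) (h : Act.Comm a b) (n : ℕ) :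
    Function.Bijective ((flip a b h).mapH n) :=
  Function.bijective_iff_has_inverse.2 ⟨(flip b a h.symm).mapH n, mapH_flip_flip a b h n,
    mapH_flip_flip b a h.symm n⟩

/-- Iterated homotopy fixed points are homotopy fixed points of the product. -/
def iter (a : Act G B) (b : Act K B) (h : Act.Comm a b) :
    Hom (hG (a.onHG b h)) (hG (a.prod b h)) where
  app p :=
    { toFun := fun x => hG.mk _ (fun w => hG.fn (hG.fn x (fun i => (w i).1)) (fun i => (w i).2))
        (fun g w => by
          show hG.fn (hG.fn x (fun i => g.1 * (w i).1)) (fun i => g.2 * (w i).2) = _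
          rw [hG.fn_mul, hG.fn_mul, Act.onHG_fn, ← h]
          rfl)
      map_add' := fun x y => hG.ext fun w => rfl
      map_smul' := fun r x => hG.ext fun w => rfl }
  nat φ x := hG.ext fun w => rfl

@[simp] theorem iter_fn (a : Act G B) (b : Act K B) (h : Act.Comm a b) {p : ℕ}
    (x : (hG (a.onHG b h)).obj p) (w : Fin (p + 1) → G × K) :
    hG.fn ((iter a b h).app p x) w =
      hG.fn (hG.fn x (fun i => (w i).1)) (fun i => (w i).2) := rfl

/-- The inverse of `iter`. -/
def unIter (a : Act G B) (b : Act K B) (h : Act.Comm a b) :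
    Hom (hG (a.prod b h)) (hG (a.onHG b h)) where
  app p :=
    { toFun := fun x => hG.mk _ (fun s => hG.mk b (fun t => hG.fn x (fun i => (s i, t i)))
        (fun k t => by
          have := hG.fn_mul x ((1 : G), k) (fun i => (s i, t i))
          simpa using this)) (fun g s => hG.ext fun t => by
          have := hG.fn_mul x (g, (1 : K)) (fun i => (s i, t i))
          simpa using this)
      map_add' := fun x y => hG.ext fun s => hG.ext fun t => rfl
      map_smul' := fun r x => hG.ext fun s => hG.ext fun t => rfl }
  nat φ x := hG.ext fun s => hG.ext fun t => rfl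

theorem iter_unIter (a : Act G B) (b : Act K B) (h : Act.Comm a b) :
    (iter a b h).comp (unIter a b h) = Hom.id _ := rfl

theorem unIter_iter (a : Act G B) (b : Act K B) (h : Act.Comm a b) :
    (unIter a b h).comp (iter a b h) = Hom.id _ := rfl

theorem mapH_iter_bijective (a : Act G B) (b : Act K B) (h : Act.Comm a b) (n : ℕ) :
    Function.Bijective ((iter a b h).mapH n) := by
  refine Function.bijective_iff_has_inverse.2 ⟨(unIter a b h).mapH n, fun x => ?_, fun x => ?_⟩
  · rw [← Hom.mapH_comp, unIter_iter, Hom.mapH_id]
  · rw [← Hom.mapH_comp, iter_unIter, Hom.mapH_id]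

/-- Restriction to the trivial group commutes with iteration. -/
theorem res_iter (a : Act G B) (b : Act K B) (h : Act.Comm a b) :
    (hG.res (a.prod b h)).comp (iter a b h) = (hG.res b).comp (hG.res (a.onHG b h)) := rfl

/-- Functoriality in the inner group, for an outer group. -/
def mapInner {C : CosMod R} (a : Act G B) (b : Act K B) (h : Act.Comm a b) (c : Act G C)
    (f : Hom (hG b) C)
    (hf : ∀ p (g : G) (x : (hG b).obj p),
      f.app p ((a.onHG b h).act p g x) = c.act p g (f.app p x)) :
    Hom (hG (a.onHG b h)) (hG c) := hG.mapHom _ _ f hf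

end hG

end Vale.Agent.P263.S
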