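import Vale.Agent.P263.S.Good

/-!
# P263, block S: binary sums of cosimplicial modules, maps out of tensor products (helper548)

`dsum A B` with `in1`, `in2`, `pr1`, `pr2`; `tens_dsum_mem_Bd`: a cochain of
`(A ⊕ B) ⊗ (A ⊕ B)` is a coboundary if its four components are.
-/

open scoped TensorProduct

namespace Vale.Agent.P263.S

variable {R : Type} [CommRing R]

/-- Two maps out of a tensor product agree if they agree on pure tensors. -/
theorem hom_tensor_ext {A B C : CosMod R} {f g : Hom (tensor A B) C}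
    (h : ∀ p (a : A.obj p) (b : B.obj p), f.app p (a ⊗ₜ[R] b : A.obj p ⊗[R] B.obj p) =
      g.app p (a ⊗ₜ[R] b : A.obj p ⊗[R] B.obj p)) : f = g := by
  apply Hom.ext
  intro p x
  have key : (f.app p : (A.obj p ⊗[R] B.obj p) →ₗ[R] C.obj p) = g.app p :=
    TensorProduct.ext' (h p)
  exact LinearMap.congr_fun key x

/-- Two maps out of `M n` agree if they agree on the universal cocycle. -/
theorem hom_M_ext {B : CosMod R} {n : ℕ} {f g : Hom (M R n) B}
    (h : f.app n (iotaM R n) = g.app n (iotaM R n)) : f = g := by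
  have h1 : f.comp (prM R n) = g.comp (prM R n) := hom_L_ext h
  apply Hom.ext
  intro p x
  obtain ⟨y, rfl⟩ := prM_surjective n p x
  exact congrArg (fun k : Hom (L R n) B => k.app p y) h1

/-- The binary sum (= product). -/
def dsum (A B : CosMod R) : CosMod R where
  obj p := A.obj p × B.obj p
  map φ := (A.map φ).prodMap (B.map φ)
  map_id {p} := by
    apply LinearMap.ext
    rintro ⟨a, b⟩
    show (A.map _ a, B.map _ b) = (a, b)
    rw [A.map_id_apply, B.map_id_apply]
  map_comp f g := by
    apply LinearMap.ext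
    rintro ⟨a, b⟩
    show (A.map _ a, B.map _ b) = (A.map f (A.map g a), B.map f (B.map g b))
    rw [A.map_map, B.map_map]

section dsum

variable (A B : CosMod R)

/-- first inclusion -/
def in1 : Hom A (dsum A B) where
  app p := LinearMap.inl R (A.obj p) (B.obj p)
  nat {p q} φ x := by
    show (A.map φ x, (0 : B.obj q)) = (A.map φ x, B.map φ (0 : B.obj p))
    rw [map_zero]

/-- second inclusion -/
def in2 : Hom B (dsum A B) where
  app p := LinearMap.inr R (A.obj p) (B.obj p)
  nat {p q} φ x := by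
    show ((0 : A.obj q), B.map φ x) = (A.map φ (0 : A.obj p), B.map φ x)
    rw [map_zero]

/-- first projection -/
def pr1 : Hom (dsum A B) A where
  app p := LinearMap.fst R (A.obj p) (B.obj p)
  nat _ _ := rfl

/-- second projection -/
def pr2 : Hom (dsum A B) B where
  app p := LinearMap.snd R (A.obj p) (B.obj p)
  nat _ _ := rfl

variable {A B}

theorem pr1_in1 (p : ℕ) (x : A.obj p) : (pr1 A B).app p ((in1 A B).app p x) = x := rfl
theorem pr2_in2 (p : ℕ) (x : B.obj p) : (pr2 A B).app p ((in2 A B).app p x) = x := rfl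
theorem pr1_in2 (p : ℕ) (x : B.obj p) : (pr1 A B).app p ((in2 A B).app p x) = 0 := rfl
theorem pr2_in1 (p : ℕ) (x : A.obj p) : (pr2 A B).app p ((in1 A B).app p x) = 0 := rfl

theorem in_pr (p : ℕ) : ((in1 A B).app p).comp ((pr1 A B).app p) +
    ((in2 A B).app p).comp ((pr2 A B).app p) = LinearMap.id := by
  apply LinearMap.ext
  rintro ⟨a, b⟩
  show ((a, (0 : B.obj p)) : A.obj p × B.obj p) + ((0 : A.obj p), b) = (a, b)
  simp

/-- decomposition of a tensor into its four components -/
theorem tens_dsum_eq (p : ℕ) (z : (tensor (dsum A B) (dsum A B)).obj p) :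
    z = (((in1 A B).tens (in1 A B)).app p (((pr1 A B).tens (pr1 A B)).app p z) +
        ((in1 A B).tens (in2 A B)).app p (((pr1 A B).tens (pr2 A B)).app p z)) +
      (((in2 A B).tens (in1 A B)).app p (((pr2 A B).tens (pr1 A B)).app p z) +
        ((in2 A B).tens (in2 A B)).app p (((pr2 A B).tens (pr2 A B)).app p z)) := by
  have h : (LinearMap.id : ((dsum A B).obj p ⊗[R] (dsum A B).obj p) →ₗ[R]
      ((dsum A B).obj p ⊗[R] (dsum A B).obj p)) =
      ((TensorProduct.map ((in1 A B).app p) ((in1 A B).app p)).comp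
          (TensorProduct.map ((pr1 A B).app p) ((pr1 A B).app p)) +
        (TensorProduct.map ((in1 A B).app p) ((in2 A B).app p)).comp
          (TensorProduct.map ((pr1 A B).app p) ((pr2 A B).app p))) +
      ((TensorProduct.map ((in2 A B).app p) ((in1 A B).app p)).comp
          (TensorProduct.map ((pr2 A B).app p) ((pr1 A B).app p)) +
        (TensorProduct.map ((in2 A B).app p) ((in2 A B).app p)).comp
          (TensorProduct.map ((pr2 A B).app p) ((pr2 A B).app p))) := by
    rw [← TensorProduct.map_comp, ← TensorProduct.map_comp, ← TensorProduct.map_comp,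
      ← TensorProduct.map_comp, ← TensorProduct.map_add_right, ← TensorProduct.map_add_right,
      ← TensorProduct.map_add_left, in_pr, TensorProduct.map_id]
  exact LinearMap.congr_fun h z

/-- A cochain of `(A ⊕ B) ⊗ (A ⊕ B)` is a coboundary if its four components are. -/
theorem tens_dsum_mem_Bd {p : ℕ} {z : (tensor (dsum A B) (dsum A B)).obj p}
    (h11 : ((pr1 A B).tens (pr1 A B)).app p z ∈ (tensor A A).Bd p)
    (h12 : ((pr1 A B).tens (pr2 A B)).app p z ∈ (tensor A B).Bd p)
    (h21 : ((pr2 A B).tens (pr1 A B)).app p z ∈ (tensor B A).Bd p)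
    (h22 : ((pr2 A B).tens (pr2 A B)).app p z ∈ (tensor B B).Bd p) :
    z ∈ (tensor (dsum A B) (dsum A B)).Bd p := by
  rw [tens_dsum_eq p z]
  exact add_mem (add_mem (Hom.app_mem_Bd _ h11) (Hom.app_mem_Bd _ h12))
    (add_mem (Hom.app_mem_Bd _ h21) (Hom.app_mem_Bd _ h22))

theorem tens_dsum_low {p : ℕ} (h11 : (tensor A A).Z p ≤ (tensor A A).Bd p)
    (h12 : (tensor A B).Z p ≤ (tensor A B).Bd p) (h21 : (tensor B A).Z p ≤ (tensor B A).Bd p)
    (h22 : (tensor B B).Z p ≤ (tensor B B).Bd p) :
    (tensor (dsum A B) (dsum A B)).Z p ≤ (tensor (dsum A B) (dsum A B)).Bd p := fun _ hz =>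
  tens_dsum_mem_Bd (h11 (Hom.app_mem_Z _ hz)) (h12 (Hom.app_mem_Z _ hz))
    (h21 (Hom.app_mem_Z _ hz)) (h22 (Hom.app_mem_Z _ hz))

end dsum

/-- Vanishing for `A ⊗ B` gives vanishing for `B ⊗ A`. -/
theorem tens_comm_low {A B : CosMod R} {p : ℕ} (h : (tensor A B).Z p ≤ (tensor A B).Bd p) :
    (tensor B A).Z p ≤ (tensor B A).Bd p := fun _ hz =>
  mem_Bd_of_inv (commH B A) (commH A B) (commH_commH B A p) (h (Hom.app_mem_Z _ hz))

end Vale.Agent.P263.S
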