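import Vale.Agent.P263.S.Core
import Mathlib.LinearAlgebra.BilinearMap
import Mathlib.Tactic.Abel

/-!
# P263, block S: the Alexander–Whitney product of cochains (helper689)

`fr p n`, `bk q n` : the front and back faces `[p] → [n]`, `[q] → [n]` (total functions, no
proof arguments).  For a levelwise bilinear natural pairing `μ : Pair A B C` the product of cochains
is `μ.aw p q n a b = μ (A.map (fr p n) a) (B.map (bk q n) b)`; the Leibniz rule is `d_aw`
(`n = p + q`), the product on cohomology is `μ.cup`.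
-/

namespace Vale.Agent.P263.S

/-- the front `p`-face of `[n]` (for `p ≤ n`) -/
def fr (p n : ℕ) : Op p n where
  toFun x := ⟨min x.1 n, by omega⟩
  monotone' x y h := by
    simp only [Fin.le_def] at *
    omega

/-- the back `q`-face of `[n]` (for `q ≤ n`) -/
def bk (q n : ℕ) : Op q n where
  toFun x := ⟨min (x.1 + (n - q)) n, by omega⟩
  monotone' x y h := by
    simp only [Fin.le_def] at *
    omega

theorem fr_val (p n : ℕ) (x : Fin (p + 1)) : (fr p n x).1 = min x.1 n := rfl
theorem bk_val (q n : ℕ) (x : Fin (q + 1)) : (bk q n x).1 = min (x.1 + (n - q)) n := rfl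

theorem fr_self (n : ℕ) : fr n n = OrderHom.id := by
  ext x
  have := x.2
  have h1 := fr_val n n x
  show (fr n n x).1 = x.1
  omega

theorem bk_self (n : ℕ) : bk n n = OrderHom.id := by
  ext x
  have := x.2
  have h1 := bk_val n n x
  show (bk n n x).1 = x.1
  omega

theorem fr_fr {p m n : ℕ} (h : p ≤ m) (_h' : m ≤ n) : (fr m n).comp (fr p m) = fr p n := by
  ext x
  have := x.2
  have h1 := fr_val m n (fr p m x)
  have h2 := fr_val p m x
  have h3 := fr_val p n x
  show (fr m n (fr p m x)).1 = (fr p n x).1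
  omega

theorem bk_bk {q m n : ℕ} (h : q ≤ m) (h' : m ≤ n) : (bk m n).comp (bk q m) = bk q n := by
  ext x
  have := x.2
  have h1 := bk_val m n (bk q m x)
  have h2 := bk_val q m x
  have h3 := bk_val q n x
  show (bk m n (bk q m x)).1 = (bk q n x).1
  omega

/-- the middle face -/
theorem fr_bk {p q r n : ℕ} (h : n = p + q + r) :
    (fr (p + q) n).comp (bk q (p + q)) = (bk (q + r) n).comp (fr q (q + r)) := by
  ext x
  have := x.2
  have h1 := fr_val (p + q) n (bk q (p + q) x)
  have h2 := bk_val q (p + q) x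
  have h3 := bk_val (q + r) n (fr q (q + r) x)
  have h4 := fr_val q (q + r) x
  show (fr (p + q) n (bk q (p + q) x)).1 = (bk (q + r) n (fr q (q + r) x)).1
  omega

theorem dl_fr_le {p n i : ℕ} (h : p ≤ n) :
    (dl n i).comp (fr p n) = (fr (p + 1) (n + 1)).comp (dl p i) := by
  ext x
  have := x.2
  have h1 := dl_val n i (fr p n x)
  have h2 := fr_val p n x
  have h3 := dl_val p i x
  have h4 := fr_val (p + 1) (n + 1) (dl p i x)
  show (dl n i (fr p n x)).1 = (fr (p + 1) (n + 1) (dl p i x)).1
  split_ifs at h1 h3 <;> omega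

theorem dl_fr_gt {p n i : ℕ} (h : p ≤ n) (hi : p < i) :
    (dl n i).comp (fr p n) = fr p (n + 1) := by
  ext x
  have := x.2
  have h1 := dl_val n i (fr p n x)
  have h2 := fr_val p n x
  have h4 := fr_val p (n + 1) x
  show (dl n i (fr p n x)).1 = (fr p (n + 1) x).1
  split_ifs at h1 <;> omega

theorem dl_bk_le {q n i : ℕ} (h : q ≤ n) (hi : i ≤ n - q) :
    (dl n i).comp (bk q n) = bk q (n + 1) := by
  ext x
  have := x.2
  have h1 := dl_val n i (bk q n x)
  have h2 := bk_val q n x
  have h4 := bk_val q (n + 1) x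
  show (dl n i (bk q n x)).1 = (bk q (n + 1) x).1
  split_ifs at h1 <;> omega

theorem dl_bk_ge {q n i : ℕ} (k : ℕ) (h : q ≤ n) (hi : i = n - q + k) :
    (dl n i).comp (bk q n) = (bk (q + 1) (n + 1)).comp (dl q k) := by
  subst hi
  ext x
  have := x.2
  have h1 := dl_val n (n - q + k) (bk q n x)
  have h2 := bk_val q n x
  have h3 := dl_val q k x
  have h4 := bk_val (q + 1) (n + 1) (dl q k x)
  show (dl n (n - q + k) (bk q n x)).1 = (bk (q + 1) (n + 1) (dl q k x)).1
  split_ifs at h1 h3 <;> omega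

variable {R : Type} [CommRing R]

/-- levelwise bilinear natural pairings of cosimplicial modules -/
structure Pair (A B C : CosMod R) where
  /-- the components -/
  app : ∀ p, A.obj p →ₗ[R] B.obj p →ₗ[R] C.obj p
  nat : ∀ {p q : ℕ} (f : Op p q) (a : A.obj p) (b : B.obj p),
    app q (A.map f a) (B.map f b) = C.map f (app p a b)

namespace Pair

variable {A B C : CosMod R}

/-- the Alexander–Whitney product of cochains -/
def aw (μ : Pair A B C) (p q n : ℕ) : A.obj p →ₗ[R] B.obj q →ₗ[R] C.obj n :=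
  (μ.app n).compl₁₂ (A.map (fr p n)) (B.map (bk q n))

theorem aw_apply (μ : Pair A B C) (p q n : ℕ) (a : A.obj p) (b : B.obj q) :
    μ.aw p q n a b = μ.app n (A.map (fr p n) a) (B.map (bk q n) b) := rfl

theorem sn_apply_lin {M N : Type*} [AddCommGroup M] [AddCommGroup N] [Module R M] [Module R N]
    (k : ℕ) (f : M →ₗ[R] N) (x : M) : (sn k f) x = sn k (f x) := by
  simp [sn]

/-- the combinatorial core of the Leibniz rule -/
theorem leibniz_sum {M : Type*} [AddCommGroup M] (p q : ℕ) (F G K : ℕ → M)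
    (h1 : ∀ i, i ≤ p → F i = G i) (h2 : ∀ k, k ≤ q → F (p + 1 + k) = K (k + 1))
    (h3 : G (p + 1) = K 0) :
    ∑ i ∈ Finset.range (p + q + 2), sn i (F i) =
      ∑ i ∈ Finset.range (p + 2), sn i (G i) + sn p (∑ i ∈ Finset.range (q + 2), sn i (K i)) := by
  rw [show p + q + 2 = p + 1 + (q + 1) by ring, Finset.sum_range_add,
    Finset.sum_range_succ (n := p + 1), Finset.sum_range_succ' (n := q + 1), h3, sn_add,
    show sn 0 (K 0) = K 0 by simp [sn], sn_succ, sn_sum]
  have e1 : ∀ i ∈ Finset.range (p + 1), sn i (F i) = sn i (G i) := fun i hi => by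
    rw [Finset.mem_range] at hi
    rw [h1 i (by omega)]
  have e2 : ∀ i ∈ Finset.range (q + 1), sn (p + 1 + i) (F (p + 1 + i)) =
      sn p (sn (i + 1) (K (i + 1))) := fun i hi => by
    rw [Finset.mem_range] at hi
    rw [h2 i (by omega), sn_sn, show p + 1 + i = p + (i + 1) by ring]
  rw [Finset.sum_congr rfl e1, Finset.sum_congr rfl e2]
  abel

/-- **The Leibniz rule.** -/
theorem d_aw (μ : Pair A B C) {p q n : ℕ} (h : n = p + q) (a : A.obj p) (b : B.obj q) :
    C.d n (μ.aw p q n a b) =
      μ.aw (p + 1) q (n + 1) (A.d p a) b + sn p (μ.aw p (q + 1) (n + 1) a (B.d q b)) := by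
  subst h
  have e1 : C.d (p + q) (μ.aw p q (p + q) a b) = ∑ i ∈ Finset.range (p + q + 2),
      sn i (μ.app (p + q + 1) (A.map ((dl (p + q) i).comp (fr p (p + q))) a)
        (B.map ((dl (p + q) i).comp (bk q (p + q))) b)) := by
    rw [CosMod.d_apply]
    refine Finset.sum_congr rfl fun i _ => ?_
    rw [aw_apply, ← μ.nat, A.map_map, B.map_map]
  have e2 : μ.aw (p + 1) q (p + q + 1) (A.d p a) b = ∑ i ∈ Finset.range (p + 2),
      sn i (μ.app (p + q + 1) (A.map ((fr (p + 1) (p + q + 1)).comp (dl p i)) a)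
        (B.map (bk q (p + q + 1)) b)) := by
    rw [CosMod.d_apply, map_sum, LinearMap.sum_apply]
    refine Finset.sum_congr rfl fun i _ => ?_
    rw [CosMod.sn_lin, sn_apply_lin, aw_apply, A.map_map]
  have e3 : μ.aw p (q + 1) (p + q + 1) a (B.d q b) = ∑ i ∈ Finset.range (q + 2),
      sn i (μ.app (p + q + 1) (A.map (fr p (p + q + 1)) a)
        (B.map ((bk (q + 1) (p + q + 1)).comp (dl q i)) b)) := by
    rw [CosMod.d_apply, map_sum]
    refine Finset.sum_congr rfl fun i _ => ?_
    rw [CosMod.sn_lin, aw_apply, B.map_map]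
  rw [e1, e2, e3]
  refine leibniz_sum p q _ _ _ (fun i hi => ?_) (fun k hk => ?_) ?_
  · rw [dl_fr_le (by omega), dl_bk_le (by omega) (by omega)]
  · rw [dl_fr_gt (by omega) (by omega), dl_bk_ge (k + 1) (by omega) (by omega)]
  · rw [← dl_fr_le (n := p + q) (by omega), dl_fr_gt (by omega) (by omega),
      ← dl_bk_ge (n := p + q) (i := p) 0 (by omega) (by omega), dl_bk_le (by omega) (by omega)]

end Pair

end Vale.Agent.P263.S
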