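import Vale.Agent.P263.S.Defs
import Vale.Agent.P263.S.AW

/-!
# P263, block S4: good classes (helper548)

`cr N e b` : the exterior (Alexander-Whitney) product of cochains `e ∈ K^n`, `b ∈ B^m` in
`(K ⊗ B)^N`, `N = n + m`.

`Good K n e` : `e` is a cocycle of degree `n` of `K` such that for EVERY cosimplicial module `B` the
product with `e` induces isomorphisms `H^m(B) → H^(n+m)(K ⊗ B)`, and `H^j(K ⊗ B) = 0` for `j < n`.
This is the form in which the lowest class principle is used: good objects are closed under tensor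
products.
-/

open scoped TensorProduct

namespace Vale.Agent.P263.S

variable {R : Type} [CommRing R]

/-! ### The exterior product of cochains -/

/-- The exterior product of cochains, in total degree `N` (used for `N = n + m`). -/
def cr {K B : CosMod R} {n m : ℕ} (N : ℕ) (e : K.obj n) (b : B.obj m) : (tensor K B).obj N :=
  (K.map (fr n N) e ⊗ₜ[R] B.map (bk m N) b : K.obj N ⊗[R] B.obj N)

/-- the universal pairing -/
def upair (K B : CosMod R) : Pair K B (tensor K B) where
  app p := TensorProduct.mk R (K.obj p) (B.obj p)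
  nat _ _ _ := rfl

section cr

variable {K B : CosMod R} {n m N : ℕ}

theorem cr_eq_aw (e : K.obj n) (b : B.obj m) : cr N e b = (upair K B).aw n m N e b := rfl

theorem cr_add_left (e e' : K.obj n) (b : B.obj m) :
    cr N (e + e') b = cr N e b + cr N e' b := by
  rw [cr_eq_aw, map_add]; rfl

theorem cr_add_right (e : K.obj n) (b b' : B.obj m) :
    cr N e (b + b') = cr N e b + cr N e b' := by
  rw [cr_eq_aw, map_add]; rfl

theorem cr_sub_left (e e' : K.obj n) (b : B.obj m) :
    cr N (e - e') b = cr N e b - cr N e' b := by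
  rw [cr_eq_aw, map_sub]; rfl

theorem cr_sub_right (e : K.obj n) (b b' : B.obj m) :
    cr N e (b - b') = cr N e b - cr N e b' := by
  rw [cr_eq_aw, map_sub]; rfl

theorem cr_smul_left (r : R) (e : K.obj n) (b : B.obj m) :
    cr N (r • e) b = r • cr N e b := by
  rw [cr_eq_aw, map_smul]; rfl

theorem cr_smul_right (r : R) (e : K.obj n) (b : B.obj m) :
    cr N e (r • b) = r • cr N e b := by
  rw [cr_eq_aw, map_smul]; rfl

theorem cr_zero_left (b : B.obj m) : cr N (0 : K.obj n) b = 0 := by
  rw [cr_eq_aw, map_zero]; rfl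

theorem cr_zero_right (e : K.obj n) : cr N e (0 : B.obj m) = 0 := by
  rw [cr_eq_aw, map_zero]

theorem d_cr (h : N = n + m) (e : K.obj n) (b : B.obj m) :
    (tensor K B).d N (cr N e b) = cr (N + 1) (K.d n e) b + sn n (cr (N + 1) e (B.d m b)) :=
  (upair K B).d_aw h e b

theorem cr_mem_Z (h : N = n + m) {e : K.obj n} {b : B.obj m} (he : e ∈ K.Z n) (hb : b ∈ B.Z m) :
    cr N e b ∈ (tensor K B).Z N := by
  rw [CosMod.mem_Z] at *
  rw [d_cr h, he, hb, cr_zero_left, cr_zero_right, sn_zero_val, add_zero]

theorem sn_mem {A : Type*} [AddCommGroup A] [Module R A] (S : Submodule R A) (k : ℕ) {x : A}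
    (hx : x ∈ S) : sn k x ∈ S := S.toAddSubgroup.zsmul_mem hx _

theorem cr_mem_Bd_right (h : N = n + m) {e : K.obj n} {b : B.obj m} (he : e ∈ K.Z n)
    (hb : b ∈ B.Bd m) : cr N e b ∈ (tensor K B).Bd N := by
  cases m with
  | zero =>
    rw [CosMod.mem_Bd_zero] at hb
    rw [hb, cr_zero_right]
    exact zero_mem _
  | succ m =>
    obtain ⟨b, rfl⟩ := hb
    subst h
    have h1 := d_cr (N := n + m) rfl e b
    rw [CosMod.mem_Z.1 he, cr_zero_left, zero_add] at h1
    have h2 : cr (n + (m + 1)) e (B.d m b) = sn n ((tensor K B).d (n + m) (cr (n + m) e b)) := by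
      rw [h1, sn_sn, sn_double]
      rfl
    rw [h2]
    exact sn_mem _ _ (CosMod.d_mem_Bd _ _)

theorem cr_mem_Bd_left (h : N = n + m) {e : K.obj n} {b : B.obj m} (he : e ∈ K.Bd n)
    (hb : b ∈ B.Z m) : cr N e b ∈ (tensor K B).Bd N := by
  cases n with
  | zero =>
    rw [CosMod.mem_Bd_zero] at he
    rw [he, cr_zero_left]
    exact zero_mem _
  | succ n =>
    obtain ⟨e, rfl⟩ := he
    obtain rfl : N = n + m + 1 := by omega
    have h1 := d_cr (N := n + m) rfl e b
    rw [CosMod.mem_Z.1 hb, cr_zero_right, sn_zero_val, add_zero] at h1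
    rw [← h1]
    exact CosMod.d_mem_Bd _ _

theorem cr_nat {K' B' : CosMod R} (f : Hom K K') (g : Hom B B') (e : K.obj n) (b : B.obj m) :
    (f.tens g).app N (cr N e b) = cr N (f.app n e) (g.app m b) := by
  show (f.tens g).app N (K.map (fr n N) e ⊗ₜ[R] B.map (bk m N) b) = _
  rw [Hom.tens_app_tmul, f.nat, g.nat]
  rfl

end cr

/-! ### Associativity and symmetry of the levelwise tensor product -/

/-- the associator -/
def assocH (A B C : CosMod R) : Hom (tensor (tensor A B) C) (tensor A (tensor B C)) where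
  app p := (TensorProduct.assoc R (A.obj p) (B.obj p) (C.obj p)).toLinearMap
  nat {p q} φ x := by
    have h : (TensorProduct.assoc R (A.obj q) (B.obj q) (C.obj q)).toLinearMap.comp
        (TensorProduct.map (TensorProduct.map (A.map φ) (B.map φ)) (C.map φ)) =
        (TensorProduct.map (A.map φ) (TensorProduct.map (B.map φ) (C.map φ))).comp
          (TensorProduct.assoc R (A.obj p) (B.obj p) (C.obj p)).toLinearMap := by
      apply TensorProduct.ext_threefold
      intro a b c
      rfl
    exact LinearMap.congr_fun h x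

/-- the inverse associator -/
def assocInv (A B C : CosMod R) : Hom (tensor A (tensor B C)) (tensor (tensor A B) C) where
  app p := (TensorProduct.assoc R (A.obj p) (B.obj p) (C.obj p)).symm.toLinearMap
  nat {p q} φ x := by
    have h : (TensorProduct.assoc R (A.obj q) (B.obj q) (C.obj q)).symm.toLinearMap.comp
        (TensorProduct.map (A.map φ) (TensorProduct.map (B.map φ) (C.map φ))) =
        (TensorProduct.map (TensorProduct.map (A.map φ) (B.map φ)) (C.map φ)).comp
          (TensorProduct.assoc R (A.obj p) (B.obj p) (C.obj p)).symm.toLinearMap := by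
      apply TensorProduct.ext
      apply LinearMap.ext
      intro a
      apply TensorProduct.ext'
      intro b c
      rfl
    exact LinearMap.congr_fun h x

theorem assocInv_assocH (A B C : CosMod R) (p : ℕ) (x : (tensor (tensor A B) C).obj p) :
    (assocInv A B C).app p ((assocH A B C).app p x) = x :=
  (TensorProduct.assoc R (A.obj p) (B.obj p) (C.obj p)).symm_apply_apply x

theorem assocH_assocInv (A B C : CosMod R) (p : ℕ) (x : (tensor A (tensor B C)).obj p) :
    (assocH A B C).app p ((assocInv A B C).app p x) = x :=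
  (TensorProduct.assoc R (A.obj p) (B.obj p) (C.obj p)).apply_symm_apply x

/-- the exterior product is strictly associative -/
theorem cr_assoc {A B C : CosMod R} {p q r N : ℕ} (h : N = p + q + r) (a : A.obj p) (b : B.obj q)
    (c : C.obj r) :
    (assocH A B C).app N (cr N (cr (p + q) a b) c) = cr N a (cr (q + r) b c) := by
  show (A.map (fr (p + q) N) (A.map (fr p (p + q)) a)) ⊗ₜ[R]
      ((B.map (fr (p + q) N) (B.map (bk q (p + q)) b)) ⊗ₜ[R] (C.map (bk r N) c)) =
    (A.map (fr p N) a) ⊗ₜ[R] ((B.map (bk (q + r) N) (B.map (fr q (q + r)) b)) ⊗ₜ[R]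
      (C.map (bk (q + r) N) (C.map (bk r (q + r)) c)))
  rw [A.map_map, B.map_map, B.map_map, C.map_map, fr_fr (by omega) (by omega), fr_bk h,
    bk_bk (by omega) (by omega)]

/-- the symmetry -/
def commH (A B : CosMod R) : Hom (tensor A B) (tensor B A) where
  app p := (TensorProduct.comm R (A.obj p) (B.obj p)).toLinearMap
  nat {p q} φ x := by
    have h : (TensorProduct.comm R (A.obj q) (B.obj q)).toLinearMap.comp
        (TensorProduct.map (A.map φ) (B.map φ)) =
        (TensorProduct.map (B.map φ) (A.map φ)).comp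
          (TensorProduct.comm R (A.obj p) (B.obj p)).toLinearMap := by
      apply TensorProduct.ext'
      intro a b
      rfl
    exact LinearMap.congr_fun h x

theorem commH_tmul (A B : CosMod R) (p : ℕ) (a : A.obj p) (b : B.obj p) :
    (commH A B).app p (a ⊗ₜ[R] b : A.obj p ⊗[R] B.obj p) = b ⊗ₜ[R] a := rfl

theorem commH_commH (A B : CosMod R) (p : ℕ) (x : (tensor A B).obj p) :
    (commH B A).app p ((commH A B).app p x) = x := by
  have h : ((commH B A).app p).comp ((commH A B).app p) =
      (LinearMap.id : (A.obj p ⊗[R] B.obj p) →ₗ[R] (A.obj p ⊗[R] B.obj p)) := by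
    apply TensorProduct.ext'
    intro a b
    rfl
  exact LinearMap.congr_fun h x

/-! ### Transport of coboundaries along isomorphisms -/

theorem mem_Bd_of_inv {A B : CosMod R} (f : Hom A B) (g : Hom B A) {p : ℕ}
    (h : ∀ x, g.app p (f.app p x) = x) {x : A.obj p} (hx : f.app p x ∈ B.Bd p) : x ∈ A.Bd p := by
  have := g.app_mem_Bd hx
  rwa [h] at this

/-! ### Good classes -/

/-- `e` is a cocycle of degree `n` of `K` and for every `B` the product with `e` is an isomorphism
`H^m(B) → H^(n+m)(K ⊗ B)`; moreover `H^j(K ⊗ B) = 0` for `j < n`. -/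
structure Good (K : CosMod R) (n : ℕ) (e : K.obj n) : Prop where
  cyc : e ∈ K.Z n
  low : ∀ (B : CosMod R) (j : ℕ), j < n → (tensor K B).Z j ≤ (tensor K B).Bd j
  gen : ∀ (B : CosMod R) (m N : ℕ), N = n + m → ∀ z ∈ (tensor K B).Z N,
    ∃ b ∈ B.Z m, z - cr N e b ∈ (tensor K B).Bd N
  inj : ∀ (B : CosMod R) (m N : ℕ), N = n + m → ∀ b ∈ B.Z m, cr N e b ∈ (tensor K B).Bd N →
    b ∈ B.Bd m

namespace Good

variable {K K' : CosMod R} {n n' : ℕ} {e : K.obj n} {e' : K'.obj n'}

/-- **Good classes are closed under exterior products.** -/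
theorem tens (h : Good K n e) (h' : Good K' n' e') :
    Good (tensor K K') (n + n') (cr (n + n') e e') where
  cyc := cr_mem_Z rfl h.cyc h'.cyc
  low B j hj z hz := by
    have hz' := (assocH K K' B).app_mem_Z hz
    refine mem_Bd_of_inv (assocH K K' B) (assocInv K K' B) (assocInv_assocH K K' B j) ?_
    rcases Nat.lt_or_ge j n with h1 | h1
    · exact h.low _ j h1 hz'
    · obtain ⟨m, rfl⟩ := Nat.exists_eq_add_of_le h1
      obtain ⟨b, hb, hzb⟩ := h.gen _ m _ rfl _ hz'
      have hb' := h'.low B m (by omega) hb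
      have := add_mem hzb (cr_mem_Bd_right (N := n + m) rfl h.cyc hb')
      rwa [sub_add_cancel] at this
  gen B m N hN z hz := by
    have hz' := (assocH K K' B).app_mem_Z hz
    obtain ⟨c, hc, hzc⟩ := h.gen _ (n' + m) N (by omega) _ hz'
    obtain ⟨b, hb, hcb⟩ := h'.gen _ m _ rfl _ hc
    refine ⟨b, hb, mem_Bd_of_inv (assocH K K' B) (assocInv K K' B) (assocInv_assocH K K' B N) ?_⟩
    rw [map_sub, cr_assoc hN]
    have h1 := cr_mem_Bd_right (N := N) (by omega) h.cyc hcb
    rw [cr_sub_right] at h1
    have := add_mem hzc h1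
    rwa [sub_add_sub_cancel] at this
  inj B m N hN b hb hx := by
    have h1 := (assocH K K' B).app_mem_Bd hx
    rw [cr_assoc hN] at h1
    exact h'.inj B m _ rfl b hb
      (h.inj _ (n' + m) N (by omega) _ (cr_mem_Z rfl h'.cyc hb) h1)

end Good

/-! ### The coefficients in lowest degree -/

/-- `K → K ⊗ R` -/
def ridH (K : CosMod R) : Hom K (tensor K (const R)) where
  app p := (TensorProduct.rid R (K.obj p)).symm.toLinearMap
  nat _ _ := rfl

/-- `K ⊗ R → K` -/
def ridInv (K : CosMod R) : Hom (tensor K (const R)) K where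
  app p := (TensorProduct.rid R (K.obj p)).toLinearMap
  nat {p q} φ x := by
    have h : (TensorProduct.rid R (K.obj q)).toLinearMap.comp
        (TensorProduct.map (K.map φ) LinearMap.id) =
        (K.map φ).comp (TensorProduct.rid R (K.obj p)).toLinearMap := by
      apply TensorProduct.ext'
      intro a b
      show b • K.map φ a = K.map φ (b • a)
      rw [map_smul]
    exact LinearMap.congr_fun h x

theorem ridInv_ridH (K : CosMod R) (p : ℕ) (x : K.obj p) :
    (ridInv K).app p ((ridH K).app p x) = x :=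
  (TensorProduct.rid R (K.obj p)).apply_symm_apply x

/-- a scalar as element of the constant cosimplicial module -/
def cst (r : R) : (const R : CosMod R).obj 0 := r

theorem cst_mem_Z (r : R) : cst r ∈ (const R : CosMod R).Z 0 := by
  have h : ∀ x : (const R : CosMod R).obj 0, (const R : CosMod R).d 0 x = 0 := by
    intro x
    rw [CosMod.d_apply]
    simp only [zero_add, Finset.sum_range_succ, Finset.sum_range_zero]
    show sn 0 x + sn 1 x = 0
    simp [sn]
  exact h _

theorem cr_cst (K : CosMod R) {n : ℕ} (e : K.obj n) (r : R) :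
    cr n e (cst r) = (ridH K).app n (r • e) := by
  show K.map (fr n n) e ⊗ₜ[R] r = (r • e) ⊗ₜ[R] (1 : R)
  rw [fr_self, K.map_id_apply, TensorProduct.smul_tmul, smul_eq_mul, mul_one]

namespace Good

variable {K K' : CosMod R} {n n' : ℕ} {e : K.obj n} {e' : K'.obj n'}

theorem H_low (h : Good K n e) {j : ℕ} (hj : j < n) : K.Z j ≤ K.Bd j := fun _ hz =>
  mem_Bd_of_inv (ridH K) (ridInv K) (ridInv_ridH K j) (h.low _ j hj ((ridH K).app_mem_Z hz))

theorem H_gen (h : Good K n e) {z : K.obj n} (hz : z ∈ K.Z n) : ∃ r : R, z - r • e ∈ K.Bd n := by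
  obtain ⟨b, _, hr⟩ := h.gen (const R) 0 n rfl _ ((ridH K).app_mem_Z hz)
  obtain ⟨r, rfl⟩ : ∃ r : R, cst r = b := ⟨b, rfl⟩
  refine ⟨r, mem_Bd_of_inv (ridH K) (ridInv K) (ridInv_ridH K n) ?_⟩
  rw [cr_cst, ← map_sub] at hr
  exact hr

theorem H_inj (h : Good K n e) {r : R} (hr : r • e ∈ K.Bd n) : r = 0 := by
  have h1 := (ridH K).app_mem_Bd hr
  rw [← cr_cst] at h1
  exact h.inj (const R) 0 n rfl _ (cst_mem_Z r) h1

/-- the class of `e` is not zero -/
theorem not_mem_Bd [Nontrivial R] (h : Good K n e) : e ∉ K.Bd n := fun he =>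
  one_ne_zero (h.H_inj (r := 1) (by rwa [one_smul]))

end Good

/-- Over `F_2` the lowest class is unique. -/
theorem Good.eq_or {K : CosMod (ZMod 2)} {n : ℕ} {e : K.obj n} (h : Good K n e) {z : K.obj n}
    (hz : z ∈ K.Z n) : z ∈ K.Bd n ∨ z - e ∈ K.Bd n := by
  obtain ⟨r, hr⟩ := h.H_gen hz
  have h2 : ∀ a : ZMod 2, a = 0 ∨ a = 1 := by decide
  rcases h2 r with rfl | rfl
  · left
    rwa [zero_smul, sub_zero] at hr
  · right
    rwa [one_smul] at hr

/-- Over `F_2` every map with a left inverse between good objects carries the lowest class to the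
lowest class. -/
theorem Good.map_sub_mem {K K' : CosMod (ZMod 2)} {n : ℕ} {e : K.obj n} {e' : K'.obj n}
    (h : Good K n e) (h' : Good K' n e') (f : Hom K K') (g : Hom K' K)
    (hgf : ∀ x, g.app n (f.app n x) = x) : f.app n e - e' ∈ K'.Bd n := by
  rcases h'.eq_or (f.app_mem_Z h.cyc) with h1 | h1
  · exact absurd (mem_Bd_of_inv f g hgf h1) h.not_mem_Bd
  · exact h1

end Vale.Agent.P263.S
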