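import Vale.Agent.P263.S.Cup
import Vale.Agent.P263.S.Good

/-!
# P263, block S: products and connecting maps; equivariant pairings of homotopy fixed points;
flipped pairings (helper587, helper35)
-/

noncomputable section

namespace Vale.Agent.P263.S

open CosMod

variable {R : Type} [CommRing R]

/-! ### Connecting homomorphisms -/

/-- `conn (x ∪ y) = (conn x) ∪ y` -/
theorem conn_cupH_left {A₁ A₂ A₃ B C₁ C₂ C₃ : CosMod R} (S : SES A₁ A₂ A₃) (T : SES C₁ C₂ C₃)
    (μ₁ : Bil A₁ B C₁) (μ₂ : Bil A₂ B C₂) (μ₃ : Bil A₃ B C₃)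
    (hi : ∀ p x y, T.i.app p (μ₁.app p x y) = μ₂.app p (S.i.app p x) y)
    (hp : ∀ p x y, T.p.app p (μ₂.app p x y) = μ₃.app p (S.p.app p x) y)
    {m n k : ℕ} (h : k = m + n) (h' : k + 1 = m + 1 + n) (x : A₃.H m) (y : B.H n) :
    T.conn k (μ₃.cupH h x y) = μ₁.cupH h' (S.conn m x) y := by
  induction x using H_ind with
  | h x =>
    induction y using H_ind with
    | h y =>
      obtain ⟨b, a, hb, ha, hc⟩ := S.conn_exists m x
      rw [hc, Bil.cupH_cls, Bil.cupH_cls]
      refine T.conn_cls (b := μ₂.cup k b y.1) ?_ ?_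
      · rw [Bil.cup_nat μ₂ μ₃ S.p (Hom.id B) T.p hp, hb]
        rfl
      · change T.i.app (k + 1) (μ₁.cup (k + 1) a.1 y.1) = _
        rw [Bil.cup_nat μ₁ μ₂ S.i (Hom.id B) T.i hi, ha, μ₂.d_cup h, mem_Z.1 y.2,
          Bil.cup_zero_right, sn_zero_val, add_zero]
        rfl

/-- `conn (x ∪ y) = (-1)^m x ∪ (conn y)` -/
theorem conn_cupH_right {A B₁ B₂ B₃ C₁ C₂ C₃ : CosMod R} (S : SES B₁ B₂ B₃) (T : SES C₁ C₂ C₃)
    (μ₁ : Bil A B₁ C₁) (μ₂ : Bil A B₂ C₂) (μ₃ : Bil A B₃ C₃)
    (hi : ∀ p x y, T.i.app p (μ₁.app p x y) = μ₂.app p x (S.i.app p y))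
    (hp : ∀ p x y, T.p.app p (μ₂.app p x y) = μ₃.app p x (S.p.app p y))
    {m n k : ℕ} (h : k = m + n) (h' : k + 1 = m + (n + 1)) (x : A.H m) (y : B₃.H n) :
    T.conn k (μ₃.cupH h x y) = sn m (μ₁.cupH h' x (S.conn n y)) := by
  induction x using H_ind with
  | h x =>
    induction y using H_ind with
    | h y =>
      obtain ⟨b, a, hb, ha, hc⟩ := S.conn_exists n y
      rw [hc, Bil.cupH_cls, Bil.cupH_cls, ← sn_lin]
      refine T.conn_cls (b := μ₂.cup k x.1 b) ?_ ?_
      · rw [Bil.cup_nat μ₂ μ₃ (Hom.id A) S.p T.p hp, hb]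
        rfl
      · have e : ((sn m (⟨μ₁.cup (k + 1) x.1 a.1, μ₁.cup_mem_Z h' x.2 a.2⟩ : C₁.Z (k + 1)) :
            C₁.Z (k + 1)) : C₁.obj (k + 1)) = sn m (μ₁.cup (k + 1) x.1 a.1) :=
          sn_lin (C₁.Z (k + 1)).subtype m _
        rw [e, sn_lin, Bil.cup_nat μ₁ μ₂ (Hom.id A) S.i T.i hi, ha, μ₂.d_cup h, mem_Z.1 x.2,
          Bil.cup_zero_left, zero_add]
        rfl

/-! ### Pairings of homotopy fixed points -/

/-- Equivariant pairings induce pairings of homotopy fixed points. -/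
def hG.bil {G : Type} [Group G] {A B C : CosMod R} (a : Act G A) (b : Act G B) (c : Act G C)
    (μ : Bil A B C)
    (hμ : ∀ p g x y, μ.app p (a.act p g x) (b.act p g y) = c.act p g (μ.app p x y)) :
    Bil (hG a) (hG b) (hG c) where
  app p := LinearMap.mk₂ R
    (fun x y => hG.mk c (fun s => μ.app p (hG.fn x s) (hG.fn y s)) (fun g s => by
      rw [hG.fn_mul, hG.fn_mul, hμ]))
    (fun x x' y => hG.ext fun s => by simp)
    (fun r x y => hG.ext fun s => by simp)
    (fun x y y' => hG.ext fun s => by simp)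
    (fun r x y => hG.ext fun s => by simp)
  nat φ x y := hG.ext fun s => μ.nat φ _ _

@[simp] theorem hG.bil_fn {G : Type} [Group G] {A B C : CosMod R} (a : Act G A) (b : Act G B)
    (c : Act G C) (μ : Bil A B C)
    (hμ : ∀ p g x y, μ.app p (a.act p g x) (b.act p g y) = c.act p g (μ.app p x y))
    {p : ℕ} (x : (hG a).obj p) (y : (hG b).obj p) (s : Fin (p + 1) → G) :
    hG.fn ((hG.bil a b c μ hμ).app p x y) s = μ.app p (hG.fn x s) (hG.fn y s) := rfl

/-- Restriction to the trivial group is multiplicative. -/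
theorem hG.res_cupH {G : Type} [Group G] {A B C : CosMod R} (a : Act G A) (b : Act G B)
    (c : Act G C) (μ : Bil A B C)
    (hμ : ∀ p g x y, μ.app p (a.act p g x) (b.act p g y) = c.act p g (μ.app p x y))
    {m n k : ℕ} (h : k = m + n) (x : (hG a).H m) (y : (hG b).H n) :
    (hG.res c).mapH k ((hG.bil a b c μ hμ).cupH h x y) =
      μ.cupH h ((hG.res a).mapH m x) ((hG.res b).mapH n y) :=
  Bil.cupH_nat _ _ _ _ _ (fun _ _ _ => rfl) h x y

section h35

variable {A B C : CosMod R}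

/-- restriction to the trivial group is multiplicative -/
theorem hG.res_cup {G : Type} [Group G] (a : Act G A) (b : Act G B) (c : Act G C) (μ : Bil A B C)
    (hμ : ∀ p g x y, μ.app p (a.act p g x) (b.act p g y) = c.act p g (μ.app p x y))
    {m p : ℕ} (n : ℕ) (U : (hG a).obj m) (V : (hG b).obj p) :
    (hG.res c).app n ((hG.bil a b c μ hμ).cup n U V) =
      μ.cup n ((hG.res a).app m U) ((hG.res b).app p V) :=
  Bil.cup_nat (hG.bil a b c μ hμ) μ (hG.res a) (hG.res b) (hG.res c) (fun _ _ _ => rfl) n U V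

/-- naturality of the pairing of homotopy fixed points, cochain form -/
theorem hG.mapHom_cup {G : Type} [Group G] {A' B' C' : CosMod R} (a : Act G A) (b : Act G B)
    (c : Act G C) (a' : Act G A') (b' : Act G B') (c' : Act G C') (μ : Bil A B C)
    (hμ : ∀ p g x y, μ.app p (a.act p g x) (b.act p g y) = c.act p g (μ.app p x y))
    (μ' : Bil A' B' C')
    (hμ' : ∀ p g x y, μ'.app p (a'.act p g x) (b'.act p g y) = c'.act p g (μ'.app p x y))
    (f : Hom A A') (hf : ∀ p g x, f.app p (a.act p g x) = a'.act p g (f.app p x))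
    (g : Hom B B') (hg : ∀ p h x, g.app p (b.act p h x) = b'.act p h (g.app p x))
    (k : Hom C C') (hk : ∀ p g x, k.app p (c.act p g x) = c'.act p g (k.app p x))
    (e : ∀ p x y, k.app p (μ.app p x y) = μ'.app p (f.app p x) (g.app p y))
    {m p : ℕ} (n : ℕ) (U : (hG a).obj m) (V : (hG b).obj p) :
    (hG.mapHom c c' k hk).app n ((hG.bil a b c μ hμ).cup n U V) =
      (hG.bil a' b' c' μ' hμ').cup n ((hG.mapHom a a' f hf).app m U)
        ((hG.mapHom b b' g hg).app p V) :=
  Bil.cup_nat _ _ _ _ _ (fun p _ _ => hG.ext fun _ => e p _ _) n U V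

/-- naturality of the pairing of homotopy fixed points in cohomology -/
theorem hG.mapHom_cupH {G : Type} [Group G] {A' B' C' : CosMod R} (a : Act G A) (b : Act G B)
    (c : Act G C) (a' : Act G A') (b' : Act G B') (c' : Act G C') (μ : Bil A B C)
    (hμ : ∀ p g x y, μ.app p (a.act p g x) (b.act p g y) = c.act p g (μ.app p x y))
    (μ' : Bil A' B' C')
    (hμ' : ∀ p g x y, μ'.app p (a'.act p g x) (b'.act p g y) = c'.act p g (μ'.app p x y))
    (f : Hom A A') (hf : ∀ p g x, f.app p (a.act p g x) = a'.act p g (f.app p x))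
    (g : Hom B B') (hg : ∀ p h x, g.app p (b.act p h x) = b'.act p h (g.app p x))
    (k : Hom C C') (hk : ∀ p g x, k.app p (c.act p g x) = c'.act p g (k.app p x))
    (e : ∀ p x y, k.app p (μ.app p x y) = μ'.app p (f.app p x) (g.app p y))
    {m p n : ℕ} (hn : n = m + p) (U : (hG a).H m) (V : (hG b).H p) :
    (hG.mapHom c c' k hk).mapH n ((hG.bil a b c μ hμ).cupH hn U V) =
      (hG.bil a' b' c' μ' hμ').cupH hn ((hG.mapHom a a' f hf).mapH m U)
        ((hG.mapHom b b' g hg).mapH p V) :=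
  Bil.cupH_nat _ _ _ _ _ (fun p _ _ => hG.ext fun _ => e p _ _) hn U V

end h35

/-! ### Graded commutativity over `F_2` -/

/-- The flipped pairing. -/
def Bil.flip {A B C : CosMod R} (μ : Bil A B C) : Bil B A C where
  app p := (μ.app p).flip
  nat φ x y := μ.nat φ y x

@[simp] theorem Bil.flip_app {A B C : CosMod R} (μ : Bil A B C) (p : ℕ) (x : B.obj p)
    (y : A.obj p) : μ.flip.app p x y = μ.app p y x := rfl

theorem Bil.lift_cr {A B C : CosMod R} (μ : Bil A B C) {m n : ℕ} (N : ℕ) (x : A.obj m)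
    (y : B.obj n) : μ.lift.app N (cr N x y) = μ.cup N x y :=
  Bil.lift_tmul μ N _ _

end Vale.Agent.P263.S
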