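import Vale.Agent.P263.S.GoodM
import Vale.Agent.P263.S.Dsum
import Vale.Agent.P263.S.LCP
import Vale.Agent.P263.S.HG
import Vale.Agent.P263.S.HBil

/-!
# P263, block S4: the external square `P` (helper548)

For a pairing `μ : Bil A A C` which is symmetric with respect to an action `c` of `C2` on `C`
(`Sym μ c`) and a cocycle `x ∈ A^n`, `Pz μ c h x hx ∈ (hG c)^(n+n)` is a cocycle whose restriction
to `C` is cohomologous to the product `x × x`; its class depends only on the class of `x`
(`Pz_sub_mem`), hence `P μ c h : A.H n → (hG c).H (n+n)`.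

Everything holds over a commutative ring `R` under the hypothesis `Inv R n` (invariance of the
class `ι × ι` under the swap), which is automatic for `R = ZMod 2`.
-/

open scoped TensorProduct

noncomputable section

namespace Vale.Agent.P263.S

variable {R : Type} [CommRing R]

/-! ### The group of order two -/

/-- the non-trivial element of `C2` -/
def C2.t : C2 := Multiplicative.ofAdd 1

theorem C2.cases (g : C2) : g = 1 ∨ g = C2.t := by
  have h : ∀ g : C2, g = 1 ∨ g = C2.t := by decide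
  exact h g

theorem C2.t_mul_t : C2.t * C2.t = 1 := by decide

theorem ofInvol_t {B : CosMod R} (T : Hom B B) (hT : ∀ p (x : B.obj p), T.app p (T.app p x) = x)
    (p : ℕ) (x : B.obj p) : (Act.ofInvol T hT).act p C2.t x = T.app p x := by
  show (if Multiplicative.toAdd C2.t = 0 then LinearMap.id else T.app p : B.obj p →ₗ[R] B.obj p) x
    = T.app p x
  rw [if_neg (by decide)]

theorem act_one {G : Type} [Group G] {B : CosMod R} (a : Act G B) (p : ℕ) (x : B.obj p) :
    a.act p 1 x = x := by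
  rw [map_one]; rfl

/-- Equivariance under `C2` is checked on the non-trivial element. -/
theorem equiv_C2 {B C : CosMod R} {a : Act C2 B} {c : Act C2 C} (f : Hom B C)
    (h : ∀ p x, f.app p (a.act p C2.t x) = c.act p C2.t (f.app p x)) :
    ∀ p (g : C2) (x : B.obj p), f.app p (a.act p g x) = c.act p g (f.app p x) := by
  intro p g x
  rcases C2.cases g with rfl | rfl
  · rw [act_one, act_one]
  · exact h p x

/-- the swap on `A ⊗ A` -/
def swapAct (A : CosMod R) : Act C2 (tensor A A) := Act.ofInvol (commH A A) (commH_commH A A)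

theorem swapAct_t (A : CosMod R) (p : ℕ) (x : (tensor A A).obj p) :
    (swapAct A).act p C2.t x = (commH A A).app p x := ofInvol_t _ _ p x

/-- `μ` is symmetric with respect to the action `c` on its target. -/
def Sym {A C : CosMod R} (μ : Bil A A C) (c : Act C2 C) : Prop :=
  ∀ (p : ℕ) (x y : A.obj p), c.act p C2.t (μ.app p x y) = μ.app p y x

theorem sym_univ (A : CosMod R) : Sym (Bil.univ A A) (swapAct A) := fun p x y => by
  rw [swapAct_t]
  rfl

theorem Sym.equiv {A C : CosMod R} {μ : Bil A A C} {c : Act C2 C} (h : Sym μ c) :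
    ∀ p (g : C2) (x : (tensor A A).obj p),
      μ.lift.app p ((swapAct A).act p g x) = c.act p g (μ.lift.app p x) := by
  refine equiv_C2 _ fun p x => ?_
  rw [swapAct_t]
  have e : μ.lift.comp (commH A A) = (c.hom C2.t).comp μ.lift := by
    apply hom_tensor_ext
    intro p a b
    show μ.lift.app p ((commH A A).app p (a ⊗ₜ[R] b : A.obj p ⊗[R] A.obj p)) =
      c.act p C2.t (μ.lift.app p (a ⊗ₜ[R] b : A.obj p ⊗[R] A.obj p))
    rw [commH_tmul, Bil.lift_tmul, Bil.lift_tmul, h]
  exact congrArg (fun k : Hom (tensor A A) C => k.app p x) e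

theorem tens_equiv {A A' : CosMod R} (f : Hom A A') :
    ∀ p (g : C2) (x : (tensor A A).obj p),
      (f.tens f).app p ((swapAct A).act p g x) = (swapAct A').act p g ((f.tens f).app p x) := by
  refine equiv_C2 _ fun p x => ?_
  rw [swapAct_t, swapAct_t]
  have e : (f.tens f).comp (commH A A) = (commH A' A').comp (f.tens f) := by
    apply hom_tensor_ext
    intro p a b
    rfl
  exact congrArg (fun k : Hom (tensor A A) (tensor A' A') => k.app p x) e

/-! ### Functoriality of `hG` -/

theorem hG.mapHom_comp {G : Type} [Group G] {A B C : CosMod R} (a : Act G A) (b : Act G B)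
    (c : Act G C) (f : Hom A B) (g : Hom B C) (hf hg hgf) (p : ℕ) (x : (hG a).obj p) :
    (hG.mapHom b c g hg).app p ((hG.mapHom a b f hf).app p x) =
      (hG.mapHom a c (g.comp f) hgf).app p x := rfl

theorem hG.mapHom_congr {G : Type} [Group G] {A B : CosMod R} (a : Act G A) (b : Act G B)
    {f g : Hom A B} (h : f = g) (hf) (hg) : hG.mapHom a b f hf = hG.mapHom a b g hg := by
  subst h
  rfl

/-! ### The universal class -/

/-- The class `ι_n × ι_n` is invariant under the swap. -/
class Inv (R : Type) [CommRing R] (n : ℕ) : Prop where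
  out : (commH (M R n) (M R n)).app (n + n) (cr (n + n) (iotaM R n) (iotaM R n)) -
    cr (n + n) (iotaM R n) (iotaM R n) ∈ (tensor (M R n) (M R n)).Bd (n + n)

theorem good_MM (R : Type) [CommRing R] (n : ℕ) :
    Good (tensor (M R n) (M R n)) (n + n) (cr (n + n) (iotaM R n) (iotaM R n)) :=
  (good_M n).tens (good_M n)

instance inv_F2 (n : ℕ) : Inv (ZMod 2) n :=
  ⟨(good_MM (ZMod 2) n).map_sub_mem (good_MM (ZMod 2) n) (commH _ _) (commH _ _)
    (commH_commH _ _ _)⟩

theorem exists_univP (R : Type) [CommRing R] (n : ℕ) [h : Inv R n] :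
    ∃ f ∈ (hG (swapAct (M R n))).Z (n + n), (hG.res (swapAct (M R n))).app (n + n) f -
      cr (n + n) (iotaM R n) (iotaM R n) ∈ (tensor (M R n) (M R n)).Bd (n + n) := by
  refine hG_exists (swapAct (M R n)) (fun i hi => (good_MM R n).H_low hi) (good_MM R n).cyc ?_
  intro g
  rcases C2.cases g with rfl | rfl
  · rw [act_one, sub_self]
    exact zero_mem _
  · rw [swapAct_t]
    exact h.out

/-- The universal external square. -/
def univP (R : Type) [CommRing R] (n : ℕ) [Inv R n] : (hG (swapAct (M R n))).obj (n + n) :=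
  Classical.choose (exists_univP R n)

theorem univP_mem_Z (R : Type) [CommRing R] (n : ℕ) [Inv R n] :
    univP R n ∈ (hG (swapAct (M R n))).Z (n + n) :=
  (Classical.choose_spec (exists_univP R n)).1

theorem univP_res (R : Type) [CommRing R] (n : ℕ) [Inv R n] :
    (hG.res (swapAct (M R n))).app (n + n) (univP R n) -
      cr (n + n) (iotaM R n) (iotaM R n) ∈ (tensor (M R n) (M R n)).Bd (n + n) :=
  (Classical.choose_spec (exists_univP R n)).2

/-! ### The external square of a cocycle -/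

section Pz

variable {A C : CosMod R} {n : ℕ}

/-- The map `M n ⊗ M n → C` determined by a pairing and a cocycle. -/
def sqHom (μ : Bil A A C) (x : A.obj n) (hx : x ∈ A.Z n) : Hom (tensor (M R n) (M R n)) C :=
  μ.lift.comp ((ofM x hx).tens (ofM x hx))

theorem sqHom_equiv {μ : Bil A A C} {c : Act C2 C} (h : Sym μ c) (x : A.obj n) (hx : x ∈ A.Z n) :
    ∀ p (g : C2) (y : (tensor (M R n) (M R n)).obj p),
      (sqHom μ x hx).app p ((swapAct (M R n)).act p g y) = c.act p g ((sqHom μ x hx).app p y) := by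
  intro p g y
  show μ.lift.app p (((ofM x hx).tens (ofM x hx)).app p _) = _
  rw [tens_equiv, h.equiv]
  rfl

/-- The external square of a cocycle (cochain level, depends on the choice of `univP`). -/
def Pz (μ : Bil A A C) (c : Act C2 C) (h : Sym μ c) [Inv R n] (x : A.obj n) (hx : x ∈ A.Z n) :
    (hG c).obj (n + n) :=
  (hG.mapHom (swapAct (M R n)) c (sqHom μ x hx) (sqHom_equiv h x hx)).app (n + n) (univP R n)

theorem Pz_mem_Z (μ : Bil A A C) (c : Act C2 C) (h : Sym μ c) [Inv R n] (x : A.obj n)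
    (hx : x ∈ A.Z n) : Pz μ c h x hx ∈ (hG c).Z (n + n) :=
  Hom.app_mem_Z _ (univP_mem_Z R n)

theorem ofM_nat {A' : CosMod R} (f : Hom A A') (x : A.obj n) (hx : x ∈ A.Z n)
    (hx' : f.app n x ∈ A'.Z n) : ofM (f.app n x) hx' = f.comp (ofM x hx) := by
  apply hom_M_ext
  rw [ofM_iota, Hom.comp_app, ofM_iota]

/-- naturality of the map `sqHom` -/
theorem sqHom_nat {A' C' : CosMod R} (μ : Bil A A C) (μ' : Bil A' A' C') (f : Hom A A')
    (g : Hom C C') (hg : ∀ p a b, g.app p (μ.app p a b) = μ'.app p (f.app p a) (f.app p b))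
    (x : A.obj n) (hx : x ∈ A.Z n) (hx' : f.app n x ∈ A'.Z n) :
    sqHom μ' (f.app n x) hx' = g.comp (sqHom μ x hx) := by
  apply hom_tensor_ext
  intro p a b
  show μ'.lift.app p (((ofM (f.app n x) hx').tens (ofM (f.app n x) hx')).app p
      (a ⊗ₜ[R] b : (M R n).obj p ⊗[R] (M R n).obj p)) =
    g.app p (μ.lift.app p (((ofM x hx).tens (ofM x hx)).app p
      (a ⊗ₜ[R] b : (M R n).obj p ⊗[R] (M R n).obj p)))
  rw [Hom.tens_app_tmul, Hom.tens_app_tmul, Bil.lift_tmul, Bil.lift_tmul, hg, ofM_nat f x hx]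
  rfl

/-- **Naturality of the external square** (cochain level). -/
theorem Pz_nat {A' C' : CosMod R} (μ : Bil A A C) (c : Act C2 C) (h : Sym μ c)
    (μ' : Bil A' A' C') (c' : Act C2 C') (h' : Sym μ' c') [Inv R n] (f : Hom A A') (g : Hom C C')
    (hgc : ∀ p (s : C2) (x : C.obj p), g.app p (c.act p s x) = c'.act p s (g.app p x))
    (hg : ∀ p a b, g.app p (μ.app p a b) = μ'.app p (f.app p a) (f.app p b))
    (x : A.obj n) (hx : x ∈ A.Z n) (hx' : f.app n x ∈ A'.Z n) :
    Pz μ' c' h' (f.app n x) hx' = (hG.mapHom c c' g hgc).app (n + n) (Pz μ c h x hx) := by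
  apply hG.ext
  intro s
  show (sqHom μ' (f.app n x) hx').app (n + n) (hG.fn (univP R n) s) =
    g.app (n + n) ((sqHom μ x hx).app (n + n) (hG.fn (univP R n) s))
  rw [sqHom_nat μ μ' f g hg x hx hx']
  rfl

/-- Naturality with the image cocycle given up to equality. -/
theorem Pz_nat' {A' C' : CosMod R} (μ : Bil A A C) (c : Act C2 C) (h : Sym μ c)
    (μ' : Bil A' A' C') (c' : Act C2 C') (h' : Sym μ' c') [Inv R n] (f : Hom A A') (g : Hom C C')
    (hgc : ∀ p (s : C2) (x : C.obj p), g.app p (c.act p s x) = c'.act p s (g.app p x))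
    (hg : ∀ p a b, g.app p (μ.app p a b) = μ'.app p (f.app p a) (f.app p b))
    (x : A.obj n) (hx : x ∈ A.Z n) (x' : A'.obj n) (hx' : x' ∈ A'.Z n) (e : f.app n x = x') :
    Pz μ' c' h' x' hx' = (hG.mapHom c c' g hgc).app (n + n) (Pz μ c h x hx) := by
  subst e
  exact Pz_nat μ c h μ' c' h' f g hgc hg x hx hx'

/-- the value of a pairing on an exterior product -/
theorem lift_cr {B : CosMod R} {m : ℕ} (μ : Bil A B C) (N : ℕ) (x : A.obj n) (y : B.obj m) :
    μ.lift.app N (cr N x y) = μ.app N (A.map (fr n N) x) (B.map (bk m N) y) :=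
  Bil.lift_tmul μ N _ _

/-- The restriction of the external square is `x × x`. -/
theorem Pz_res (μ : Bil A A C) (c : Act C2 C) (h : Sym μ c) [Inv R n] (x : A.obj n)
    (hx : x ∈ A.Z n) :
    (hG.res c).app (n + n) (Pz μ c h x hx) - μ.lift.app (n + n) (cr (n + n) x x) ∈
      C.Bd (n + n) := by
  have h1 := (sqHom μ x hx).app_mem_Bd (univP_res R n)
  rw [map_sub] at h1
  have h2 : (sqHom μ x hx).app (n + n) (cr (n + n) (iotaM R n) (iotaM R n)) =
      μ.lift.app (n + n) (cr (n + n) x x) := by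
    show μ.lift.app (n + n) (((ofM x hx).tens (ofM x hx)).app (n + n)
      (cr (n + n) (iotaM R n) (iotaM R n))) = _
    rw [cr_nat, ofM_iota]
  rw [h2] at h1
  exact h1

/-- **Uniqueness**: if `K ⊗ K` has no cohomology below degree `2n` then a cocycle of
`hG (swapAct K)` of degree `2n` which restricts to `κ × κ` is the external square of `κ`. -/
theorem Pz_unique {K : CosMod R} (hK : ∀ i < n + n, (tensor K K).Z i ≤ (tensor K K).Bd i)
    [Inv R n] (κ : K.obj n) (hκ : κ ∈ K.Z n) (w : (hG (swapAct K)).obj (n + n))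
    (hw : w ∈ (hG (swapAct K)).Z (n + n))
    (hr : (hG.res (swapAct K)).app (n + n) w - cr (n + n) κ κ ∈ (tensor K K).Bd (n + n)) :
    Pz (Bil.univ K K) (swapAct K) (sym_univ K) κ hκ - w ∈ (hG (swapAct K)).Bd (n + n) := by
  refine hG_mem_Bd (n + n) _ (swapAct K) hK _ (sub_mem (Pz_mem_Z _ _ _ κ hκ) hw) ?_
  rw [map_sub]
  have h1 := Pz_res (Bil.univ K K) (swapAct K) (sym_univ K) κ hκ
  have h2 : (Bil.univ K K).lift.app (n + n) (cr (n + n) κ κ) = cr (n + n) κ κ := lift_cr _ _ _ _
  rw [h2] at h1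
  have := sub_mem h1 hr
  rwa [sub_sub_sub_cancel_right] at this

/-! ### Independence of the representative -/

/-- the universal object for a cocycle of degree `k + 1` and a cochain of degree `k` -/
abbrev MLsum (R : Type) [CommRing R] (k : ℕ) : CosMod R := dsum (M R (k + 1)) (L R k)

theorem MLsum_low (k : ℕ) (i : ℕ) (hi : i < (k + 1) + (k + 1)) :
    (tensor (MLsum R k) (MLsum R k)).Z i ≤ (tensor (MLsum R k) (MLsum R k)).Bd i :=
  tens_dsum_low ((good_MM R (k + 1)).H_low hi) (tens_comm_low (L_acyclic R k _ i))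
    (L_acyclic R k _ i) (L_acyclic R k _ i)

/-- the universal cocycle of degree `k + 1` -/
def kap0 (R : Type) [CommRing R] (k : ℕ) : (MLsum R k).obj (k + 1) :=
  (in1 (M R (k + 1)) (L R k)).app (k + 1) (iotaM R (k + 1))

/-- the universal cochain of degree `k` -/
def lam0 (R : Type) [CommRing R] (k : ℕ) : (MLsum R k).obj k :=
  (in2 (M R (k + 1)) (L R k)).app k (iotaL R k)

theorem kap0_mem (k : ℕ) : kap0 R k ∈ (MLsum R k).Z (k + 1) :=
  Hom.app_mem_Z _ (iotaM_mem_Z R (k + 1))

theorem kap1_mem (k : ℕ) : kap0 R k + (MLsum R k).d k (lam0 R k) ∈ (MLsum R k).Z (k + 1) :=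
  add_mem (kap0_mem k) (CosMod.Bd_le_Z _ _ (CosMod.d_mem_Bd _ _))

/-- the map from the universal object -/
def MLhom {k : ℕ} (x : A.obj (k + 1)) (hx : x ∈ A.Z (k + 1)) (y : A.obj k) : Hom (MLsum R k) A :=
  (ofM x hx).comp (pr1 _ _) + (ofL y).comp (pr2 _ _)

theorem MLhom_kap0 {k : ℕ} (x : A.obj (k + 1)) (hx : x ∈ A.Z (k + 1)) (y : A.obj k) :
    (MLhom x hx y).app (k + 1) (kap0 R k) = x := by
  show (ofM x hx).app (k + 1) (iotaM R (k + 1)) + (ofL y).app (k + 1) 0 = x
  rw [ofM_iota, map_zero, add_zero]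

theorem MLhom_lam0 {k : ℕ} (x : A.obj (k + 1)) (hx : x ∈ A.Z (k + 1)) (y : A.obj k) :
    (MLhom x hx y).app k (lam0 R k) = y := by
  show (ofM x hx).app k 0 + (ofL y).app k (iotaL R k) = y
  rw [ofL_iota, map_zero, zero_add]

theorem Pz_kap (k : ℕ) [Inv R (k + 1)] :
    Pz (Bil.univ (MLsum R k) (MLsum R k)) (swapAct (MLsum R k)) (sym_univ (MLsum R k))
        (kap0 R k + (MLsum R k).d k (lam0 R k)) (kap1_mem k) -
      Pz (Bil.univ (MLsum R k) (MLsum R k)) (swapAct (MLsum R k)) (sym_univ (MLsum R k))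
        (kap0 R k) (kap0_mem k) ∈ (hG (swapAct (MLsum R k))).Bd ((k + 1) + (k + 1)) := by
  refine Pz_unique (MLsum_low k) _ (kap1_mem k) _ (Pz_mem_Z _ _ _ _ _) ?_
  have h1 := Pz_res (Bil.univ (MLsum R k) (MLsum R k)) (swapAct (MLsum R k))
    (sym_univ (MLsum R k)) (kap0 R k) (kap0_mem k)
  have h2 : (Bil.univ (MLsum R k) (MLsum R k)).lift.app ((k + 1) + (k + 1))
    (cr ((k + 1) + (k + 1)) (kap0 R k) (kap0 R k)) =
      cr ((k + 1) + (k + 1)) (kap0 R k) (kap0 R k) := lift_cr _ _ _ _
  rw [h2] at h1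
  have hd : (MLsum R k).d k (lam0 R k) ∈ (MLsum R k).Bd (k + 1) := CosMod.d_mem_Bd _ _
  have h3 : cr ((k + 1) + (k + 1)) (kap0 R k + (MLsum R k).d k (lam0 R k))
      (kap0 R k + (MLsum R k).d k (lam0 R k)) - cr ((k + 1) + (k + 1)) (kap0 R k) (kap0 R k) ∈
      (tensor (MLsum R k) (MLsum R k)).Bd ((k + 1) + (k + 1)) := by
    rw [cr_add_right, cr_add_left _ _ (kap0 R k), add_sub_right_comm, add_sub_cancel_left]
    exact add_mem (cr_mem_Bd_left rfl hd (kap0_mem k)) (cr_mem_Bd_right rfl (kap1_mem k) hd)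
  have := sub_mem h1 h3
  rwa [sub_sub_sub_cancel_right] at this

/-- The class of the external square depends only on the class of the cocycle. -/
theorem Pz_sub_mem (μ : Bil A A C) (c : Act C2 C) (h : Sym μ c) [Inv R n] (x x' : A.obj n)
    (hx : x ∈ A.Z n) (hx' : x' ∈ A.Z n) (hxx : x' - x ∈ A.Bd n) :
    Pz μ c h x' hx' - Pz μ c h x hx ∈ (hG c).Bd (n + n) := by
  cases n with
  | zero =>
    rw [CosMod.mem_Bd_zero, sub_eq_zero] at hxx
    subst hxx
    rw [sub_self]
    exact zero_mem _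
  | succ k =>
    obtain ⟨y, hy⟩ := hxx
    let f := MLhom x hx y
    let g : Hom (tensor (MLsum R k) (MLsum R k)) C := μ.lift.comp (f.tens f)
    have hgc : ∀ p (s : C2) (z : (tensor (MLsum R k) (MLsum R k)).obj p),
        g.app p ((swapAct (MLsum R k)).act p s z) = c.act p s (g.app p z) := by
      intro p s z
      show μ.lift.app p ((f.tens f).app p _) = _
      rw [tens_equiv, h.equiv]
      rfl
    have hg : ∀ p a b, g.app p ((Bil.univ (MLsum R k) (MLsum R k)).app p a b) =
        μ.app p (f.app p a) (f.app p b) := by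
      intro p a b
      exact Bil.lift_tmul μ p _ _
    have e0 : f.app (k + 1) (kap0 R k) = x := MLhom_kap0 x hx y
    have e1 : f.app (k + 1) (kap0 R k + (MLsum R k).d k (lam0 R k)) = x' := by
      rw [map_add, e0, f.app_d, MLhom_lam0 x hx y, hy]
      abel
    rw [Pz_nat' (Bil.univ _ _) (swapAct _) (sym_univ _) μ c h f g hgc hg _ (kap0_mem k) x hx e0,
      Pz_nat' (Bil.univ _ _) (swapAct _) (sym_univ _) μ c h f g hgc hg _ (kap1_mem k) x' hx' e1,
      ← map_sub]
    exact Hom.app_mem_Bd _ (Pz_kap k)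

/-- **The external square** `P : H^n(A) → H^(n+n)(hG c)`. -/
def P (μ : Bil A A C) (c : Act C2 C) (h : Sym μ c) [Inv R n] (x : A.H n) :
    (hG c).H (n + n) :=
  (hG c).cls (n + n) ⟨Pz μ c h (Classical.choose (A.cls_surjective n x)).1
    (Classical.choose (A.cls_surjective n x)).2, Pz_mem_Z _ _ _ _ _⟩

theorem P_cls (μ : Bil A A C) (c : Act C2 C) (h : Sym μ c) [Inv R n] (x : A.Z n) :
    P μ c h (A.cls n x) = (hG c).cls (n + n) ⟨Pz μ c h x.1 x.2, Pz_mem_Z _ _ _ _ _⟩ := by
  rw [P, CosMod.cls_eq_iff]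
  have h1 := Classical.choose_spec (A.cls_surjective n (A.cls n x))
  exact Pz_sub_mem μ c h _ _ _ _ (CosMod.cls_eq_iff.1 h1)

/-- Naturality of `P`. -/
theorem P_nat {A' C' : CosMod R} (μ : Bil A A C) (c : Act C2 C) (h : Sym μ c)
    (μ' : Bil A' A' C') (c' : Act C2 C') (h' : Sym μ' c') [Inv R n] (f : Hom A A') (g : Hom C C')
    (hgc : ∀ p (s : C2) (x : C.obj p), g.app p (c.act p s x) = c'.act p s (g.app p x))
    (hg : ∀ p a b, g.app p (μ.app p a b) = μ'.app p (f.app p a) (f.app p b)) (x : A.H n) :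
    P μ' c' h' (f.mapH n x) = (hG.mapHom c c' g hgc).mapH (n + n) (P μ c h x) := by
  induction x using CosMod.H_ind with
  | h z =>
    rw [P_cls, Hom.mapH_cls, Hom.mapH_cls, P_cls]
    congr 1
    exact Subtype.ext (Pz_nat μ c h μ' c' h' f g hgc hg z.1 z.2 _)

/-- **The restriction of `P x` to the trivial group is the square `x ∪ x`.** -/
theorem P_res (μ : Bil A A C) (c : Act C2 C) (h : Sym μ c) [Inv R n] (x : A.H n) :
    (hG.res c).mapH (n + n) (P μ c h x) = μ.cupH (n := n + n) rfl x x := by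
  induction x using CosMod.H_ind with
  | h z =>
    rw [P_cls, Hom.mapH_cls, Bil.cupH_cls, CosMod.cls_eq_iff]
    exact Pz_res μ c h z.1 z.2

/-- **Uniqueness** in cohomology: the value of `P` can be computed with any class of
`hG (swapAct K)` of degree `2n` which restricts to `κ × κ`. -/
theorem P_unique {K : CosMod R} (hK : ∀ i < n + n, (tensor K K).Z i ≤ (tensor K K).Bd i)
    [Inv R n] (κ : K.H n) (w : (hG (swapAct K)).H (n + n))
    (hr : (hG.res (swapAct K)).mapH (n + n) w = (Bil.univ K K).cupH (n := n + n) rfl κ κ) :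
    P (Bil.univ K K) (swapAct K) (sym_univ K) κ = w := by
  induction κ using CosMod.H_ind with
  | h z =>
    induction w using CosMod.H_ind with
    | h w =>
      rw [P_cls, CosMod.cls_eq_iff]
      rw [Hom.mapH_cls, Bil.cupH_cls, CosMod.cls_eq_iff] at hr
      exact Pz_unique hK z.1 z.2 w.1 w.2 hr

end Pz

end Vale.Agent.P263.S
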