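import Vale.Agent.P263.S.LCP
import Vale.Agent.P263.S.HGses
import Vale.Agent.P263.S.HG
import Vale.Agent.P263.E.SqAlg

/-!
# P263, block S3b: multiplication by `u`, the Gysin sequence, trivial actions (helper637)

Coefficients `ZMod 2`.  For a homomorphism `ε : G →* C2` and `a : Act G B`,
`uc ε a p : (hG a).obj p → (hG a).obj (p + 1)` is the cup product with the 1-cocycle
`s ↦ [ε (s 0) ≠ ε (s 1)]`; it commutes with `d`, is natural, and commutes with connecting maps.
For `G = C2` the Gysin sequence is proved on the level of cochains.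
-/

noncomputable section

namespace Vale.Agent.P263.S

open CosMod

theorem sn_two {M : Type*} [AddCommGroup M] [Module (ZMod 2) M] (k : ℕ) (x : M) : sn k x = x := by
  induction k with
  | zero => simp [sn]
  | succ k ih => rw [sn_succ, ih, ZModModule.neg_eq_self]

theorem d_apply_two (A : CosMod (ZMod 2)) (p : ℕ) (x : A.obj p) :
    A.d p x = ∑ i ∈ Finset.range (p + 2), A.map (dl p i) x := by
  rw [d_apply]
  exact Finset.sum_congr rfl fun i _ => sn_two i _

theorem fnE_d_apply {G : Type} (B : CosMod (ZMod 2)) (p : ℕ) (f : (fnE G B).obj p)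
    (s : Fin (p + 2) → G) :
    ((fnE G B).d p f : (Fin (p + 2) → G) → B.obj (p + 1)) s =
      ∑ i ∈ Finset.range (p + 2), B.map (dl p i) (f (s ∘ dl p i)) := by
  rw [d_apply_two]
  let ev : (fnE G B).obj (p + 1) →+ B.obj (p + 1) := Pi.evalAddMonoidHom _ s
  change ev (∑ i ∈ Finset.range (p + 2), (fnE G B).map (dl p i) f) = _
  rw [map_sum]
  rfl

theorem hG_d_fn {G : Type} [Group G] {B : CosMod (ZMod 2)} (a : Act G B) (p : ℕ)
    (f : (hG a).obj p) (s : Fin (p + 2) → G) :
    hG.fn ((hG a).d p f) s = ∑ i ∈ Finset.range (p + 2), B.map (dl p i) (hG.fn f (s ∘ dl p i)) := by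
  have h := (hG.incl a).app_d p f
  have h2 := congrArg (fun g : (Fin (p + 2) → G) → B.obj (p + 1) => g s) h
  refine Eq.trans h2 ?_
  exact fnE_d_apply B p _ s

theorem dl_zero_zero (p : ℕ) : (dl p 0) 0 = 1 := by
  apply Fin.ext
  rw [dl_val]
  simp

theorem dl_succ_zero (p i : ℕ) : (dl p (i + 1)) 0 = 0 := by
  apply Fin.ext
  rw [dl_val]
  simp

theorem dl_zero_one (p : ℕ) : (dl (p + 1) 0) 1 = 2 := by
  apply Fin.ext
  rw [dl_val, Fin.val_two]
  simp

theorem dl_one_one (p : ℕ) : (dl (p + 1) 1) 1 = 2 := by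
  apply Fin.ext
  rw [dl_val, Fin.val_two]
  simp

theorem dl_succ_succ_one (p i : ℕ) : (dl (p + 1) (i + 2)) 1 = 1 := by
  apply Fin.ext
  rw [dl_val]
  simp

/-! ### multiplication by `u` -/

section u

variable {G : Type} [Group G] (ε : G →* C2)

/-- cup product with the 1-cocycle `s ↦ [ε (s 0) ≠ ε (s 1)]` -/
def uc {B : CosMod (ZMod 2)} (a : Act G B) (p : ℕ) :
    (hG a).obj p →ₗ[ZMod 2] (hG a).obj (p + 1) where
  toFun f := hG.mk a (fun s => if ε (s 0) = ε (s 1) then 0 else
      B.map (dl p 0) (hG.fn f (s ∘ dl p 0))) (by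
    intro g s
    simp only [map_mul, mul_right_inj]
    split_ifs with h
    · rw [map_zero]
    · rw [a.nat]
      exact congrArg _ (hG.fn_mul f g (s ∘ dl p 0)))
  map_add' f f' := hG.ext fun s => by
    refine Eq.trans ?_ (hG.fn_add _ _ s).symm
    simp only [hG.fn_mk, hG.fn_add, map_add]
    split_ifs
    · rw [add_zero]
    · rfl
  map_smul' r f := hG.ext fun s => by
    refine Eq.trans ?_ (hG.fn_smul r _ s).symm
    simp only [hG.fn_mk, hG.fn_smul, map_smul]
    split_ifs
    · rw [smul_zero]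
    · rfl

@[simp] theorem uc_fn {B : CosMod (ZMod 2)} (a : Act G B) {p : ℕ} (f : (hG a).obj p)
    (s : Fin (p + 2) → G) :
    hG.fn (uc ε a p f) s = if ε (s 0) = ε (s 1) then 0 else
      B.map (dl p 0) (hG.fn f (s ∘ dl p 0)) := rfl

theorem c2_key {M : Type*} [AddCommGroup M] [Module (ZMod 2) M] (x y z : C2) (m : M) :
    (if y = z then 0 else m) + (if x = z then 0 else m) = if x = y then 0 else m := by
  have key : ∀ x y z : ZMod 2, (x = y ∧ y = z ∧ x = z) ∨ (x = y ∧ y ≠ z ∧ x ≠ z) ∨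
      (x ≠ y ∧ y = z ∧ x ≠ z) ∨ (x ≠ y ∧ y ≠ z ∧ x = z) := by decide
  rcases key x.toAdd y.toAdd z.toAdd with h | h | h | h
  · obtain ⟨h1, h2, h3⟩ := h
    rw [if_pos (show y = z from h2), if_pos (show x = z from h3), if_pos (show x = y from h1),
      add_zero]
  · obtain ⟨h1, h2, h3⟩ := h
    rw [if_neg (show ¬ y = z from h2), if_neg (show ¬ x = z from h3), if_pos (show x = y from h1),
      ZModModule.add_self]
  · obtain ⟨h1, h2, h3⟩ := h
    rw [if_pos (show y = z from h2), if_neg (show ¬ x = z from h3), if_neg (show ¬ x = y from h1),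
      zero_add]
  · obtain ⟨h1, h2, h3⟩ := h
    rw [if_neg (show ¬ y = z from h2), if_pos (show x = z from h3), if_neg (show ¬ x = y from h1),
      add_zero]

theorem map_sum_split {M N : Type*} [AddCommGroup M] [AddCommGroup N] [Module (ZMod 2) M]
    [Module (ZMod 2) N] (L : M →ₗ[ZMod 2] N) (F : ℕ → M) (H : ℕ → N) (h : ∀ i, L (F i) = H i)
    (n : ℕ) : L (∑ i ∈ Finset.range (n + 1), F i) = ∑ i ∈ Finset.range n, H (i + 1) + H 0 := by
  rw [Finset.sum_range_succ', map_add, map_sum, h 0]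
  congr 1
  exact Finset.sum_congr rfl fun i _ => h (i + 1)

/-- multiplication by `u` commutes with the coboundary -/
theorem d_uc {B : CosMod (ZMod 2)} (a : Act G B) (p : ℕ) (f : (hG a).obj p) :
    (hG a).d (p + 1) (uc ε a p f) = uc ε a (p + 1) ((hG a).d p f) := by
  refine hG.ext fun s => ?_
  rw [hG_d_fn, uc_fn, hG_d_fn, Finset.sum_range_succ', Finset.sum_range_succ']
  have e0 : B.map (dl (p + 1) 0) (hG.fn (uc ε a p f) (s ∘ dl (p + 1) 0)) =
      if ε (s 1) = ε (s 2) then 0 else
        B.map ((dl (p + 1) 0).comp (dl p 0)) (hG.fn f (s ∘ (dl (p + 1) 0).comp (dl p 0))) := by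
    rw [uc_fn]
    simp only [Function.comp_apply, dl_zero_zero, dl_zero_one]
    split_ifs
    · rw [map_zero]
    · rw [B.map_map]
      rfl
  have e1 : B.map (dl (p + 1) (0 + 1)) (hG.fn (uc ε a p f) (s ∘ dl (p + 1) (0 + 1))) =
      if ε (s 0) = ε (s 2) then 0 else
        B.map ((dl (p + 1) 0).comp (dl p 0)) (hG.fn f (s ∘ (dl (p + 1) 0).comp (dl p 0))) := by
    rw [uc_fn]
    simp only [Function.comp_apply, dl_succ_zero, zero_add, dl_one_one]
    split_ifs
    · rw [map_zero]
    · rw [B.map_map, ← dl_dl (i := 0) (j := 0) le_rfl]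
      rfl
  have e2 : ∀ i ∈ Finset.range (p + 1),
      B.map (dl (p + 1) (i + 1 + 1)) (hG.fn (uc ε a p f) (s ∘ dl (p + 1) (i + 1 + 1))) =
      if ε (s 0) = ε (s 1) then 0 else
        B.map ((dl (p + 1) 0).comp (dl p (i + 1)))
          (hG.fn f (s ∘ (dl (p + 1) 0).comp (dl p (i + 1)))) := by
    intro i _
    rw [uc_fn]
    simp only [Function.comp_apply, dl_succ_zero, dl_succ_succ_one]
    split_ifs
    · rw [map_zero]
    · rw [B.map_map, ← dl_dl (i := 0) (j := i + 1) (Nat.zero_le _)]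
      rfl
  have h3 := c2_key (ε (s 0)) (ε (s 1)) (ε (s 2))
    (B.map ((dl (p + 1) 0).comp (dl p 0)) (hG.fn f (s ∘ (dl (p + 1) 0).comp (dl p 0))))
  have h4 := (add_comm _ _).trans h3
  have h5 := map_sum_split (B.map (dl (p + 1) 0))
    (fun i => B.map (dl p i) (hG.fn f ((s ∘ dl (p + 1) 0) ∘ dl p i)))
    (fun i => B.map ((dl (p + 1) 0).comp (dl p i)) (hG.fn f (s ∘ (dl (p + 1) 0).comp (dl p i))))
    (fun i => B.map_map _ _ _) (p + 1)
  rw [e0, e1, Finset.sum_congr rfl e2]
  refine (add_assoc _ _ _).trans ((congrArg _ h4).trans ?_)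
  by_cases h : ε (s 0) = ε (s 1)
  · simp only [if_pos h, Finset.sum_const_zero, add_zero]
  · simp only [if_neg h]
    exact h5.symm

theorem uc_mem_Z {B : CosMod (ZMod 2)} (a : Act G B) {p : ℕ} {f : (hG a).obj p}
    (hf : f ∈ (hG a).Z p) : uc ε a p f ∈ (hG a).Z (p + 1) := by
  rw [mem_Z] at hf ⊢
  rw [d_uc, hf, map_zero]

theorem uc_mem_Bd {B : CosMod (ZMod 2)} (a : Act G B) {p : ℕ} {f : (hG a).obj p}
    (hf : f ∈ (hG a).Bd p) : uc ε a p f ∈ (hG a).Bd (p + 1) := by
  cases p with
  | zero =>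
    rw [mem_Bd_zero] at hf
    rw [hf, map_zero]
    exact Submodule.zero_mem _
  | succ p =>
    obtain ⟨g, rfl⟩ := hf
    exact ⟨uc ε a p g, d_uc ε a p g⟩

/-- **multiplication by `u` on cohomology** -/
def uH {B : CosMod (ZMod 2)} (a : Act G B) (p : ℕ) : (hG a).H p →ₗ[ZMod 2] (hG a).H (p + 1) :=
  Submodule.mapQ _ _ ((uc ε a p).restrict fun _ hf => uc_mem_Z ε a hf)
    fun _ hf => uc_mem_Bd ε a hf

@[simp] theorem uH_cls {B : CosMod (ZMod 2)} (a : Act G B) {p : ℕ} (z : (hG a).Z p) :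
    uH ε a p ((hG a).cls p z) = (hG a).cls (p + 1) ⟨uc ε a p z.1, uc_mem_Z ε a z.2⟩ := rfl

/-- naturality in the coefficients (cochains) -/
theorem uc_mapHom {B C : CosMod (ZMod 2)} (a : Act G B) (b : Act G C) (f : Hom B C)
    (hf : ∀ p (g : G) (x : B.obj p), f.app p (a.act p g x) = b.act p g (f.app p x))
    {p : ℕ} (x : (hG a).obj p) :
    (hG.mapHom a b f hf).app (p + 1) (uc ε a p x) = uc ε b p ((hG.mapHom a b f hf).app p x) := by
  refine hG.ext fun s => ?_
  rw [hG.mapHom_fn, uc_fn, uc_fn, hG.mapHom_fn]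
  split_ifs
  · rw [map_zero]
  · exact f.nat _ _

/-- naturality in the coefficients -/
theorem uH_mapHom {B C : CosMod (ZMod 2)} (a : Act G B) (b : Act G C) (f : Hom B C)
    (hf : ∀ p (g : G) (x : B.obj p), f.app p (a.act p g x) = b.act p g (f.app p x))
    {p : ℕ} (x : (hG a).H p) :
    (hG.mapHom a b f hf).mapH (p + 1) (uH ε a p x) = uH ε b p ((hG.mapHom a b f hf).mapH p x) := by
  induction x using H_ind with
  | h z =>
    rw [uH_cls, Hom.mapH_cls, Hom.mapH_cls, uH_cls]
    exact congrArg _ (Subtype.ext (uc_mapHom ε a b f hf z.1))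

/-- naturality in the group and the coefficients (cochains) -/
theorem uc_pull {K : Type} [Group K] {B C : CosMod (ZMod 2)} (a : Act G B) (c : Act K C)
    (θ : K →* G) (f : Hom B C)
    (hf : ∀ p (k : K) (x : B.obj p), f.app p (a.act p (θ k) x) = c.act p k (f.app p x))
    {p : ℕ} (x : (hG a).obj p) :
    (hG.pull a c θ f hf).app (p + 1) (uc ε a p x) =
      uc (ε.comp θ) c p ((hG.pull a c θ f hf).app p x) := by
  refine hG.ext fun s => ?_
  rw [hG.pull_fn, uc_fn, uc_fn, hG.pull_fn]
  simp only [Function.comp_apply, MonoidHom.comp_apply]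
  split_ifs
  · rw [map_zero]
  · exact f.nat _ _

theorem uH_pull {K : Type} [Group K] {B C : CosMod (ZMod 2)} (a : Act G B) (c : Act K C)
    (θ : K →* G) (f : Hom B C)
    (hf : ∀ p (k : K) (x : B.obj p), f.app p (a.act p (θ k) x) = c.act p k (f.app p x))
    {p : ℕ} (x : (hG a).H p) :
    (hG.pull a c θ f hf).mapH (p + 1) (uH ε a p x) =
      uH (ε.comp θ) c p ((hG.pull a c θ f hf).mapH p x) := by
  induction x using H_ind with
  | h z =>
    rw [uH_cls, Hom.mapH_cls, Hom.mapH_cls, uH_cls]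
    exact congrArg _ (Subtype.ext (uc_pull ε a c θ f hf z.1))

/-- connecting maps are `u`-linear -/
theorem uH_conn {A B C : CosMod (ZMod 2)} (S : SES A B C) (a : Act G A) (b : Act G B)
    (c : Act G C)
    (hi : ∀ p (g : G) (x : A.obj p), S.i.app p (a.act p g x) = b.act p g (S.i.app p x))
    (hp : ∀ p (g : G) (x : B.obj p), S.p.app p (b.act p g x) = c.act p g (S.p.app p x))
    (n : ℕ) (x : (hG c).H n) :
    (hG.ses S a b c hi hp).conn (n + 1) (uH ε c n x) =
      uH ε a (n + 1) ((hG.ses S a b c hi hp).conn n x) := by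
  induction x using H_ind with
  | h z =>
    obtain ⟨y, w, hy, hw, hconn⟩ := (hG.ses S a b c hi hp).conn_exists n z
    rw [hconn, uH_cls, uH_cls]
    refine (hG.ses S a b c hi hp).conn_cls (b := uc ε b n y) ?_ ?_
    · rw [hG.ses_p, uc_mapHom]
      rw [hG.ses_p] at hy
      rw [hy]
    · rw [hG.ses_i]
      show (hG.mapHom a b S.i hi).app (n + 1 + 1) (uc ε a (n + 1) w.1) = _
      rw [hG.ses_i] at hw
      rw [uc_mapHom, hw, d_uc]

/-- the graded `F_2[u]`-module `H^*(hG a)` -/
def guHG {B : CosMod (ZMod 2)} (a : Act G B) : E.GU.{0} where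
  H n := (hG a).H n
  u n := uH ε a n

end u

/-! ### the Gysin sequence -/

section gysin

variable {B : CosMod (ZMod 2)}

/-- the generator of `C2` -/
def tC : C2 := Multiplicative.ofAdd 1

theorem tC_mul_tC : tC * tC = 1 := by decide

theorem tC_ne_one : tC ≠ 1 := by decide

theorem tC_inv : tC⁻¹ = tC := by decide

theorem C2_cases (g : C2) : g = 1 ∨ g = tC := by
  revert g; decide

theorem sum_C2 {M : Type*} [AddCommMonoid M] (f : C2 → M) : ∑ g : C2, f g = f 1 + f tC :=
  Fin.sum_univ_two f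

/-- the identity homomorphism of `C2` -/
abbrev idC : C2 →* C2 := MonoidHom.id C2

/-- multiplication by the vertex function `s ↦ [s 0 = 1]` -/
def chi (B : CosMod (ZMod 2)) (p : ℕ) : (fnE C2 B).obj p →ₗ[ZMod 2] (fnE C2 B).obj p where
  toFun f := fun s => if s 0 = 1 then (f : (Fin (p + 1) → C2) → B.obj p) s else 0
  map_add' f g := by
    funext s
    show (if s 0 = 1 then f s + g s else 0) = (if s 0 = 1 then f s else 0) +
      (if s 0 = 1 then g s else 0)
    split_ifs <;> simp
  map_smul' r f := by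
    funext s
    show (if s 0 = 1 then r • f s else 0) = r • (if s 0 = 1 then f s else 0)
    split_ifs <;> simp

@[simp] theorem chi_apply {p : ℕ} (f : (fnE C2 B).obj p) (s : Fin (p + 1) → C2) :
    (chi B p f : (Fin (p + 1) → C2) → B.obj p) s =
      if s 0 = 1 then (f : (Fin (p + 1) → C2) → B.obj p) s else 0 := rfl

theorem chi_key {M : Type*} [AddCommGroup M] [Module (ZMod 2) M] (x y : C2) (m : M) :
    (if y = 1 then m else 0) = (if x = y then 0 else m) + (if x = 1 then m else 0) := by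
  rcases C2_cases x with rfl | rfl <;> rcases C2_cases y with rfl | rfl
  · simp
  · rw [if_neg tC_ne_one, if_neg tC_ne_one.symm, if_pos rfl, ZModModule.add_self]
  · simp [tC_ne_one]
  · simp [tC_ne_one]

theorem d_chi (a : Act C2 B) {p : ℕ} (f : (hG a).obj p) :
    (fnE C2 B).d p (chi B p ((hG.incl a).app p f)) =
      (hG.incl a).app (p + 1) (uc idC a p f) +
        chi B (p + 1) ((hG.incl a).app (p + 1) ((hG a).d p f)) := by
  funext s
  show ((fnE C2 B).d p (chi B p ((hG.incl a).app p f)) : (Fin (p + 2) → C2) → B.obj (p + 1)) s =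
    hG.fn (uc idC a p f) s + if s 0 = 1 then hG.fn ((hG a).d p f) s else 0
  rw [fnE_d_apply, uc_fn, hG_d_fn, Finset.sum_range_succ']
  have e1 : ∀ i ∈ Finset.range (p + 1),
      B.map (dl p (i + 1)) ((chi B p ((hG.incl a).app p f) : (Fin (p + 1) → C2) → B.obj p)
        (s ∘ dl p (i + 1))) =
      if s 0 = 1 then B.map (dl p (i + 1)) (hG.fn f (s ∘ dl p (i + 1))) else 0 := by
    intro i _
    rw [chi_apply]
    simp only [Function.comp_apply, dl_succ_zero]
    split_ifs
    · rfl
    · rw [map_zero]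
  have e0 : B.map (dl p 0) ((chi B p ((hG.incl a).app p f) : (Fin (p + 1) → C2) → B.obj p)
        (s ∘ dl p 0)) =
      if s 1 = 1 then B.map (dl p 0) (hG.fn f (s ∘ dl p 0)) else 0 := by
    rw [chi_apply]
    simp only [Function.comp_apply, dl_zero_zero]
    split_ifs
    · rfl
    · rw [map_zero]
  rw [Finset.sum_congr rfl e1, e0]
  have e3 := chi_key (s 0) (s 1) (B.map (dl p 0) (hG.fn f (s ∘ dl p 0)))
  have e4 : (if s 0 = 1 then ∑ i ∈ Finset.range (p + 2),
      B.map (dl p i) (hG.fn f (s ∘ dl p i)) else 0) =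
      (∑ i ∈ Finset.range (p + 1),
        if s 0 = 1 then B.map (dl p (i + 1)) (hG.fn f (s ∘ dl p (i + 1))) else 0) +
      (if s 0 = 1 then B.map (dl p 0) (hG.fn f (s ∘ dl p 0)) else 0) := by
    by_cases h : s 0 = 1
    · simp only [if_pos h]
      exact Finset.sum_range_succ' _ _
    · simp only [if_neg h, Finset.sum_const_zero, add_zero]
  refine (congrArg _ e3).trans ?_
  refine Eq.trans ?_ (congrArg _ e4).symm
  simp only [MonoidHom.id_apply]
  abel

theorem trE_C2 (a : Act C2 B) {p : ℕ} (F : (fnE C2 B).obj p) (s : Fin (p + 1) → C2) :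
    hG.fn ((hG.trE a).app p F) s = (F : (Fin (p + 1) → C2) → B.obj p) s +
      a.act p tC ((F : (Fin (p + 1) → C2) → B.obj p) (fun i => tC * s i)) := by
  rw [hG.trE_fn, sum_C2, Act.act_one, tC_inv]
  simp only [inv_one, one_mul]

theorem trE_chi (a : Act C2 B) {p : ℕ} (f : (hG a).obj p) :
    (hG.trE a).app p (chi B p ((hG.incl a).app p f)) = f := by
  refine hG.ext fun s => ?_
  rw [trE_C2, chi_apply, chi_apply]
  have e1 : a.act p tC (hG.fn f (fun i => tC * s i)) = hG.fn f s := by
    rw [hG.fn_mul, ← Act.act_mul, tC_mul_tC, Act.act_one]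
  rcases C2_cases (s 0) with h | h
  · rw [if_pos h, if_neg (by rw [h, mul_one]; exact tC_ne_one), map_zero, add_zero]
    rfl
  · rw [if_neg (by rw [h]; exact tC_ne_one), if_pos (by rw [h, tC_mul_tC]), zero_add]
    exact e1

theorem trE_incl (a : Act C2 B) {p : ℕ} (f : (hG a).obj p) :
    (hG.trE a).app p ((hG.incl a).app p f) = 0 := by
  refine hG.ext fun s => ?_
  have e1 : a.act p tC (hG.fn f (fun i => tC * s i)) = hG.fn f s := by
    rw [hG.fn_mul, ← Act.act_mul, tC_mul_tC, Act.act_one]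
  rw [trE_C2]
  show hG.fn f s + a.act p tC (hG.fn f (fun i => tC * s i)) = 0
  rw [e1, ZModModule.add_self]

/-- the Gysin short exact sequence -/
def gysSES (a : Act C2 B) : SES (hG a) (fnE C2 B) (hG a) where
  i := hG.incl a
  p := hG.trE a
  inj _ := Subtype.val_injective
  surj p f := ⟨chi B p ((hG.incl a).app p f), trE_chi a f⟩
  pi p f := trE_incl a f
  ex p F hF := by
    refine ⟨⟨F, ?_⟩, rfl⟩
    have key : ∀ s : Fin (p + 1) → C2, (F : (Fin (p + 1) → C2) → B.obj p) (fun i => tC * s i) =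
        a.act p tC ((F : (Fin (p + 1) → C2) → B.obj p) s) := by
      intro s
      have h := congrArg (fun g => hG.fn g s) hF
      simp only [trE_C2, hG.fn_zero] at h
      have h2 : (F : (Fin (p + 1) → C2) → B.obj p) s =
          a.act p tC ((F : (Fin (p + 1) → C2) → B.obj p) (fun i => tC * s i)) := by
        rw [← ZModModule.sub_eq_add] at h
        exact sub_eq_zero.1 h
      rw [h2, ← Act.act_mul, tC_mul_tC, Act.act_one]
    intro g s
    rcases C2_cases g with rfl | rfl
    · rw [Act.act_one]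
      simp only [one_mul]
    · exact key s

theorem gysSES_conn (a : Act C2 B) (n : ℕ) (x : (hG a).H n) :
    (gysSES a).conn n x = uH idC a n x := by
  induction x using H_ind with
  | h z =>
    rw [uH_cls]
    refine (gysSES a).conn_cls (b := chi B n ((hG.incl a).app n z.1)) (trE_chi a z.1) ?_
    rw [d_chi, mem_Z.1 z.2, map_zero, map_zero, add_zero]
    rfl

theorem incl_mapH_eq_zero {G : Type} [Group G] (a : Act G B) (n : ℕ) (x : (hG a).H n) :
    (hG.incl a).mapH n x = 0 ↔ (hG.res a).mapH n x = 0 := by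
  induction x using H_ind with
  | h z =>
    rw [Hom.mapH_cls, Hom.mapH_cls, cls_eq_zero_iff, cls_eq_zero_iff]
    constructor
    · intro h
      exact (resE B (G := G)).app_mem_Bd h
    · intro h
      exact fnE_mem_Bd B ((hG.incl a).app_mem_Z z.2) h

theorem trE_mapH (a : Act C2 B) (n : ℕ) (x : (fnE C2 B).H n) :
    (hG.trE a).mapH n x = (hG.tr a).mapH n ((resE B).mapH n x) := by
  induction x using H_ind with
  | h z =>
    have h1 := (prismE B (G := C2)).sub_mem z.2
    rw [prismE_c1, prismE_c0] at h1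
    have h2 := (hG.trE a).app_mem_Bd h1
    rw [Hom.mapH_cls, Hom.mapH_cls, Hom.mapH_cls, cls_eq_iff]
    rw [map_sub] at h2
    exact h2

/-- **Gysin, 1**: the kernel of the restriction is the image of `u` -/
theorem gys_res (a : Act C2 B) (n : ℕ) (x : (hG a).H (n + 1)) :
    (hG.res a).mapH (n + 1) x = 0 ↔ ∃ y, uH idC a n y = x := by
  rw [← incl_mapH_eq_zero]
  have := (gysSES a).exact_A n x
  simp only [gysSES_conn] at this
  exact this

/-- **Gysin, 1**, degree `0` -/
theorem gys_res_zero (a : Act C2 B) (x : (hG a).H 0) (h : (hG.res a).mapH 0 x = 0) : x = 0 :=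
  (gysSES a).inj_zero x ((incl_mapH_eq_zero a 0 x).2 h)

theorem resE_mapH_surjective {G : Type} [Group G] (n : ℕ) :
    Function.Surjective ((resE B (G := G)).mapH n) := by
  intro y
  refine ⟨(constE B).mapH n y, ?_⟩
  induction y using H_ind with
  | h z => rfl

/-- **Gysin, 2**: the kernel of `u` is the image of the transfer -/
theorem gys_u (a : Act C2 B) (n : ℕ) (x : (hG a).H n) :
    uH idC a n x = 0 ↔ ∃ b, (hG.tr a).mapH n b = x := by
  rw [← gysSES_conn, (gysSES a).exact_C n x]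
  constructor
  · rintro ⟨y, hy⟩
    exact ⟨(resE B).mapH n y, by rw [← trE_mapH]; exact hy⟩
  · rintro ⟨b, rfl⟩
    obtain ⟨y, rfl⟩ := resE_mapH_surjective (G := C2) n b
    exact ⟨y, trE_mapH a n y⟩

/-- **Gysin, 3**: the kernel of the transfer is the image of the restriction -/
theorem gys_tr (a : Act C2 B) (n : ℕ) (b : B.H n) :
    (hG.tr a).mapH n b = 0 ↔ ∃ y, (hG.res a).mapH n y = b := by
  obtain ⟨y, rfl⟩ := resE_mapH_surjective (G := C2) n b
  rw [← trE_mapH]
  have h := (gysSES a).exact_B n y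
  refine Iff.trans h ?_
  constructor
  · rintro ⟨z, rfl⟩
    refine ⟨z, ?_⟩
    induction z using H_ind with
    | h z => rfl
  · rintro ⟨z, hz⟩
    refine ⟨z, ?_⟩
    have hz' : (resE B).mapH n ((gysSES a).i.mapH n z - y) = 0 := by
      rw [map_sub, ← hz, sub_eq_zero]
      induction z using H_ind with
      | h z => rfl
    rw [← sub_eq_zero]
    generalize (gysSES a).i.mapH n z - y = w at hz'
    induction w using H_ind with
    | h w =>
      rw [Hom.mapH_cls, cls_eq_zero_iff] at hz'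
      rw [cls_eq_zero_iff]
      exact fnE_mem_Bd B w.2 hz'

theorem uH_tr (a : Act C2 B) (n : ℕ) (b : B.H n) : uH idC a n ((hG.tr a).mapH n b) = 0 :=
  (gys_u a n _).2 ⟨b, rfl⟩

theorem res_uH {G : Type} [Group G] (ε : G →* C2) (a : Act G B) (n : ℕ) (x : (hG a).H n) :
    (hG.res a).mapH (n + 1) (uH ε a n x) = 0 := by
  induction x using H_ind with
  | h z =>
    rw [uH_cls, Hom.mapH_cls, cls_eq_zero_iff]
    have : (hG.res a).app (n + 1) (uc ε a n z.1) = 0 := by
      rw [hG.res_app, uc_fn, if_pos rfl]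
    show (hG.res a).app (n + 1) (uc ε a n z.1) ∈ _
    rw [this]
    exact Submodule.zero_mem _

end gysin

end Vale.Agent.P263.S
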