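import Vale.Agent.P263.S.Defs
import Vale.Agent.P263.S.AW

/-!
# P263, block S3b: cup products for a levelwise bilinear pairing `μ : Bil A B C`

`μ.cup n a b = μ.app n (A.map (fr m n) a) (B.map (bk p n) b)` for `a : A.obj m`, `b : B.obj p`
(meant for `n = m + p`; the target degree is free, so no casts are needed), the Leibniz rule
`d_cup`, associativity, naturality, and the product `μ.cupH` on cohomology.
-/

noncomputable section

namespace Vale.Agent.P263.S

variable {R : Type} [CommRing R]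

namespace Bil

variable {A B C : CosMod R} (μ : Bil A B C)

/-- the cup product of an `m`-cochain and a `p`-cochain, in degree `n` (meant for `n = m + p`) -/
def cup {m p : ℕ} (n : ℕ) (a : A.obj m) (b : B.obj p) : C.obj n :=
  μ.app n (A.map (fr m n) a) (B.map (bk p n) b)

/-- the cup product as a bilinear map -/
def cupL (m p n : ℕ) : A.obj m →ₗ[R] B.obj p →ₗ[R] C.obj n :=
  (μ.app n).compl₁₂ (A.map (fr m n)) (B.map (bk p n))

@[simp] theorem cupL_apply (m p n : ℕ) (a : A.obj m) (b : B.obj p) :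
    μ.cupL m p n a b = μ.cup n a b := rfl

theorem cup_add_left {m p n : ℕ} (a a' : A.obj m) (b : B.obj p) :
    μ.cup n (a + a') b = μ.cup n a b + μ.cup n a' b := by simp [cup]

theorem cup_add_right {m p n : ℕ} (a : A.obj m) (b b' : B.obj p) :
    μ.cup n a (b + b') = μ.cup n a b + μ.cup n a b' := by simp [cup]

theorem cup_sub_left {m p n : ℕ} (a a' : A.obj m) (b : B.obj p) :
    μ.cup n (a - a') b = μ.cup n a b - μ.cup n a' b := by simp [cup]

theorem cup_sub_right {m p n : ℕ} (a : A.obj m) (b b' : B.obj p) :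
    μ.cup n a (b - b') = μ.cup n a b - μ.cup n a b' := by simp [cup]

theorem cup_smul_left {m p n : ℕ} (r : R) (a : A.obj m) (b : B.obj p) :
    μ.cup n (r • a) b = r • μ.cup n a b := by simp [cup]

theorem cup_smul_right {m p n : ℕ} (r : R) (a : A.obj m) (b : B.obj p) :
    μ.cup n a (r • b) = r • μ.cup n a b := by simp [cup]

theorem cup_zero_left {m p n : ℕ} (b : B.obj p) : μ.cup n (0 : A.obj m) b = 0 := by simp [cup]

theorem cup_zero_right {m p n : ℕ} (a : A.obj m) : μ.cup n a (0 : B.obj p) = 0 := by simp [cup]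

theorem cup_sn_left {m p n : ℕ} (k : ℕ) (a : A.obj m) (b : B.obj p) :
    μ.cup n (sn k a) b = sn k (μ.cup n a b) := by
  rw [cup, CosMod.sn_lin, CosMod.sn_lin]
  simp [sn, cup]

theorem cup_sn_right {m p n : ℕ} (k : ℕ) (a : A.obj m) (b : B.obj p) :
    μ.cup n a (sn k b) = sn k (μ.cup n a b) := by
  rw [cup, CosMod.sn_lin, CosMod.sn_lin]
  rfl

theorem cup_sum_left {ι : Type*} (s : Finset ι) {m p n : ℕ} (a : ι → A.obj m) (b : B.obj p) :
    μ.cup n (∑ i ∈ s, a i) b = ∑ i ∈ s, μ.cup n (a i) b := by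
  simp [cup, LinearMap.sum_apply]

theorem cup_sum_right {ι : Type*} (s : Finset ι) {m p n : ℕ} (a : A.obj m) (b : ι → B.obj p) :
    μ.cup n a (∑ i ∈ s, b i) = ∑ i ∈ s, μ.cup n a (b i) := by
  simp [cup]

/-- **The Leibniz rule.** -/
theorem d_cup {m p n : ℕ} (h : n = m + p) (a : A.obj m) (b : B.obj p) :
    C.d n (μ.cup n a b) = μ.cup (n + 1) (A.d m a) b + sn m (μ.cup (n + 1) a (B.d p b)) := by
  subst h
  have e1 : ∀ i, i ≤ m → C.map (dl (m + p) i) (μ.cup (m + p) a b) =
      μ.cup (m + p + 1) (A.map (dl m i) a) b := by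
    intro i hi
    rw [cup, ← μ.nat, A.map_map, B.map_map, dl_fr_le (by omega), dl_bk_le (by omega) (by omega),
      ← A.map_map]
    rfl
  have e2 : ∀ j, C.map (dl (m + p) (m + (j + 1))) (μ.cup (m + p) a b) =
      μ.cup (m + p + 1) a (B.map (dl p (j + 1)) b) := by
    intro j
    rw [cup, ← μ.nat, A.map_map, B.map_map, dl_fr_gt (by omega) (by omega),
      dl_bk_ge (j + 1) (by omega) (by omega), ← B.map_map]
    rfl
  have e3 : μ.cup (m + p + 1) (A.map (dl m (m + 1)) a) b =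
      μ.cup (m + p + 1) a (B.map (dl p 0) b) := by
    rw [cup, cup, A.map_map, B.map_map, ← dl_fr_le (n := m + p) (by omega),
      dl_fr_gt (by omega) (by omega), ← dl_bk_ge (n := m + p) (i := m) 0 (by omega) (by omega),
      dl_bk_le (by omega) (by omega)]
  rw [CosMod.d_apply, CosMod.d_apply, CosMod.d_apply, cup_sum_left, cup_sum_right,
    show m + p + 2 = (m + 1) + (p + 1) by omega, Finset.sum_range_add,
    Finset.sum_range_succ (n := m + 1), Finset.sum_range_succ' (n := p + 1)]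
  simp only [cup_sn_left, cup_sn_right]
  rw [sn_add, sn_sum, e3]
  have h1 : ∑ x ∈ Finset.range (m + 1), sn x (C.map (dl (m + p) x) (μ.cup (m + p) a b)) =
      ∑ x ∈ Finset.range (m + 1), sn x (μ.cup (m + p + 1) (A.map (dl m x) a) b) := by
    refine Finset.sum_congr rfl fun x hx => ?_
    rw [e1 x (by rw [Finset.mem_range] at hx; omega)]
  have h2 : ∑ x ∈ Finset.range (p + 1), sn (m + 1 + x)
      (C.map (dl (m + p) (m + 1 + x)) (μ.cup (m + p) a b)) =
      ∑ x ∈ Finset.range (p + 1), sn m (sn (x + 1)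
        (μ.cup (m + p + 1) a (B.map (dl p (x + 1)) b))) := by
    refine Finset.sum_congr rfl fun x hx => ?_
    rw [show m + 1 + x = m + (x + 1) by omega, e2 x, sn_sn]
  rw [h1, h2, sn_succ, sn_sn, add_zero]
  abel

theorem cup_mem_Z {m p n : ℕ} (h : n = m + p) {a : A.obj m} {b : B.obj p} (ha : a ∈ A.Z m)
    (hb : b ∈ B.Z p) : μ.cup n a b ∈ C.Z n := by
  rw [CosMod.mem_Z] at *
  rw [μ.d_cup h, ha, hb, cup_zero_left, cup_zero_right, sn_zero_val, add_zero]

theorem cup_mem_Bd_left {m p n : ℕ} (h : n = m + p) {a : A.obj m} {b : B.obj p} (ha : a ∈ A.Bd m)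
    (hb : b ∈ B.Z p) : μ.cup n a b ∈ C.Bd n := by
  cases m with
  | zero =>
    rw [CosMod.mem_Bd_zero] at ha
    rw [ha, cup_zero_left]
    exact zero_mem _
  | succ m =>
    obtain ⟨a, rfl⟩ := ha
    obtain ⟨n, rfl⟩ : ∃ k, n = k + 1 := ⟨n - 1, by omega⟩
    refine ⟨μ.cup n a b, ?_⟩
    rw [CosMod.mem_Z] at hb
    rw [μ.d_cup (by omega), hb, cup_zero_right, sn_zero_val, add_zero]

theorem cup_mem_Bd_right {m p n : ℕ} (h : n = m + p) {a : A.obj m} {b : B.obj p} (ha : a ∈ A.Z m)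
    (hb : b ∈ B.Bd p) : μ.cup n a b ∈ C.Bd n := by
  cases p with
  | zero =>
    rw [CosMod.mem_Bd_zero] at hb
    rw [hb, cup_zero_right]
    exact zero_mem _
  | succ p =>
    obtain ⟨b, rfl⟩ := hb
    obtain ⟨n, rfl⟩ : ∃ k, n = k + 1 := ⟨n - 1, by omega⟩
    refine ⟨sn m (μ.cup n a b), ?_⟩
    rw [CosMod.mem_Z] at ha
    rw [CosMod.sn_lin, μ.d_cup (by omega), ha, cup_zero_left, zero_add, sn_sn, sn_double]

/-- the product of a cocycle and a cohomology class -/
def cupZH {m p n : ℕ} (h : n = m + p) (a : A.Z m) : B.H p →ₗ[R] C.H n :=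
  Submodule.mapQ _ _ ((μ.cupL m p n a.1).restrict fun _ hb => μ.cup_mem_Z h a.2 hb)
    fun _ hb => μ.cup_mem_Bd_right h a.2 hb

theorem cupZH_cls {m p n : ℕ} (h : n = m + p) (a : A.Z m) (b : B.Z p) :
    μ.cupZH h a (B.cls p b) = C.cls n ⟨μ.cup n a.1 b.1, μ.cup_mem_Z h a.2 b.2⟩ := rfl

/-- **The product on cohomology.** -/
def cupH {m p n : ℕ} (h : n = m + p) : A.H m →ₗ[R] B.H p →ₗ[R] C.H n :=
  Submodule.liftQ _
    { toFun := fun a => μ.cupZH h a
      map_add' := fun a a' => by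
        refine LinearMap.ext fun b => ?_
        obtain ⟨b, rfl⟩ := B.cls_surjective p b
        rw [LinearMap.add_apply, cupZH_cls, cupZH_cls, cupZH_cls, ← map_add]
        exact congrArg _ (Subtype.ext (μ.cup_add_left _ _ _))
      map_smul' := fun r a => by
        refine LinearMap.ext fun b => ?_
        obtain ⟨b, rfl⟩ := B.cls_surjective p b
        rw [LinearMap.smul_apply, cupZH_cls, cupZH_cls, ← map_smul]
        exact congrArg _ (Subtype.ext (μ.cup_smul_left _ _ _)) }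
    (by
      intro a ha
      refine LinearMap.ext fun b => ?_
      obtain ⟨b, rfl⟩ := B.cls_surjective p b
      show μ.cupZH h a (B.cls p b) = 0
      rw [cupZH_cls, CosMod.cls_eq_zero_iff]
      exact μ.cup_mem_Bd_left h ha b.2)

@[simp] theorem cupH_cls {m p n : ℕ} (h : n = m + p) (a : A.Z m) (b : B.Z p) :
    μ.cupH h (A.cls m a) (B.cls p b) = C.cls n ⟨μ.cup n a.1 b.1, μ.cup_mem_Z h a.2 b.2⟩ := rfl

end Bil

/-- associativity of cup products -/
theorem Bil.cup_assoc {A B C D E F : CosMod R} (μ : Bil A B D) (ν : Bil D C F) (μ' : Bil B C E)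
    (ν' : Bil A E F)
    (h : ∀ p (a : A.obj p) (b : B.obj p) (c : C.obj p),
      ν.app p (μ.app p a b) c = ν'.app p a (μ'.app p b c))
    {a b c n : ℕ} (hn : n = a + b + c) (x : A.obj a) (y : B.obj b) (z : C.obj c) :
    ν.cup n (μ.cup (a + b) x y) z = ν'.cup n x (μ'.cup (b + c) y z) := by
  rw [cup, cup, cup, cup, ← μ.nat, ← μ'.nat, h, A.map_map, B.map_map, B.map_map, C.map_map,
    fr_fr (by omega) (by omega), bk_bk (by omega) (by omega), fr_bk hn]

theorem Bil.cupH_assoc {A B C D E F : CosMod R} (μ : Bil A B D) (ν : Bil D C F) (μ' : Bil B C E)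
    (ν' : Bil A E F)
    (h : ∀ p (a : A.obj p) (b : B.obj p) (c : C.obj p),
      ν.app p (μ.app p a b) c = ν'.app p a (μ'.app p b c))
    {a b c ab bc n : ℕ} (hab : ab = a + b) (hbc : bc = b + c) (h1 : n = ab + c) (h2 : n = a + bc)
    (x : A.H a) (y : B.H b) (z : C.H c) :
    ν.cupH h1 (μ.cupH hab x y) z = ν'.cupH h2 x (μ'.cupH hbc y z) := by
  subst hab hbc
  obtain ⟨x, rfl⟩ := A.cls_surjective a x
  obtain ⟨y, rfl⟩ := B.cls_surjective b y
  obtain ⟨z, rfl⟩ := C.cls_surjective c z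
  rw [cupH_cls, cupH_cls, cupH_cls, cupH_cls]
  exact congrArg _ (Subtype.ext (Bil.cup_assoc μ ν μ' ν' h h1 x.1 y.1 z.1))

/-- naturality of cup products -/
theorem Bil.cup_nat {A B C A' B' C' : CosMod R} (μ : Bil A B C) (μ' : Bil A' B' C')
    (f : Hom A A') (g : Hom B B') (h : Hom C C')
    (e : ∀ p (a : A.obj p) (b : B.obj p), h.app p (μ.app p a b) = μ'.app p (f.app p a) (g.app p b))
    {m p : ℕ} (n : ℕ) (a : A.obj m) (b : B.obj p) :
    h.app n (μ.cup n a b) = μ'.cup n (f.app m a) (g.app p b) := by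
  rw [cup, cup, e, f.nat, g.nat]

theorem Bil.cupH_nat {A B C A' B' C' : CosMod R} (μ : Bil A B C) (μ' : Bil A' B' C')
    (f : Hom A A') (g : Hom B B') (h : Hom C C')
    (e : ∀ p (a : A.obj p) (b : B.obj p), h.app p (μ.app p a b) = μ'.app p (f.app p a) (g.app p b))
    {m p n : ℕ} (hn : n = m + p) (a : A.H m) (b : B.H p) :
    h.mapH n (μ.cupH hn a b) = μ'.cupH hn (f.mapH m a) (g.mapH p b) := by
  obtain ⟨a, rfl⟩ := A.cls_surjective m a
  obtain ⟨b, rfl⟩ := B.cls_surjective p b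
  rw [cupH_cls, Hom.mapH_cls, Hom.mapH_cls, Hom.mapH_cls, cupH_cls]
  exact congrArg _ (Subtype.ext (Bil.cup_nat μ μ' f g h e n a.1 b.1))

end Vale.Agent.P263.S
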