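import Vale.Agent.P263.S.PowMulA
import Vale.Agent.P263.S.Pow

/-!
# P263, block S4: `P (x ∪ y) = P x ∪ P y` (helper35)

`P_mul` : for pairings `μ : A × A → C`, `μ' : A' × A' → C'`, `μ'' : A'' × A'' → C''`, symmetric with
respect to actions of `C2`, a pairing `ν : A × A' → A''` and an equivariant pairing
`ρ : C × C' → C''` such that `ρ (μ (a, b), μ' (a', b')) = μ'' (ν (a, a'), ν (b, b'))`,
`P (x ∪ y) = P x ∪ P y`, the product on the right being the product of homotopy fixed points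
`hG.bil`.  Over `F_2` there is no further hypothesis; over a general ring `R` the hypothesis
`Mid R n m` says that the middle four exchange carries `(ι × ι) × (ι × ι)` to the class of
`(ι × ι) × (ι × ι)` (true if `n` or `m` is even).
-/

open scoped TensorProduct

noncomputable section

namespace Vale.Agent.P263.S

variable {R : Type} [CommRing R]

/-- the pairing `(K ⊗ K) × (L ⊗ L) → (K ⊗ L) ⊗ (K ⊗ L)` -/
def midB (K L : CosMod R) :
    Bil (tensor K K) (tensor L L) (tensor (tensor K L) (tensor K L)) where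
  app p := (TensorProduct.mk R (K.obj p ⊗[R] K.obj p) (L.obj p ⊗[R] L.obj p)).compr₂
    ((mid4H K K L L).app p)
  nat φ x y := (mid4H K K L L).nat φ (x ⊗ₜ[R] y : (K.obj _ ⊗[R] K.obj _) ⊗[R] (L.obj _ ⊗[R] L.obj _))

theorem midB_lift (K L : CosMod R) : (midB K L).lift = mid4H K K L L := by
  apply hom_tensor_ext
  intro p a b
  exact Bil.lift_tmul _ _ _ _

theorem midB_tmul (K L : CosMod R) (p : ℕ) (a b : K.obj p) (c d : L.obj p) :
    (midB K L).app p (a ⊗ₜ[R] b : K.obj p ⊗[R] K.obj p) (c ⊗ₜ[R] d : L.obj p ⊗[R] L.obj p) =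
      ((a ⊗ₜ[R] c) ⊗ₜ[R] (b ⊗ₜ[R] d) : (K.obj p ⊗[R] L.obj p) ⊗[R] (K.obj p ⊗[R] L.obj p)) := rfl

/-- two bilinear maps on `(K ⊗ K) × (L ⊗ L)` agree if they agree on pure tensors -/
theorem bil_ext4 {K K' L L' : CosMod R} {p : ℕ} {V : Type*} [AddCommGroup V] [Module R V]
    {f g : (tensor K K').obj p →ₗ[R] (tensor L L').obj p →ₗ[R] V}
    (h : ∀ (a : K.obj p) (b : K'.obj p) (c : L.obj p) (d : L'.obj p),
      f (a ⊗ₜ[R] b : K.obj p ⊗[R] K'.obj p) (c ⊗ₜ[R] d : L.obj p ⊗[R] L'.obj p) =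
      g (a ⊗ₜ[R] b : K.obj p ⊗[R] K'.obj p) (c ⊗ₜ[R] d : L.obj p ⊗[R] L'.obj p)) : f = g := by
  apply TensorProduct.ext'
  intro a b
  apply TensorProduct.ext'
  intro c d
  exact h a b c d

theorem equiv2_C2 {A B C : CosMod R} {a : Act C2 A} {b : Act C2 B} {c : Act C2 C} (μ : Bil A B C)
    (h : ∀ p x y, μ.app p (a.act p C2.t x) (b.act p C2.t y) = c.act p C2.t (μ.app p x y)) :
    ∀ p (g : C2) (x : A.obj p) (y : B.obj p),
      μ.app p (a.act p g x) (b.act p g y) = c.act p g (μ.app p x y) := by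
  intro p g x y
  rcases C2.cases g with rfl | rfl
  · rw [act_one, act_one, act_one]
  · exact h p x y

theorem midB_equiv (K L : CosMod R) : ∀ p (g : C2) (x : (tensor K K).obj p)
    (y : (tensor L L).obj p), (midB K L).app p ((swapAct K).act p g x) ((swapAct L).act p g y) =
      (swapAct (tensor K L)).act p g ((midB K L).app p x y) := by
  refine equiv2_C2 _ fun p x y => ?_
  rw [swapAct_t, swapAct_t, swapAct_t]
  have h : ((midB K L).app p).compl₁₂ ((commH K K).app p) ((commH L L).app p) =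
      ((midB K L).app p).compr₂ ((commH (tensor K L) (tensor K L)).app p) := by
    apply bil_ext4
    intro a b c d
    rfl
  exact congrArg (fun f : (tensor K K).obj p →ₗ[R] (tensor L L).obj p →ₗ[R]
    (tensor (tensor K L) (tensor K L)).obj p => f x y) h

/-! ### The universal case -/

/-- The middle four exchange carries `(ι_n × ι_n) × (ι_m × ι_m)` to `(ι_n × ι_m) × (ι_n × ι_m)`, up
to a coboundary. -/
class Mid (R : Type) [CommRing R] (n m : ℕ) : Prop where
  out : (midB (M R n) (M R m)).cup (n + m + (n + m)) (cr (n + n) (iotaM R n) (iotaM R n))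
      (cr (m + m) (iotaM R m) (iotaM R m)) -
    cr (n + m + (n + m)) (cr (n + m) (iotaM R n) (iotaM R m))
      (cr (n + m) (iotaM R n) (iotaM R m)) ∈
    (tensor (tensor (M R n) (M R m)) (tensor (M R n) (M R m))).Bd (n + m + (n + m))

theorem good_MLML (R : Type) [CommRing R] (n m : ℕ) :
    Good (tensor (tensor (M R n) (M R m)) (tensor (M R n) (M R m))) (n + m + (n + m))
      (cr (n + m + (n + m)) (cr (n + m) (iotaM R n) (iotaM R m))
        (cr (n + m) (iotaM R n) (iotaM R m))) :=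
  ((good_M n).tens (good_M m)).tens ((good_M n).tens (good_M m))

instance mid_F2 (n m : ℕ) : Mid (ZMod 2) n m :=
  ⟨(good_MM (ZMod 2) n).lift_sub_mem (by omega) (good_MM (ZMod 2) m) (good_MLML (ZMod 2) n m)
    (midB (M (ZMod 2) n) (M (ZMod 2) m)) (mid4H _ _ _ _) (fun z => by
      rw [midB_lift]
      exact mid4H_mid4H _ _ _ _ _ z)⟩

/-- The universal cocycle `ι_n × ι_m`. -/
def iotaMM (R : Type) [CommRing R] (n m : ℕ) : (tensor (M R n) (M R m)).obj (n + m) :=
  cr (n + m) (iotaM R n) (iotaM R m)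

theorem iotaMM_mem_Z (R : Type) [CommRing R] (n m : ℕ) :
    iotaMM R n m ∈ (tensor (M R n) (M R m)).Z (n + m) :=
  cr_mem_Z rfl (iotaM_mem_Z R n) (iotaM_mem_Z R m)

/-- **The universal case of the multiplicativity of the external square.** -/
theorem univP_mul (R : Type) [CommRing R] (n m : ℕ) [Inv R n] [Inv R m] [Inv R (n + m)]
    [hm : Mid R n m] :
    (hG.bil (swapAct (M R n)) (swapAct (M R m)) (swapAct (tensor (M R n) (M R m)))
        (midB (M R n) (M R m)) (midB_equiv _ _)).cup (n + m + (n + m)) (univP R n) (univP R m) -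
      Pz (Bil.univ (tensor (M R n) (M R m)) (tensor (M R n) (M R m)))
        (swapAct (tensor (M R n) (M R m))) (sym_univ _) (iotaMM R n m) (iotaMM_mem_Z R n m) ∈
    (hG (swapAct (tensor (M R n) (M R m)))).Bd (n + m + (n + m)) := by
  have hN : n + m + (n + m) = n + n + (m + m) := by omega
  refine hG.cup_sub_mem_Bd _ _ _ _ _ hN (fun k hk => (good_MLML R n m).H_low hk)
    (univP_mem_Z R n) (univP_mem_Z R m) (Pz_mem_Z _ _ _ _ _) ?_
  have h1 := (midB (M R n) (M R m)).cup_mem_Bd_left hN (univP_res R n)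
    ((hG.res (swapAct (M R m))).app_mem_Z (univP_mem_Z R m))
  have h2 := (midB (M R n) (M R m)).cup_mem_Bd_right hN (good_MM R n).cyc (univP_res R m)
  have h3 : (midB (M R n) (M R m)).cup (n + m + (n + m)) (cr (n + n) (iotaM R n) (iotaM R n))
      (cr (m + m) (iotaM R m) (iotaM R m)) - cr (n + m + (n + m)) (iotaMM R n m) (iotaMM R n m) ∈
      (tensor (tensor (M R n) (M R m)) (tensor (M R n) (M R m))).Bd (n + m + (n + m)) := hm.out
  have h4 := Pz_res (Bil.univ (tensor (M R n) (M R m)) (tensor (M R n) (M R m)))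
    (swapAct (tensor (M R n) (M R m))) (sym_univ _) (iotaMM R n m) (iotaMM_mem_Z R n m)
  have h5 : (Bil.univ (tensor (M R n) (M R m)) (tensor (M R n) (M R m))).lift.app
      (n + m + (n + m)) (cr (n + m + (n + m)) (iotaMM R n m) (iotaMM R n m)) =
      cr (n + m + (n + m)) (iotaMM R n m) (iotaMM R n m) := lift_cr _ _ _ _
  rw [h5] at h4
  rw [Bil.cup_sub_left] at h1
  rw [Bil.cup_sub_right] at h2
  have := sub_mem (add_mem (add_mem h1 h2) h3) h4
  convert this using 1
  abel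

/-! ### The general case -/

section general

variable {A A' A'' C C' C'' : CosMod R} {n m : ℕ} (μ : Bil A A C) (c : Act C2 C) (h : Sym μ c)
  (μ' : Bil A' A' C') (c' : Act C2 C') (h' : Sym μ' c') (μ'' : Bil A'' A'' C'') (c'' : Act C2 C'')
  (h'' : Sym μ'' c'') (ν : Bil A A' A'') (ρ : Bil C C' C'')
  (hρ : ∀ p g x y, ρ.app p (c.act p g x) (c'.act p g y) = c''.act p g (ρ.app p x y))
  (hc : ∀ p (a b : A.obj p) (a' b' : A'.obj p), ρ.app p (μ.app p a b) (μ'.app p a' b') =
    μ''.app p (ν.app p a a') (ν.app p b b'))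

/-- the map `M n ⊗ M m → A''` determined by `ν` and two cocycles -/
def mulHom (x : A.obj n) (hx : x ∈ A.Z n) (y : A'.obj m) (hy : y ∈ A'.Z m) :
    Hom (tensor (M R n) (M R m)) A'' :=
  ν.lift.comp ((ofM x hx).tens (ofM y hy))

theorem mulHom_tmul (x : A.obj n) (hx : x ∈ A.Z n) (y : A'.obj m) (hy : y ∈ A'.Z m) (p : ℕ)
    (a : (M R n).obj p) (b : (M R m).obj p) :
    (mulHom ν x hx y hy).app p (a ⊗ₜ[R] b : (M R n).obj p ⊗[R] (M R m).obj p) =
      ν.app p ((ofM x hx).app p a) ((ofM y hy).app p b) :=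
  Bil.lift_tmul ν p _ _

theorem mulHom_iota (x : A.obj n) (hx : x ∈ A.Z n) (y : A'.obj m) (hy : y ∈ A'.Z m) :
    (mulHom ν x hx y hy).app (n + m) (iotaMM R n m) = ν.cup (n + m) x y := by
  show ν.lift.app (n + m) (((ofM x hx).tens (ofM y hy)).app (n + m) (cr (n + m) _ _)) = _
  rw [cr_nat, ofM_iota, ofM_iota, Bil.lift_cr]

/-- the map `(M n ⊗ M m) ⊗ (M n ⊗ M m) → C''` -/
def mulHom2 (x : A.obj n) (hx : x ∈ A.Z n) (y : A'.obj m) (hy : y ∈ A'.Z m) :
    Hom (tensor (tensor (M R n) (M R m)) (tensor (M R n) (M R m))) C'' :=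
  μ''.lift.comp ((mulHom ν x hx y hy).tens (mulHom ν x hx y hy))

theorem mulHom2_equiv {μ'' : Bil A'' A'' C''} {c'' : Act C2 C''} (h'' : Sym μ'' c'')
    (ν : Bil A A' A'') (x : A.obj n) (hx : x ∈ A.Z n) (y : A'.obj m) (hy : y ∈ A'.Z m) :
    ∀ p (s : C2) (z : (tensor (tensor (M R n) (M R m)) (tensor (M R n) (M R m))).obj p),
      (mulHom2 μ'' ν x hx y hy).app p ((swapAct (tensor (M R n) (M R m))).act p s z) =
        c''.act p s ((mulHom2 μ'' ν x hx y hy).app p z) := by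
  intro p s z
  show μ''.lift.app p (((mulHom ν x hx y hy).tens (mulHom ν x hx y hy)).app p _) = _
  rw [tens_equiv, h''.equiv]
  rfl

include hc in
theorem mulHom2_midB (x : A.obj n) (hx : x ∈ A.Z n) (y : A'.obj m) (hy : y ∈ A'.Z m) (p : ℕ)
    (X : (tensor (M R n) (M R n)).obj p) (Y : (tensor (M R m) (M R m)).obj p) :
    (mulHom2 μ'' ν x hx y hy).app p ((midB (M R n) (M R m)).app p X Y) =
      ρ.app p ((sqHom μ x hx).app p X) ((sqHom μ' y hy).app p Y) := by
  have e : ((midB (M R n) (M R m)).app p).compr₂ ((mulHom2 μ'' ν x hx y hy).app p) =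
      (ρ.app p).compl₁₂ ((sqHom μ x hx).app p) ((sqHom μ' y hy).app p) := by
    apply bil_ext4
    intro a b a' b'
    show μ''.app p ((mulHom ν x hx y hy).app p
        (a ⊗ₜ[R] a' : (M R n).obj p ⊗[R] (M R m).obj p))
        ((mulHom ν x hx y hy).app p (b ⊗ₜ[R] b' : (M R n).obj p ⊗[R] (M R m).obj p)) =
      ρ.app p (μ.app p ((ofM x hx).app p a) ((ofM x hx).app p b))
        (μ'.app p ((ofM y hy).app p a') ((ofM y hy).app p b'))
    rw [mulHom_tmul, mulHom_tmul, hc]
  exact congrArg (fun f : (tensor (M R n) (M R n)).obj p →ₗ[R]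
    (tensor (M R m) (M R m)).obj p →ₗ[R] C''.obj p => f X Y) e

include hc in
/-- **Multiplicativity of the external square**, cochain form. -/
theorem Pz_mul [Inv R n] [Inv R m] [Inv R (n + m)] [Mid R n m] {x : A.obj n} (hx : x ∈ A.Z n)
    {y : A'.obj m} (hy : y ∈ A'.Z m) :
    (hG.bil c c' c'' ρ hρ).cup (n + m + (n + m)) (Pz μ c h x hx) (Pz μ' c' h' y hy) -
      Pz μ'' c'' h'' (ν.cup (n + m) x y) (ν.cup_mem_Z rfl hx hy) ∈
    (hG c'').Bd (n + m + (n + m)) := by
  have h1 := (hG.mapHom (swapAct (tensor (M R n) (M R m))) c'' (mulHom2 μ'' ν x hx y hy)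
    (mulHom2_equiv h'' ν x hx y hy)).app_mem_Bd (univP_mul R n m)
  rw [map_sub, ← Pz_nat' (Bil.univ _ _) (swapAct _) (sym_univ _) μ'' c'' h''
    (mulHom ν x hx y hy) (mulHom2 μ'' ν x hx y hy) (mulHom2_equiv h'' ν x hx y hy)
    (fun p a b => Bil.lift_tmul μ'' p _ _) _ (iotaMM_mem_Z R n m) (ν.cup (n + m) x y)
    (ν.cup_mem_Z rfl hx hy) (mulHom_iota ν x hx y hy),
    hG.mapHom_cup (swapAct (M R n)) (swapAct (M R m)) (swapAct (tensor (M R n) (M R m))) c c' c''
      (midB (M R n) (M R m)) (midB_equiv _ _) ρ hρ (sqHom μ x hx) (sqHom_equiv h x hx)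
      (sqHom μ' y hy) (sqHom_equiv h' y hy) (mulHom2 μ'' ν x hx y hy)
      (mulHom2_equiv h'' ν x hx y hy) (mulHom2_midB μ μ' μ'' ν ρ hc x hx y hy)] at h1
  exact h1

include hc in
/-- **Multiplicativity of the external square**: `P (x ∪ y) = P x ∪ P y`. -/
theorem P_mul {k : ℕ} (hk : k = n + m) (hkk : k + k = n + n + (m + m)) [Inv R n] [Inv R m]
    [Inv R k] [Mid R n m] (x : A.H n) (y : A'.H m) :
    P μ'' c'' h'' (ν.cupH hk x y) =
      (hG.bil c c' c'' ρ hρ).cupH hkk (P μ c h x) (P μ' c' h' y) := by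
  subst hk
  induction x using CosMod.H_ind with
  | h x =>
    induction y using CosMod.H_ind with
    | h y =>
      rw [Bil.cupH_cls, P_cls, P_cls, P_cls, Bil.cupH_cls, eq_comm, CosMod.cls_eq_iff]
      exact Pz_mul μ c h μ' c' h' μ'' c'' h'' ν ρ hρ hc x.2 y.2

end general

end Vale.Agent.P263.S
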