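import Vale.Agent.P263.S.PowCup

/-!
# P263, block S5b: the coefficients of the external square are the cup-i squares (helper888)

For a symmetric pairing `μ : Bil A A C` (trivial action on `C`) and a cocycle `x ∈ A^n`:

* `cf_P` : the coefficient of `u^(2n-j)` in `P μ (x)` is the class of `x ∪_(2n-j) x`;
* `cf_P_of_lt` : it vanishes for `j < n` (no negative squares), and for `j > 2n`;
* `cf_P_self` : for `j = n` it is the class of the levelwise square `μ(x,x)`;
* `cf_P_bool` : for `j = n` it is `x` when `μ(x,x) = x` (Boolean algebras).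
-/

noncomputable section

open Finset

open scoped TensorProduct

namespace Vale.Agent.P263.S

open Vale.Agent.P263.H83 Vale.Agent.P263.TJ CosMod

variable {A C : CosMod (ZMod 2)}

theorem tw_triv (p : ℕ) (y : C.obj p) :
    tw (Act.triv C2 C) p y = (hG.pstar C2 C).app p y := rfl

theorem tt_triv (p : ℕ) (y : C.obj p) : tt (Act.triv C2 C) p y = 0 := add_self_two y

theorem W_mem_Z (y : ∀ m, C.obj m) (hy : ∀ m, y m ∈ C.Z m) (m : ℕ) :
    W (Act.triv C2 C) y m ∈ (hG (Act.triv C2 C)).Z m := by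
  rw [mem_Z, d_W (Act.triv C2 C) y m (tt_triv 0 _)
    (fun k _ => by rw [tt_triv, mem_Z.1 (hy k)]) m le_rfl, mem_Z.1 (hy m), map_zero]

theorem cls_W_zero (y : ∀ m, C.obj m) (hy : ∀ m, y m ∈ C.Z m) :
    (hG (Act.triv C2 C)).cls 0 ⟨W (Act.triv C2 C) y 0, W_mem_Z y hy 0⟩ =
      (hG.pstar C2 C).mapH 0 (C.cls 0 ⟨y 0, hy 0⟩) := rfl

theorem cls_W_succ (y : ∀ m, C.obj m) (hy : ∀ m, y m ∈ C.Z m) (m : ℕ) :
    (hG (Act.triv C2 C)).cls (m + 1) ⟨W (Act.triv C2 C) y (m + 1), W_mem_Z y hy (m + 1)⟩ =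
      (hG.pstar C2 C).mapH (m + 1) (C.cls (m + 1) ⟨y (m + 1), hy (m + 1)⟩) +
        uH idC (Act.triv C2 C) m
          ((hG (Act.triv C2 C)).cls m ⟨W (Act.triv C2 C) y m, W_mem_Z y hy m⟩) := by
  rw [Hom.mapH_cls, uH_cls, ← map_add]
  rfl

/-- the coefficients of `∑ u^(m-i) y_i` -/
theorem cf_W (y : ∀ m, C.obj m) (hy : ∀ m, y m ∈ C.Z m) (m j : ℕ) (h : j ≤ m) :
    cf C m j ((hG (Act.triv C2 C)).cls m ⟨W (Act.triv C2 C) y m, W_mem_Z y hy m⟩) =
      C.cls j ⟨y j, hy j⟩ := by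
  induction m with
  | zero =>
    obtain rfl : j = 0 := by omega
    rw [cls_W_zero, cf_pstar_self]
  | succ m ih =>
    rw [cls_W_succ, map_add, cf_uH]
    rcases eq_or_ne j (m + 1) with rfl | hj
    · rw [cf_pstar_self, cf_gt C m (m + 1) _ (by omega), add_zero]
    · rw [cf_pstar_ne C hj.symm, zero_add, ih (by omega)]

section P

variable {n : ℕ} (μ : Bil A A C) (h : Sym μ (Act.triv C2 C))

include h in
/-- the cup-i squares of a cocycle are cocycles -/
theorem sqf_mem_Z {x : A.obj n} (hx : x ∈ A.Z n) (m : ℕ) : sqf μ x m ∈ C.Z m := by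
  rw [mem_Z]
  by_cases hm : m ≤ n + n
  · rw [d_sqf h hx m hm, tt_triv]
  · have e : sqf μ x m = 0 := by
      rw [sqf, Nat.sub_eq_zero_of_le (by omega)]
      exact cupi_zero μ _ x x
    rw [e, map_zero]

/-- **the coefficient of `u^(2n-j)` in `P(x)` is the class of `x ∪_(2n-j) x`** -/
theorem cf_P (x : A.Z n) (j : ℕ) (hj : j ≤ n + n) :
    cf C (n + n) j (P μ (Act.triv C2 C) h (A.cls n x)) =
      C.cls j ⟨sqf μ x.1 j, sqf_mem_Z μ h x.2 j⟩ := by
  rw [P_cls_eq]
  exact cf_W (sqf μ x.1) (sqf_mem_Z μ h x.2) (n + n) j hj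

/-- no negative squares -/
theorem cf_P_of_lt (x : A.H n) (j : ℕ) (hj : j < n) :
    cf C (n + n) j (P μ (Act.triv C2 C) h x) = 0 := by
  induction x using H_ind with
  | h z =>
    rw [cf_P μ h z j (by omega), cls_eq_zero_iff]
    have e : sqf μ z.1 j = 0 := by
      rw [sqf]
      exact cupi_eq_zero_left μ hj _ _
    show sqf μ z.1 j ∈ _
    rw [e]
    exact Submodule.zero_mem _

theorem app_self_mem_Z (h : Sym μ (Act.triv C2 C)) {x : A.obj n} (hx : x ∈ A.Z n) :
    μ.app n x x ∈ C.Z n := by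
  have e : sqf μ x n = μ.app n x x := by
    rw [sqf, show n + n + 1 - n = n + 1 by omega]
    exact cupi_top μ x x
  rw [← e]
  exact sqf_mem_Z μ h hx n

/-- **the coefficient of `u^n` in `P(x)` is the class of the levelwise square** -/
theorem cf_P_self (x : A.Z n) :
    cf C (n + n) n (P μ (Act.triv C2 C) h (A.cls n x)) =
      C.cls n ⟨μ.app n x.1 x.1, app_self_mem_Z μ h x.2⟩ := by
  rw [cf_P μ h x n (by omega)]
  refine congrArg _ (Subtype.ext ?_)
  show sqf μ x.1 n = μ.app n x.1 x.1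
  rw [sqf, show n + n + 1 - n = n + 1 by omega]
  exact cupi_top μ x.1 x.1

/-- **`Sq^0 = 1` on Boolean algebras** (more generally: if `μ(x,x) = f x` for a homomorphism `f`,
the coefficient of `u^n` in `P(x)` is `f x`) -/
theorem cf_P_bool (f : Hom A C) (hf : ∀ p x, μ.app p x x = f.app p x) (x : A.H n) :
    cf C (n + n) n (P μ (Act.triv C2 C) h x) = f.mapH n x := by
  induction x using H_ind with
  | h z =>
    rw [cf_P_self μ h z, Hom.mapH_cls]
    exact congrArg _ (Subtype.ext (hf n z.1))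

end P

end Vale.Agent.P263.S
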