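import Vale.Agent.P263.S.Mn
import Vale.Agent.P263.S.Good

/-!
# P263, block S2: the cohomology of `M n ⊗ B`

`H^j(M n ⊗ B) = 0` for `j < n` and `H^m(B) = H^(n+m)(M n ⊗ B)` by the cross product with the
universal cocycle; for every cosimplicial module `B` over every commutative ring (`good_M`).
-/

noncomputable section

open scoped TensorProduct

namespace Vale.Agent.P263.S

variable {R : Type} [CommRing R]

theorem incl_iota (n : ℕ) :
    (incl R n).app (n + 1) (iotaM R (n + 1)) = (L R n).d n (iotaL R n) :=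
  (incl_prM R n (n + 1) (iotaL R (n + 1))).trans (ofL_iota _)

/-- in degree zero all vertices of a cocycle agree -/
theorem map_of_Z0 {A : CosMod R} {x : A.obj 0} (hx : x ∈ A.Z 0) {p : ℕ} (τ : Op 0 p) :
    A.map τ x = A.map (fr 0 p) x := by
  have h : A.map (dl 0 0) x = A.map (dl 0 1) x := by
    rw [CosMod.mem_Z, CosMod.d_apply] at hx
    simp only [zero_add, Finset.sum_range_succ, Finset.sum_range_zero] at hx
    rw [show sn 0 (A.map (dl 0 0) x) = A.map (dl 0 0) x by simp [sn],
      show sn 1 (A.map (dl 0 1) x) = - A.map (dl 0 1) x by simp [sn], ← sub_eq_add_neg,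
      sub_eq_zero] at hx
    exact hx
  let e : Op 1 p :=
    { toFun := fun i => if i = 0 then 0 else τ 0
      monotone' := by
        intro a b hab
        show (if a = 0 then (0 : Fin (p + 1)) else τ 0) ≤ (if b = 0 then 0 else τ 0)
        rw [Fin.le_def] at hab
        split_ifs with h1 h2 h2
        · exact le_rfl
        · exact Fin.zero_le _
        · exfalso
          apply h1
          apply Fin.ext
          have : b.1 = 0 := by rw [h2]; rfl
          show a.1 = 0
          omega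
        · exact le_rfl }
  have e1 : e.comp (dl 0 0) = τ := by
    apply OrderHom.ext
    funext i
    have hi : i = 0 := Subsingleton.elim (α := Fin 1) _ _
    subst hi
    show (if dl 0 0 0 = 0 then (0 : Fin (p + 1)) else τ 0) = τ 0
    rw [if_neg]
    intro hc
    have := congrArg Fin.val hc
    rw [dl_val] at this
    simp at this
  have e2 : e.comp (dl 0 1) = fr 0 p := by
    apply OrderHom.ext
    funext i
    have hi : i = 0 := Subsingleton.elim (α := Fin 1) _ _
    subst hi
    show (if dl 0 1 0 = 0 then (0 : Fin (p + 1)) else τ 0) = fr 0 p 0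
    rw [if_pos]
    · apply Fin.ext
      rw [fr_val]
      simp
    · apply Fin.ext
      rw [dl_val]
      simp
  rw [← e1, ← e2, ← A.map_map, ← A.map_map, h]

/-! ### the case `n = 0` -/

/-- the constant cosimplicial module `R` -/
abbrev cR (R : Type) [CommRing R] : CosMod R := const (R := R) R

/-- the unit -/
def cone (R : Type) [CommRing R] : (cR R).obj 0 := (1 : R)

theorem cone_mem (R : Type) [CommRing R] : cone R ∈ (cR R).Z 0 := by
  rw [CosMod.mem_Z, CosMod.d_apply, Finset.sum_range_succ, Finset.sum_range_succ,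
    Finset.sum_range_zero]
  show 0 + sn 0 (1 : R) + sn 1 (1 : R) = 0
  simp [sn]

/-- `M 0 → R` -/
def aug0 (R : Type) [CommRing R] : Hom (M R 0) (cR R) := ofM (cone R) (cone_mem R)

/-- `M 0 → R`, levelwise -/
def augF (R : Type) [CommRing R] (p : ℕ) : (M R 0).obj p →ₗ[R] R := (aug0 R).app p

theorem augF_map {p q : ℕ} (φ : Op p q) (x : (M R 0).obj p) :
    augF R q ((M R 0).map φ x) = augF R p x := (aug0 R).nat φ x

theorem augF_prM {p : ℕ} (τ : Op 0 p) : augF R p ((prM R 0).app p (sgl R τ 1)) = 1 := by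
  have : (aug0 R).app p ((prM R 0).app p (sgl R τ 1)) = (1 : R) • (cR R).map τ (cone R) :=
    ofL_single (cone R) τ 1
  exact this.trans (one_smul R _)

/-- the vertex of `M 0` -/
def vtx (R : Type) [CommRing R] (p : ℕ) : (M R 0).obj p := (M R 0).map (fr 0 p) (iotaM R 0)

theorem prM_eq_vtx {p : ℕ} (τ : Op 0 p) : (prM R 0).app p (sgl R τ 1) = vtx R p := by
  rw [vtx, ← map_of_Z0 (iotaM_mem_Z R 0) τ, iotaM, ← (prM R 0).nat]
  congr 1
  exact (L_map_sgl R τ OrderHom.id 1).symm

theorem augF_vtx (p : ℕ) : augF R p (vtx R p) = 1 := by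
  rw [← prM_eq_vtx (fr 0 p), augF_prM]

theorem M0_eq (p : ℕ) (x : (M R 0).obj p) : augF R p x • vtx R p = x := by
  have key : (LinearMap.toSpanSingleton R _ (vtx R p)).comp (augF R p) = LinearMap.id := by
    refine M_ext R fun τ => ?_
    rw [LinearMap.comp_apply, LinearMap.toSpanSingleton_apply, LinearMap.id_apply, augF_prM,
      one_smul, prM_eq_vtx]
  exact LinearMap.congr_fun key x

/-- the pairing `M 0 × B → B` -/
def bil0 (B : CosMod R) : Bil (M R 0) B B where
  app p := (LinearMap.lsmul R (B.obj p)).comp (augF R p)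
  nat {p q} φ x y := by
    show augF R q ((M R 0).map φ x) • B.map φ y = B.map φ (augF R p x • y)
    rw [map_smul, augF_map]

theorem bil0_vtx (B : CosMod R) (p : ℕ) (b : B.obj p) :
    (bil0 B).lift.app p (vtx R p ⊗ₜ[R] b : (M R 0).obj p ⊗[R] B.obj p) = b := by
  rw [Bil.lift_tmul]
  show augF R p (vtx R p) • b = b
  rw [augF_vtx, one_smul]

theorem eq_vtx_tmul (B : CosMod R) (p : ℕ) (z : (tensor (M R 0) B).obj p) :
    (vtx R p ⊗ₜ[R] (bil0 B).lift.app p z : (M R 0).obj p ⊗[R] B.obj p) = z := by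
  have key : (TensorProduct.mk R ((M R 0).obj p) (B.obj p) (vtx R p)).comp
      ((bil0 B).lift.app p : (M R 0).obj p ⊗[R] B.obj p →ₗ[R] B.obj p) = LinearMap.id := by
    apply TensorProduct.ext'
    intro x b
    show vtx R p ⊗ₜ[R] ((bil0 B).lift.app p (x ⊗ₜ[R] b : (M R 0).obj p ⊗[R] B.obj p)) =
      x ⊗ₜ[R] b
    rw [Bil.lift_tmul]
    show vtx R p ⊗ₜ[R] (augF R p x • b) = x ⊗ₜ[R] b
    rw [← TensorProduct.smul_tmul, M0_eq]
  exact LinearMap.congr_fun key z

theorem cr_zero (B : CosMod R) (m : ℕ) (b : B.obj m) :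
    cr m (iotaM R 0) b = (vtx R m ⊗ₜ[R] b : (M R 0).obj m ⊗[R] B.obj m) := by
  show (M R 0).map (fr 0 m) (iotaM R 0) ⊗ₜ[R] B.map (bk m m) b = _
  rw [bk_self, B.map_id_apply]
  rfl

/-! ### the induction -/

/-- coboundaries lift to coboundaries along a surjective map -/
theorem SES.lift_Bd {A B C : CosMod R} (S : SES A B C) {n : ℕ} {w : C.obj n} (hw : w ∈ C.Bd n) :
    ∃ y ∈ B.Bd n, S.p.app n y = w := by
  cases n with
  | zero =>
    rw [CosMod.mem_Bd_zero] at hw
    exact ⟨0, zero_mem _, by rw [map_zero, hw]⟩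
  | succ n =>
    obtain ⟨w', rfl⟩ := hw
    obtain ⟨y, rfl⟩ := S.surj n w'
    exact ⟨B.d n y, B.d_mem_Bd y, S.p.app_d n y⟩

theorem M_low (n : ℕ) : ∀ (B : CosMod R) (j : ℕ), j < n →
    (tensor (M R n) B).Z j ≤ (tensor (M R n) B).Bd j := by
  induction n with
  | zero => intro B j hj; omega
  | succ n ih =>
    intro B j hj z hz
    have S := sesM R n B
    have hz' : (sesM R n B).i.app j z ∈ (tensor (L R n) B).Bd j :=
      L_acyclic R n B j ((sesM R n B).i.app_mem_Z hz)
    cases j with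
    | zero =>
      rw [CosMod.mem_Bd_zero] at hz' ⊢
      exact (sesM R n B).inj 0 (by rw [hz', map_zero])
    | succ j =>
      obtain ⟨y, hy⟩ := hz'
      have hw : (sesM R n B).p.app j y ∈ (tensor (M R n) B).Z j := by
        rw [CosMod.mem_Z, ← (sesM R n B).p.app_d, hy, (sesM R n B).pi]
      obtain ⟨y', hy', e⟩ := (sesM R n B).lift_Bd (ih B j (by omega) hw)
      obtain ⟨v, hv⟩ := (sesM R n B).ex j (y - y') (by rw [map_sub, e, sub_self])
      refine ⟨v, ?_⟩
      apply (sesM R n B).inj (j + 1)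
      rw [(sesM R n B).i.app_d, hv, map_sub, hy, CosMod.mem_Z.1 (CosMod.Bd_le_Z _ _ hy'), sub_zero]

/-- `d (ι_L × b) = i (ι_M × b)` -/
theorem d_cr_iotaL {n m N : ℕ} (B : CosMod R) (hN : N = n + m) {b : B.obj m} (hb : b ∈ B.Z m) :
    (tensor (L R n) B).d N (cr N (iotaL R n) b) =
      (sesM R n B).i.app (N + 1) (cr (N + 1) (iotaM R (n + 1)) b) := by
  rw [d_cr hN, CosMod.mem_Z.1 hb, cr_zero_right, sn_zero_val, add_zero, ← incl_iota]
  exact (cr_nat (incl R n) (Hom.id B) _ b).symm

theorem p_cr_iotaL {n m N : ℕ} (B : CosMod R) (b : B.obj m) :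
    (sesM R n B).p.app N (cr N (iotaL R n) b) = cr N (iotaM R n) b :=
  cr_nat (prM R n) (Hom.id B) _ b

theorem M_gen' (n : ℕ) : ∀ (B : CosMod R) (m N : ℕ), N = n + m →
    ∀ z ∈ (tensor (M R n) B).Z N, ∃ b ∈ B.Z m,
      z - cr N (iotaM R n) b ∈ (tensor (M R n) B).Bd N := by
  induction n with
  | zero =>
    intro B m N hN z hz
    obtain rfl : N = m := by omega
    refine ⟨(bil0 B).lift.app N z, (bil0 B).lift.app_mem_Z hz, ?_⟩
    rw [cr_zero]
    have := eq_vtx_tmul B N z
    rw [this, sub_self]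
    exact zero_mem _
  | succ n ih =>
    intro B m N hN z hz
    obtain ⟨N, rfl⟩ : ∃ k, N = k + 1 := ⟨N - 1, by omega⟩
    obtain ⟨y, hy⟩ : (sesM R n B).i.app (N + 1) z ∈ (tensor (L R n) B).Bd (N + 1) :=
      L_acyclic R n B (N + 1) ((sesM R n B).i.app_mem_Z hz)
    have hw : (sesM R n B).p.app N y ∈ (tensor (M R n) B).Z N := by
      rw [CosMod.mem_Z, ← (sesM R n B).p.app_d, hy, (sesM R n B).pi]
    obtain ⟨b, hb, hbw⟩ := ih B m N (by omega) _ hw
    obtain ⟨y', hy', e⟩ := (sesM R n B).lift_Bd hbw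
    obtain ⟨v, hv⟩ := (sesM R n B).ex N (y - cr N (iotaL R n) b - y') (by
      rw [map_sub, map_sub, e, p_cr_iotaL, sub_self])
    refine ⟨b, hb, v, ?_⟩
    apply (sesM R n B).inj (N + 1)
    rw [(sesM R n B).i.app_d, hv, map_sub, map_sub, hy,
      CosMod.mem_Z.1 (CosMod.Bd_le_Z _ _ hy'), sub_zero, d_cr_iotaL B (by omega) hb, map_sub]

theorem M_inj' (n : ℕ) : ∀ (B : CosMod R) (m N : ℕ), N = n + m →
    ∀ b ∈ B.Z m, cr N (iotaM R n) b ∈ (tensor (M R n) B).Bd N → b ∈ B.Bd m := by
  induction n with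
  | zero =>
    intro B m N hN b hb h
    obtain rfl : N = m := by omega
    have := (bil0 B).lift.app_mem_Bd h
    rw [cr_zero] at this
    have e := bil0_vtx B N b
    rwa [e] at this
  | succ n ih =>
    intro B m N hN b hb h
    obtain ⟨N, rfl⟩ : ∃ k, N = k + 1 := ⟨N - 1, by omega⟩
    obtain ⟨v, hv⟩ := h
    have h1 : cr N (iotaL R n) b - (sesM R n B).i.app N v ∈ (tensor (L R n) B).Z N := by
      rw [CosMod.mem_Z, map_sub, d_cr_iotaL B (by omega) hb, ← (sesM R n B).i.app_d, hv,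
        sub_self]
    have h2 := (sesM R n B).p.app_mem_Bd (L_acyclic R n B N h1)
    rw [map_sub, (sesM R n B).pi, sub_zero, p_cr_iotaL] at h2
    exact ih B m N (by omega) b hb h2

/-- **The universal cocycle is good.** -/
theorem good_M (n : ℕ) : Good (M R n) n (iotaM R n) where
  cyc := iotaM_mem_Z R n
  low := M_low n
  gen := M_gen' n
  inj := M_inj' n

end Vale.Agent.P263.S

end
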