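import Vale.Agent.P263.S.Gys

/-!
# P263, block S3b: trivial actions, `H(hG B) = H(B)[u]` (helper637)

For the trivial action of `C2` on `B` (coefficients `ZMod 2`): the transfer is zero, `u` is
injective, `divu n x` is the quotient of the division of `x` by `u`, `cf n j` is the coefficient of
`u ^ (n - j)` (zero for `j > n`), and `freeTriv B : E.GU.Free (guHG idC (Act.triv C2 B)) B.H`.
-/

noncomputable section

namespace Vale.Agent.P263.S

open CosMod

/-- the identity of cohomology groups in equal degrees -/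
def castH (B : CosMod (ZMod 2)) {m n : ℕ} (h : m = n) : B.H m →ₗ[ZMod 2] B.H n := by
  subst h; exact LinearMap.id

@[simp] theorem castH_rfl (B : CosMod (ZMod 2)) {m : ℕ} (h : m = m) (x : B.H m) :
    castH B h x = x := rfl

theorem castH_castH (B : CosMod (ZMod 2)) {l m n : ℕ} (h : l = m) (h' : m = n) (x : B.H l) :
    castH B h' (castH B h x) = castH B (h.trans h') x := by
  subst h h'; rfl

theorem castH_nat {B C : CosMod (ZMod 2)} (f : Hom B C) {m n : ℕ} (h : m = n) (x : B.H m) :
    castH C h (f.mapH m x) = f.mapH n (castH B h x) := by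
  subst h; rfl

section triv

variable (B : CosMod (ZMod 2))

/-- the transfer of a trivial action is zero -/
theorem tr_triv (n : ℕ) (b : B.H n) : (hG.tr (Act.triv C2 B)).mapH n b = 0 := by
  induction b using H_ind with
  | h z =>
    rw [Hom.mapH_cls, cls_eq_zero_iff]
    have : (hG.tr (Act.triv C2 B)).app n z.1 = 0 := by
      refine hG.ext fun s => ?_
      rw [hG.tr_fn, sum_C2]
      exact ZModModule.add_self _
    show (hG.tr (Act.triv C2 B)).app n z.1 ∈ _
    rw [this]
    exact Submodule.zero_mem _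

theorem uH_triv_eq_zero {n : ℕ} {x : (hG (Act.triv C2 B)).H n}
    (h : uH idC (Act.triv C2 B) n x = 0) : x = 0 := by
  obtain ⟨b, rfl⟩ := (gys_u _ n x).1 h
  exact tr_triv B n b

theorem uH_triv_injective (n : ℕ) : Function.Injective (uH idC (Act.triv C2 B) n) := by
  rw [injective_iff_map_eq_zero]
  exact fun x h => uH_triv_eq_zero B h

theorem exists_divu (n : ℕ) (x : (hG (Act.triv C2 B)).H (n + 1)) :
    ∃ y, uH idC (Act.triv C2 B) n y =
      x - (hG.pstar C2 B).mapH (n + 1) ((hG.res (Act.triv C2 B)).mapH (n + 1) x) := by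
  apply (gys_res _ n _).1
  rw [map_sub, hG.mapH_res_pstar, sub_self]

/-- auxiliary function for `divu` -/
def divFun (n : ℕ) (x : (hG (Act.triv C2 B)).H (n + 1)) : (hG (Act.triv C2 B)).H n :=
  (exists_divu B n x).choose

theorem uH_divFun (n : ℕ) (x : (hG (Act.triv C2 B)).H (n + 1)) :
    uH idC (Act.triv C2 B) n (divFun B n x) =
      x - (hG.pstar C2 B).mapH (n + 1) ((hG.res (Act.triv C2 B)).mapH (n + 1) x) :=
  (exists_divu B n x).choose_spec

/-- the quotient of the division by `u` -/
def divu (n : ℕ) : (hG (Act.triv C2 B)).H (n + 1) →ₗ[ZMod 2] (hG (Act.triv C2 B)).H n where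
  toFun x := divFun B n x
  map_add' x y := by
    apply uH_triv_injective B n
    rw [map_add, uH_divFun, uH_divFun, uH_divFun]
    simp only [map_add]
    abel
  map_smul' r x := by
    apply uH_triv_injective B n
    rw [map_smul, uH_divFun, uH_divFun]
    simp only [map_smul, smul_sub, RingHom.id_apply]

theorem uH_divu (n : ℕ) (x : (hG (Act.triv C2 B)).H (n + 1)) :
    uH idC (Act.triv C2 B) n (divu B n x) =
      x - (hG.pstar C2 B).mapH (n + 1) ((hG.res (Act.triv C2 B)).mapH (n + 1) x) :=
  uH_divFun B n x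

theorem eq_pstar_add (n : ℕ) (x : (hG (Act.triv C2 B)).H (n + 1)) :
    x = (hG.pstar C2 B).mapH (n + 1) ((hG.res (Act.triv C2 B)).mapH (n + 1) x) +
      uH idC (Act.triv C2 B) n (divu B n x) := by
  rw [uH_divu]; abel

@[simp] theorem divu_uH (n : ℕ) (x : (hG (Act.triv C2 B)).H n) :
    divu B n (uH idC (Act.triv C2 B) n x) = x := by
  apply uH_triv_injective B n
  rw [uH_divu, res_uH, map_zero, sub_zero]

@[simp] theorem divu_pstar (n : ℕ) (b : B.H (n + 1)) :
    divu B n ((hG.pstar C2 B).mapH (n + 1) b) = 0 := by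
  apply uH_triv_injective B n
  rw [uH_divu, hG.mapH_res_pstar, sub_self, map_zero]

/-- the coefficient of `u ^ (n - j)` -/
def cf : ∀ n j : ℕ, (hG (Act.triv C2 B)).H n →ₗ[ZMod 2] B.H j
  | 0, j => if h : 0 = j then (castH B h).comp ((hG.res (Act.triv C2 B)).mapH 0) else 0
  | n + 1, j => if h : n + 1 = j then (castH B h).comp ((hG.res (Act.triv C2 B)).mapH (n + 1))
      else (cf n j).comp (divu B n)

theorem cf_self (n : ℕ) (x : (hG (Act.triv C2 B)).H n) :
    cf B n n x = (hG.res (Act.triv C2 B)).mapH n x := by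
  cases n with
  | zero => rw [cf, dif_pos rfl]; rfl
  | succ n => rw [cf, dif_pos rfl]; rfl

theorem cf_succ_ne {n j : ℕ} (h : n + 1 ≠ j) (x : (hG (Act.triv C2 B)).H (n + 1)) :
    cf B (n + 1) j x = cf B n j (divu B n x) := by
  rw [cf, dif_neg h]; rfl

theorem cf_gt (n j : ℕ) (x : (hG (Act.triv C2 B)).H n) (h : n < j) : cf B n j x = 0 := by
  induction n with
  | zero => rw [cf, dif_neg (by omega)]; rfl
  | succ n ih => rw [cf_succ_ne B (by omega)]; exact ih _ (by omega)

theorem cf_uH (n j : ℕ) (x : (hG (Act.triv C2 B)).H n) :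
    cf B (n + 1) j (uH idC (Act.triv C2 B) n x) = cf B n j x := by
  rcases eq_or_ne (n + 1) j with h | h
  · subst h
    rw [cf_self, res_uH, cf_gt B n (n + 1) x (by omega)]
  · rw [cf_succ_ne B h, divu_uH]

theorem cf_pstar (n j : ℕ) (b : B.H n) :
    cf B n j ((hG.pstar C2 B).mapH n b) = if h : n = j then castH B h b else 0 := by
  by_cases h : n = j
  · subst h
    rw [dif_pos rfl, cf_self, hG.mapH_res_pstar]; rfl
  · rw [dif_neg h]
    cases n with
    | zero => rw [cf, dif_neg h]; rfl
    | succ n => rw [cf_succ_ne B h, divu_pstar, map_zero]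

@[simp] theorem cf_pstar_self (n : ℕ) (b : B.H n) :
    cf B n n ((hG.pstar C2 B).mapH n b) = b := by
  rw [cf_pstar, dif_pos rfl]; rfl

theorem cf_pstar_ne {n j : ℕ} (h : n ≠ j) (b : B.H n) :
    cf B n j ((hG.pstar C2 B).mapH n b) = 0 := by
  rw [cf_pstar, dif_neg h]

theorem cf_ext (n : ℕ) (x : (hG (Act.triv C2 B)).H n) (h : ∀ j, j ≤ n → cf B n j x = 0) :
    x = 0 := by
  induction n with
  | zero =>
    apply gys_res_zero
    rw [← cf_self]
    exact h 0 le_rfl
  | succ n ih =>
    have h0 : (hG.res (Act.triv C2 B)).mapH (n + 1) x = 0 := by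
      rw [← cf_self]
      exact h (n + 1) le_rfl
    have h1 : divu B n x = 0 := by
      apply ih
      intro j hj
      rw [← cf_succ_ne B (by omega)]
      exact h j (by omega)
    rw [eq_pstar_add B n x, h0, h1, map_zero, map_zero, add_zero]

theorem cf_surj (n : ℕ) (b : ∀ j, B.H j) : ∃ x, ∀ j, j ≤ n → cf B n j x = b j := by
  induction n with
  | zero =>
    refine ⟨(hG.pstar C2 B).mapH 0 (b 0), fun j hj => ?_⟩
    obtain rfl : j = 0 := by omega
    rw [cf_pstar_self]
  | succ n ih =>
    obtain ⟨y, hy⟩ := ih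
    refine ⟨(hG.pstar C2 B).mapH (n + 1) (b (n + 1)) + uH idC (Act.triv C2 B) n y,
      fun j hj => ?_⟩
    rw [map_add, cf_uH]
    rcases eq_or_ne (n + 1) j with h | h
    · subst h
      rw [cf_pstar_self, cf_gt B n (n + 1) y (by omega), add_zero]
    · rw [cf_pstar_ne B h, zero_add, hy j (by omega)]

/-- **`H(hG B) = H(B)[u]`** -/
def freeTriv : E.GU.Free (guHG idC (Act.triv C2 B)) B.H where
  cf := cf B
  cf_u := cf_uH B
  cf_gt := cf_gt B
  ext := cf_ext B
  surj := cf_surj B

end triv

/-! ### naturality -/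

section nat

variable {B C : CosMod (ZMod 2)} (f : Hom B C)

/-- the map on homotopy fixed points for trivial actions -/
def trivMap (f : Hom B C) : Hom (hG (Act.triv C2 B)) (hG (Act.triv C2 C)) :=
  hG.mapHom (Act.triv C2 B) (Act.triv C2 C) f (fun _ _ _ => rfl)

theorem trivMap_pstar (n : ℕ) (b : B.H n) :
    (trivMap f).mapH n ((hG.pstar C2 B).mapH n b) = (hG.pstar C2 C).mapH n (f.mapH n b) := by
  induction b using H_ind with
  | h z => rfl

theorem trivMap_res (n : ℕ) (x : (hG (Act.triv C2 B)).H n) :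
    (hG.res (Act.triv C2 C)).mapH n ((trivMap f).mapH n x) =
      f.mapH n ((hG.res (Act.triv C2 B)).mapH n x) := by
  induction x using H_ind with
  | h z => rfl

theorem divu_nat (n : ℕ) (x : (hG (Act.triv C2 B)).H (n + 1)) :
    divu C n ((trivMap f).mapH (n + 1) x) = (trivMap f).mapH n (divu B n x) := by
  apply uH_triv_injective C n
  rw [uH_divu, trivMap_res, ← trivMap_pstar, ← map_sub, ← uH_divu]
  exact uH_mapHom idC _ _ f _ _

theorem cf_nat (n j : ℕ) (x : (hG (Act.triv C2 B)).H n) :
    cf C n j ((trivMap f).mapH n x) = f.mapH j (cf B n j x) := by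
  induction n with
  | zero =>
    rcases eq_or_ne 0 j with h | h
    · subst h
      rw [cf_self, cf_self, trivMap_res]
    · rw [cf_gt _ _ _ _ (by omega), cf_gt _ _ _ _ (by omega), map_zero]
  | succ n ih =>
    rcases eq_or_ne (n + 1) j with h | h
    · subst h
      rw [cf_self, cf_self, trivMap_res]
    · rw [cf_succ_ne _ h, cf_succ_ne _ h, divu_nat, ih]

/-- the short exact sequence of homotopy fixed points for trivial actions -/
def trivSES {A B C : CosMod (ZMod 2)} (S : SES A B C) :
    SES (hG (Act.triv C2 A)) (hG (Act.triv C2 B)) (hG (Act.triv C2 C)) :=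
  hG.ses S (Act.triv C2 A) (Act.triv C2 B) (Act.triv C2 C) (fun _ _ _ => rfl) (fun _ _ _ => rfl)

theorem conn_pstar {A B C : CosMod (ZMod 2)} (S : SES A B C) (n : ℕ) (c : C.H n) :
    (trivSES S).conn n ((hG.pstar C2 C).mapH n c) =
      (hG.pstar C2 A).mapH (n + 1) (S.conn n c) :=
  (S.conn_nat (trivSES S) (hG.pstar C2 A) (hG.pstar C2 B) (hG.pstar C2 C)
    (fun _ _ => rfl) (fun _ _ => rfl) n c).symm

theorem cf_conn {A B C : CosMod (ZMod 2)} (S : SES A B C) (n j : ℕ)
    (x : (hG (Act.triv C2 C)).H n) :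
    cf A (n + 1) (j + 1) ((trivSES S).conn n x) = S.conn j (cf C n j x) := by
  induction n with
  | zero =>
    rcases eq_or_ne 0 j with h | h
    · subst h
      have hx : x = (hG.pstar C2 C).mapH 0 ((hG.res (Act.triv C2 C)).mapH 0 x) := by
        rw [← sub_eq_zero]
        apply gys_res_zero
        rw [map_sub, hG.mapH_res_pstar, sub_self]
      conv_lhs => rw [hx]
      rw [conn_pstar, cf_pstar_self, cf_self]
    · rw [cf_gt C 0 j x (by omega), cf_gt A 1 (j + 1) _ (by omega), map_zero]
  | succ n ih =>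
    have hx := eq_pstar_add C n x
    have h1 : (trivSES S).conn (n + 1) x =
        (hG.pstar C2 A).mapH (n + 1 + 1) (S.conn (n + 1)
          ((hG.res (Act.triv C2 C)).mapH (n + 1) x)) +
        uH idC (Act.triv C2 A) (n + 1) ((trivSES S).conn n (divu C n x)) := by
      conv_lhs => rw [hx]
      rw [map_add, conn_pstar]
      congr 1
      exact uH_conn idC S _ _ _ _ _ n _
    rw [h1, map_add, cf_uH, ih]
    rcases eq_or_ne (n + 1) j with h | h
    · subst h
      rw [cf_pstar_self, cf_gt C n (n + 1) _ (by omega), map_zero, add_zero, cf_self]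
    · rw [cf_pstar_ne A (by omega), zero_add, cf_succ_ne C h]

theorem cf_conn_zero {A B C : CosMod (ZMod 2)} (S : SES A B C) (n : ℕ)
    (x : (hG (Act.triv C2 C)).H n) : cf A (n + 1) 0 ((trivSES S).conn n x) = 0 := by
  induction n with
  | zero =>
    have hx : x = (hG.pstar C2 C).mapH 0 ((hG.res (Act.triv C2 C)).mapH 0 x) := by
      rw [← sub_eq_zero]
      apply gys_res_zero
      rw [map_sub, hG.mapH_res_pstar, sub_self]
    rw [hx, conn_pstar, cf_pstar_ne A (by omega)]
  | succ n ih =>
    have hx := eq_pstar_add C n x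
    have h1 : (trivSES S).conn (n + 1) x =
        (hG.pstar C2 A).mapH (n + 1 + 1) (S.conn (n + 1)
          ((hG.res (Act.triv C2 C)).mapH (n + 1) x)) +
        uH idC (Act.triv C2 A) (n + 1) ((trivSES S).conn n (divu C n x)) := by
      conv_lhs => rw [hx]
      rw [map_add, conn_pstar]
      congr 1
      exact uH_conn idC S _ _ _ _ _ n _
    rw [h1, map_add, cf_uH, ih, cf_pstar_ne A (by omega), add_zero]

end nat

end Vale.Agent.P263.S
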