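import Vale.Agent.P263.S.Pow

/-!
# P263, block S4: additivity of the external square up to transfer (helper57)

`P_add : P (x + y) = P x + P y + tr (x ∪ y)` for every symmetric pairing, over every commutative
ring `R` (under `Inv R n`).
-/

open scoped TensorProduct

noncomputable section

namespace Vale.Agent.P263.S

variable {R : Type} [CommRing R]

theorem C2.sum_eq {V : Type*} [AddCommMonoid V] (f : C2 → V) : ∑ g : C2, f g = f 1 + f C2.t :=
  Fin.sum_univ_two f

theorem hG.res_tr {B : CosMod R} (a : Act C2 B) (p : ℕ) (x : B.obj p) :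
    (hG.res a).app p ((hG.tr a).app p x) = x + a.act p C2.t x := by
  rw [hG.res_app, hG.tr_fn, C2.sum_eq, Act.act_one]

namespace PowAdd

/-- naturality of the swap -/
theorem commH_nat {A B A' B' : CosMod R} (f : Hom A A') (g : Hom B B') (p : ℕ)
    (x : (tensor A B).obj p) :
    (commH A' B').app p ((f.tens g).app p x) = (g.tens f).app p ((commH A B).app p x) := by
  have e : (commH A' B').comp (f.tens g) = (g.tens f).comp (commH A B) := by
    apply hom_tensor_ext
    intro p a b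
    rfl
  exact congrArg (fun k : Hom (tensor A B) (tensor B' A') => k.app p x) e

/-- the universal object for two cocycles of degree `n` -/
abbrev MM (R : Type) [CommRing R] (n : ℕ) : CosMod R := dsum (M R n) (M R n)

theorem MM_low (n i : ℕ) (hi : i < n + n) :
    (tensor (MM R n) (MM R n)).Z i ≤ (tensor (MM R n) (MM R n)).Bd i :=
  tens_dsum_low ((good_MM R n).H_low hi) ((good_MM R n).H_low hi) ((good_MM R n).H_low hi)
    ((good_MM R n).H_low hi)

/-- the first universal cocycle -/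
def k1 (R : Type) [CommRing R] (n : ℕ) : (MM R n).obj n := (in1 (M R n) (M R n)).app n (iotaM R n)

/-- the second universal cocycle -/
def k2 (R : Type) [CommRing R] (n : ℕ) : (MM R n).obj n := (in2 (M R n) (M R n)).app n (iotaM R n)

theorem k1_mem (n : ℕ) : k1 R n ∈ (MM R n).Z n := Hom.app_mem_Z _ (iotaM_mem_Z R n)

theorem k2_mem (n : ℕ) : k2 R n ∈ (MM R n).Z n := Hom.app_mem_Z _ (iotaM_mem_Z R n)

/-- the map from the universal object -/
def hom {A : CosMod R} {n : ℕ} (x : A.obj n) (hx : x ∈ A.Z n) (y : A.obj n) (hy : y ∈ A.Z n) :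
    Hom (MM R n) A :=
  (ofM x hx).comp (pr1 _ _) + (ofM y hy).comp (pr2 _ _)

theorem hom_k1 {A : CosMod R} {n : ℕ} (x : A.obj n) (hx : x ∈ A.Z n) (y : A.obj n)
    (hy : y ∈ A.Z n) : (hom x hx y hy).app n (k1 R n) = x := by
  show (ofM x hx).app n (iotaM R n) + (ofM y hy).app n 0 = x
  rw [ofM_iota, map_zero, add_zero]

theorem hom_k2 {A : CosMod R} {n : ℕ} (x : A.obj n) (hx : x ∈ A.Z n) (y : A.obj n)
    (hy : y ∈ A.Z n) : (hom x hx y hy).app n (k2 R n) = y := by
  show (ofM x hx).app n 0 + (ofM y hy).app n (iotaM R n) = y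
  rw [ofM_iota, map_zero, zero_add]

/-- The universal additivity formula. -/
theorem univ (R : Type) [CommRing R] (n : ℕ) [inv : Inv R n] :
    Pz (Bil.univ (MM R n) (MM R n)) (swapAct (MM R n)) (sym_univ (MM R n))
        (k1 R n + k2 R n) (add_mem (k1_mem n) (k2_mem n)) -
      (Pz (Bil.univ (MM R n) (MM R n)) (swapAct (MM R n)) (sym_univ (MM R n)) (k1 R n) (k1_mem n) +
        Pz (Bil.univ (MM R n) (MM R n)) (swapAct (MM R n)) (sym_univ (MM R n)) (k2 R n)
          (k2_mem n) +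
        (hG.tr (swapAct (MM R n))).app (n + n) (cr (n + n) (k1 R n) (k2 R n))) ∈
      (hG (swapAct (MM R n))).Bd (n + n) := by
  have hz : cr (n + n) (k1 R n) (k2 R n) ∈ (tensor (MM R n) (MM R n)).Z (n + n) :=
    cr_mem_Z rfl (k1_mem n) (k2_mem n)
  refine Pz_unique (MM_low n) _ (add_mem (k1_mem n) (k2_mem n)) _
    (add_mem (add_mem (Pz_mem_Z _ _ _ _ _) (Pz_mem_Z _ _ _ _ _)) (Hom.app_mem_Z _ hz)) ?_
  have e12 : (commH (MM R n) (MM R n)).app (n + n) (cr (n + n) (k1 R n) (k2 R n)) -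
      cr (n + n) (k2 R n) (k1 R n) ∈ (tensor (MM R n) (MM R n)).Bd (n + n) := by
    have h1 := ((in2 (M R n) (M R n)).tens (in1 (M R n) (M R n))).app_mem_Bd inv.out
    rw [map_sub, ← commH_nat, cr_nat, cr_nat] at h1
    exact h1
  have et : (hG.res (swapAct (MM R n))).app (n + n) ((hG.tr (swapAct (MM R n))).app (n + n)
      (cr (n + n) (k1 R n) (k2 R n))) = cr (n + n) (k1 R n) (k2 R n) +
      (commH (MM R n) (MM R n)).app (n + n) (cr (n + n) (k1 R n) (k2 R n)) := by
    rw [hG.res_tr, swapAct_t]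
  have r1 := Pz_res (Bil.univ (MM R n) (MM R n)) (swapAct (MM R n)) (sym_univ (MM R n))
    (k1 R n) (k1_mem n)
  have r2 := Pz_res (Bil.univ (MM R n) (MM R n)) (swapAct (MM R n)) (sym_univ (MM R n))
    (k2 R n) (k2_mem n)
  have l1 : (Bil.univ (MM R n) (MM R n)).lift.app (n + n) (cr (n + n) (k1 R n) (k1 R n)) =
    cr (n + n) (k1 R n) (k1 R n) := lift_cr _ _ _ _
  have l2 : (Bil.univ (MM R n) (MM R n)).lift.app (n + n) (cr (n + n) (k2 R n) (k2 R n)) =
    cr (n + n) (k2 R n) (k2 R n) := lift_cr _ _ _ _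
  rw [l1] at r1
  rw [l2] at r2
  rw [map_add, map_add, et, cr_add_left, cr_add_right, cr_add_right]
  have key := add_mem (add_mem r1 r2) e12
  refine (iff_of_eq (congrArg (· ∈ (tensor (MM R n) (MM R n)).Bd (n + n)) ?_)).1 key
  abel

end PowAdd

variable {A C : CosMod R} {n : ℕ}

/-- Additivity up to transfer, cochain form. -/
theorem Pz_add (μ : Bil A A C) (c : Act C2 C) (h : Sym μ c) [Inv R n] (x y : A.obj n)
    (hx : x ∈ A.Z n) (hy : y ∈ A.Z n) :
    Pz μ c h (x + y) (add_mem hx hy) - (Pz μ c h x hx + Pz μ c h y hy +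
      (hG.tr c).app (n + n) (μ.cup (n + n) x y)) ∈ (hG c).Bd (n + n) := by
  let f := PowAdd.hom x hx y hy
  let g : Hom (tensor (PowAdd.MM R n) (PowAdd.MM R n)) C := μ.lift.comp (f.tens f)
  have hgc : ∀ p (s : C2) (z : (tensor (PowAdd.MM R n) (PowAdd.MM R n)).obj p),
      g.app p ((swapAct (PowAdd.MM R n)).act p s z) = c.act p s (g.app p z) := by
    intro p s z
    show μ.lift.app p ((f.tens f).app p _) = _
    rw [tens_equiv, h.equiv]
    rfl
  have hg : ∀ p a b, g.app p ((Bil.univ (PowAdd.MM R n) (PowAdd.MM R n)).app p a b) =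
      μ.app p (f.app p a) (f.app p b) := fun p a b => Bil.lift_tmul μ p _ _
  have e1 : f.app n (PowAdd.k1 R n) = x := PowAdd.hom_k1 x hx y hy
  have e2 : f.app n (PowAdd.k2 R n) = y := PowAdd.hom_k2 x hx y hy
  have e12 : f.app n (PowAdd.k1 R n + PowAdd.k2 R n) = x + y := by rw [map_add, e1, e2]
  have et : (hG.tr c).app (n + n) (μ.cup (n + n) x y) =
      (hG.mapHom (swapAct (PowAdd.MM R n)) c g hgc).app (n + n)
        ((hG.tr (swapAct (PowAdd.MM R n))).app (n + n)
          (cr (n + n) (PowAdd.k1 R n) (PowAdd.k2 R n))) := by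
    have h1 : (hG.mapHom (swapAct (PowAdd.MM R n)) c g hgc).app (n + n)
        ((hG.tr (swapAct (PowAdd.MM R n))).app (n + n)
          (cr (n + n) (PowAdd.k1 R n) (PowAdd.k2 R n))) =
        (hG.tr c).app (n + n) (g.app (n + n) (cr (n + n) (PowAdd.k1 R n) (PowAdd.k2 R n))) :=
      congrArg (fun k : Hom _ _ => k.app (n + n) (cr (n + n) (PowAdd.k1 R n) (PowAdd.k2 R n)))
        (hG.mapHom_tr (swapAct (PowAdd.MM R n)) c g hgc)
    rw [h1]
    congr 1
    show _ = μ.lift.app (n + n) ((f.tens f).app (n + n) (cr (n + n) (PowAdd.k1 R n)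
      (PowAdd.k2 R n)))
    rw [cr_nat, e1, e2, lift_cr]
    rfl
  rw [Pz_nat' (Bil.univ _ _) (swapAct _) (sym_univ _) μ c h f g hgc hg _ (PowAdd.k1_mem n) x hx e1,
    Pz_nat' (Bil.univ _ _) (swapAct _) (sym_univ _) μ c h f g hgc hg _ (PowAdd.k2_mem n) y hy e2,
    Pz_nat' (Bil.univ _ _) (swapAct _) (sym_univ _) μ c h f g hgc hg _
      (add_mem (PowAdd.k1_mem n) (PowAdd.k2_mem n)) (x + y) (add_mem hx hy) e12,
    et, ← map_add, ← map_add, ← map_sub]
  exact Hom.app_mem_Bd _ (PowAdd.univ R n)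

/-- **Additivity of the external square up to transfer.** -/
theorem P_add (μ : Bil A A C) (c : Act C2 C) (h : Sym μ c) [Inv R n] (x y : A.H n) :
    P μ c h (x + y) = P μ c h x + P μ c h y +
      (hG.tr c).mapH (n + n) (μ.cupH (n := n + n) rfl x y) := by
  induction x using CosMod.H_ind with
  | h x =>
    induction y using CosMod.H_ind with
    | h y =>
      rw [← map_add, P_cls, P_cls, P_cls, Bil.cupH_cls, Hom.mapH_cls, ← map_add, ← map_add,
        CosMod.cls_eq_iff]
      exact Pz_add μ c h x.1 y.1 x.2 y.2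

theorem P_zero (μ : Bil A A C) (c : Act C2 C) (h : Sym μ c) [Inv R n] :
    P μ c h (0 : A.H n) = 0 := by
  have e := P_add μ c h (0 : A.H n) 0
  rw [add_zero, map_zero, map_zero, add_zero] at e
  exact add_eq_left.1 e.symm

/-- `P` is additive modulo transfers. -/
theorem P_sum (μ : Bil A A C) (c : Act C2 C) (h : Sym μ c) [Inv R n] {ι : Type*} (s : Finset ι)
    (x : ι → A.H n) : ∃ y : C.H (n + n),
      P μ c h (∑ i ∈ s, x i) = ∑ i ∈ s, P μ c h (x i) + (hG.tr c).mapH (n + n) y := by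
  classical
  induction s using Finset.induction_on with
  | empty => exact ⟨0, by rw [Finset.sum_empty, Finset.sum_empty, P_zero, map_zero, add_zero]⟩
  | insert i s hi ih =>
    obtain ⟨y, hy⟩ := ih
    refine ⟨y + μ.cupH (n := n + n) rfl (x i) (∑ j ∈ s, x j), ?_⟩
    rw [Finset.sum_insert hi, Finset.sum_insert hi, P_add, hy, map_add]
    abel

end Vale.Agent.P263.S
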