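import Vale.Agent.P263.S.D2Thm
import Vale.Agent.P263.S.PowAdd
import Vale.Agent.P263.S.Gys

/-!
# P263, block S6: the instance of `D2In` (helper587)

`uPow a j m h : H^n(hG a) → H^m(hG a)` (`h : n + j = m`) is multiplication by `u^j`;
`uP μ c h j q d e x = u^j P(x)` (`e : j + 2 * q = d`);
`nak_span` : every class of `H^d(hG c)` is a transfer plus `∑ u^(d-2i) P(x_i)`;
`nak_det` : detection of `u · H^*(hG c)`.
-/

noncomputable section

namespace Vale.Agent.P263.S

open CosMod

section upow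

variable {B : CosMod (ZMod 2)}

/-- multiplication by `u^j` -/
def uPow (a : Act C2 B) {n : ℕ} : ∀ j m : ℕ, n + j = m → ((hG a).H n →ₗ[ZMod 2] (hG a).H m)
  | 0, _, rfl => LinearMap.id
  | j + 1, _, rfl => (uH idC a (n + j)).comp (uPow a j (n + j) rfl)

theorem uPow_zero (a : Act C2 B) {n : ℕ} (h : n + 0 = n) (x : (hG a).H n) :
    uPow a 0 n h x = x := rfl

theorem uPow_succ (a : Act C2 B) {n j m : ℕ} (h : n + j = m) (h' : n + (j + 1) = m + 1)
    (x : (hG a).H n) : uPow a (j + 1) (m + 1) h' x = uH idC a m (uPow a j m h x) := by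
  subst h
  rfl

theorem uPow_succ' (a : Act C2 B) {n j m : ℕ} (h : n + 1 + j = m) (h' : n + (j + 1) = m)
    (x : (hG a).H n) : uPow a (j + 1) m h' x = uPow a j m h (uH idC a n x) := by
  induction j generalizing m with
  | zero => subst h'; rfl
  | succ j ih =>
    obtain ⟨m, rfl⟩ : ∃ m', m = m' + 1 := ⟨n + (j + 1), by omega⟩
    rw [uPow_succ a (by omega : n + (j + 1) = m), ih (by omega) (by omega),
      ← uPow_succ a (by omega : n + 1 + j = m)]

theorem uPow_add (a : Act C2 B) {n i j m k : ℕ} (h : n + i = m) (h' : m + j = k)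
    (h'' : n + (i + j) = k) (x : (hG a).H n) :
    uPow a j k h' (uPow a i m h x) = uPow a (i + j) k h'' x := by
  induction j generalizing k with
  | zero => subst h'; subst h; rfl
  | succ j ih =>
    obtain ⟨k, rfl⟩ : ∃ k', k = k' + 1 := ⟨m + j, by omega⟩
    rw [uPow_succ a (by omega : m + j = k), ih (by omega) (by omega),
      ← uPow_succ a (by omega : n + (i + j) = k)]
    rfl

/-- `u^j tr = 0` for `j ≥ 1` -/
theorem uPow_tr (a : Act C2 B) {n j m : ℕ} (h : n + j = m) (hj : 1 ≤ j) (b : B.H n) :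
    uPow a j m h ((hG.tr a).mapH n b) = 0 := by
  obtain ⟨j, rfl⟩ : ∃ j', j = j' + 1 := ⟨j - 1, by omega⟩
  rw [uPow_succ' a (by omega : n + 1 + j = m), uH_tr, map_zero]

/-- `res (u^j x) = 0` for `j ≥ 1` -/
theorem res_uPow (a : Act C2 B) {n j m : ℕ} (h : n + j = m) (hj : 1 ≤ j) (x : (hG a).H n) :
    (hG.res a).mapH m (uPow a j m h x) = 0 := by
  obtain ⟨j, rfl⟩ : ∃ j', j = j' + 1 := ⟨j - 1, by omega⟩
  obtain ⟨m, rfl⟩ : ∃ m', m = m' + 1 := ⟨n + j, by omega⟩
  rw [uPow_succ a (by omega : n + j = m), res_uH]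

/-- naturality in the coefficients -/
theorem uPow_mapHom {C : CosMod (ZMod 2)} (a : Act C2 B) (b : Act C2 C) (f : Hom B C)
    (hf : ∀ p (g : C2) (x : B.obj p), f.app p (a.act p g x) = b.act p g (f.app p x))
    {n j m : ℕ} (h : n + j = m) (x : (hG a).H n) :
    (hG.mapHom a b f hf).mapH m (uPow a j m h x) =
      uPow b j m h ((hG.mapHom a b f hf).mapH n x) := by
  induction j generalizing m with
  | zero => subst h; rfl
  | succ j ih =>
    obtain ⟨m, rfl⟩ : ∃ m', m = m' + 1 := ⟨n + j, by omega⟩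
    rw [uPow_succ a (by omega : n + j = m), uPow_succ b (by omega : n + j = m),
      uH_mapHom idC a b f hf, ih]

end upow

variable {A C : CosMod (ZMod 2)}

/-- the class `u^j P(x)` -/
def uP (μ : Bil A A C) (c : Act C2 C) (h : Sym μ c) (j q d : ℕ) (e : j + 2 * q = d)
    (x : A.H q) : (hG c).H d :=
  uPow c j d (by omega : q + q + j = d) (P μ c h x)

theorem uP_succ (μ : Bil A A C) (c : Act C2 C) (h : Sym μ c) (j q d : ℕ) (e : j + 2 * q = d)
    (e' : j + 1 + 2 * q = d + 1) (x : A.H q) :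
    uP μ c h (j + 1) q (d + 1) e' x = uH idC c d (uP μ c h j q d e x) :=
  uPow_succ c _ _ _

theorem uP_zero_left (μ : Bil A A C) (c : Act C2 C) (h : Sym μ c) (q : ℕ)
    (e : 0 + 2 * q = q + q) (x : A.H q) : uP μ c h 0 q (q + q) e x = P μ c h x := rfl

theorem uP_zero (μ : Bil A A C) (c : Act C2 C) (h : Sym μ c) (j q d : ℕ) (e : j + 2 * q = d) :
    uP μ c h j q d e 0 = 0 := by
  unfold uP
  rw [P_zero, map_zero]

/-- `u^j P` is additive for `j ≥ 1`. -/
theorem uP_add (μ : Bil A A C) (c : Act C2 C) (h : Sym μ c) (j q d : ℕ) (e : j + 2 * q = d)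
    (hj : 1 ≤ j) (x y : A.H q) :
    uP μ c h j q d e (x + y) = uP μ c h j q d e x + uP μ c h j q d e y := by
  unfold uP
  rw [P_add, map_add, map_add, uPow_tr c _ hj, add_zero]

theorem uP_add_zero (μ : Bil A A C) (c : Act C2 C) (h : Sym μ c) (q d : ℕ) (e : 0 + 2 * q = d)
    (e' : d = q + q) (x y : A.H q) :
    uP μ c h 0 q d e (x + y) = uP μ c h 0 q d e x + uP μ c h 0 q d e y +
      (hG.tr c).mapH d (μ.cupH e' x y) := by
  subst e'
  exact P_add μ c h x y

theorem res_uP_zero (μ : Bil A A C) (c : Act C2 C) (h : Sym μ c) (q d : ℕ) (e : 0 + 2 * q = d)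
    (e' : d = q + q) (x : A.H q) :
    (hG.res c).mapH d (uP μ c h 0 q d e x) = μ.cupH e' x x := by
  subst e'
  exact P_res μ c h x

/-- naturality of `u^j P` -/
theorem uP_nat {A' C' : CosMod (ZMod 2)} (μ : Bil A A C) (c : Act C2 C) (h : Sym μ c)
    (μ' : Bil A' A' C') (c' : Act C2 C') (h' : Sym μ' c') (f : Hom A A') (g : Hom C C')
    (hgc : ∀ p (s : C2) (x : C.obj p), g.app p (c.act p s x) = c'.act p s (g.app p x))
    (hg : ∀ p a b, g.app p (μ.app p a b) = μ'.app p (f.app p a) (f.app p b))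
    (j q d : ℕ) (e : j + 2 * q = d) (x : A.H q) :
    uP μ' c' h' j q d e (f.mapH q x) = (hG.mapHom c c' g hgc).mapH d (uP μ c h j q d e x) := by
  unfold uP
  rw [P_nat μ c h μ' c' h' f g hgc hg, uPow_mapHom]

theorem hG.res_tr_mapH (c : Act C2 C) (n : ℕ) (y : C.H n) :
    (hG.res c).mapH n ((hG.tr c).mapH n y) = y + (c.hom C2.t).mapH n y := by
  induction y using H_ind with
  | h z =>
    rw [Hom.mapH_cls, Hom.mapH_cls, Hom.mapH_cls, ← map_add]
    congr 1
    apply Subtype.ext
    exact hG.res_tr c n z.1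

/-- **The instance.** -/
def D2In.ofSym (μ : Bil A A C) (c : Act C2 C) (h : Sym μ c) : D2In μ c C2.t where
  U := uH idC c
  up := uP μ c h
  res_zero w hw := gys_res_zero c w hw
  res_succ n w hw := (gys_res c n w).1 hw
  U_tr n y := uH_tr c n y
  res_tr n y := hG.res_tr_mapH c n y
  res_inv n w := hG_res_inv c C2.t n w
  res_up q d e e' x := res_uP_zero μ c h q d e e' x
  up_succ j q d e e' x := uP_succ μ c h j q d e e' x
  up_add q d e e' x y := uP_add_zero μ c h q d e e' x y
  up_zero q d e := uP_zero μ c h 0 q d e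

/-- The action of the involution on cross products. -/
theorem Sym.mapH_cupH {μ : Bil A A C} {c : Act C2 C} (h : Sym μ c) {m n N : ℕ} (e : N = m + n)
    (e' : N = n + m) (x : A.H m) (y : A.H n) :
    (c.hom C2.t).mapH N (μ.cupH e x y) = μ.cupH e' y x := by
  rw [Bil.cupH_comm (fun n => good_M n) μ e e']
  induction x using H_ind with
  | h x =>
    induction y using H_ind with
    | h y =>
      rw [Bil.cupH_cls, Bil.cupH_cls, Hom.mapH_cls]
      congr 1
      apply Subtype.ext
      exact h N _ _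

/-- Künneth basis, without order: `H(C)` has the basis `x_i ∪ x_j`. -/
structure KunB (μ : Bil A A C) where
  I : Type
  deg : I → ℕ
  x : ∀ i, A.H (deg i)
  b : ∀ N, Module.Basis {s : I × I // N = deg s.1 + deg s.2} (ZMod 2) (C.H N)
  hb : ∀ N (s : {s : I × I // N = deg s.1 + deg s.2}), b N s = μ.cupH s.2 (x s.1.1) (x s.1.2)

/-- The involution on a Künneth basis. -/
def KunB.toKunBasis {μ : Bil A A C} (K : KunB μ) {c : Act C2 C} (h : Sym μ c) :
    KunBasis μ c C2.t :=
  haveI : LinearOrder K.I := @IsWellOrder.linearOrder K.I WellOrderingRel _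
  { I := K.I
    deg := K.deg
    x := K.x
    b := K.b
    hb := K.hb
    hτ := fun N s => by
      rw [K.hb]
      exact h.mapH_cupH _ _ _ _ }

/-- Transport of a Künneth basis along an `H`-isomorphism of the targets. -/
def KunB.map {C' : CosMod (ZMod 2)} {μ : Bil A A C} (K : KunB μ) (μ' : Bil A A C') (g : Hom C C')
    (hg : ∀ p a b, g.app p (μ.app p a b) = μ'.app p a b)
    (hb : ∀ n, Function.Bijective (g.mapH n)) : KunB μ' where
  I := K.I
  deg := K.deg
  x := K.x
  b N := (K.b N).map (LinearEquiv.ofBijective (g.mapH N) (hb N))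
  hb N s := by
    rw [Module.Basis.map_apply, K.hb, LinearEquiv.ofBijective_apply]
    have e := Bil.cupH_nat μ μ' (Hom.id A) (Hom.id A) g hg s.2 (K.x s.1.1) (K.x s.1.2)
    rwa [Hom.mapH_id, Hom.mapH_id] at e

end Vale.Agent.P263.S
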