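import Vale.Agent.P263.S.KunInj
import Vale.Agent.P263.S.D2Inst

/-!
# P263, block S: the Künneth basis in the form `KunB` (helper718)
-/

noncomputable section

open scoped TensorProduct

namespace Vale.Agent.P263.S

open CosMod Kun

/-- the two exterior products in cohomology agree -/
theorem crH_eq_cupH {R : Type} [CommRing R] {A B : CosMod R} {n m N : ℕ} (h : N = n + m)
    (x : A.H n) (y : B.H m) : crH n m N x y = (Bil.univ A B).cupH h x y := by
  induction x using H_ind with
  | h x =>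
    induction y using H_ind with
    | h y =>
      rw [crH_cls h, Bil.cupH_cls]
      rfl

theorem exists_basisF2 (V : Type) [AddCommGroup V] [Module (ZMod 2) V] :
    ∃ ι : Type, Nonempty (Module.Basis ι (ZMod 2) V) :=
  ⟨_, ⟨Module.Basis.ofVectorSpace (ZMod 2) V⟩⟩

/-- index set of a basis of `H^q(A)` -/
def bIdx (A : CosMod (ZMod 2)) (q : ℕ) : Type := Classical.choose (exists_basisF2 (A.H q))

/-- a basis of `H^q(A)` -/
def bH (A : CosMod (ZMod 2)) (q : ℕ) : Module.Basis (bIdx A q) (ZMod 2) (A.H q) :=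
  Classical.choice (Classical.choose_spec (exists_basisF2 (A.H q)))

/-- reindexing -/
def kbEquiv (ι : ℕ → Type) (N : ℕ) :
    KIdx ι ι N ≃ {s : (Σ q, ι q) × (Σ q, ι q) // N = s.1.1 + s.2.1} where
  toFun s := ⟨s.1, s.2.symm⟩
  invFun s := ⟨s.1, s.2.symm⟩
  left_inv _ := rfl
  right_inv _ := rfl

/-- The Künneth basis indexed as in `KunB`. -/
def kunBasis' (A : CosMod (ZMod 2)) (N : ℕ) :
    Module.Basis {s : (Σ q, bIdx A q) × (Σ q, bIdx A q) // N = s.1.1 + s.2.1} (ZMod 2)
      ((tensor A A).H N) :=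
  (kunBasis (bH A) (bH A) N).reindex (kbEquiv (bIdx A) N)

theorem kunBasis'_apply (A : CosMod (ZMod 2)) (N : ℕ)
    (s : {s : (Σ q, bIdx A q) × (Σ q, bIdx A q) // N = s.1.1 + s.2.1}) :
    kunBasis' A N s = (Bil.univ A A).cupH s.2 (bH A s.1.1.1 s.1.1.2) (bH A s.1.2.1 s.1.2.2) := by
  rw [← crH_eq_cupH, kunBasis', Module.Basis.reindex_apply]
  exact kunBasis_apply (bH A) (bH A) N ((kbEquiv (bIdx A) N).symm s)

/-- **The Künneth basis** for the universal pairing, over `F_2`. -/
def kunB (A : CosMod (ZMod 2)) : KunB (Bil.univ A A) where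
  I := Σ q, bIdx A q
  deg i := i.1
  x i := bH A i.1 i.2
  b N := kunBasis' A N
  hb N s := kunBasis'_apply A N s

end Vale.Agent.P263.S

end
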