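import Vale.Agent.P263.S.D2Inst
import Vale.Agent.P263.S.GysTriv
import Vale.Agent.P263.TJ.SqCup

/-!
# P263, block S6: spanning and detection for `D_2` (helper587)

* `nak_span` : `w - ∑_i u^(d-2i) P(x_i)` is a transfer;
* `nak_u` : `u w' = ∑_{2i < d} u^(d-2i) P(x_i)`;
* `nak_det` : `u w' = 0` as soon as `u w'` restricts to zero on the diagonal `BC2 × Z`.
-/

noncomputable section

namespace Vale.Agent.P263.S

open CosMod

/-- the expansion of `H(hG triv)` in the form of `TJ/SqCup` -/
def expn (B : CosMod (ZMod 2)) : TJ.Expn B where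
  cf := cf B
  cf_u := cf_uH B
  cf_gt := cf_gt B
  cf_p n x := cf_pstar_self B n x
  cf_p_lt n j x h := cf_pstar_ne B (by omega) x

theorem cf_uPow (B : CosMod (ZMod 2)) {n j m : ℕ} (h : n + j = m) (i : ℕ)
    (x : (hG (Act.triv C2 B)).H n) :
    cf B m i (uPow (Act.triv C2 B) j m h x) = cf B n i x := by
  induction j generalizing m with
  | zero => subst h; rfl
  | succ j ih =>
    obtain ⟨m, rfl⟩ : ∃ m', m = m' + 1 := ⟨n + j, by omega⟩
    rw [uPow_succ _ (by omega : n + j = m), cf_uH, ih]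

variable {A C : CosMod (ZMod 2)}

/-- coefficients of `u^j P(x)` on `BC2 × Z` below the degree of `x` -/
theorem cf_uP_lt {μ : Bil A A C} (h : Sym μ (Act.triv C2 C)) {j q d : ℕ} (e : j + 2 * q = d)
    (x : A.H q) {i : ℕ} (hi : i < q) : cf C d i (uP μ _ h j q d e x) = 0 := by
  unfold uP
  rw [cf_uPow]
  exact TJ.cf_P_lt (expn C) h x i hi

/-- `Sq^0 = 1` when the levelwise square is the identity -/
theorem cf_uP_self {μ : Bil A A A} (h : Sym μ (Act.triv C2 A))
    (hsq : ∀ n (x : A.obj n), μ.app n x x = x) {j q d : ℕ} (e : j + 2 * q = d)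
    (x : A.H q) : cf A d q (uP μ _ h j q d e x) = x := by
  unfold uP
  rw [cf_uPow]
  induction x using H_ind with
  | h z =>
    refine (TJ.cf_P_self (expn A) h z (by rw [hsq]; exact z.2)).trans ?_
    congr 1
    exact Subtype.ext (hsq _ _)

/-- **Spanning**, in the form of `H.Intr.span`. -/
theorem nak_span {μ : Bil A A C} {c : Act C2 C} (h : Sym μ c) (K : KunB μ) (d : ℕ)
    (w : (hG c).H d) :
    ∃ (y : C.H d) (x : ∀ q, A.H q),
      w - ∑ i : Fin (d / 2 + 1),
        uP μ c h (d - 2 * i) i d (by have := i.2; omega) (x i) = (hG.tr c).mapH d y := by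
  obtain ⟨y, x, hx⟩ := (D2In.ofSym μ c h).span (K.toKunBasis h) d w
  refine ⟨y, x, ?_⟩
  have e : ∑ i : Fin (d / 2 + 1), uP μ c h (d - 2 * i) i d (by have := i.2; omega) (x i) =
      ∑ q ∈ Finset.range (d + 1), (D2In.ofSym μ c h).term d q (x q) := by
    have e1 : ∀ i : Fin (d / 2 + 1), uP μ c h (d - 2 * i) i d (by have := i.2; omega) (x i) =
        (D2In.ofSym μ c h).term d i (x i) := by
      intro i
      unfold D2In.term
      rw [dif_pos (by have := i.2; omega)]
      rfl
    rw [Finset.sum_congr rfl fun i _ => e1 i,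
      Fin.sum_univ_eq_sum_range (fun q => (D2In.ofSym μ c h).term d q (x q)) (d / 2 + 1)]
    refine Finset.sum_subset ?_ ?_
    · intro q hq
      rw [Finset.mem_range] at hq ⊢
      omega
    · intro q _ hq
      rw [Finset.mem_range] at hq
      unfold D2In.term
      rw [dif_neg (by omega)]
  rw [e, hx]
  abel

/-- Multiples of `u` are sums of `u^(d+1-2q) P(x_q)`, `2q ≤ d`. -/
theorem nak_u {μ : Bil A A C} {c : Act C2 C} (h : Sym μ c) (K : KunB μ) (d : ℕ)
    (w : (hG c).H d) :
    ∃ x : ∀ q, A.H q, uH idC c d w = ∑ i : Fin (d / 2 + 1),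
        uP μ c h (d + 1 - 2 * i) i (d + 1) (by have := i.2; omega) (x i) := by
  obtain ⟨y, x, hx⟩ := nak_span h K d w
  refine ⟨x, ?_⟩
  have e : w = (hG.tr c).mapH d y + ∑ i : Fin (d / 2 + 1),
        uP μ c h (d - 2 * i) i d (by have := i.2; omega) (x i) := by
    rw [← hx]; abel
  rw [e, map_add, uH_tr, zero_add, map_sum]
  refine Finset.sum_congr rfl fun i _ => ?_
  have key : ∀ (k : ℕ) (hk : k = d - 2 * (i : ℕ) + 1) (e' : k + 2 * (i : ℕ) = d + 1),
      uH idC c d (uP μ c h (d - 2 * i) i d (by have := i.2; omega) (x i)) =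
        uP μ c h k i (d + 1) e' (x i) := by
    rintro k rfl e'
    exact (uP_succ μ c h _ _ _ _ _ _).symm
  exact key _ (by have := i.2; omega) _

/-- **Detection on the diagonal.** -/
theorem nak_det {μ : Bil A A C} {c : Act C2 C} (h : Sym μ c) (K : KunB μ)
    {μ0 : Bil A A A} (h0 : Sym μ0 (Act.triv C2 A)) (hsq : ∀ n (x : A.obj n), μ0.app n x x = x)
    (g : Hom C A)
    (hgc : ∀ p (s : C2) (x : C.obj p), g.app p (c.act p s x) = (Act.triv C2 A).act p s (g.app p x))
    (hg : ∀ p a b, g.app p (μ.app p a b) = μ0.app p a b) (d : ℕ) (w : (hG c).H d)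
    (hw : (hG.mapHom c (Act.triv C2 A) g hgc).mapH (d + 1) (uH idC c d w) = 0) :
    uH idC c d w = 0 := by
  obtain ⟨x, hx⟩ := nak_u h K d w
  have hnat : ∀ (j q e : ℕ) (he : j + 2 * q = e) (y : A.H q),
      (hG.mapHom c (Act.triv C2 A) g hgc).mapH e (uP μ c h j q e he y) =
        uP μ0 _ h0 j q e he y := by
    intro j q e he y
    have := uP_nat μ c h μ0 (Act.triv C2 A) h0 (Hom.id A) g hgc hg j q e he y
    rw [← this, Hom.mapH_id]
  have hz : ∀ q, q < d / 2 + 1 → x q = 0 := by
    intro q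
    induction q using Nat.strong_induction_on with
    | _ q ih =>
      intro hq
      rw [hx, map_sum] at hw
      simp only [hnat] at hw
      have h1 := congrArg (cf A (d + 1) q) hw
      rw [map_zero, map_sum, Finset.sum_eq_single ⟨q, hq⟩] at h1
      · rw [cf_uP_self h0 hsq] at h1
        exact h1
      · intro i _ hi
        rcases Nat.lt_or_ge i.1 q with h2 | h2
        · rw [ih i.1 h2 i.2, uP_zero, map_zero]
        · refine cf_uP_lt h0 _ _ (lt_of_le_of_ne h2 fun h3 => hi (Fin.ext h3.symm))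
      · intro h2
        exact absurd (Finset.mem_univ _) h2
  rw [hx]
  refine Finset.sum_eq_zero fun i _ => ?_
  rw [hz i i.2, uP_zero]

end Vale.Agent.P263.S
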