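import Vale.Agent.P263.S.Comm
import Vale.Agent.P263.S.GoodM
import Vale.Agent.P263.S.Gys

/-!
# P263, block S: the projection formula for the transfer, interchange of products (helper197)

Coefficients `F_2`, group `C2`.
* `tr_cupH` : `tr x ∪ y = tr (x ∪ res y)`;
* `tr_res` : `tr (res x) = 0`; `res_tr_mapH` : `res (tr x) = x + τ x`;
* `cupH_mid4` : `(a ∪ b) ∪ (c ∪ d) = (a ∪ c) ∪ (b ∪ d)` for a commutative associative product;
* `tr_sq` : `tr z ∪ tr z = tr (z ∪ z) + tr (z ∪ τ z)`.
-/

noncomputable section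

namespace Vale.Agent.P263.S

open CosMod

/-! ### The pairing of functions on `EG` -/

section

variable {R : Type} [CommRing R] {G : Type} [Group G] {A B C : CosMod R}

/-- the pairing of functions on `EG` -/
def fnE.bil (G : Type) (μ : Bil A B C) : Bil (fnE G A) (fnE G B) (fnE G C) where
  app p := LinearMap.mk₂ R
    (fun (x : (Fin (p + 1) → G) → A.obj p) (y : (Fin (p + 1) → G) → B.obj p) =>
      ((fun s => μ.app p (x s) (y s)) : (Fin (p + 1) → G) → C.obj p))
    (fun x x' y => by
      funext s
      show μ.app p (x s + x' s) (y s) = μ.app p (x s) (y s) + μ.app p (x' s) (y s)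
      rw [map_add, LinearMap.add_apply])
    (fun r x y => by
      funext s
      show μ.app p (r • x s) (y s) = r • μ.app p (x s) (y s)
      rw [map_smul, LinearMap.smul_apply])
    (fun x y y' => by
      funext s
      show μ.app p (x s) (y s + y' s) = μ.app p (x s) (y s) + μ.app p (x s) (y' s)
      rw [map_add])
    (fun r x y => by
      funext s
      show μ.app p (x s) (r • y s) = r • μ.app p (x s) (y s)
      rw [map_smul])
  nat φ x y := by
    funext s
    exact μ.nat φ _ _

omit [Group G] in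
theorem fnE.bil_app (μ : Bil A B C) {p : ℕ} (x : (fnE G A).obj p) (y : (fnE G B).obj p)
    (s : Fin (p + 1) → G) : ((fnE.bil G μ).app p x y : (Fin (p + 1) → G) → C.obj p) s =
      μ.app p ((x : (Fin (p + 1) → G) → A.obj p) s) ((y : (Fin (p + 1) → G) → B.obj p) s) := rfl

theorem resE_cupH (μ : Bil A B C) {m p n : ℕ} (h : n = m + p) (x : (fnE G A).H m)
    (y : (fnE G B).H p) : (resE C (G := G)).mapH n ((fnE.bil G μ).cupH h x y) =
      μ.cupH h ((resE A).mapH m x) ((resE B).mapH p y) :=
  Bil.cupH_nat (fnE.bil G μ) μ (resE A) (resE B) (resE C) (fun _ _ _ => rfl) h x y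

/-- the transfer of functions on `EG` is linear over the homotopy fixed points -/
theorem trE_cup [Fintype G] (a : Act G A) (b : Act G B) (c : Act G C) (μ : Bil A B C)
    (hμ : ∀ p g x y, μ.app p (a.act p g x) (b.act p g y) = c.act p g (μ.app p x y)) {m p : ℕ}
    (n : ℕ) (x : (fnE G A).obj m) (y : (hG b).obj p) :
    (hG.bil a b c μ hμ).cup n ((hG.trE a).app m x) y =
      (hG.trE c).app n ((fnE.bil G μ).cup n x ((hG.incl b).app p y)) := by
  rw [Bil.cup, Bil.cup, ← (hG.trE a).nat, ← (hG.incl b).nat]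
  refine hG.ext fun s => ?_
  rw [hG.bil_fn, hG.trE_fn, hG.trE_fn, map_sum, LinearMap.sum_apply]
  refine Finset.sum_congr rfl fun g _ => ?_
  rw [fnE.bil_app, ← hμ]
  congr 1
  have h1 := hG.fn_mul ((hG b).map (bk p n) y) g (fun i => g⁻¹ * s i)
  simp only [mul_inv_cancel_left] at h1
  exact h1

end

section

variable {A B C : CosMod (ZMod 2)} (a : Act C2 A) (b : Act C2 B) (c : Act C2 C) (μ : Bil A B C)
  (hμ : ∀ p g x y, μ.app p (a.act p g x) (b.act p g y) = c.act p g (μ.app p x y))

theorem trE_constE_mapH (n : ℕ) (x : A.H n) :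
    (hG.trE a).mapH n ((constE A).mapH n x) = (hG.tr a).mapH n x := by
  rw [trE_mapH]
  congr 1
  induction x using H_ind with
  | h z => rfl

/-- **The projection formula.** -/
theorem tr_cupH {m p n : ℕ} (h : n = m + p) (x : A.H m) (y : (hG b).H p) :
    (hG.bil a b c μ hμ).cupH h ((hG.tr a).mapH m x) y =
      (hG.tr c).mapH n (μ.cupH h x ((hG.res b).mapH p y)) := by
  have h1 : ∀ w : (fnE C2 A).H m, (hG.bil a b c μ hμ).cupH h ((hG.trE a).mapH m w) y =
      (hG.trE c).mapH n ((fnE.bil C2 μ).cupH h w ((hG.incl b).mapH p y)) := by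
    intro w
    induction w using H_ind with
    | h w =>
      induction y using H_ind with
      | h y =>
        rw [Hom.mapH_cls, Hom.mapH_cls, Bil.cupH_cls, Bil.cupH_cls, Hom.mapH_cls]
        exact congrArg _ (Subtype.ext (trE_cup a b c μ hμ n w.1 y.1))
  rw [← trE_constE_mapH, h1, trE_mapH, resE_cupH]
  congr 2
  · congr 1
    induction x using H_ind with
    | h x => rfl
  · induction y using H_ind with
    | h y => rfl

/-- the transfer of a restriction is zero -/
theorem tr_res_mapH (n : ℕ) (x : (hG a).H n) :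
    (hG.tr a).mapH n ((hG.res a).mapH n x) = 0 := by
  have h1 : (hG.res a).mapH n x = (resE A).mapH n ((hG.incl a).mapH n x) := by
    induction x using H_ind with
    | h x => rfl
  rw [h1, ← trE_mapH]
  induction x using H_ind with
  | h x =>
    rw [Hom.mapH_cls, Hom.mapH_cls, cls_eq_zero_iff]
    have : (hG.trE a).app n ((hG.incl a).app n x.1) = 0 := trE_incl a x.1
    show (hG.trE a).app n ((hG.incl a).app n x.1) ∈ _
    rw [this]
    exact zero_mem _

/-- the restriction of a transfer -/
theorem res_tr_mapH (n : ℕ) (x : A.H n) :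
    (hG.res a).mapH n ((hG.tr a).mapH n x) = x + (a.hom tC).mapH n x := by
  induction x using H_ind with
  | h x =>
    rw [Hom.mapH_cls, Hom.mapH_cls, Hom.mapH_cls, ← map_add]
    refine congrArg _ (Subtype.ext ?_)
    show ∑ g : C2, a.act n g x.1 = x.1 + a.act n tC x.1
    rw [sum_C2, Act.act_one]

end

/-! ### Commutative associative products -/

section

variable {A : CosMod (ZMod 2)} (μ : Bil A A A)

theorem Bil.ext_app {R : Type} [CommRing R] {A B C : CosMod R} {μ ν : Bil A B C}
    (h : ∀ p a b, μ.app p a b = ν.app p a b) : μ = ν := by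
  have e : μ.app = ν.app := funext fun p => LinearMap.ext fun a => LinearMap.ext fun b => h p a b
  obtain ⟨m, hm⟩ := μ
  obtain ⟨m', hm'⟩ := ν
  obtain rfl : m = m' := e
  rfl

variable (hc : ∀ p a b, μ.app p b a = μ.app p a b)
include hc

/-- commutativity for a commutative product -/
theorem cupH_comm_self {m n N : ℕ} (h : N = m + n) (h' : N = n + m) (x : A.H m) (y : A.H n) :
    μ.cupH h x y = μ.cupH h' y x := by
  have hf : μ.flip = μ := Bil.ext_app fun p a b => hc p a b
  have := μ.cupH_comm good_M h h' x y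
  rwa [hf] at this

variable (ha : ∀ p a b c, μ.app p (μ.app p a b) c = μ.app p a (μ.app p b c))
include ha

/-- the interchange of the middle factors -/
theorem cupH_mid4 {p q r s pq rs pr qs N : ℕ} (h1 : pq = p + q) (h2 : rs = r + s)
    (h3 : pr = p + r) (h4 : qs = q + s) (h : N = pq + rs) (h' : N = pr + qs) (x : A.H p)
    (y : A.H q) (z : A.H r) (w : A.H s) :
    μ.cupH h (μ.cupH h1 x y) (μ.cupH h2 z w) = μ.cupH h' (μ.cupH h3 x z) (μ.cupH h4 y w) := by
  rw [Bil.cupH_assoc μ μ μ μ ha h1 (bc := q + rs) rfl h (by omega),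
    ← Bil.cupH_assoc μ μ μ μ ha (ab := q + r) rfl h2 (by omega : q + rs = (q + r) + s) rfl,
    cupH_comm_self μ hc (rfl : q + r = q + r) (by omega : q + r = r + q) y z,
    Bil.cupH_assoc μ μ μ μ ha (by omega : q + r = r + q) h4 (by omega : q + rs = (q + r) + s)
      (by omega : q + rs = r + qs),
    ← Bil.cupH_assoc μ μ μ μ ha h3 (by omega : q + rs = r + qs) h' (by omega)]

end

end Vale.Agent.P263.S
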