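import Vale.Agent.P263.E.SqAlg

/-!
# P263, block S3b: the flip formula, abstract form (helper57)

`K = H(hG B) = E[v]`, `KK = H(hG (hG B)) = K[u]`, `fl : KK → KK` the exchange of the two groups,
`V = fl u fl` the inner operator.  The coefficient of `u^(n-m) v^(m-j)` of `fl z` is the coefficient
of `u^(m-j) v^(n-m)` of `z`: `FlipData.cf_fl`.
-/

namespace Vale.Agent.P263.S

open Vale.Agent.P263.E

universe v

/-- The input of the flip formula. -/
structure FlipData (E : ℕ → Type v) [∀ j, AddCommGroup (E j)] [∀ j, Module (ZMod 2) (E j)]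
    (K KK : GU.{v}) (fr1 : GU.Free K E) (fr2 : GU.Free KK K.H) where
  /-- constants in the inner variable -/
  ps : ∀ n, E n →ₗ[ZMod 2] K.H n
  cf_ps : ∀ n j x, j < n → fr1.cf n j (ps n x) = 0
  cf_ps_self : ∀ n x, fr1.cf n n (ps n x) = x
  /-- constants in the outer variable -/
  ps2 : ∀ n, K.H n →ₗ[ZMod 2] KK.H n
  cf_ps2 : ∀ n j x, j < n → fr2.cf n j (ps2 n x) = 0
  cf_ps2_self : ∀ n x, fr2.cf n n (ps2 n x) = x
  /-- the exchange -/
  fl : ∀ n, KK.H n →ₗ[ZMod 2] KK.H n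
  /-- the inner operator -/
  V : ∀ n, KK.H n →ₗ[ZMod 2] KK.H (n + 1)
  fl_u : ∀ n z, fl (n + 1) (KK.u n z) = V n (fl n z)
  V_ps2 : ∀ n y, V n (ps2 n y) = ps2 (n + 1) (K.u n y)
  V_u : ∀ n z, V (n + 1) (KK.u n z) = KK.u (n + 1) (V n z)
  cf_fl_ps2 : ∀ n m y, fr2.cf n m (fl n (ps2 n y)) = ps m (fr1.cf n m y)

namespace FlipData

variable {E : ℕ → Type v} [∀ j, AddCommGroup (E j)] [∀ j, Module (ZMod 2) (E j)]
  {K KK : GU.{v}} {fr1 : GU.Free K E} {fr2 : GU.Free KK K.H} (D : FlipData E K KK fr1 fr2)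

include D

/-- `z = (constant) + u z'`. -/
theorem decomp (n : ℕ) (z : KK.H (n + 1)) :
    ∃ z', z = D.ps2 (n + 1) (fr2.cf (n + 1) (n + 1) z) + KK.u n z' := by
  obtain ⟨z', hz'⟩ := fr2.surj n (fun j => fr2.cf (n + 1) j z)
  refine ⟨z', fr2.ext' fun j => ?_⟩
  rw [map_add, fr2.cf_u]
  rcases Nat.lt_trichotomy j (n + 1) with h | h | h
  · rw [D.cf_ps2 _ _ _ h, zero_add, hz' j (by omega)]
  · subst h
    rw [D.cf_ps2_self, fr2.cf_gt n (n + 1) z' (by omega), add_zero]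
  · rw [fr2.cf_gt _ _ _ h, fr2.cf_gt _ _ _ h, fr2.cf_gt n _ _ (by omega), add_zero]

theorem decomp_zero (z : KK.H 0) : z = D.ps2 0 (fr2.cf 0 0 z) := by
  refine fr2.ext' fun j => ?_
  rcases Nat.eq_zero_or_pos j with h | h
  · subst h; rw [D.cf_ps2_self]
  · rw [fr2.cf_gt _ _ _ h, fr2.cf_gt _ _ _ h]

theorem cf_ps2_ne (n j : ℕ) (x : K.H n) (h : n ≠ j) : fr2.cf n j (D.ps2 n x) = 0 := by
  rcases Nat.lt_or_gt_of_ne h with h | h
  · exact fr2.cf_gt _ _ _ h
  · exact D.cf_ps2 _ _ _ h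

/-- the inner operator on coefficients -/
theorem cf_V (n : ℕ) : ∀ (m : ℕ) (z : KK.H n),
    fr2.cf (n + 1) (m + 1) (D.V n z) = K.u m (fr2.cf n m z) := by
  induction n with
  | zero =>
    intro m z
    rw [D.decomp_zero z, D.V_ps2]
    rcases Nat.eq_zero_or_pos m with h | h
    · subst h
      rw [D.cf_ps2_self, D.cf_ps2_self]
    · rw [D.cf_ps2_ne _ _ _ (by omega), D.cf_ps2_ne _ _ _ (by omega), map_zero]
  | succ n ih =>
    intro m z
    obtain ⟨z', hz'⟩ := D.decomp n z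
    rw [hz', map_add, map_add, map_add, map_add, D.V_ps2, D.V_u, fr2.cf_u, fr2.cf_u, ih]
    congr 1
    by_cases h : n + 1 = m
    · subst h
      rw [D.cf_ps2_self, D.cf_ps2_self]
    · rw [D.cf_ps2_ne _ _ _ (by omega), D.cf_ps2_ne _ _ _ h, map_zero]

theorem cf_V_zero (n : ℕ) : ∀ z : KK.H n, fr2.cf (n + 1) 0 (D.V n z) = 0 := by
  induction n with
  | zero =>
    intro z
    rw [D.decomp_zero z, D.V_ps2, D.cf_ps2_ne _ _ _ (by omega)]
  | succ n ih =>
    intro z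
    obtain ⟨z', hz'⟩ := D.decomp n z
    rw [hz', map_add, map_add, D.V_ps2, D.V_u, fr2.cf_u, ih, D.cf_ps2_ne _ _ _ (by omega),
      add_zero]

theorem cf_fl_const (n m m' j : ℕ) (h : m + m' = n + j) (y : K.H n) :
    fr1.cf m j (fr2.cf n m (D.fl n (D.ps2 n y))) = fr1.cf m' j (fr2.cf n m' (D.ps2 n y)) := by
  rw [D.cf_fl_ps2]
  rcases Nat.lt_trichotomy j m with h1 | h1 | h1
  · rw [D.cf_ps _ _ _ h1, D.cf_ps2 _ _ _ (by omega), map_zero]
  · subst h1
    obtain rfl : m' = n := by omega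
    rw [D.cf_ps_self, D.cf_ps2_self]
  · rw [fr1.cf_gt _ _ _ h1, fr2.cf_gt n m' _ (by omega), map_zero]

/-- **The flip formula**: coefficients of `fl z`. -/
theorem cf_fl (n : ℕ) : ∀ (m m' j : ℕ), m + m' = n + j → ∀ z : KK.H n,
    fr1.cf m j (fr2.cf n m (D.fl n z)) = fr1.cf m' j (fr2.cf n m' z) := by
  induction n with
  | zero =>
    intro m m' j h z
    rw [D.decomp_zero z]
    exact D.cf_fl_const 0 m m' j h _
  | succ n ih =>
    intro m m' j h z
    obtain ⟨z', hz'⟩ := D.decomp n z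
    rw [hz', map_add, map_add, map_add, map_add, map_add, D.cf_fl_const (n + 1) m m' j h, D.fl_u,
      fr2.cf_u]
    congr 1
    cases m with
    | zero =>
      rw [D.cf_V_zero, map_zero, fr2.cf_gt n m' z' (by omega), map_zero]
    | succ m =>
      rw [D.cf_V, fr1.cf_u]
      exact ih m m' j (by omega) z'

end FlipData

end Vale.Agent.P263.S
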