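import Vale.Agent.P263.S.Inner
import Vale.Agent.P263.S.FlipAbs
import Vale.Agent.P263.S.GysTriv

/-!
# P263, block S3b: `H(hG (hG B)) = H(B)[u, v]` for trivial actions and the flip formula (helper57)

`TT B : Act C2 (hG (Act.triv C2 B))` is the (trivial) outer action in the form `Act.onHG`, so that
`hG.flip` maps `hG (TT B)` to itself (`flT B`).  `cf2 B n m` is the coefficient of `u^(n-m)` (outer
variable), with values in `H^m(hG B)`, and `vT B n` is the inner operator `v`.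

* `cf2_u`, `cf2_gt`, `cf2_ext`, `cf2_surj`, `free2 B : GU.Free (guHG idC (TT B)) (hG triv).H`;
* `cf2_v : cf2 (n+1) (m+1) (v z) = u (cf2 n m z)`, `cf2_v_zero`;
* `fl_u : fl (u z) = v (fl z)`, `fl_v`, `fl_fl`, `u_v_comm`;
* `cf_cf2_fl` : `cf m j (cf2 n m (fl z)) = cf m' j (cf2 n m' z)` for `m + m' = n + j`.
-/

noncomputable section

namespace Vale.Agent.P263.S

open CosMod

variable (B : CosMod (ZMod 2))

/-- the outer trivial action on the inner homotopy fixed points -/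
abbrev TT : Act C2 (hG (Act.triv C2 B)) :=
  (Act.triv C2 B).onHG (Act.triv C2 B) (Act.Comm.triv_left (Act.triv C2 B))

theorem TT_eq : TT B = Act.triv C2 (hG (Act.triv C2 B)) := rfl

/-- the exchange of the two variables -/
def flT (n : ℕ) : (hG (TT B)).H n →ₗ[ZMod 2] (hG (TT B)).H n :=
  (hG.flip (Act.triv C2 B) (Act.triv C2 B) (Act.Comm.triv_left (Act.triv C2 B))).mapH n

/-- the outer operator -/
abbrev uT (n : ℕ) : (hG (TT B)).H n →ₗ[ZMod 2] (hG (TT B)).H (n + 1) := uH idC (TT B) n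

/-- the inner operator -/
def vT (n : ℕ) : (hG (TT B)).H n →ₗ[ZMod 2] (hG (TT B)).H (n + 1) :=
  vinH idC (Act.triv C2 B) (Act.triv C2 B) (Act.Comm.triv_left (Act.triv C2 B)) n

/-- constants in the outer variable -/
def hG.pso {G K : Type} [Group G] [Group K] {B : CosMod (ZMod 2)} (b : Act K B) :
    Hom (hG b) (hG ((Act.triv G B).onHG b (Act.Comm.triv_left b))) :=
  hG.cst _ (Hom.id (hG b)) (fun _ _ _ => rfl)

/-- constants in the outer variable -/
def ps2 (n : ℕ) : (hG (Act.triv C2 B)).H n →ₗ[ZMod 2] (hG (TT B)).H n :=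
  (hG.pso (G := C2) (Act.triv C2 B)).mapH n

/-- the coefficient of `u^(n-m)` -/
def cf2 (n m : ℕ) : (hG (TT B)).H n →ₗ[ZMod 2] (hG (Act.triv C2 B)).H m :=
  cf (hG (Act.triv C2 B)) n m

/-- `H(hG (hG B)) = H(hG B)[u]` -/
def free2 : E.GU.Free (guHG idC (TT B)) (hG (Act.triv C2 B)).H where
  cf := cf2 B
  cf_u := cf_uH (hG (Act.triv C2 B))
  cf_gt := cf_gt (hG (Act.triv C2 B))
  ext := cf_ext (hG (Act.triv C2 B))
  surj := cf_surj (hG (Act.triv C2 B))

/-- the exchange of a constant in the outer variable is a constant in the inner variable -/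
theorem fl_ps2 (n : ℕ) (y : (hG (Act.triv C2 B)).H n) :
    flT B n (ps2 B n y) = (trivMap (hG.pstar C2 B)).mapH n y := by
  induction y using H_ind with
  | h z => rfl

/-- the data of the flip formula -/
def flipData : FlipData B.H (guHG idC (Act.triv C2 B)) (guHG idC (TT B)) (freeTriv B) (free2 B) where
  ps n := (hG.pstar C2 B).mapH n
  cf_ps n j x h := cf_pstar_ne B (by omega) x
  cf_ps_self n x := cf_pstar_self B n x
  ps2 n := ps2 B n
  cf_ps2 n j x h := cf_pstar_ne (hG (Act.triv C2 B)) (by omega) x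
  cf_ps2_self n x := cf_pstar_self (hG (Act.triv C2 B)) n x
  fl n := flT B n
  V n := vT B n
  fl_u n z := flip_uH idC (Act.triv C2 B) (Act.triv C2 B) (Act.Comm.triv_left (Act.triv C2 B)) n z
  V_ps2 n y := vinH_pstar idC (Act.triv C2 B) n y
  V_u n z := vinH_uH idC (Act.triv C2 B) (Act.triv C2 B)
    (Act.Comm.triv_left (Act.triv C2 B)) idC n z
  cf_fl_ps2 n m y := (congrArg (cf2 B n m) (fl_ps2 B n y)).trans (cf_nat (hG.pstar C2 B) n m y)

theorem fl_fl (n : ℕ) (z : (hG (TT B)).H n) : flT B n (flT B n z) = z :=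
  hG.mapH_flip_flip (Act.triv C2 B) (Act.triv C2 B) (Act.Comm.triv_left (Act.triv C2 B)) n z

theorem fl_u (n : ℕ) (z : (hG (TT B)).H n) : flT B (n + 1) (uT B n z) = vT B n (flT B n z) :=
  (flipData B).fl_u n z

theorem fl_v (n : ℕ) (z : (hG (TT B)).H n) : flT B (n + 1) (vT B n z) = uT B n (flT B n z) :=
  flip_vinH idC (Act.triv C2 B) (Act.triv C2 B) (Act.Comm.triv_left (Act.triv C2 B)) n z

theorem u_v_comm (n : ℕ) (z : (hG (TT B)).H n) : uT B (n + 1) (vT B n z) = vT B (n + 1) (uT B n z) :=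
  ((flipData B).V_u n z).symm

theorem v_ps2 (n : ℕ) (y : (hG (Act.triv C2 B)).H n) :
    vT B n (ps2 B n y) = ps2 B (n + 1) (uH idC (Act.triv C2 B) n y) :=
  (flipData B).V_ps2 n y

theorem cf2_u (n m : ℕ) (z : (hG (TT B)).H n) : cf2 B (n + 1) m (uT B n z) = cf2 B n m z :=
  (free2 B).cf_u n m z

theorem cf2_gt (n m : ℕ) (z : (hG (TT B)).H n) (h : n < m) : cf2 B n m z = 0 :=
  (free2 B).cf_gt n m z h

theorem cf2_ps2_self (n : ℕ) (y : (hG (Act.triv C2 B)).H n) : cf2 B n n (ps2 B n y) = y :=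
  (flipData B).cf_ps2_self n y

theorem cf2_ps2_ne {n m : ℕ} (h : n ≠ m) (y : (hG (Act.triv C2 B)).H n) :
    cf2 B n m (ps2 B n y) = 0 :=
  (flipData B).cf_ps2_ne n m y h

/-- the inner operator on coefficients -/
theorem cf2_v (n m : ℕ) (z : (hG (TT B)).H n) :
    cf2 B (n + 1) (m + 1) (vT B n z) = uH idC (Act.triv C2 B) m (cf2 B n m z) :=
  (flipData B).cf_V n m z

theorem cf2_v_zero (n : ℕ) (z : (hG (TT B)).H n) : cf2 B (n + 1) 0 (vT B n z) = 0 :=
  (flipData B).cf_V_zero n z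

/-- a class is determined by its coefficients -/
theorem cf_cf2_ext {n : ℕ} {z : (hG (TT B)).H n}
    (h : ∀ m j, j ≤ m → m ≤ n → cf B m j (cf2 B n m z) = 0) : z = 0 :=
  (free2 B).ext n z fun m hm => cf_ext B m _ fun j hj => h m j hj hm

/-- **The flip formula**: the coefficient of `u^(n-m) v^(m-j)` of `fl z` is the coefficient of
`u^(m-j) v^(n-m)` of `z`. -/
theorem cf_cf2_fl (n m m' j : ℕ) (h : m + m' = n + j) (z : (hG (TT B)).H n) :
    cf B m j (cf2 B n m (flT B n z)) = cf B m' j (cf2 B n m' z) :=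
  (flipData B).cf_fl n m m' j h z

end Vale.Agent.P263.S
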