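import Vale.Agent.P263.S.Gys

/-!
# P263, block S5 (helper915): the inner variable of iterated homotopy fixed points

`a : Act G B` (outer group), `b : Act K B` (inner group), `h : Act.Comm a b`,
`ε : K →* C2`, `δ : G →* C2`.  `vinH ε a b h p` is the multiplication with the class of the inner
group on `H(hG (a.onHG b h))`; it commutes with the restriction, the inflation, the outer `uH` and
with the maps induced by equivariant maps of the coefficients.
-/

noncomputable section

namespace Vale.Agent.P263.S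

open CosMod

section inner

variable {G K : Type} [Group G] [Group K] (ε : K →* C2) {B : CosMod (ZMod 2)}
  (a : Act G B) (b : Act K B) (h : Act.Comm a b)

/-- the inner operator on cochains -/
def vinc (p : ℕ) : (hG (a.onHG b h)).obj p →ₗ[ZMod 2] (hG (a.onHG b h)).obj (p + 1) :=
  ((hG.flip b a h.symm).app (p + 1)).comp
    ((uc ε (b.onHG a h.symm) p).comp ((hG.flip a b h).app p))

theorem vinc_apply {p : ℕ} (F : (hG (a.onHG b h)).obj p) :
    vinc ε a b h p F = (hG.flip b a h.symm).app (p + 1)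
      (uc ε (b.onHG a h.symm) p ((hG.flip a b h).app p F)) := rfl

theorem vinc_fn {p : ℕ} (F : (hG (a.onHG b h)).obj p) (s : Fin (p + 2) → G)
    (t : Fin (p + 2) → K) :
    hG.fn (hG.fn (vinc ε a b h p F) s) t =
      if ε (t 0) = ε (t 1) then 0 else
        B.map (dl p 0) (hG.fn (hG.fn F (s ∘ dl p 0)) (t ∘ dl p 0)) := by
  rw [vinc_apply, hG.flip_fn, uc_fn]
  by_cases h : ε (t 0) = ε (t 1)
  · rw [if_pos h, if_pos h]; rfl
  · rw [if_neg h, if_neg h]; rfl

/-- the values of the inner operator -/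
theorem vinc_fn_eq {p : ℕ} (F : (hG (a.onHG b h)).obj p) (s : Fin (p + 2) → G) :
    hG.fn (vinc ε a b h p F) s = uc ε b p (hG.fn F (s ∘ dl p 0)) :=
  hG.ext fun t => by rw [vinc_fn, uc_fn]

theorem ucc_fn {δ : G →* C2} {p : ℕ} (F : (hG (a.onHG b h)).obj p) (s : Fin (p + 2) → G)
    (t : Fin (p + 2) → K) :
    hG.fn (hG.fn (uc δ (a.onHG b h) p F) s) t =
      if δ (s 0) = δ (s 1) then 0 else
        B.map (dl p 0) (hG.fn (hG.fn F (s ∘ dl p 0)) (t ∘ dl p 0)) := by
  rw [uc_fn]
  by_cases h : δ (s 0) = δ (s 1)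
  · rw [if_pos h, if_pos h]; rfl
  · rw [if_neg h, if_neg h]; rfl

theorem d_vinc (p : ℕ) (F : (hG (a.onHG b h)).obj p) :
    (hG (a.onHG b h)).d (p + 1) (vinc ε a b h p F) =
      vinc ε a b h (p + 1) ((hG (a.onHG b h)).d p F) := by
  rw [vinc_apply, vinc_apply, Hom.app_d, ← d_uc, ← Hom.app_d]

theorem vinc_mem_Z {p : ℕ} {F : (hG (a.onHG b h)).obj p} (hF : F ∈ (hG (a.onHG b h)).Z p) :
    vinc ε a b h p F ∈ (hG (a.onHG b h)).Z (p + 1) := by
  rw [mem_Z] at hF ⊢
  rw [d_vinc, hF, map_zero]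

/-- **multiplication with the class of the inner group** -/
def vinH (p : ℕ) : (hG (a.onHG b h)).H p →ₗ[ZMod 2] (hG (a.onHG b h)).H (p + 1) :=
  ((hG.flip b a h.symm).mapH (p + 1)).comp
    ((uH ε (b.onHG a h.symm) p).comp ((hG.flip a b h).mapH p))

theorem vinH_apply (p : ℕ) (z : (hG (a.onHG b h)).H p) :
    vinH ε a b h p z = (hG.flip b a h.symm).mapH (p + 1)
      (uH ε (b.onHG a h.symm) p ((hG.flip a b h).mapH p z)) := rfl

theorem vinH_cls {p : ℕ} (F : (hG (a.onHG b h)).Z p) :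
    vinH ε a b h p ((hG (a.onHG b h)).cls p F) =
      (hG (a.onHG b h)).cls (p + 1) ⟨vinc ε a b h p F.1, vinc_mem_Z ε a b h F.2⟩ := rfl

/-- the exchange intertwines the outer and the inner variable -/
theorem flip_vinH (p : ℕ) (z : (hG (a.onHG b h)).H p) :
    (hG.flip a b h).mapH (p + 1) (vinH ε a b h p z) =
      uH ε (b.onHG a h.symm) p ((hG.flip a b h).mapH p z) := by
  rw [vinH_apply]
  exact hG.mapH_flip_flip b a h.symm (p + 1) _

theorem flip_uH (p : ℕ) (z : (hG (b.onHG a h.symm)).H p) :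
    (hG.flip b a h.symm).mapH (p + 1) (uH ε (b.onHG a h.symm) p z) =
      vinH ε a b h p ((hG.flip b a h.symm).mapH p z) := by
  rw [vinH_apply]
  congr 2
  exact (hG.mapH_flip_flip b a h.symm p z).symm

/-- the inner variable commutes with the restriction to the trivial outer group -/
theorem res_vinH (p : ℕ) (z : (hG (a.onHG b h)).H p) :
    (hG.res (a.onHG b h)).mapH (p + 1) (vinH ε a b h p z) =
      uH ε b p ((hG.res (a.onHG b h)).mapH p z) := by
  induction z using H_ind with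
  | h F =>
    rw [vinH_cls, Hom.mapH_cls, Hom.mapH_cls, uH_cls]
    refine congrArg _ (Subtype.ext ?_)
    show (hG.res (a.onHG b h)).app (p + 1) (vinc ε a b h p F.1) =
      uc ε b p ((hG.res (a.onHG b h)).app p F.1)
    rw [hG.res_app, vinc_fn_eq, hG.res_app]
    rfl

/-- naturality in the coefficients -/
theorem vinc_mapHom {C : CosMod (ZMod 2)} (a' : Act G C) (b' : Act K C) (h' : Act.Comm a' b')
    (f : Hom (hG b) (hG b'))
    (hu : ∀ p (x : (hG b).obj p), f.app (p + 1) (uc ε b p x) = uc ε b' p (f.app p x))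
    (hf : ∀ p (g : G) (x : (hG b).obj p),
      f.app p ((a.onHG b h).act p g x) = (a'.onHG b' h').act p g (f.app p x))
    {p : ℕ} (F : (hG (a.onHG b h)).obj p) :
    (hG.mapHom (a.onHG b h) (a'.onHG b' h') f hf).app (p + 1) (vinc ε a b h p F) =
      vinc ε a' b' h' p ((hG.mapHom (a.onHG b h) (a'.onHG b' h') f hf).app p F) := by
  refine hG.ext fun s => ?_
  rw [hG.mapHom_fn, vinc_fn_eq, vinc_fn_eq, hG.mapHom_fn, hu]

theorem vinH_mapHom {C : CosMod (ZMod 2)} (a' : Act G C) (b' : Act K C) (h' : Act.Comm a' b')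
    (f : Hom (hG b) (hG b'))
    (hu : ∀ p (x : (hG b).obj p), f.app (p + 1) (uc ε b p x) = uc ε b' p (f.app p x))
    (hf : ∀ p (g : G) (x : (hG b).obj p),
      f.app p ((a.onHG b h).act p g x) = (a'.onHG b' h').act p g (f.app p x))
    {p : ℕ} (z : (hG (a.onHG b h)).H p) :
    (hG.mapHom (a.onHG b h) (a'.onHG b' h') f hf).mapH (p + 1) (vinH ε a b h p z) =
      vinH ε a' b' h' p ((hG.mapHom (a.onHG b h) (a'.onHG b' h') f hf).mapH p z) := by
  induction z using H_ind with
  | h F =>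
    rw [vinH_cls, Hom.mapH_cls, Hom.mapH_cls, vinH_cls]
    exact congrArg _ (Subtype.ext (vinc_mapHom ε a b h a' b' h' f hu hf F.1))

/-! ### Commutation of the two variables -/

variable (δ : G →* C2)

/-- the homotopy: multiplication with `[s_0 ≠ s_1] [t_0 ≠ t_1]` -/
def homc (p : ℕ) (F : (hG (a.onHG b h)).obj p) : (hG (a.onHG b h)).obj (p + 1) :=
  hG.mk _ (fun s => if δ (s 0) = δ (s 1) then 0 else hG.fn (vinc ε a b h p F) s) (by
    intro g s
    simp only [map_mul, mul_right_inj]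
    split_ifs with h1
    · rw [map_zero]
    · exact hG.fn_mul _ g s)

theorem homc_fn {p : ℕ} (F : (hG (a.onHG b h)).obj p) (s : Fin (p + 2) → G)
    (t : Fin (p + 2) → K) :
    hG.fn (hG.fn (homc ε a b h δ p F) s) t =
      if δ (s 0) = δ (s 1) then 0 else if ε (t 0) = ε (t 1) then 0 else
        B.map (dl p 0) (hG.fn (hG.fn F (s ∘ dl p 0)) (t ∘ dl p 0)) := by
  rw [homc, hG.fn_mk]
  by_cases h : δ (s 0) = δ (s 1)
  · rw [if_pos h, if_pos h]; rfl
  · rw [if_neg h, if_neg h, vinc_fn]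

theorem hG2_d_fn (p : ℕ) (F : (hG (a.onHG b h)).obj p) (s : Fin (p + 2) → G)
    (t : Fin (p + 2) → K) : hG.fn (hG.fn ((hG (a.onHG b h)).d p F) s) t =
      ∑ i ∈ Finset.range (p + 2), B.map (dl p i) (hG.fn (hG.fn F (s ∘ dl p i)) (t ∘ dl p i)) := by
  rw [hG_d_fn]
  have h := map_sum (AddMonoidHom.mk' (fun x : (hG b).obj (p + 1) => hG.fn x t)
    (fun x y => hG.fn_add x y t)) (fun i => (hG b).map (dl p i) (hG.fn F (s ∘ dl p i)))
    (Finset.range (p + 2))
  exact h

theorem homc_key {M : Type*} [AddCommGroup M] [Module (ZMod 2) M] (x y z : C2) (x' y' z' : C2)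
    (m : M) :
    (if y = z then 0 else if y' = z' then 0 else m) +
      ((if x = z then 0 else if x' = z' then 0 else m) +
        (if x = y then 0 else if x' = y' then 0 else m)) =
    (if x = y then 0 else if y' = z' then 0 else m) +
      (if x' = y' then 0 else if y = z then 0 else m) := by
  have hm : m + m = 0 := ZModModule.add_self m
  rcases C2_cases x with rfl | rfl <;> rcases C2_cases y with rfl | rfl <;>
    rcases C2_cases z with rfl | rfl <;> rcases C2_cases x' with rfl | rfl <;>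
    rcases C2_cases y' with rfl | rfl <;> rcases C2_cases z' with rfl | rfl <;>
    simp [tC_ne_one, tC_ne_one.symm, hm]

/-- the homotopy between the two orders of multiplication -/
theorem d_homc {p : ℕ} {F : (hG (a.onHG b h)).obj p} (hF : F ∈ (hG (a.onHG b h)).Z p) :
    (hG (a.onHG b h)).d (p + 1) (homc ε a b h δ p F) =
      uc δ (a.onHG b h) (p + 1) (vinc ε a b h p F) +
        vinc ε a b h (p + 1) (uc δ (a.onHG b h) p F) := by
  refine hG.ext fun s => hG.ext fun t => ?_
  rw [hG2_d_fn, Finset.sum_range_succ', Finset.sum_range_succ']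
  set w : B.obj (p + 2) := B.map ((dl (p + 1) 0).comp (dl p 0))
    (hG.fn (hG.fn F (s ∘ (dl (p + 1) 0).comp (dl p 0))) (t ∘ (dl (p + 1) 0).comp (dl p 0)))
    with hw
  have e0 : B.map (dl (p + 1) 0) (hG.fn (hG.fn (homc ε a b h δ p F) (s ∘ dl (p + 1) 0))
      (t ∘ dl (p + 1) 0)) =
      if δ (s 1) = δ (s 2) then 0 else if ε (t 1) = ε (t 2) then 0 else w := by
    rw [homc_fn]
    simp only [Function.comp_apply, dl_zero_zero, dl_zero_one]
    split_ifs
    · rw [map_zero]
    · rw [map_zero]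
    · rw [B.map_map]
      rfl
  have e1 : B.map (dl (p + 1) (0 + 1)) (hG.fn (hG.fn (homc ε a b h δ p F)
      (s ∘ dl (p + 1) (0 + 1))) (t ∘ dl (p + 1) (0 + 1))) =
      if δ (s 0) = δ (s 2) then 0 else if ε (t 0) = ε (t 2) then 0 else w := by
    rw [homc_fn]
    simp only [Function.comp_apply, dl_succ_zero, zero_add, dl_one_one]
    split_ifs
    · rw [map_zero]
    · rw [map_zero]
    · rw [B.map_map, hw, ← dl_dl (i := 0) (j := 0) le_rfl]
      rfl
  have e2 : ∀ i ∈ Finset.range (p + 1),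
      B.map (dl (p + 1) (i + 1 + 1)) (hG.fn (hG.fn (homc ε a b h δ p F)
        (s ∘ dl (p + 1) (i + 1 + 1))) (t ∘ dl (p + 1) (i + 1 + 1))) =
      if δ (s 0) = δ (s 1) then 0 else if ε (t 0) = ε (t 1) then 0 else
        B.map ((dl (p + 1) 0).comp (dl p (i + 1)))
          (hG.fn (hG.fn F (s ∘ (dl (p + 1) 0).comp (dl p (i + 1))))
            (t ∘ (dl (p + 1) 0).comp (dl p (i + 1)))) := by
    intro i _
    rw [homc_fn]
    simp only [Function.comp_apply, dl_succ_zero, dl_succ_succ_one]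
    split_ifs
    · rw [map_zero]
    · rw [map_zero]
    · rw [B.map_map, ← dl_dl (i := 0) (j := i + 1) (Nat.zero_le _)]
      rfl
  rw [e0, e1, Finset.sum_congr rfl e2, hG.fn_add, hG.fn_add, ucc_fn, vinc_fn, vinc_fn, ucc_fn]
  have h3 := homc_key (δ (s 0)) (δ (s 1)) (δ (s 2)) (ε (t 0)) (ε (t 1)) (ε (t 2)) w
  have hd : B.map (dl (p + 1) 0) (hG.fn (hG.fn ((hG (a.onHG b h)).d p F) (s ∘ dl (p + 1) 0))
      (t ∘ dl (p + 1) 0)) = 0 := by
    rw [mem_Z.1 hF]
    exact map_zero _
  rw [hG2_d_fn] at hd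
  have h5 := map_sum_split (B.map (dl (p + 1) 0))
    (fun i => B.map (dl p i) (hG.fn (hG.fn F ((s ∘ dl (p + 1) 0) ∘ dl p i))
      ((t ∘ dl (p + 1) 0) ∘ dl p i)))
    (fun i => B.map ((dl (p + 1) 0).comp (dl p i))
      (hG.fn (hG.fn F (s ∘ (dl (p + 1) 0).comp (dl p i))) (t ∘ (dl (p + 1) 0).comp (dl p i))))
    (fun i => B.map_map _ _ _) (p + 1)
  rw [hd] at h5
  have h6 : ∑ i ∈ Finset.range (p + 1), B.map ((dl (p + 1) 0).comp (dl p (i + 1)))
      (hG.fn (hG.fn F (s ∘ (dl (p + 1) 0).comp (dl p (i + 1))))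
        (t ∘ (dl (p + 1) 0).comp (dl p (i + 1)))) = w := by
    have h7 := eq_neg_of_add_eq_zero_left h5.symm
    rw [ZModModule.neg_eq_self] at h7
    exact h7
  have h8 : (∑ i ∈ Finset.range (p + 1),
      if δ (s 0) = δ (s 1) then 0 else if ε (t 0) = ε (t 1) then 0 else
        B.map ((dl (p + 1) 0).comp (dl p (i + 1)))
          (hG.fn (hG.fn F (s ∘ (dl (p + 1) 0).comp (dl p (i + 1))))
            (t ∘ (dl (p + 1) 0).comp (dl p (i + 1))))) =
      if δ (s 0) = δ (s 1) then 0 else if ε (t 0) = ε (t 1) then 0 else w := by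
    split_ifs
    · exact Finset.sum_const_zero
    · exact Finset.sum_const_zero
    · exact h6
  rw [h8]
  have k1 : (if δ (s 0) = δ (s 1) then 0 else B.map (dl (p + 1) 0)
      (if ε ((t ∘ dl (p + 1) 0) 0) = ε ((t ∘ dl (p + 1) 0) 1) then 0 else
        B.map (dl p 0) (hG.fn (hG.fn F ((s ∘ dl (p + 1) 0) ∘ dl p 0))
          ((t ∘ dl (p + 1) 0) ∘ dl p 0)))) =
      if δ (s 0) = δ (s 1) then 0 else if ε (t 1) = ε (t 2) then 0 else w := by
    simp only [Function.comp_apply, dl_zero_zero, dl_zero_one]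
    split_ifs
    · rfl
    · exact map_zero _
    · exact B.map_map _ _ _
  have k2 : (if ε (t 0) = ε (t 1) then 0 else B.map (dl (p + 1) 0)
      (if δ ((s ∘ dl (p + 1) 0) 0) = δ ((s ∘ dl (p + 1) 0) 1) then 0 else
        B.map (dl p 0) (hG.fn (hG.fn F ((s ∘ dl (p + 1) 0) ∘ dl p 0))
          ((t ∘ dl (p + 1) 0) ∘ dl p 0)))) =
      if ε (t 0) = ε (t 1) then 0 else if δ (s 1) = δ (s 2) then 0 else w := by
    simp only [Function.comp_apply, dl_zero_zero, dl_zero_one]
    split_ifs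
    · rfl
    · exact map_zero _
    · exact B.map_map _ _ _
  refine Eq.trans ?_ (congrArg₂ (· + ·) k1 k2).symm
  rw [← h3]
  abel

/-- **the two variables commute** -/
theorem vinH_uH (p : ℕ) (z : (hG (a.onHG b h)).H p) :
    vinH ε a b h (p + 1) (uH δ (a.onHG b h) p z) =
      uH δ (a.onHG b h) (p + 1) (vinH ε a b h p z) := by
  induction z using H_ind with
  | h F =>
    rw [vinH_cls, uH_cls, vinH_cls, uH_cls]
    refine CosMod.cls_eq_iff.2 ⟨homc ε a b h δ p F.1, ?_⟩
    rw [d_homc ε a b h δ F.2]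
    show uc δ (a.onHG b h) (p + 1) (vinc ε a b h p F.1) +
      vinc ε a b h (p + 1) (uc δ (a.onHG b h) p F.1) =
      vinc ε a b h (p + 1) (uc δ (a.onHG b h) p F.1) -
        uc δ (a.onHG b h) (p + 1) (vinc ε a b h p F.1)
    rw [ZModModule.sub_eq_add]
    exact add_comm _ _

end inner

/-! ### Trivial outer action -/

section triv

variable {G K : Type} [Group G] [Group K] (ε : K →* C2) {B : CosMod (ZMod 2)} (b : Act K B)

/-- `v p^* = p^* u` for the trivial outer action -/
theorem vinH_pstar (p : ℕ) (w : (hG b).H p) :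
    vinH ε (Act.triv G B) b (Act.Comm.triv_left b) p ((hG.pstar G (hG b)).mapH p w) =
      (hG.pstar G (hG b)).mapH (p + 1) (uH ε b p w) := by
  induction w using H_ind with
  | h F =>
    rw [uH_cls, Hom.mapH_cls, Hom.mapH_cls]
    refine (vinH_cls ε (Act.triv G B) b (Act.Comm.triv_left b) _).trans ?_
    refine congrArg _ (Subtype.ext (hG.ext fun s => ?_))
    exact vinc_fn_eq ε (Act.triv G B) b (Act.Comm.triv_left b) _ s

end triv

end Vale.Agent.P263.S
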