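import Vale.Agent.P263.S.Pow

/-!
# P263, block S5 (helper915): the external square of a class of degree one

For a cocycle `x` of degree one and a symmetric pairing `μ : B × B → C` the cochain
`e1 s = s_0 (x01 x12) + [s_0 ≠ s_1] x12 x12` of `hG C` is a cocycle with restriction `x ∪ x`.
-/

noncomputable section

namespace Vale.Agent.P263.S

/-- signs are trivial in characteristic two -/
theorem sn_char2 {A : Type*} [AddCommGroup A] [Module (ZMod 2) A] (k : ℕ) (x : A) :
    sn k x = x := by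
  have h : -x = x := by
    rw [neg_eq_iff_add_eq_zero, ← two_smul (ZMod 2) x, show (2 : ZMod 2) = 0 from rfl, zero_smul]
  induction k with
  | zero => simp [sn]
  | succ k ih => rw [sn_succ, ih, h]

theorem add_self_char2 {A : Type*} [AddCommGroup A] [Module (ZMod 2) A] (x : A) :
    x + x = 0 := by
  rw [← two_smul (ZMod 2) x, show (2 : ZMod 2) = 0 from rfl, zero_smul]

theorem neg_char2 {A : Type*} [AddCommGroup A] [Module (ZMod 2) A] (x : A) : -x = x :=
  neg_eq_of_add_eq_zero_left (add_self_char2 x)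

theorem sub_char2 {A : Type*} [AddCommGroup A] [Module (ZMod 2) A] (x y : A) : x - y = x + y := by
  rw [sub_eq_add_neg, neg_char2]

namespace P1

variable {B C : CosMod (ZMod 2)} (μ : Bil B B C) (c : Act C2 C)

variable {μ c}

theorem sym_self (h : Sym μ c) (g : C2) (p : ℕ) (a : B.obj p) :
    c.act p g (μ.app p a a) = μ.app p a a := by
  rcases C2.cases g with rfl | rfl
  · rw [map_one]; rfl
  · exact h p a a

variable (μ c)

/-- the explicit cochain representing the external square of `x` -/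
def e1 (h : Sym μ c) (x : B.obj 1) : (hG c).obj 2 :=
  hG.mk c (fun s => c.act 2 (s 0) (μ.app 2 (B.map (fr 1 2) x) (B.map (bk 1 2) x)) +
      if s 0 = s 1 then 0 else μ.app 2 (B.map (bk 1 2) x) (B.map (bk 1 2) x)) (by
    intro g s
    rw [map_mul, map_add, Module.End.mul_apply]
    congr 1
    by_cases h1 : s 0 = s 1
    · rw [if_pos h1, if_pos (congrArg (fun y => g * y) h1), map_zero]
    · rw [if_neg h1, if_neg (fun h2 => h1 (mul_left_cancel h2)), sym_self h])

theorem e1_fn (h : Sym μ c) (x : B.obj 1) (s : Fin 3 → C2) : hG.fn (e1 μ c h x) s =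
    c.act 2 (s 0) (μ.app 2 (B.map (fr 1 2) x) (B.map (bk 1 2) x)) +
      if s 0 = s 1 then 0 else μ.app 2 (B.map (bk 1 2) x) (B.map (bk 1 2) x) := rfl

/-- the restriction to the trivial group -/
theorem res_e1 (h : Sym μ c) (x : B.obj 1) :
    (hG.res c).app 2 (e1 μ c h x) = μ.cup 2 x x := by
  rw [hG.res_app, e1_fn, if_pos rfl, add_zero, map_one]
  rfl

/-- the edge `i → j` of `[n]` -/
def ed (n i j : ℕ) (hij : i ≤ j) (hj : j ≤ n) : Op 1 n where
  toFun x := ⟨if x.1 = 0 then i else j, by split_ifs <;> omega⟩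
  monotone' x y hxy := by
    simp only [Fin.le_def] at *
    split_ifs <;> omega

/-- the triangle `i → j → k` of `[n]` -/
def tri (n i j k : ℕ) (hij : i ≤ j) (hjk : j ≤ k) (hk : k ≤ n) : Op 2 n where
  toFun x := ⟨if x.1 = 0 then i else if x.1 = 1 then j else k, by split_ifs <;> omega⟩
  monotone' x y hxy := by
    simp only [Fin.le_def] at *
    split_ifs <;> omega

theorem ed_add {x : B.obj 1} (hx : x ∈ B.Z 1) (n i j k : ℕ) (hij : i ≤ j) (hjk : j ≤ k)
    (hk : k ≤ n) : B.map (ed n i k (hij.trans hjk) hk) x =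
      B.map (ed n i j hij (hjk.trans hk)) x + B.map (ed n j k hjk hk) x := by
  have h := congrArg (B.map (tri n i j k hij hjk hk)) (CosMod.mem_Z.1 hx)
  rw [map_zero, CosMod.d_apply, map_sum] at h
  simp only [sn_char2, Finset.sum_range_succ, Finset.sum_range_zero, zero_add, B.map_map] at h
  have e0 : (tri n i j k hij hjk hk).comp (dl 1 0) = ed n j k hjk hk := by
    ext x; fin_cases x <;> rfl
  have e1 : (tri n i j k hij hjk hk).comp (dl 1 1) = ed n i k (hij.trans hjk) hk := by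
    ext x; fin_cases x <;> rfl
  have e2 : (tri n i j k hij hjk hk).comp (dl 1 2) = ed n i j hij (hjk.trans hk) := by
    ext x; fin_cases x <;> rfl
  rw [e0, e1, e2] at h
  have h2 := eq_neg_of_add_eq_zero_left h
  rw [neg_char2] at h2
  rw [← h2]
  have h3 := add_self_char2 (B.map (ed n j k hjk hk) x)
  rw [add_right_comm, h3, zero_add]

theorem e1_cocycle (h : Sym μ c) {x : B.obj 1} (hx : x ∈ B.Z 1) : e1 μ c h x ∈ (hG c).Z 2 := by
  rw [CosMod.mem_Z, CosMod.d_apply]
  simp only [sn_char2, Finset.sum_range_succ, Finset.sum_range_zero, zero_add]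
  refine hG.ext fun s => ?_
  rw [hG.fn_add, hG.fn_add, hG.fn_add, hG.fn_map, hG.fn_map, hG.fn_map, hG.fn_map, e1_fn, e1_fn,
    e1_fn, e1_fn, hG.fn_zero]
  have k01 : (dl 2 0) 0 = 1 := rfl
  have k02 : (dl 2 0) 1 = 2 := rfl
  have k11 : (dl 2 1) 0 = 0 := rfl
  have k12 : (dl 2 1) 1 = 2 := rfl
  have k21 : (dl 2 2) 0 = 0 := rfl
  have k22 : (dl 2 2) 1 = 1 := rfl
  have k31 : (dl 2 3) 0 = 0 := rfl
  have k32 : (dl 2 3) 1 = 1 := rfl
  simp only [Function.comp, k01, k02, k11, k12, k21, k22, k31, k32]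
  simp only [map_add, ← c.nat, ← μ.nat, B.map_map, apply_ite (C.map _), map_zero]
  have f0 : (dl 2 0).comp (fr 1 2) = ed 3 1 2 (by omega) (by omega) := by
    ext x; fin_cases x <;> rfl
  have f1 : (dl 2 1).comp (fr 1 2) = ed 3 0 2 (by omega) (by omega) := by
    ext x; fin_cases x <;> rfl
  have f2 : (dl 2 2).comp (fr 1 2) = ed 3 0 1 (by omega) (by omega) := by
    ext x; fin_cases x <;> rfl
  have f3 : (dl 2 3).comp (fr 1 2) = ed 3 0 1 (by omega) (by omega) := by
    ext x; fin_cases x <;> rfl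
  have b0 : (dl 2 0).comp (bk 1 2) = ed 3 2 3 (by omega) (by omega) := by
    ext x; fin_cases x <;> rfl
  have b1 : (dl 2 1).comp (bk 1 2) = ed 3 2 3 (by omega) (by omega) := by
    ext x; fin_cases x <;> rfl
  have b2 : (dl 2 2).comp (bk 1 2) = ed 3 1 3 (by omega) (by omega) := by
    ext x; fin_cases x <;> rfl
  have b3 : (dl 2 3).comp (bk 1 2) = ed 3 1 2 (by omega) (by omega) := by
    ext x; fin_cases x <;> rfl
  rw [f0, f1, f2, f3, b0, b1, b2, b3, ed_add hx 3 0 1 2 (by omega) (by omega) (by omega),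
    ed_add hx 3 1 2 3 (by omega) (by omega) (by omega)]
  generalize B.map (ed 3 0 1 _ _) x = a
  generalize B.map (ed 3 1 2 _ _) x = b
  generalize B.map (ed 3 2 3 _ _) x = d
  simp only [map_add, LinearMap.add_apply]
  have hs := h 3
  have z : ∀ y : C.obj 3, y + y = 0 := add_self_char2
  have n1 : ¬ (1 : C2) = C2.t := by decide
  have n2 : ¬ C2.t = (1 : C2) := by decide
  have cancel : ∀ y w : C.obj 3, y + (y + w) = w := fun y w => by
    rw [← add_assoc, z, zero_add]
  rcases C2.cases (s 0) with h0 | h0 <;> rcases C2.cases (s 1) with h1 | h1 <;>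
    rcases C2.cases (s 2) with h2 | h2 <;> rw [h0, h1, h2] <;>
    simp only [if_true, if_neg n1, if_neg n2, map_one, Module.End.one_apply, hs, add_zero] <;>
    generalize (μ.app 3 a) b = ab <;> generalize (μ.app 3 a) d = ad <;>
    generalize (μ.app 3 b) b = bb <;> generalize (μ.app 3 b) d = bd <;>
    generalize (μ.app 3 d) d = dd <;> generalize (μ.app 3 d) b = db <;>
    generalize (μ.app 3 b) a = ba <;> generalize (μ.app 3 d) a = da <;>
    · simp only [add_left_comm, add_comm, cancel, z, add_zero]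

/-- **The external square of a class of degree one.** -/
theorem P_cls_one (h : Sym μ c) (x : B.Z 1) :
    P μ c h (B.cls 1 x) = (hG c).cls 2 ⟨e1 μ c h x.1, e1_cocycle μ c h x.2⟩ := by
  have hM := good_M (R := ZMod 2) 1
  have hu := P_unique (K := M (ZMod 2) 1) (n := 1)
    (fun i hi => (good_MM (ZMod 2) 1).H_low hi)
    ((M (ZMod 2) 1).cls 1 ⟨iotaM (ZMod 2) 1, iotaM_mem_Z _ 1⟩)
    ((hG (swapAct (M (ZMod 2) 1))).cls 2 ⟨e1 _ _ (sym_univ _) (iotaM (ZMod 2) 1),
      e1_cocycle _ _ (sym_univ _) (iotaM_mem_Z _ 1)⟩) (by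
      rw [Hom.mapH_cls, Bil.cupH_cls]
      exact congrArg _ (Subtype.ext (res_e1 _ _ (sym_univ _) _)))
  let f : Hom (M (ZMod 2) 1) B := ofM x.1 x.2
  have hgc : ∀ p (s : C2) (z : (tensor (M (ZMod 2) 1) (M (ZMod 2) 1)).obj p),
      (μ.lift.comp (f.tens f)).app p ((swapAct _).act p s z) =
        c.act p s ((μ.lift.comp (f.tens f)).app p z) := by
    intro p s z
    show μ.lift.app p ((f.tens f).app p _) = _
    rw [tens_equiv, h.equiv]
    rfl
  have hg : ∀ p a b, (μ.lift.comp (f.tens f)).app p ((Bil.univ _ _).app p a b) =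
      μ.app p (f.app p a) (f.app p b) := by
    intro p a b
    exact Bil.lift_tmul μ p _ _
  have hn := P_nat (Bil.univ _ _) (swapAct _) (sym_univ _) μ c h f (μ.lift.comp (f.tens f)) hgc hg
    ((M (ZMod 2) 1).cls 1 ⟨iotaM (ZMod 2) 1, iotaM_mem_Z _ 1⟩)
  rw [hu, Hom.mapH_cls, Hom.mapH_cls] at hn
  have hx : f.mapZ 1 ⟨iotaM (ZMod 2) 1, iotaM_mem_Z _ 1⟩ = x := Subtype.ext (ofM_iota x.1 x.2)
  rw [hx] at hn
  rw [hn]
  refine congrArg _ (Subtype.ext (hG.ext fun s => ?_))
  show (μ.lift.comp (f.tens f)).app 2 (hG.fn (e1 _ _ (sym_univ _) (iotaM (ZMod 2) 1)) s) = _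
  rw [e1_fn, e1_fn, map_add, hgc, hg, apply_ite ((μ.lift.comp (f.tens f)).app 2), hg, map_zero,
    f.nat, f.nat, show f.app 1 (iotaM (ZMod 2) 1) = x.1 from ofM_iota x.1 x.2]

end P1

end Vale.Agent.P263.S
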