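import Vale.Agent.P263.S.Pow

/-!
# P263, block S4: iterated external squares and their symmetry (helper548)

`sym_hbil` : a pairing which is equivariant for one action and symmetric for a commuting action
gives a symmetric pairing of homotopy fixed points, so `P` can be iterated.

`P_P_swap` : the iterated external squares `P_u (P_v x)` and `P_v (P_u x)` correspond under the
exchange `hG.flip` of the two variables.
-/

open scoped TensorProduct

noncomputable section

namespace Vale.Agent.P263.S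

variable {R : Type} [CommRing R]

/-! ### Diagonal actions -/

/-- The diagonal action on a tensor product. -/
def Act.diag {G : Type} [Group G] {A B : CosMod R} (a : Act G A) (b : Act G B) :
    Act G (tensor A B) where
  act p :=
    { toFun := fun g => TensorProduct.map (a.act p g) (b.act p g)
      map_one' := by
        rw [map_one, map_one]
        exact TensorProduct.map_id
      map_mul' := fun g h => by
        rw [map_mul, map_mul]
        exact TensorProduct.map_comp _ _ _ _ }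
  nat φ g x := ((a.hom g).tens (b.hom g)).nat φ x

theorem Act.diag_tmul {G : Type} [Group G] {A B : CosMod R} (a : Act G A) (b : Act G B) (p : ℕ)
    (g : G) (x : A.obj p) (y : B.obj p) :
    (a.diag b).act p g (x ⊗ₜ[R] y : A.obj p ⊗[R] B.obj p) = a.act p g x ⊗ₜ[R] b.act p g y := rfl

theorem comm_swap_diag {G : Type} [Group G] {A : CosMod R} (a : Act G A) :
    Act.Comm (swapAct A) (a.diag a) := by
  intro p g k x
  rcases C2.cases g with rfl | rfl
  · rw [act_one, act_one]
  · rw [swapAct_t, swapAct_t]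
    have e : (commH A A).comp ((a.diag a).hom k) = ((a.diag a).hom k).comp (commH A A) := by
      apply hom_tensor_ext
      intro p x y
      rfl
    exact congrArg (fun f : Hom (tensor A A) (tensor A A) => f.app p x) e

/-- Symmetry of the pairing of homotopy fixed points. -/
theorem sym_hbil {G : Type} [Group G] {B C : CosMod R} {b : Act G B} {ν : Bil B B C}
    {ci : Act G C} {co : Act C2 C}
    (hν : ∀ p g x y, ν.app p (b.act p g x) (b.act p g y) = ci.act p g (ν.app p x y))
    (hs : Sym ν co) (hc : Act.Comm co ci) :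
    Sym (hG.bil b b ci ν hν) (co.onHG ci hc) := fun p x y => hG.ext fun s =>
  hs p (hG.fn x s) (hG.fn y s)

/-! ### The universal iterated square -/

section univ

variable (R) (n : ℕ)

/-- `M n ⊗ M n` -/
abbrev N2 : CosMod R := tensor (M R n) (M R n)

/-- `(M n ⊗ M n) ⊗ (M n ⊗ M n)` -/
abbrev N4 : CosMod R := tensor (N2 R n) (N2 R n)

/-- the inner action -/
abbrev inA : Act C2 (N4 R n) := (swapAct (M R n)).diag (swapAct (M R n))

/-- the outer action -/
abbrev outA : Act C2 (N4 R n) := swapAct (N2 R n)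

theorem comm_out_in : Act.Comm (outA R n) (inA R n) := comm_swap_diag (swapAct (M R n))

/-- the universal pairing of homotopy fixed points -/
abbrev ubil : Bil (hG (swapAct (M R n))) (hG (swapAct (M R n))) (hG (inA R n)) :=
  hG.bil (swapAct (M R n)) (swapAct (M R n)) (inA R n) (Bil.univ (N2 R n) (N2 R n))
    (fun _ _ _ _ => rfl)

theorem sym_ubil : Sym (ubil R n) ((outA R n).onHG (inA R n) (comm_out_in R n)) :=
  sym_hbil _ (sym_univ _) _

/-- the universal external square as a cohomology class -/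
def univPH [Inv R n] : (hG (swapAct (M R n))).H (n + n) :=
  (hG (swapAct (M R n))).cls (n + n) ⟨univP R n, univP_mem_Z R n⟩

/-- the universal iterated external square -/
def univPP [Inv R n] [Inv R (n + n)] :
    (hG ((outA R n).onHG (inA R n) (comm_out_in R n))).H ((n + n) + (n + n)) :=
  P (ubil R n) ((outA R n).onHG (inA R n) (comm_out_in R n)) (sym_ubil R n) (univPH R n)

end univ

variable {A B C : CosMod R} {n : ℕ}

/-- `P` is the image of the universal class. -/
theorem P_eq_univ (μ : Bil A A B) (b : Act C2 B) (h : Sym μ b) [Inv R n] (z : A.Z n) :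
    P μ b h (A.cls n z) =
      (hG.mapHom (swapAct (M R n)) b (sqHom μ z.1 z.2) (sqHom_equiv h z.1 z.2)).mapH (n + n)
        (univPH R n) := by
  rw [P_cls]
  rfl

/-- the four-fold multilinear map -/
def quadHom (μ : Bil A A B) (ν : Bil B B C) (x : A.obj n) (hx : x ∈ A.Z n) : Hom (N4 R n) C :=
  ν.lift.comp ((sqHom μ x hx).tens (sqHom μ x hx))

theorem quadHom_tmul (μ : Bil A A B) (ν : Bil B B C) (x : A.obj n) (hx : x ∈ A.Z n) (p : ℕ)
    (s t u v : (M R n).obj p) :
    (quadHom μ ν x hx).app p ((s ⊗ₜ[R] t : (M R n).obj p ⊗[R] (M R n).obj p) ⊗ₜ[R]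
      (u ⊗ₜ[R] v : (M R n).obj p ⊗[R] (M R n).obj p) :
      ((M R n).obj p ⊗[R] (M R n).obj p) ⊗[R] ((M R n).obj p ⊗[R] (M R n).obj p)) =
      ν.app p (μ.app p ((ofM x hx).app p s) ((ofM x hx).app p t))
        (μ.app p ((ofM x hx).app p u) ((ofM x hx).app p v)) := rfl

theorem quadHom_in (μ : Bil A A B) (b : Act C2 B) (hμ : Sym μ b) (ν : Bil B B C)
    (ci : Act C2 C)
    (hν : ∀ p g x y, ν.app p (b.act p g x) (b.act p g y) = ci.act p g (ν.app p x y))
    (x : A.obj n) (hx : x ∈ A.Z n) :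
    ∀ p (g : C2) (y : (N4 R n).obj p),
      (quadHom μ ν x hx).app p ((inA R n).act p g y) = ci.act p g ((quadHom μ ν x hx).app p y) := by
  intro p g y
  have e : (quadHom μ ν x hx).comp ((inA R n).hom g) = (ci.hom g).comp (quadHom μ ν x hx) := by
    apply hom_tensor_ext
    intro p s t
    show ν.lift.app p (((sqHom μ x hx).tens (sqHom μ x hx)).app p
        ((swapAct (M R n)).act p g s ⊗ₜ[R] (swapAct (M R n)).act p g t)) =
      ci.act p g (ν.lift.app p (((sqHom μ x hx).tens (sqHom μ x hx)).app p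
        (s ⊗ₜ[R] t : (N2 R n).obj p ⊗[R] (N2 R n).obj p)))
    rw [Hom.tens_app_tmul, Hom.tens_app_tmul, Bil.lift_tmul, Bil.lift_tmul,
      sqHom_equiv hμ, sqHom_equiv hμ, hν]
  exact congrArg (fun f : Hom (N4 R n) C => f.app p y) e

theorem quadHom_out (μ : Bil A A B) (ν : Bil B B C) (co : Act C2 C) (hs : Sym ν co)
    (x : A.obj n) (hx : x ∈ A.Z n) :
    ∀ p (g : C2) (y : (N4 R n).obj p),
      (quadHom μ ν x hx).app p ((outA R n).act p g y) =
        co.act p g ((quadHom μ ν x hx).app p y) := by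
  intro p g y
  show ν.lift.app p (((sqHom μ x hx).tens (sqHom μ x hx)).app p _) = _
  rw [tens_equiv, hs.equiv]
  rfl

/-- **Composition**: the iterated external square is the image of the universal one. -/
theorem P_P_eq_univ (μ : Bil A A B) (b : Act C2 B) (hμ : Sym μ b) (ν : Bil B B C)
    (ci co : Act C2 C)
    (hν : ∀ p g x y, ν.app p (b.act p g x) (b.act p g y) = ci.act p g (ν.app p x y))
    (hs : Sym ν co) (hc : Act.Comm co ci) [Inv R n] [Inv R (n + n)] (z : A.Z n) :
    P (hG.bil b b ci ν hν) (co.onHG ci hc) (sym_hbil hν hs hc) (P μ b hμ (A.cls n z)) =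
      (hG.mapHom ((outA R n).onHG (inA R n) (comm_out_in R n)) (co.onHG ci hc)
        (hG.mapHom (inA R n) ci (quadHom μ ν z.1 z.2) (quadHom_in μ b hμ ν ci hν z.1 z.2))
        (fun p g x => hG.ext fun s => quadHom_out μ ν co hs z.1 z.2 p g (hG.fn x s))).mapH _
        (univPP R n) := by
  rw [P_eq_univ, univPP]
  refine P_nat (ubil R n) _ (sym_ubil R n) (hG.bil b b ci ν hν) (co.onHG ci hc)
    (sym_hbil hν hs hc) _ _ _ ?_ _
  intro p x y
  apply hG.ext
  intro s
  exact Bil.lift_tmul ν p _ _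

/-! ### The exchange of the two factors -/

/-- `(s ⊗ t) ⊗ (u ⊗ v) ↦ (s ⊗ u) ⊗ (t ⊗ v)` -/
def midH (A : CosMod R) : Hom (tensor (tensor A A) (tensor A A)) (tensor (tensor A A) (tensor A A))
    where
  app p := (TensorProduct.tensorTensorTensorComm R (A.obj p) (A.obj p) (A.obj p)
    (A.obj p)).toLinearMap
  nat {p q} φ x := by
    have h : (TensorProduct.tensorTensorTensorComm R (A.obj q) (A.obj q) (A.obj q)
          (A.obj q)).toLinearMap.comp
        (TensorProduct.map (TensorProduct.map (A.map φ) (A.map φ))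
          (TensorProduct.map (A.map φ) (A.map φ))) =
        (TensorProduct.map (TensorProduct.map (A.map φ) (A.map φ))
          (TensorProduct.map (A.map φ) (A.map φ))).comp
          (TensorProduct.tensorTensorTensorComm R (A.obj p) (A.obj p) (A.obj p)
            (A.obj p)).toLinearMap := by
      apply TensorProduct.ext_fourfold'
      intro a b c d
      rfl
    exact LinearMap.congr_fun h x

theorem midH_tmul (A : CosMod R) (p : ℕ) (s t u v : A.obj p) :
    (midH A).app p ((s ⊗ₜ[R] t : A.obj p ⊗[R] A.obj p) ⊗ₜ[R]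
      (u ⊗ₜ[R] v : A.obj p ⊗[R] A.obj p) :
      (A.obj p ⊗[R] A.obj p) ⊗[R] (A.obj p ⊗[R] A.obj p)) =
    (s ⊗ₜ[R] u : A.obj p ⊗[R] A.obj p) ⊗ₜ[R] (t ⊗ₜ[R] v : A.obj p ⊗[R] A.obj p) := rfl

theorem hom_quad_ext {A B C D E : CosMod R} {f g : Hom (tensor (tensor A B) (tensor C D)) E}
    (h : ∀ p (s : A.obj p) (t : B.obj p) (u : C.obj p) (v : D.obj p),
      f.app p ((s ⊗ₜ[R] t : A.obj p ⊗[R] B.obj p) ⊗ₜ[R] (u ⊗ₜ[R] v : C.obj p ⊗[R] D.obj p) :
        (A.obj p ⊗[R] B.obj p) ⊗[R] (C.obj p ⊗[R] D.obj p)) =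
      g.app p ((s ⊗ₜ[R] t : A.obj p ⊗[R] B.obj p) ⊗ₜ[R] (u ⊗ₜ[R] v : C.obj p ⊗[R] D.obj p) :
        (A.obj p ⊗[R] B.obj p) ⊗[R] (C.obj p ⊗[R] D.obj p))) : f = g := by
  apply Hom.ext
  intro p x
  have key : (f.app p : ((A.obj p ⊗[R] B.obj p) ⊗[R] (C.obj p ⊗[R] D.obj p)) →ₗ[R] E.obj p) =
      g.app p := TensorProduct.ext_fourfold' (h p)
  exact LinearMap.congr_fun key x

theorem midH_midH (A : CosMod R) (p : ℕ) (x : (tensor (tensor A A) (tensor A A)).obj p) :
    (midH A).app p ((midH A).app p x) = x := by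
  have e : (midH A).comp (midH A) = Hom.id _ := by
    apply hom_quad_ext
    intro p s t u v
    rfl
  exact congrArg (fun f : Hom (tensor (tensor A A) (tensor A A)) _ => f.app p x) e

theorem swapAct_t_tmul (A : CosMod R) (p : ℕ) (x y : A.obj p) :
    (swapAct A).act p C2.t (x ⊗ₜ[R] y : A.obj p ⊗[R] A.obj p) = y ⊗ₜ[R] x :=
  swapAct_t A p _

theorem inA_t_tmul (n p : ℕ) (s t u v : (M R n).obj p) :
    (inA R n).act p C2.t ((s ⊗ₜ[R] t : (M R n).obj p ⊗[R] (M R n).obj p) ⊗ₜ[R]
      (u ⊗ₜ[R] v : (M R n).obj p ⊗[R] (M R n).obj p) :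
      ((M R n).obj p ⊗[R] (M R n).obj p) ⊗[R] ((M R n).obj p ⊗[R] (M R n).obj p)) =
    (t ⊗ₜ[R] s : (M R n).obj p ⊗[R] (M R n).obj p) ⊗ₜ[R]
      (v ⊗ₜ[R] u : (M R n).obj p ⊗[R] (M R n).obj p) := by
  refine (Act.diag_tmul _ _ _ _ _ _).trans ?_
  exact congrArg₂ (fun a b : (M R n).obj p ⊗[R] (M R n).obj p => a ⊗ₜ[R] b)
    (swapAct_t_tmul _ _ _ _) (swapAct_t_tmul _ _ _ _)

theorem midH_out (n : ℕ) : ∀ p (g : C2) (y : (N4 R n).obj p),
    (midH (M R n)).app p ((outA R n).act p g y) = (inA R n).act p g ((midH (M R n)).app p y) := by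
  refine equiv_C2 (a := outA R n) (c := inA R n) _ fun p y => ?_
  have e : (midH (M R n)).comp ((outA R n).hom C2.t) =
      ((inA R n).hom C2.t).comp (midH (M R n)) := by
    apply hom_quad_ext
    intro p s t u v
    have h1 := congrArg ((midH (M R n)).app p) (swapAct_t_tmul (N2 R n) p
      (s ⊗ₜ[R] t : (M R n).obj p ⊗[R] (M R n).obj p)
      (u ⊗ₜ[R] v : (M R n).obj p ⊗[R] (M R n).obj p))
    exact h1.trans (inA_t_tmul n p s u t v).symm
  exact congrArg (fun f : Hom (N4 R n) (N4 R n) => f.app p y) e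

theorem midH_in (n : ℕ) : ∀ p (g : C2) (y : (N4 R n).obj p),
    (midH (M R n)).app p ((inA R n).act p g y) = (outA R n).act p g ((midH (M R n)).app p y) := by
  intro p g y
  have h := midH_out (R := R) n p g ((midH (M R n)).app p y)
  rw [midH_midH] at h
  rw [← h, midH_midH]

/-- the pure tensors determine `quadHom`; compatibility with the exchange -/
theorem quadHom_mid {B' : CosMod R} (μ : Bil A A B) (ν : Bil B B C) (μ' : Bil A A B')
    (ν' : Bil B' B' C)
    (hcomp : ∀ p (w x y z : A.obj p),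
      ν'.app p (μ'.app p w x) (μ'.app p y z) = ν.app p (μ.app p w y) (μ.app p x z))
    (x : A.obj n) (hx : x ∈ A.Z n) :
    quadHom μ' ν' x hx = (quadHom μ ν x hx).comp (midH (M R n)) := by
  apply hom_quad_ext
  intro p s t u v
  rw [quadHom_tmul, hcomp]
  rfl

/-! ### The lowest class of `N4` -/

theorem good_N4 (R : Type) [CommRing R] (n : ℕ) :
    Good (N4 R n) ((n + n) + (n + n))
      (cr ((n + n) + (n + n)) (cr (n + n) (iotaM R n) (iotaM R n))
        (cr (n + n) (iotaM R n) (iotaM R n))) :=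
  (good_MM R n).tens (good_MM R n)

/-- the lowest class of `N4` -/
def e4 (R : Type) [CommRing R] (n : ℕ) : (N4 R n).H ((n + n) + (n + n)) :=
  (N4 R n).cls _ ⟨_, (good_N4 R n).cyc⟩

theorem res_univPH (n : ℕ) [Inv R n] :
    (hG.res (swapAct (M R n))).mapH (n + n) (univPH R n) =
      (N2 R n).cls (n + n) ⟨cr (n + n) (iotaM R n) (iotaM R n), (good_MM R n).cyc⟩ := by
  rw [univPH, Hom.mapH_cls, CosMod.cls_eq_iff]
  exact univP_res R n

theorem res_univPP (n : ℕ) [Inv R n] [Inv R (n + n)] :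
    (hG.res (inA R n)).mapH _ ((hG.res ((outA R n).onHG (inA R n) (comm_out_in R n))).mapH _
      (univPP R n)) = e4 R n := by
  rw [univPP, P_res]
  refine (hG.res_cupH _ _ _ _ _ _ _ _).trans ?_
  rw [res_univPH, Bil.cupH_cls]
  rfl

theorem mid_e4 (n : ℕ) :
    (midH (M (ZMod 2) n)).mapH _ (e4 (ZMod 2) n) = e4 (ZMod 2) n := by
  rw [e4, Hom.mapH_cls, CosMod.cls_eq_iff]
  exact (good_N4 (ZMod 2) n).map_sub_mem (good_N4 (ZMod 2) n) (midH _) (midH _) (midH_midH _ _)

/-! ### The symmetry -/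

/-- The exchange on iterated homotopy fixed points of `N4`. -/
def midHG (R : Type) [CommRing R] (n : ℕ) :
    Hom (hG ((outA R n).onHG (inA R n) (comm_out_in R n)))
      (hG ((inA R n).onHG (outA R n) (comm_out_in R n).symm)) :=
  hG.mapHom _ _ (hG.mapHom (inA R n) (outA R n) (midH (M R n)) (midH_in n))
    (fun p g x => hG.ext fun s => midH_out n p g (hG.fn x s))

/-- **The universal iterated external square is symmetric.** -/
theorem flip_univPP (n : ℕ) :
    (hG.flip (outA (ZMod 2) n) (inA (ZMod 2) n) (comm_out_in (ZMod 2) n)).mapH _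
      (univPP (ZMod 2) n) = (midHG (ZMod 2) n).mapH _ (univPP (ZMod 2) n) := by
  have hB : ∀ i, i < (n + n) + (n + n) → ∀ x : (N4 (ZMod 2) n).H i, x = 0 := fun i hi =>
    CosMod.H_eq_zero_iff.2 ((good_N4 (ZMod 2) n).H_low hi)
  apply hG_res_injective _ (fun i hi => hG_H_zero (outA (ZMod 2) n) hB i hi)
  apply hG_res_injective (outA (ZMod 2) n) hB
  have h1 : ((hG.res (outA (ZMod 2) n)).comp (hG.res ((inA (ZMod 2) n).onHG (outA (ZMod 2) n)
      (comm_out_in (ZMod 2) n).symm))).comp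
      (hG.flip (outA (ZMod 2) n) (inA (ZMod 2) n) (comm_out_in (ZMod 2) n)) =
      (hG.res (inA (ZMod 2) n)).comp
        (hG.res ((outA (ZMod 2) n).onHG (inA (ZMod 2) n) (comm_out_in (ZMod 2) n))) := rfl
  have h2 : ((hG.res (outA (ZMod 2) n)).comp (hG.res ((inA (ZMod 2) n).onHG (outA (ZMod 2) n)
      (comm_out_in (ZMod 2) n).symm))).comp (midHG (ZMod 2) n) =
      (midH (M (ZMod 2) n)).comp ((hG.res (inA (ZMod 2) n)).comp
        (hG.res ((outA (ZMod 2) n).onHG (inA (ZMod 2) n) (comm_out_in (ZMod 2) n)))) := rfl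
  rw [← Hom.mapH_comp, ← Hom.mapH_comp, h1, ← Hom.mapH_comp, ← Hom.mapH_comp, h2,
    Hom.mapH_comp, Hom.mapH_comp, Hom.mapH_comp, res_univPP, mid_e4]

/-- **Symmetry of the iterated external square.** -/
theorem P_P_swap {A B B' C : CosMod (ZMod 2)} {n : ℕ}
    (μ : Bil A A B) (b : Act C2 B) (hμ : Sym μ b) (ν : Bil B B C)
    (μ' : Bil A A B') (b' : Act C2 B') (hμ' : Sym μ' b') (ν' : Bil B' B' C)
    (c1 c2 : Act C2 C) (hc : Act.Comm c1 c2)
    (hν : ∀ p g x y, ν.app p (b.act p g x) (b.act p g y) = c2.act p g (ν.app p x y))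
    (hs : Sym ν c1)
    (hν' : ∀ p g x y, ν'.app p (b'.act p g x) (b'.act p g y) = c1.act p g (ν'.app p x y))
    (hs' : Sym ν' c2)
    (hcomp : ∀ p (w x y z : A.obj p),
      ν'.app p (μ'.app p w x) (μ'.app p y z) = ν.app p (μ.app p w y) (μ.app p x z))
    (x : A.H n) :
    (hG.flip c1 c2 hc).mapH _
        (P (hG.bil b b c2 ν hν) (c1.onHG c2 hc) (sym_hbil hν hs hc) (P μ b hμ x)) =
      P (hG.bil b' b' c1 ν' hν') (c2.onHG c1 hc.symm) (sym_hbil hν' hs' hc.symm)
        (P μ' b' hμ' x) := by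
  induction x using CosMod.H_ind with
  | h z =>
    rw [P_P_eq_univ μ b hμ ν c2 c1 hν hs hc z,
      P_P_eq_univ μ' b' hμ' ν' c1 c2 hν' hs' hc.symm z]
    have q1 := quadHom_mid μ ν μ' ν' hcomp z.1 z.2
    have h1 : (hG.flip c1 c2 hc).comp
        (hG.mapHom ((outA (ZMod 2) n).onHG (inA (ZMod 2) n) (comm_out_in (ZMod 2) n))
          (c1.onHG c2 hc)
          (hG.mapHom (inA (ZMod 2) n) c2 (quadHom μ ν z.1 z.2)
            (quadHom_in μ b hμ ν c2 hν z.1 z.2))
          (fun p g x => hG.ext fun s => quadHom_out μ ν c1 hs z.1 z.2 p g (hG.fn x s))) =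
        (hG.mapHom ((inA (ZMod 2) n).onHG (outA (ZMod 2) n) (comm_out_in (ZMod 2) n).symm)
          (c2.onHG c1 hc.symm)
          (hG.mapHom (outA (ZMod 2) n) c1 (quadHom μ ν z.1 z.2)
            (quadHom_out μ ν c1 hs z.1 z.2))
          (fun p g x => hG.ext fun s =>
            quadHom_in μ b hμ ν c2 hν z.1 z.2 p g (hG.fn x s))).comp
          (hG.flip (outA (ZMod 2) n) (inA (ZMod 2) n) (comm_out_in (ZMod 2) n)) := rfl
    have h2 : hG.mapHom ((outA (ZMod 2) n).onHG (inA (ZMod 2) n) (comm_out_in (ZMod 2) n))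
          (c2.onHG c1 hc.symm)
          (hG.mapHom (inA (ZMod 2) n) c1 (quadHom μ' ν' z.1 z.2)
            (quadHom_in μ' b' hμ' ν' c1 hν' z.1 z.2))
          (fun p g x => hG.ext fun s => quadHom_out μ' ν' c2 hs' z.1 z.2 p g (hG.fn x s)) =
        (hG.mapHom ((inA (ZMod 2) n).onHG (outA (ZMod 2) n) (comm_out_in (ZMod 2) n).symm)
          (c2.onHG c1 hc.symm)
          (hG.mapHom (outA (ZMod 2) n) c1 (quadHom μ ν z.1 z.2)
            (quadHom_out μ ν c1 hs z.1 z.2))
          (fun p g x => hG.ext fun s =>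
            quadHom_in μ b hμ ν c2 hν z.1 z.2 p g (hG.fn x s))).comp (midHG (ZMod 2) n) := by
      apply Hom.ext
      intro p x
      apply hG.ext
      intro s
      apply hG.ext
      intro t
      exact congrArg (fun f : Hom (N4 (ZMod 2) n) C => f.app p (hG.fn (hG.fn x s) t)) q1
    rw [← Hom.mapH_comp, h1, h2, Hom.mapH_comp, Hom.mapH_comp, flip_univPP]

end Vale.Agent.P263.S
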