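import Vale.Agent.P263.S.PowMul
import Vale.Agent.P263.S.PowPow
import Vale.Agent.P263.S.P1
import Vale.Agent.P263.S.GysTriv
import Vale.Agent.P263.S.Inner

/-!
# P263, block S4/S5: `P (u z) = v v P z + u v P z` (helper35)

`FBC` : functions on `BC2` (a commutative cosimplicial algebra), `fsc a` : its action on `hG a`,
`fsc_v` : `v ∪ z = u z` on cochains.

`P_uH` : for a pairing `μ : A × A → C`, an action `a` of `C2` on `A`, commuting actions `b`, `c` of
`C2` on `C`, `μ` equivariant with respect to `a`, `b` and symmetric with respect to `c`,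
`P (u z) = v v P z + u v P z` for `z ∈ H^n(hG a)`, where `u` (`uH`) is the outer and `v` (`vinH`) the
inner variable of `hG (c.onHG b)`.
-/

noncomputable section

namespace Vale.Agent.P263.S

open CosMod

/-! ### functions on `BC2` -/

/-- the constant coefficients `F_2` -/
abbrev F2c : CosMod (ZMod 2) := const (ZMod 2)

/-- functions on `BC2` (cochains of `BC2`) -/
abbrev FBC : CosMod (ZMod 2) := hG (Act.triv C2 F2c)

/-- the value of a cochain of `BC2` -/
def FBC.val {p : ℕ} (f : FBC.obj p) (s : Fin (p + 1) → C2) : ZMod 2 := hG.fn f s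

/-- scalar multiplication as a pairing -/
def scal (A : CosMod (ZMod 2)) : Bil F2c A A where
  app p := LinearMap.lsmul (ZMod 2) (A.obj p)
  nat φ x y := ((A.map φ).map_smul (x : ZMod 2) y).symm

/-- a scalar valued function acts on `hG a` -/
def fsc {A : CosMod (ZMod 2)} (a : Act C2 A) : Bil FBC (hG a) (hG a) :=
  hG.bil (Act.triv C2 F2c) a a (scal A) (fun p g _ x => (LinearMap.map_smul (a.act p g) _ x).symm)

theorem fsc_fn {A : CosMod (ZMod 2)} (a : Act C2 A) {p : ℕ} (f : FBC.obj p) (x : (hG a).obj p)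
    (s : Fin (p + 1) → C2) :
    hG.fn ((fsc a).app p f x) s = FBC.val f s • hG.fn x s := rfl

/-- multiplication of functions on `BC2` -/
def mulFBC : Bil FBC FBC FBC := fsc (Act.triv C2 F2c)

theorem mulFBC_val {p : ℕ} (f g : FBC.obj p) (s : Fin (p + 1) → C2) :
    FBC.val (mulFBC.app p f g) s = FBC.val f s * FBC.val g s := rfl

theorem mulFBC_sym : Sym mulFBC (Act.triv C2 FBC) := fun p x y => hG.ext fun s => by
  show FBC.val x s * FBC.val y s = FBC.val y s * FBC.val x s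
  exact mul_comm _ _

/-- the constant function `1` -/
def oneFBC : FBC.obj 0 := hG.mk _ (fun _ => (1 : ZMod 2)) (fun _ _ => rfl)

theorem oneFBC_mem_Z : oneFBC ∈ FBC.Z 0 := by
  rw [mem_Z]
  refine hG.ext fun s => ?_
  rw [hG_d_fn]
  simp only [zero_add, Finset.sum_range_succ, Finset.sum_range_zero]
  show ((1 : ZMod 2) + 1) = 0
  decide

/-- the cocycle `v (s) = [s_0 ≠ s_1]` -/
def vFBC : FBC.obj 1 := uc (MonoidHom.id C2) (Act.triv C2 F2c) 0 oneFBC

theorem vFBC_mem_Z : vFBC ∈ FBC.Z 1 := uc_mem_Z _ _ oneFBC_mem_Z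

theorem vFBC_val (s : Fin 2 → C2) : FBC.val vFBC s = if s 0 = s 1 then 0 else 1 := rfl

/-- multiplication by `u` is the product with `v` -/
theorem fsc_v {A : CosMod (ZMod 2)} (a : Act C2 A) (p : ℕ) (x : (hG a).obj p) :
    (fsc a).cup (p + 1) vFBC x = uc (MonoidHom.id C2) a p x := by
  refine hG.ext fun s => ?_
  rw [uc_fn]
  have e0 : bk p (p + 1) = dl p 0 := by
    ext y
    have := y.2
    have h1 := bk_val p (p + 1) y
    have h2 := dl_val p 0 y
    show (bk p (p + 1) y).1 = (dl p 0 y).1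
    rw [if_neg (Nat.not_lt_zero _)] at h2
    omega
  have e1 : (fsc a).cup (p + 1) vFBC x = (fsc a).app (p + 1) (FBC.map (fr 1 (p + 1)) vFBC)
      ((hG a).map (bk p (p + 1)) x) := rfl
  have e2 : FBC.val (FBC.map (fr 1 (p + 1)) vFBC) s = if s 0 = s 1 then 0 else 1 := by
    have f0 : fr 1 (p + 1) 0 = 0 := by
      apply Fin.ext
      rw [fr_val]
      simp
    have f1 : fr 1 (p + 1) 1 = 1 := by
      apply Fin.ext
      rw [fr_val]
      simp
    show (if s (fr 1 (p + 1) 0) = s (fr 1 (p + 1) 1) then (0 : ZMod 2) else 1) = _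
    rw [f0, f1]
  rw [e1, fsc_fn, e2, e0, hG.fn_map]
  show _ = if s 0 = s 1 then 0 else _
  split_ifs
  · rw [zero_smul]
  · rw [one_smul]

/-- the value of the explicit external square of `v` -/
theorem e1_vFBC_val (s t : Fin 3 → C2) :
    FBC.val (hG.fn (P1.e1 mulFBC (Act.triv C2 FBC) mulFBC_sym vFBC) s) t =
      (if t 0 = t 1 then 0 else 1) * (if t 1 = t 2 then 0 else 1) +
        (if s 0 = s 1 then 0 else (if t 1 = t 2 then 0 else 1)) := by
  have e : FBC.val (hG.fn (P1.e1 mulFBC (Act.triv C2 FBC) mulFBC_sym vFBC) s) t =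
      FBC.val (mulFBC.app 2 (FBC.map (fr 1 2) vFBC) (FBC.map (bk 1 2) vFBC)) t +
        FBC.val (if s 0 = s 1 then 0 else
          mulFBC.app 2 (FBC.map (bk 1 2) vFBC) (FBC.map (bk 1 2) vFBC)) t := rfl
  have e1 : FBC.val (FBC.map (fr 1 2) vFBC) t = if t 0 = t 1 then 0 else 1 := rfl
  have e2 : FBC.val (FBC.map (bk 1 2) vFBC) t = if t 1 = t 2 then 0 else 1 := rfl
  have e3 : FBC.val (if s 0 = s 1 then 0 else
      mulFBC.app 2 (FBC.map (bk 1 2) vFBC) (FBC.map (bk 1 2) vFBC)) t =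
      if s 0 = s 1 then 0 else (if t 1 = t 2 then 0 else 1) := by
    split_ifs with h1 h2
    · rfl
    · rw [mulFBC_val, e2, if_pos h2, mul_zero]
    · rw [mulFBC_val, e2, if_neg h2, mul_one]
  rw [e, mulFBC_val, e1, e2, e3]

section main

variable {A C : CosMod (ZMod 2)} (μ : Bil A A C) (a : Act C2 A) (b c : Act C2 C)
  (hc : Act.Comm c b) (hμ : ∀ p g x y, μ.app p (a.act p g x) (a.act p g y) = b.act p g (μ.app p x y))
  (hs : Sym μ c)

theorem fsc_onHG (p : ℕ) (g : C2) (x : FBC.obj p) (y : (hG b).obj p) :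
    (fsc b).app p ((Act.triv C2 FBC).act p g x) ((c.onHG b hc).act p g y) =
      (c.onHG b hc).act p g ((fsc b).app p x y) :=
  hG.ext fun _ => (LinearMap.map_smul (c.act p g) _ _).symm

theorem fsc_mul (p : ℕ) (f g : FBC.obj p) (x y : (hG a).obj p) :
    (fsc b).app p (mulFBC.app p f g) ((hG.bil a a b μ hμ).app p x y) =
      (hG.bil a a b μ hμ).app p ((fsc a).app p f x) ((fsc a).app p g y) :=
  hG.ext fun s => by
    show (FBC.val f s * FBC.val g s) • μ.app p (hG.fn x s) (hG.fn y s) =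
      μ.app p (FBC.val f s • hG.fn x s) (FBC.val g s • hG.fn y s)
    rw [map_smul, map_smul, LinearMap.smul_apply, smul_smul, mul_comm]

/-- the product with the external square of `v`, on cochains -/
theorem cup_e1 (q : ℕ) (w : (hG (c.onHG b hc)).obj q) :
    (hG.bil (Act.triv C2 FBC) (c.onHG b hc) (c.onHG b hc) (fsc b) (fsc_onHG b c hc)).cup (q + 1 + 1)
        (P1.e1 mulFBC (Act.triv C2 FBC) mulFBC_sym vFBC) w =
      vinc (MonoidHom.id C2) c b hc (q + 1) (vinc (MonoidHom.id C2) c b hc q w) +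
        uc (MonoidHom.id C2) (c.onHG b hc) (q + 1) (vinc (MonoidHom.id C2) c b hc q w) := by
  refine hG.ext fun s => hG.ext fun t => ?_
  have f0 : fr 2 (q + 1 + 1) 0 = 0 := by
    apply Fin.ext; rw [fr_val]; simp
  have f1 : fr 2 (q + 1 + 1) 1 = 1 := by
    apply Fin.ext; rw [fr_val]; simp
  have f2 : fr 2 (q + 1 + 1) 2 = 2 := by
    apply Fin.ext
    rw [fr_val]
    show min 2 (q + 1 + 1) = (2 : Fin (q + 1 + 1 + 1)).1
    rw [Fin.val_two]
    omega
  have hb : bk q (q + 1 + 1) = (dl (q + 1) 0).comp (dl q 0) := by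
    ext y
    have := y.2
    have h1 := bk_val q (q + 1 + 1) y
    have h2 := dl_val q 0 y
    have h3 := dl_val (q + 1) 0 (dl q 0 y)
    show (bk q (q + 1 + 1) y).1 = (dl (q + 1) 0 (dl q 0 y)).1
    rw [if_neg (Nat.not_lt_zero _)] at h2 h3
    omega
  have e1 : hG.fn (hG.fn ((hG.bil (Act.triv C2 FBC) (c.onHG b hc) (c.onHG b hc) (fsc b)
      (fsc_onHG b c hc)).cup (q + 1 + 1) (P1.e1 mulFBC (Act.triv C2 FBC) mulFBC_sym vFBC) w) s) t =
      FBC.val (hG.fn (P1.e1 mulFBC (Act.triv C2 FBC) mulFBC_sym vFBC) (s ∘ fr 2 (q + 1 + 1)))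
        (t ∘ fr 2 (q + 1 + 1)) •
      C.map (bk q (q + 1 + 1)) (hG.fn (hG.fn w (s ∘ bk q (q + 1 + 1))) (t ∘ bk q (q + 1 + 1))) := rfl
  have e2 : hG.fn (hG.fn (vinc (MonoidHom.id C2) c b hc (q + 1)
      (vinc (MonoidHom.id C2) c b hc q w)) s) t = if t 0 = t 1 then 0 else if t 1 = t 2 then 0 else
        C.map (bk q (q + 1 + 1)) (hG.fn (hG.fn w (s ∘ bk q (q + 1 + 1))) (t ∘ bk q (q + 1 + 1))) := by
    rw [vinc_fn, vinc_fn]
    show (if t 0 = t 1 then 0 else C.map (dl (q + 1) 0)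
      (if t (dl (q + 1) 0 0) = t (dl (q + 1) 0 1) then 0 else _)) = _
    rw [dl_zero_zero, dl_zero_one]
    split_ifs
    · rfl
    · exact map_zero _
    · rw [C.map_map, hb]
      rfl
  have e3 : hG.fn (hG.fn (uc (MonoidHom.id C2) (c.onHG b hc) (q + 1)
      (vinc (MonoidHom.id C2) c b hc q w)) s) t = if s 0 = s 1 then 0 else if t 1 = t 2 then 0 else
        C.map (bk q (q + 1 + 1)) (hG.fn (hG.fn w (s ∘ bk q (q + 1 + 1))) (t ∘ bk q (q + 1 + 1))) := by
    rw [uc_fn]
    by_cases h : s 0 = s 1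
    · rw [if_pos h, if_pos (show MonoidHom.id C2 (s 0) = MonoidHom.id C2 (s 1) from h)]
      rfl
    · rw [if_neg h, if_neg (show ¬ MonoidHom.id C2 (s 0) = MonoidHom.id C2 (s 1) from h)]
      rw [hG.fn_map, vinc_fn]
      show C.map (dl (q + 1) 0)
        (if t (dl (q + 1) 0 0) = t (dl (q + 1) 0 1) then 0 else _) = _
      rw [dl_zero_zero, dl_zero_one]
      split_ifs
      · exact map_zero _
      · rw [C.map_map, hb]
        rfl
  rw [e1, hG.fn_add, hG.fn_add, e2, e3, e1_vFBC_val]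
  simp only [Function.comp, f0, f1, f2]
  generalize C.map (bk q (q + 1 + 1)) _ = X
  rw [add_smul]
  congr 1
  · split_ifs <;> simp
  · split_ifs <;> simp

theorem uH_inner_eq (q N : ℕ) (hN : q + 1 + 1 = N) (hN' : N = 1 + 1 + q)
    (w : (hG (c.onHG b hc)).H q) :
    (hG.bil (Act.triv C2 FBC) (c.onHG b hc) (c.onHG b hc) (fsc b) (fsc_onHG b c hc)).cupH hN'
        (P mulFBC (Act.triv C2 FBC) mulFBC_sym (FBC.cls 1 ⟨vFBC, vFBC_mem_Z⟩)) w =
      castH _ hN (vinH (MonoidHom.id C2) c b hc (q + 1) (vinH (MonoidHom.id C2) c b hc q w) +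
        uH (MonoidHom.id C2) (c.onHG b hc) (q + 1) (vinH (MonoidHom.id C2) c b hc q w)) := by
  subst hN
  rw [castH_rfl, P1.P_cls_one]
  induction w using H_ind with
  | h w =>
    have hv := vinc_mem_Z (MonoidHom.id C2) c b hc w.2
    have e := map_add ((hG (c.onHG b hc)).cls (q + 1 + 1))
      ⟨_, vinc_mem_Z (MonoidHom.id C2) c b hc hv⟩ ⟨_, uc_mem_Z (MonoidHom.id C2) (c.onHG b hc) hv⟩
    refine Eq.trans ?_ e
    exact congrArg ((hG (c.onHG b hc)).cls (q + 1 + 1)) (Subtype.ext (cup_e1 b c hc q w.1))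

/-- **Cartan formula for the class `u`** (561's (D)): `P (u z) = v v P z + u v P z`, where `u` is the
outer and `v` the inner variable. -/
theorem P_uH {n : ℕ} (hN : n + n + 1 + 1 = n + 1 + (n + 1)) (z : (hG a).H n) :
    P (hG.bil a a b μ hμ) (c.onHG b hc) (sym_hbil hμ hs hc) (uH (MonoidHom.id C2) a n z) =
      castH _ hN (vinH (MonoidHom.id C2) c b hc (n + n + 1) (vinH (MonoidHom.id C2) c b hc (n + n)
          (P (hG.bil a a b μ hμ) (c.onHG b hc) (sym_hbil hμ hs hc) z)) +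
        uH (MonoidHom.id C2) (c.onHG b hc) (n + n + 1) (vinH (MonoidHom.id C2) c b hc (n + n)
          (P (hG.bil a a b μ hμ) (c.onHG b hc) (sym_hbil hμ hs hc) z))) := by
  rw [← uH_inner_eq b c hc (n + n) (n + 1 + (n + 1)) hN (by omega)]
  rw [← P_mul mulFBC (Act.triv C2 FBC) mulFBC_sym (hG.bil a a b μ hμ) (c.onHG b hc)
    (sym_hbil hμ hs hc) (hG.bil a a b μ hμ) (c.onHG b hc) (sym_hbil hμ hs hc) (fsc a) (fsc b)
    (fsc_onHG b c hc) (fsc_mul μ a b hμ) (show n + 1 = 1 + n by omega)]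
  congr 1
  induction z using H_ind with
  | h z =>
    rw [uH_cls, Bil.cupH_cls]
    exact congrArg _ (Subtype.ext (fsc_v a n z.1).symm)

end main

end Vale.Agent.P263.S
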