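import Vale.Agent.P263.S.Gys

/-!
# P263, block S: the classes of several characters commute (helper637)

`uH_comm : uH e₁ (uH e₂ x) = uH e₂ (uH e₁ x)` on `H(hG a)`, `uH_mul : uH (e₁ * e₂) = uH e₁ + uH e₂`
(strict on cochains, `uc_mul`), `uH_one = 0`, and compatibility with `hG.iter`.
-/

noncomputable section

namespace Vale.Agent.P263.S

open CosMod

variable {G : Type} [Group G] {B : CosMod (ZMod 2)}

/-- product with a (homogeneous) 1-cochain `w` of the group -/
def ow (w : G → G → ZMod 2) (hw : ∀ g x y, w (g * x) (g * y) = w x y) (a : Act G B) (p : ℕ) :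
    (hG a).obj p →ₗ[ZMod 2] (hG a).obj (p + 1) where
  toFun f := hG.mk a (fun s => w (s 0) (s 1) • B.map (dl p 0) (hG.fn f (s ∘ dl p 0))) (by
    intro g s
    rw [hw, map_smul, a.nat]
    exact congrArg _ (congrArg _ (hG.fn_mul f g (s ∘ dl p 0))))
  map_add' f f' := hG.ext fun s => by
    refine Eq.trans ?_ (hG.fn_add _ _ s).symm
    simp only [hG.fn_mk, hG.fn_add, map_add, smul_add]
  map_smul' r f := hG.ext fun s => by
    refine Eq.trans ?_ (hG.fn_smul r _ s).symm
    simp only [hG.fn_mk, hG.fn_smul, map_smul]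
    rw [smul_comm]

@[simp] theorem ow_fn (w : G → G → ZMod 2) (hw : ∀ g x y, w (g * x) (g * y) = w x y)
    (a : Act G B) {p : ℕ} (f : (hG a).obj p) (s : Fin (p + 2) → G) :
    hG.fn (ow w hw a p f) s = w (s 0) (s 1) • B.map (dl p 0) (hG.fn f (s ∘ dl p 0)) := rfl

theorem d_ow (w : G → G → ZMod 2) (hw : ∀ g x y, w (g * x) (g * y) = w x y) (a : Act G B)
    (p : ℕ) (f : (hG a).obj p) (s : Fin (p + 3) → G) :
    hG.fn ((hG a).d (p + 1) (ow w hw a p f)) s + hG.fn (ow w hw a (p + 1) ((hG a).d p f)) s =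
      (w (s 1) (s 2) + w (s 0) (s 2) + w (s 0) (s 1)) •
        B.map ((dl (p + 1) 0).comp (dl p 0)) (hG.fn f (s ∘ (dl (p + 1) 0).comp (dl p 0))) := by
  rw [hG_d_fn, ow_fn, hG_d_fn, Finset.sum_range_succ', Finset.sum_range_succ']
  have e0 : B.map (dl (p + 1) 0) (hG.fn (ow w hw a p f) (s ∘ dl (p + 1) 0)) =
      w (s 1) (s 2) •
        B.map ((dl (p + 1) 0).comp (dl p 0)) (hG.fn f (s ∘ (dl (p + 1) 0).comp (dl p 0))) := by
    rw [ow_fn]
    simp only [Function.comp_apply, dl_zero_zero, dl_zero_one]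
    rw [map_smul, B.map_map]
    rfl
  have e1 : B.map (dl (p + 1) (0 + 1)) (hG.fn (ow w hw a p f) (s ∘ dl (p + 1) (0 + 1))) =
      w (s 0) (s 2) •
        B.map ((dl (p + 1) 0).comp (dl p 0)) (hG.fn f (s ∘ (dl (p + 1) 0).comp (dl p 0))) := by
    rw [ow_fn]
    simp only [Function.comp_apply, dl_succ_zero, zero_add, dl_one_one]
    rw [map_smul, B.map_map, ← dl_dl (i := 0) (j := 0) le_rfl]
    rfl
  have e2 : ∀ i ∈ Finset.range (p + 1),
      B.map (dl (p + 1) (i + 1 + 1)) (hG.fn (ow w hw a p f) (s ∘ dl (p + 1) (i + 1 + 1))) =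
      w (s 0) (s 1) • B.map ((dl (p + 1) 0).comp (dl p (i + 1)))
          (hG.fn f (s ∘ (dl (p + 1) 0).comp (dl p (i + 1)))) := by
    intro i _
    rw [ow_fn]
    simp only [Function.comp_apply, dl_succ_zero, dl_succ_succ_one]
    rw [map_smul, B.map_map, ← dl_dl (i := 0) (j := i + 1) (Nat.zero_le _)]
    rfl
  have h5 := map_sum_split (B.map (dl (p + 1) 0))
    (fun i => B.map (dl p i) (hG.fn f ((s ∘ dl (p + 1) 0) ∘ dl p i)))
    (fun i => B.map ((dl (p + 1) 0).comp (dl p i)) (hG.fn f (s ∘ (dl (p + 1) 0).comp (dl p i))))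
    (fun i => B.map_map _ _ _) (p + 1)
  rw [e0, e1, Finset.sum_congr rfl e2, ← Finset.smul_sum]
  have h6 := congrArg (fun z => w (s 0) (s 1) • z) h5
  simp only [smul_add] at h6
  refine (congrArg (fun z => _ + z) h6).trans ?_
  simp only [add_smul]
  generalize w (s 0) (s 1) • ∑ i ∈ Finset.range (p + 1), B.map ((dl (p + 1) 0).comp (dl p (i + 1)))
    (hG.fn f (s ∘ (dl (p + 1) 0).comp (dl p (i + 1)))) = Z
  generalize B.map ((dl (p + 1) 0).comp (dl p 0))
    (hG.fn f (s ∘ (dl (p + 1) 0).comp (dl p 0))) = Y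
  have hZ : Z + Z = 0 := ZModModule.add_self Z
  calc Z + w (s 0) (s 2) • Y + w (s 1) (s 2) • Y + (Z + w (s 0) (s 1) • Y)
      = (Z + Z) + (w (s 1) (s 2) • Y + w (s 0) (s 2) • Y + w (s 0) (s 1) • Y) := by abel
    _ = _ := by rw [hZ, zero_add]

/-- the cochain of a character -/
def cw (e : G →* C2) (x y : G) : ZMod 2 := if e x = e y then 0 else 1

theorem cw_mul (e : G →* C2) (g x y : G) : cw e (g * x) (g * y) = cw e x y := by
  simp only [cw, map_mul, mul_right_inj]

theorem uc_eq_ow (e : G →* C2) (a : Act G B) (p : ℕ) (f : (hG a).obj p) :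
    uc e a p f = ow (cw e) (cw_mul e) a p f := by
  refine hG.ext fun s => ?_
  rw [uc_fn, ow_fn, cw]
  split_ifs
  · rw [zero_smul]
  · rw [one_smul]

theorem cw_eq (e : G →* C2) (x y : G) :
    cw e x y = Multiplicative.toAdd (e x) + Multiplicative.toAdd (e y) := by
  have key : ∀ a b : ZMod 2, (if a = b then (0 : ZMod 2) else 1) = a + b := by decide
  exact key _ _

/-- strict additivity in the character -/
theorem uc_mul (e e' : G →* C2) (a : Act G B) (p : ℕ) (f : (hG a).obj p) :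
    uc (e * e') a p f = uc e a p f + uc e' a p f := by
  refine hG.ext fun s => ?_
  rw [hG.fn_add, uc_eq_ow, uc_eq_ow, uc_eq_ow, ow_fn, ow_fn, ow_fn, ← add_smul]
  congr 1
  rw [cw_eq, cw_eq, cw_eq, MonoidHom.mul_apply, MonoidHom.mul_apply, toAdd_mul, toAdd_mul]
  abel

theorem uc_one (a : Act G B) (p : ℕ) (f : (hG a).obj p) : uc (1 : G →* C2) a p f = 0 := by
  refine hG.ext fun s => ?_
  rw [uc_fn, MonoidHom.one_apply, MonoidHom.one_apply, if_pos rfl]
  rfl

theorem uH_mul (e e' : G →* C2) (a : Act G B) (p : ℕ) (x : (hG a).H p) :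
    uH (e * e') a p x = uH e a p x + uH e' a p x := by
  induction x using H_ind with
  | h z =>
    rw [uH_cls, uH_cls, uH_cls, ← map_add]
    exact congrArg _ (Subtype.ext (uc_mul e e' a p z.1))

theorem uH_one (a : Act G B) (p : ℕ) (x : (hG a).H p) : uH (1 : G →* C2) a p x = 0 := by
  induction x using H_ind with
  | h z =>
    rw [uH_cls, cls_eq_zero_iff]
    show uc (1 : G →* C2) a p z.1 ∈ _
    rw [uc_one]
    exact Submodule.zero_mem _

/-- the homotopy between `u u'` and `u' u` -/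
theorem uc_comm (e e' : G →* C2) (a : Act G B) (p : ℕ) (f : (hG a).obj p) :
    uc e a (p + 1) (uc e' a p f) + uc e' a (p + 1) (uc e a p f) =
      (hG a).d (p + 1) (ow (fun x y => cw e x y * cw e' x y)
        (fun g x y => by rw [cw_mul, cw_mul]) a p f) +
      ow (fun x y => cw e x y * cw e' x y)
        (fun g x y => by rw [cw_mul, cw_mul]) a (p + 1) ((hG a).d p f) := by
  refine hG.ext fun s => ?_
  rw [hG.fn_add, hG.fn_add, d_ow, uc_eq_ow, uc_eq_ow, uc_eq_ow, uc_eq_ow, ow_fn, ow_fn, ow_fn,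
    ow_fn]
  simp only [Function.comp_apply, dl_zero_zero, dl_zero_one]
  rw [map_smul, map_smul, B.map_map, smul_smul, smul_smul]
  have hk : (s ∘ ⇑(dl (p + 1) 0)) ∘ ⇑(dl p 0) = s ∘ ⇑((dl (p + 1) 0).comp (dl p 0)) := rfl
  rw [hk, ← add_smul]
  congr 1
  simp only [cw_eq]
  have key : ∀ x y z x' y' z' : ZMod 2,
      (x + y) * (y' + z') + (x' + y') * (y + z) =
        (y + z) * (y' + z') + (x + z) * (x' + z') + (x + y) * (x' + y') := by decide
  exact key _ _ _ _ _ _

/-- **the classes of two characters commute** -/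
theorem uH_comm (e e' : G →* C2) (a : Act G B) (p : ℕ) (x : (hG a).H p) :
    uH e a (p + 1) (uH e' a p x) = uH e' a (p + 1) (uH e a p x) := by
  induction x using H_ind with
  | h z =>
    rw [uH_cls, uH_cls, uH_cls, uH_cls, cls_eq_iff]
    have h := uc_comm e e' a p z.1
    rw [mem_Z.1 z.2, map_zero, add_zero] at h
    show uc e a (p + 1) (uc e' a p z.1) - uc e' a (p + 1) (uc e a p z.1) ∈ _
    rw [ZModModule.sub_eq_add, h]
    exact d_mem_Bd _ _

/-! ### iteration -/

section iter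

variable {K : Type} [Group K] (a : Act G B) (b : Act K B) (h : Act.Comm a b)

/-- the outer class under `iter` -/
theorem iter_uc (e : G →* C2) (p : ℕ) (x : (hG (a.onHG b h)).obj p) :
    (hG.iter a b h).app (p + 1) (uc e (a.onHG b h) p x) =
      uc (e.comp (MonoidHom.fst G K)) (a.prod b h) p ((hG.iter a b h).app p x) := by
  refine hG.ext fun w => ?_
  rw [hG.iter_fn, uc_fn, uc_fn]
  simp only [MonoidHom.comp_apply, MonoidHom.coe_fst]
  by_cases hw : e (w 0).1 = e (w 1).1
  · rw [if_pos hw]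
    exact (if_pos hw).symm
  · rw [if_neg hw]
    exact (if_neg hw).symm

theorem iter_uH (e : G →* C2) (p : ℕ) (x : (hG (a.onHG b h)).H p) :
    (hG.iter a b h).mapH (p + 1) (uH e (a.onHG b h) p x) =
      uH (e.comp (MonoidHom.fst G K)) (a.prod b h) p ((hG.iter a b h).mapH p x) := by
  induction x using H_ind with
  | h z =>
    rw [uH_cls, Hom.mapH_cls, Hom.mapH_cls, uH_cls]
    exact congrArg _ (Subtype.ext (iter_uc a b h e p z.1))

/-- the inner class under `iter`; the inner class is `flip ∘ uc ∘ flip` -/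
theorem iter_flip_uc (e : K →* C2) (p : ℕ) (x : (hG (a.onHG b h)).obj p) :
    (hG.iter a b h).app (p + 1) ((hG.flip b a h.symm).app (p + 1)
        (uc e (b.onHG a h.symm) p ((hG.flip a b h).app p x))) =
      uc (e.comp (MonoidHom.snd G K)) (a.prod b h) p ((hG.iter a b h).app p x) := by
  refine hG.ext fun w => ?_
  rw [hG.iter_fn, hG.flip_fn, uc_fn, uc_fn]
  simp only [MonoidHom.comp_apply, MonoidHom.coe_snd]
  by_cases hw : e (w 0).2 = e (w 1).2
  · rw [if_pos hw]
    exact (if_pos hw).symm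
  · rw [if_neg hw]
    exact (if_neg hw).symm

theorem iter_flip_uH (e : K →* C2) (p : ℕ) (x : (hG (a.onHG b h)).H p) :
    (hG.iter a b h).mapH (p + 1) ((hG.flip b a h.symm).mapH (p + 1)
        (uH e (b.onHG a h.symm) p ((hG.flip a b h).mapH p x))) =
      uH (e.comp (MonoidHom.snd G K)) (a.prod b h) p ((hG.iter a b h).mapH p x) := by
  induction x using H_ind with
  | h z =>
    rw [Hom.mapH_cls, uH_cls, Hom.mapH_cls, Hom.mapH_cls, Hom.mapH_cls, uH_cls]
    exact congrArg _ (Subtype.ext (iter_flip_uc a b h e p z.1))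

/-- outer and inner classes commute -/
theorem uH_flip_comm (e : G →* C2) (e' : K →* C2) (p : ℕ) (x : (hG (a.onHG b h)).H p) :
    uH e (a.onHG b h) (p + 1) ((hG.flip b a h.symm).mapH (p + 1)
        (uH e' (b.onHG a h.symm) p ((hG.flip a b h).mapH p x))) =
      (hG.flip b a h.symm).mapH (p + 1 + 1) (uH e' (b.onHG a h.symm) (p + 1)
        ((hG.flip a b h).mapH (p + 1) (uH e (a.onHG b h) p x))) := by
  apply (hG.mapH_iter_bijective a b h _).1
  rw [iter_uH, iter_flip_uH, iter_flip_uH, iter_uH, uH_comm]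

end iter

end Vale.Agent.P263.S
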