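import Vale.Agent.P263.S.LES

/-!
# P263, block S: the five lemma for morphisms of short exact sequences (helper801)

`SESHom S S'` : morphisms of short exact sequences.  `Inj f n` / `Surj f n` abbreviate injectivity /
surjectivity of `f.mapH n`; `Inj.iff` / `Surj.iff` give the elementwise forms.
-/

namespace Vale.Agent.P263.S

open CosMod

variable {R : Type} [CommRing R]

namespace Hom

variable {A B : CosMod R}

/-- `f` is injective on `H^n` -/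
def Inj (f : Hom A B) (n : ℕ) : Prop := Function.Injective (f.mapH n)

/-- `f` is surjective on `H^n` -/
def Surj (f : Hom A B) (n : ℕ) : Prop := Function.Surjective (f.mapH n)

theorem inj_iff' {f : Hom A B} {n : ℕ} : f.Inj n ↔ ∀ x, f.mapH n x = 0 → x = 0 :=
  injective_iff_map_eq_zero (f.mapH n)

/-- elementwise form of injectivity on `H^n` -/
theorem inj_iff {f : Hom A B} {n : ℕ} :
    f.Inj n ↔ ∀ x ∈ A.Z n, f.app n x ∈ B.Bd n → x ∈ A.Bd n := by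
  rw [inj_iff']
  constructor
  · intro h x hx hx'
    exact cls_eq_zero_iff.1 (h (A.cls n ⟨x, hx⟩) (by
      rw [mapH_cls, cls_eq_zero_iff]; exact hx'))
  · intro h x
    induction x using H_ind with
    | h z =>
      intro hz
      rw [mapH_cls, cls_eq_zero_iff] at hz
      exact cls_eq_zero_iff.2 (h z z.2 hz)

/-- elementwise form of surjectivity on `H^n` -/
theorem surj_iff {f : Hom A B} {n : ℕ} :
    f.Surj n ↔ ∀ y ∈ B.Z n, ∃ x ∈ A.Z n, f.app n x - y ∈ B.Bd n := by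
  constructor
  · intro h y hy
    obtain ⟨x, hx⟩ := h (B.cls n ⟨y, hy⟩)
    induction x using H_ind with
    | h z =>
      rw [mapH_cls, cls_eq_iff] at hx
      exact ⟨z, z.2, hx⟩
  · intro h y
    induction y using H_ind with
    | h z =>
      obtain ⟨x, hx, hxy⟩ := h z z.2
      refine ⟨A.cls n ⟨x, hx⟩, ?_⟩
      rw [mapH_cls, cls_eq_iff]
      exact hxy

theorem inj_id (A : CosMod R) (n : ℕ) : (Hom.id A).Inj n := fun x y h => by
  rwa [mapH_id, mapH_id] at h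

theorem surj_id (A : CosMod R) (n : ℕ) : (Hom.id A).Surj n := fun x => ⟨x, mapH_id n x⟩

theorem Inj.comp {C : CosMod R} {g : Hom B C} {f : Hom A B} {n : ℕ} (hg : g.Inj n)
    (hf : f.Inj n) : (g.comp f).Inj n := fun x y h => by
  rw [mapH_comp, mapH_comp] at h
  exact hf (hg h)

theorem Surj.comp {C : CosMod R} {g : Hom B C} {f : Hom A B} {n : ℕ} (hg : g.Surj n)
    (hf : f.Surj n) : (g.comp f).Surj n := fun z => by
  obtain ⟨y, rfl⟩ := hg z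
  obtain ⟨x, rfl⟩ := hf y
  exact ⟨x, mapH_comp _ _ _ _⟩

theorem Inj.of_comp {C : CosMod R} {g : Hom B C} {f : Hom A B} {n : ℕ}
    (h : (g.comp f).Inj n) : f.Inj n := fun x y e => by
  apply h
  rw [mapH_comp, mapH_comp, e]

theorem Surj.of_comp {C : CosMod R} {g : Hom B C} {f : Hom A B} {n : ℕ}
    (h : (g.comp f).Surj n) : g.Surj n := fun z => by
  obtain ⟨x, hx⟩ := h z
  exact ⟨f.mapH n x, by rw [← mapH_comp]; exact hx⟩

/-- if the target has no cohomology then everything is surjective -/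
theorem surj_of_H_zero {f : Hom A B} {n : ℕ} (h : B.Z n ≤ B.Bd n) : f.Surj n := fun y =>
  ⟨0, by rw [map_zero]; exact (H_eq_zero_iff.2 h y).symm⟩

/-- if the source has no cohomology then everything is injective -/
theorem inj_of_H_zero {f : Hom A B} {n : ℕ} (h : A.Z n ≤ A.Bd n) : f.Inj n :=
  inj_iff'.2 fun x _ => H_eq_zero_iff.2 h x

end Hom

/-- morphisms of short exact sequences -/
structure SESHom {A B C A' B' C' : CosMod R} (S : SES A B C) (S' : SES A' B' C') where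
  fA : Hom A A'
  fB : Hom B B'
  fC : Hom C C'
  hi : ∀ n x, fB.app n (S.i.app n x) = S'.i.app n (fA.app n x)
  hp : ∀ n x, fC.app n (S.p.app n x) = S'.p.app n (fB.app n x)

namespace SESHom

variable {A B C A' B' C' : CosMod R} {S : SES A B C} {S' : SES A' B' C'} (F : SESHom S S')

theorem conn (n : ℕ) (x : C.H n) : F.fA.mapH (n+1) (S.conn n x) = S'.conn n (F.fC.mapH n x) :=
  S.conn_nat S' F.fA F.fB F.fC F.hi F.hp n x

theorem mapH_i (n : ℕ) (x : A.H n) : F.fB.mapH n (S.i.mapH n x) = S'.i.mapH n (F.fA.mapH n x) := by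
  rw [← Hom.mapH_comp, ← Hom.mapH_comp]
  congr 1
  congr 1
  exact Hom.ext F.hi

theorem mapH_p (n : ℕ) (x : B.H n) : F.fC.mapH n (S.p.mapH n x) = S'.p.mapH n (F.fB.mapH n x) := by
  rw [← Hom.mapH_comp, ← Hom.mapH_comp]
  congr 1
  congr 1
  exact Hom.ext F.hp

/-! ### position `A` -/

theorem inj_A_zero (h : F.fB.Inj 0) : F.fA.Inj 0 := by
  rw [Hom.inj_iff'] at h ⊢
  intro x hx
  apply S.inj_zero
  apply h
  rw [F.mapH_i, hx, map_zero]

theorem inj_A {n : ℕ} (h1 : F.fB.Surj n) (h2 : F.fC.Inj n) (h3 : F.fB.Inj (n+1)) :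
    F.fA.Inj (n+1) := by
  rw [Hom.inj_iff'] at h3 ⊢
  intro x hx
  obtain ⟨c, rfl⟩ := (S.exact_A n x).1 (h3 _ (by rw [F.mapH_i, hx, map_zero]))
  rw [F.conn] at hx
  obtain ⟨b', hb'⟩ := (S'.exact_C n _).1 hx
  obtain ⟨b, rfl⟩ := h1 b'
  rw [← F.mapH_p] at hb'
  rw [← h2 hb']
  exact (S.exact_C n _).2 ⟨b, rfl⟩

theorem surj_A_zero (h1 : F.fB.Surj 0) (h2 : F.fC.Inj 0) : F.fA.Surj 0 := by
  intro x
  obtain ⟨b, hb⟩ := h1 (S'.i.mapH 0 x)
  have : S.p.mapH 0 b = 0 := by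
    rw [Hom.inj_iff'] at h2
    apply h2
    rw [F.mapH_p, hb]
    exact (S'.exact_B 0 _).2 ⟨x, rfl⟩
  obtain ⟨a, rfl⟩ := (S.exact_B 0 b).1 this
  refine ⟨a, ?_⟩
  rw [← sub_eq_zero]
  apply S'.inj_zero
  rw [map_sub, ← F.mapH_i, hb, sub_self]

theorem surj_A {n : ℕ} (h0 : F.fC.Surj n) (h1 : F.fB.Surj (n+1)) (h2 : F.fC.Inj (n+1)) :
    F.fA.Surj (n+1) := by
  intro x
  obtain ⟨b, hb⟩ := h1 (S'.i.mapH (n+1) x)
  have : S.p.mapH (n+1) b = 0 := by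
    rw [Hom.inj_iff'] at h2
    apply h2
    rw [F.mapH_p, hb]
    exact (S'.exact_B (n+1) _).2 ⟨x, rfl⟩
  obtain ⟨a, rfl⟩ := (S.exact_B (n+1) b).1 this
  rw [F.mapH_i, ← sub_eq_zero, ← map_sub] at hb
  obtain ⟨c', hc'⟩ := (S'.exact_A n _).1 hb
  obtain ⟨c, rfl⟩ := h0 c'
  refine ⟨a - S.conn n c, ?_⟩
  rw [map_sub, F.conn, hc']
  abel

/-! ### position `B` -/

theorem inj_B_zero (h1 : F.fA.Inj 0) (h2 : F.fC.Inj 0) : F.fB.Inj 0 := by
  rw [Hom.inj_iff'] at h1 h2 ⊢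
  intro x hx
  obtain ⟨a, rfl⟩ := (S.exact_B 0 x).1 (h2 _ (by rw [F.mapH_p, hx, map_zero]))
  rw [F.mapH_i] at hx
  rw [h1 a (S'.inj_zero _ hx), map_zero]

theorem inj_B {n : ℕ} (h0 : F.fC.Surj n) (h1 : F.fA.Inj (n+1)) (h2 : F.fC.Inj (n+1)) :
    F.fB.Inj (n+1) := by
  rw [Hom.inj_iff'] at h2 ⊢
  intro x hx
  obtain ⟨a, rfl⟩ := (S.exact_B (n+1) x).1 (h2 _ (by rw [F.mapH_p, hx, map_zero]))
  rw [F.mapH_i] at hx
  obtain ⟨c', hc'⟩ := (S'.exact_A n _).1 hx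
  obtain ⟨c, rfl⟩ := h0 c'
  rw [← F.conn] at hc'
  rw [← h1 hc']
  exact (S.exact_A n _).2 ⟨c, rfl⟩

theorem surj_B {n : ℕ} (h1 : F.fA.Surj n) (h2 : F.fC.Surj n) (h3 : F.fA.Inj (n+1)) :
    F.fB.Surj n := by
  intro y
  obtain ⟨c, hc⟩ := h2 (S'.p.mapH n y)
  have h0 : S.conn n c = 0 := by
    rw [Hom.inj_iff'] at h3
    apply h3
    rw [F.conn, hc]
    exact (S'.exact_C n _).2 ⟨y, rfl⟩
  obtain ⟨b, rfl⟩ := (S.exact_C n c).1 h0
  rw [F.mapH_p, ← sub_eq_zero, ← map_sub] at hc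
  obtain ⟨a', ha'⟩ := (S'.exact_B n _).1 hc
  obtain ⟨a, rfl⟩ := h1 a'
  refine ⟨b - S.i.mapH n a, ?_⟩
  rw [map_sub, F.mapH_i, ha']
  abel

/-! ### position `C` -/

theorem inj_C {n : ℕ} (h1 : F.fA.Surj n) (h2 : F.fB.Inj n) (h3 : F.fA.Inj (n+1)) :
    F.fC.Inj n := by
  rw [Hom.inj_iff'] at h3 ⊢
  intro x hx
  obtain ⟨b, rfl⟩ := (S.exact_C n x).1 (h3 _ (by rw [F.conn, hx, map_zero]))
  rw [F.mapH_p] at hx
  obtain ⟨a', ha'⟩ := (S'.exact_B n _).1 hx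
  obtain ⟨a, rfl⟩ := h1 a'
  rw [← F.mapH_i] at ha'
  rw [← h2 ha']
  exact (S.exact_B n _).2 ⟨a, rfl⟩

theorem surj_C {n : ℕ} (h1 : F.fB.Surj n) (h2 : F.fA.Surj (n+1)) (h3 : F.fB.Inj (n+1)) :
    F.fC.Surj n := by
  intro y
  obtain ⟨a, ha⟩ := h2 (S'.conn n y)
  have h0 : S.i.mapH (n+1) a = 0 := by
    rw [Hom.inj_iff'] at h3
    apply h3
    rw [F.mapH_i, ha]
    exact (S'.exact_A n _).2 ⟨y, rfl⟩
  obtain ⟨c, rfl⟩ := (S.exact_A n a).1 h0
  rw [F.conn, ← sub_eq_zero, ← map_sub] at ha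
  obtain ⟨b', hb'⟩ := (S'.exact_C n _).1 ha
  obtain ⟨b, rfl⟩ := h1 b'
  refine ⟨c - S.p.mapH n b, ?_⟩
  rw [map_sub, F.mapH_p, hb']
  abel

/-! ### isomorphisms in all degrees -/

theorem bij_A (hB : ∀ n, Function.Bijective (F.fB.mapH n))
    (hC : ∀ n, Function.Bijective (F.fC.mapH n)) (n : ℕ) : Function.Bijective (F.fA.mapH n) := by
  cases n with
  | zero => exact ⟨F.inj_A_zero (hB 0).1, F.surj_A_zero (hB 0).2 (hC 0).1⟩
  | succ n => exact ⟨F.inj_A (hB n).2 (hC n).1 (hB _).1, F.surj_A (hC n).2 (hB _).2 (hC _).1⟩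

theorem bij_B (hA : ∀ n, Function.Bijective (F.fA.mapH n))
    (hC : ∀ n, Function.Bijective (F.fC.mapH n)) (n : ℕ) : Function.Bijective (F.fB.mapH n) := by
  refine ⟨?_, F.surj_B (hA n).2 (hC n).2 (hA _).1⟩
  cases n with
  | zero => exact F.inj_B_zero (hA 0).1 (hC 0).1
  | succ n => exact F.inj_B (hC n).2 (hA _).1 (hC _).1

theorem bij_C (hA : ∀ n, Function.Bijective (F.fA.mapH n))
    (hB : ∀ n, Function.Bijective (F.fB.mapH n)) (n : ℕ) : Function.Bijective (F.fC.mapH n) :=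
  ⟨F.inj_C (hA n).2 (hB n).1 (hA _).1, F.surj_C (hB n).2 (hA _).2 (hB _).1⟩

end SESHom

end Vale.Agent.P263.S
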