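import Vale.Agent.P263.EX.BM

/-!
# P263: Bullett-Macdonald relations ⟹ Adem relations

`adem` : if `s : ℕ → R` satisfies `EX.BM.Rel s` (char 2), then for `A < 2 B`
`s A * s B = ∑ b ≤ A/2, C(B - b - 1, A - 2 b) s (A + B - b) * s b`.
Proof: with `T = X (1 + X)` the relation of degree `n` reads
`∑ s a s (n-a) T^a = ∑ s (n-b) s b (1 + X)^(n-b) X^(2b)`; take the coefficient of `X^A` after
multiplication by `(1 + X)^(-A-1)`.
-/

namespace Vale.Agent.P263.S.Adem

open Finset Vale.Agent.P263.EX.BM

/-- `(1 + X)⁻¹ ^ d` in characteristic two -/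
noncomputable def iv (d : ℕ) : PowerSeries (ZMod 2) := (PowerSeries.invOneSubPow (ZMod 2) d).val

theorem one_sub : (1 - PowerSeries.X : PowerSeries (ZMod 2)) = 1 + PowerSeries.X := by
  ext n
  simp only [map_sub, map_add]
  generalize PowerSeries.coeff n (1 : PowerSeries (ZMod 2)) = a
  generalize PowerSeries.coeff n (PowerSeries.X : PowerSeries (ZMod 2)) = b
  revert a b
  decide

theorem mul_iv (d : ℕ) : (1 + PowerSeries.X) ^ d * iv d = 1 := by
  rw [← one_sub]
  have := (PowerSeries.invOneSubPow (ZMod 2) d).inv_val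
  rw [PowerSeries.invOneSubPow_inv_eq_one_sub_pow] at this
  exact this

theorem mul_iv_add (d e : ℕ) : (1 + PowerSeries.X) ^ d * iv (d + e) = iv e := by
  have h1 := mul_iv (d + e)
  have h2 := mul_iv e
  have h3 : iv e * ((1 + PowerSeries.X) ^ e) = 1 := by rw [mul_comm, h2]
  calc (1 + PowerSeries.X) ^ d * iv (d + e)
      = iv e * ((1 + PowerSeries.X) ^ e) * ((1 + PowerSeries.X) ^ d * iv (d + e)) := by
        rw [h3, one_mul]
    _ = iv e * ((1 + PowerSeries.X) ^ (d + e) * iv (d + e)) := by rw [pow_add]; ring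
    _ = iv e := by rw [h1, mul_one]

theorem mul_iv_sub (d e : ℕ) : (1 + PowerSeries.X) ^ (d + e) * iv e = (1 + PowerSeries.X) ^ d := by
  rw [pow_add, mul_assoc, mul_iv, mul_one]

theorem coeff_iv (k n : ℕ) : PowerSeries.coeff n (iv (k + 1)) = ((k + n).choose k : ZMod 2) := by
  rw [iv, PowerSeries.invOneSubPow_val_succ_eq_mk_add_choose, PowerSeries.coeff_mk]

theorem coeff_iv_self (k : ℕ) : PowerSeries.coeff k (iv (k + 1)) = if k = 0 then 1 else 0 := by
  rw [coeff_iv]
  cases k with
  | zero => simp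
  | succ k =>
    rw [if_neg (Nat.succ_ne_zero k), ← two_mul]
    rw [ZMod.natCast_eq_zero_iff]
    exact Nat.two_dvd_centralBinom_succ k

/-- the second summand of the weight -/
theorem coeff_snd (A a : ℕ) : PowerSeries.coeff A
    ((PowerSeries.X : PowerSeries (ZMod 2)) ^ a * (1 + PowerSeries.X) ^ a * iv (A + 1)) =
    if a = A then 1 else 0 := by
  rw [mul_assoc, PowerSeries.coeff_X_pow_mul']
  split_ifs with h h' h'
  · subst h'
    rw [mul_iv_add, Nat.sub_self, coeff_iv_self, if_pos rfl]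
  · obtain ⟨k, rfl⟩ := Nat.exists_eq_add_of_le h
    rw [add_assoc, mul_iv_add, Nat.add_sub_cancel_left, coeff_iv_self, if_neg (by omega)]
  · omega
  · rfl

/-- the first summand of the weight -/
theorem coeff_fst {A B b : ℕ} (h : A < 2 * B) (hb : b ≤ A + B) : PowerSeries.coeff A
    ((1 + PowerSeries.X) ^ (A + B - b) * (PowerSeries.X : PowerSeries (ZMod 2)) ^ (2 * b) *
      iv (A + 1)) = if 2 * b ≤ A then ((B - b - 1).choose (A - 2 * b) : ZMod 2) else 0 := by
  rw [mul_comm ((1 + PowerSeries.X) ^ (A + B - b)), mul_assoc, PowerSeries.coeff_X_pow_mul']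
  split_ifs with h2
  · have e : A + B - b = (B - b - 1) + (A + 1) := by omega
    rw [e, mul_iv_sub]
    have : ((1 + PowerSeries.X : PowerSeries (ZMod 2)) ^ (B - b - 1)) =
        (((1 + Polynomial.X : Polynomial (ZMod 2)) ^ (B - b - 1) : Polynomial (ZMod 2)) :
          PowerSeries (ZMod 2)) := by
      simp
    rw [this, Polynomial.coeff_coe, Polynomial.coeff_one_add_X_pow]
  · rfl

variable {R : Type*} [Ring R] [Algebra (ZMod 2) R]

/-- the weight over the prime field -/
noncomputable def wq (a b : ℕ) : Polynomial (ZMod 2) :=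
  (1 + Polynomial.X) ^ a * Polynomial.X ^ (2 * b) + Polynomial.X ^ a * (1 + Polynomial.X) ^ a

theorem coeff_wq (a b j : ℕ) : (wq a b).coeff j =
    (((if 2 * b ≤ j then a.choose (j - 2 * b) else 0 : ℕ) : ZMod 2) + (cc a j : ZMod 2)) := by
  have := coeff_wt a b j (1 : ZMod 2)
  rwa [map_one, one_mul, one_mul, one_mul] at this

theorem Rel.coeff' {s : ℕ → R} (hs : Rel s) (n j : ℕ) :
    ∑ a ∈ range (n + 1), (wq a (n - a)).coeff j • (s a * s (n - a)) = 0 := by
  rw [← hs.coeff n j]
  refine sum_congr rfl fun a _ => ?_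
  rw [coeff_wq, Algebra.smul_def, map_add, map_natCast, map_natCast, add_mul, mul_add,
    (Nat.cast_commute _ _).eq, (Nat.cast_commute (cc a j) _).eq]

theorem Rel.ps {s : ℕ → R} (hs : Rel s) (n A : ℕ) (v : PowerSeries (ZMod 2)) :
    ∑ a ∈ range (n + 1), PowerSeries.coeff A ((wq a (n - a) : PowerSeries (ZMod 2)) * v) •
      (s a * s (n - a)) = 0 := by
  have e : ∀ a ∈ range (n + 1),
      PowerSeries.coeff A ((wq a (n - a) : PowerSeries (ZMod 2)) * v) • (s a * s (n - a)) =
      ∑ p ∈ antidiagonal A, PowerSeries.coeff p.2 v •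
        ((wq a (n - a)).coeff p.1 • (s a * s (n - a))) := by
    intro a _
    rw [PowerSeries.coeff_mul, sum_smul]
    refine sum_congr rfl fun p _ => ?_
    rw [Polynomial.coeff_coe, smul_smul, mul_comm]
  rw [sum_congr rfl e, sum_comm]
  refine sum_eq_zero fun p _ => ?_
  rw [← smul_sum, Rel.coeff' hs, smul_zero]

/-- **The Adem relations.** -/
theorem adem {s : ℕ → R} (hs : Rel s) {A B : ℕ} (h : A < 2 * B) :
    s A * s B = ∑ b ∈ range (A / 2 + 1), (((B - b - 1).choose (A - 2 * b) : ℕ) : R) *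
      (s (A + B - b) * s b) := by
  have h1 := Rel.ps hs (A + B) A (iv (A + 1))
  have e1 : ∀ a ∈ range (A + B + 1),
      PowerSeries.coeff A ((wq a (A + B - a) : PowerSeries (ZMod 2)) * iv (A + 1)) •
        (s a * s (A + B - a)) =
      (if 2 * (A + B - a) ≤ A then
        (((B - (A + B - a) - 1).choose (A - 2 * (A + B - a)) : ℕ) : R) *
          (s a * s (A + B - a)) else 0) +
        (if a = A then s a * s (A + B - a) else 0) := by
    intro a ha
    have ha' : a ≤ A + B := by have := mem_range.1 ha; omega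
    have hw : (wq a (A + B - a) : PowerSeries (ZMod 2)) * iv (A + 1) =
        (1 + PowerSeries.X) ^ (A + B - (A + B - a)) * PowerSeries.X ^ (2 * (A + B - a)) *
          iv (A + 1) + PowerSeries.X ^ a * (1 + PowerSeries.X) ^ a * iv (A + 1) := by
      rw [Nat.sub_sub_self ha', ← add_mul]
      congr 1
      simp [wq]
    rw [hw, map_add, coeff_snd, coeff_fst h (Nat.sub_le _ _), add_smul]
    congr 1
    · split_ifs
      · rw [Algebra.smul_def, map_natCast]
      · rw [zero_smul]
    · split_ifs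
      · rw [one_smul]
      · rw [zero_smul]
  rw [sum_congr rfl e1, sum_add_distrib, sum_ite_eq', if_pos (mem_range.2 (by omega)),
    Nat.add_sub_cancel_left] at h1
  have h2 : s A * s B = ∑ a ∈ range (A + B + 1), (if 2 * (A + B - a) ≤ A then
        (((B - (A + B - a) - 1).choose (A - 2 * (A + B - a)) : ℕ) : R) *
          (s a * s (A + B - a)) else 0) :=
    (eq_of_add_zero h1).symm
  rw [h2, ← sum_range_reflect]
  have e2 : ∀ j ∈ range (A + B + 1), (if 2 * (A + B - (A + B + 1 - 1 - j)) ≤ A then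
        (((B - (A + B - (A + B + 1 - 1 - j)) - 1).choose
          (A - 2 * (A + B - (A + B + 1 - 1 - j))) : ℕ) : R) *
          (s (A + B + 1 - 1 - j) * s (A + B - (A + B + 1 - 1 - j))) else 0) =
      if 2 * j ≤ A then (((B - j - 1).choose (A - 2 * j) : ℕ) : R) * (s (A + B - j) * s j)
        else 0 := by
    intro j hj
    have hj' : j ≤ A + B := by have := mem_range.1 hj; omega
    rw [Nat.add_sub_cancel, Nat.sub_sub_self hj']
  rw [sum_congr rfl e2, ← sum_filter]
  refine sum_congr ?_ fun _ _ => rfl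
  ext j
  simp only [mem_filter, mem_range]
  omega

end Vale.Agent.P263.S.Adem
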