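import Vale.Agent.P263.S.Sq
import Vale.Agent.P263.E.PTr

/-!
# P263, block S5 (helper915): the Steenrod squares of a simplicial set

`fAlg X : SqAlg (F X)` (functions on `X`, pointwise product, coefficients `ZMod 2`) and
`sqX X q j = Sq^(j-q) : H^q(X) → H^j(X)`; `sqX_apply` is the definition of helper774's `sqc`.
-/

noncomputable section

namespace Vale.Agent.P263.S

open CosMod Vale.Agent.P263.EX Vale.Agent.P263.E

/-- functions on a simplicial set -/
def fAlg (X : SS) : SqAlg (SS.F (ZMod 2) X) where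
  mul := mulF (ZMod 2) X
  comm p x y := by
    funext t
    exact mul_comm _ _
  assoc p x y z := by
    funext t
    exact mul_assoc _ _ _

theorem mulF_self (X : SS) (p : ℕ) (x : (SS.F (ZMod 2) X).obj p) :
    (mulF (ZMod 2) X).app p x x = x := by
  funext t
  have key : ∀ r : ZMod 2, r * r = r := by decide
  exact key (x t)

/-- **The Steenrod square** `Sq^(j-q) : H^q(X) → H^j(X)`. -/
def sqX (X : SS) (q j : ℕ) : (SS.F (ZMod 2) X).H q →ₗ[ZMod 2] (SS.F (ZMod 2) X).H j :=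
  (fAlg X).sq q j

theorem sqX_apply (X : SS) (q j : ℕ) (y : (SS.F (ZMod 2) X).H q) :
    sqX X q j y =
      cf (SS.F (ZMod 2) X) (q + q) j (P (mulF (ZMod 2) X) (Act.triv C2 _) (sym_mulF _ X) y) := rfl

theorem sqX_nat {X Y : SS} (f : SS.Map X Y) (q j : ℕ) (y : (SS.F (ZMod 2) Y).H q) :
    sqX X q j ((f.pull (R := ZMod 2)).mapH q y) = (f.pull (R := ZMod 2)).mapH j (sqX Y q j y) :=
  Sq_nat (mulF (ZMod 2) Y) (fAlg Y).sym (mulF (ZMod 2) X) (fAlg X).sym f.pull f.pull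
    (fun _ _ _ => rfl) q j y

theorem sqX_lt (X : SS) (q j : ℕ) (y : (SS.F (ZMod 2) X).H q) (h : j < q) : sqX X q j y = 0 :=
  Sq_lt _ _ q j y h

theorem sqX_gt (X : SS) (q j : ℕ) (y : (SS.F (ZMod 2) X).H q) (h : q + q < j) :
    sqX X q j y = 0 := Sq_gt _ _ q j y h

/-- `Sq^0 = 1` -/
theorem sqX_self (X : SS) (q : ℕ) (y : (SS.F (ZMod 2) X).H q) : sqX X q q y = y :=
  Sq_id _ _ (mulF_self X) q y

theorem sqX_top (X : SS) (q : ℕ) (y : (SS.F (ZMod 2) X).H q) :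
    sqX X q (q + q) y = (mulF (ZMod 2) X).cupH rfl y y := Sq_top _ _ q y

/-- **The Bullett-Macdonald relations.** -/
theorem sqX_bm (X : SS) (q N k : ℕ) (y : (SS.F (ZMod 2) X).H q) :
    ∑ a ∈ Finset.range (N + 1), ((BM.wt (ZMod 2) (N - a) a).coeff k) •
      sqX X (q + a) (q + N) (sqX X q (q + a) y) = 0 := (fAlg X).bm q N k y

/-- the squares on `H(hG (F X))`, trivial action of a group `K` -/
def sqK (K : Type) [Group K] (X : SS) (q j : ℕ) :
    (hG (Act.triv K (SS.F (ZMod 2) X))).H q →ₗ[ZMod 2] (hG (Act.triv K (SS.F (ZMod 2) X))).H j :=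
  SqG (a := Act.triv K _) (b := Act.triv K _) (μ := mulF (ZMod 2) X) (fun _ _ _ _ => rfl)
    (fAlg X).sym q j

/-- the Cartan formula on `BK × X` for a class of degree one of `K` -/
theorem sqK_uH {K : Type} [Group K] (ε : K →* C2) (X : SS) (n j : ℕ)
    (z : (hG (Act.triv K (SS.F (ZMod 2) X))).H n) :
    sqK K X (n + 1) (j + 2) (uH ε _ n z) =
      uH ε _ (j + 1) (sqK K X n (j + 1) z) + uH ε _ (j + 1) (uH ε _ j (sqK K X n j z)) :=
  Sq_uH ε (fun _ _ _ _ => rfl) (fAlg X).sym n j z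

theorem sqK_uH_one {K : Type} [Group K] (ε : K →* C2) (X : SS) (n : ℕ)
    (z : (hG (Act.triv K (SS.F (ZMod 2) X))).H n) :
    sqK K X (n + 1) 1 (uH ε _ n z) = uH ε _ 0 (sqK K X n 0 z) :=
  Sq_uH_one ε (fun _ _ _ _ => rfl) (fAlg X).sym n z

theorem sqK_uH_zero {K : Type} [Group K] (ε : K →* C2) (X : SS) (n : ℕ)
    (z : (hG (Act.triv K (SS.F (ZMod 2) X))).H n) : sqK K X (n + 1) 0 (uH ε _ n z) = 0 :=
  Sq_uH_zero ε (fun _ _ _ _ => rfl) (fAlg X).sym n z

theorem sqK_pstar (K : Type) [Group K] (X : SS) (q j : ℕ) (y : (SS.F (ZMod 2) X).H q) :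
    sqK K X q j ((hG.pstar K _).mapH q y) = (hG.pstar K _).mapH j (sqX X q j y) :=
  Sq_nat _ _ _ _ (hG.pstar K _) (hG.pstar K _) (fun _ _ _ => rfl) q j y

end Vale.Agent.P263.S
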