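import Vale.Agent.P263.S.InnerCf
import Vale.Agent.P263.S.P1
import Vale.Agent.P263.S.PowPow
import Vale.Agent.P263.S.PowMul

/-!
# P263, block S5 (helper915): the Cartan formula for the class of degree one

`μ : A × A → B` equivariant for inner actions `a`, `b` of `K` and symmetric for an outer action `c`
of `C2` on `B`.  The external square `Phg : H(hG a) → H(hG (c.onHG b))` satisfies
`P (u z) = v v P z + u v P z`, where `u z` is the multiplication with the class of `K` given by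
`ε : K →* C2` and `v` is the inner variable.
-/

noncomputable section

namespace Vale.Agent.P263.S

open CosMod

/-! ### Scalars -/

/-- the constant cosimplicial module `F_2` -/
abbrev One : CosMod (ZMod 2) := const (ZMod 2)

/-- multiplication of scalars -/
def mulO : Bil One One One where
  app _ := LinearMap.mul (ZMod 2) (ZMod 2)
  nat _ _ _ := rfl

theorem mulO_app (p : ℕ) (x y : ZMod 2) :
    mulO.app p (x : One.obj p) (y : One.obj p) = (x * y : ZMod 2) := rfl

/-- the action of scalars -/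
def actO (A : CosMod (ZMod 2)) : Bil One A A where
  app p := LinearMap.lsmul (ZMod 2) (A.obj p)
  nat φ x y := ((A.map φ).map_smul (x : ZMod 2) y).symm

theorem actO_app (A : CosMod (ZMod 2)) (p : ℕ) (r : ZMod 2) (x : A.obj p) :
    (actO A).app p (r : One.obj p) x = r • x := rfl

/-- scalar functions on `EK`, invariant under translations -/
abbrev Lam (K : Type) [Group K] : CosMod (ZMod 2) := hG (Act.triv K One)

/-- the values of a scalar function -/
def lamV {K : Type} [Group K] {p : ℕ} (f : (Lam K).obj p) (s : Fin (p + 1) → K) : ZMod 2 :=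
  hG.fn f s

theorem lamV_map {K : Type} [Group K] {p q : ℕ} (φ : Op p q) (f : (Lam K).obj p)
    (s : Fin (q + 1) → K) : lamV ((Lam K).map φ f) s = lamV f (s ∘ φ) := rfl

theorem lamV_add {K : Type} [Group K] {p : ℕ} (f g : (Lam K).obj p) (s : Fin (p + 1) → K) :
    lamV (f + g) s = lamV f s + lamV g s := rfl

theorem lamV_zero {K : Type} [Group K] {p : ℕ} (s : Fin (p + 1) → K) :
    lamV (0 : (Lam K).obj p) s = 0 := rfl

/-- multiplication of scalar functions -/
def mulL (K : Type) [Group K] : Bil (Lam K) (Lam K) (Lam K) :=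
  hG.bil (Act.triv K One) (Act.triv K One) (Act.triv K One) mulO (fun _ _ _ _ => rfl)

theorem mulL_sym (K : Type) [Group K] : Sym (mulL K) (Act.triv C2 (Lam K)) := fun p x y =>
  hG.ext fun s => mul_comm (lamV x s) (lamV y s)

theorem lamV_mulL {K : Type} [Group K] {p : ℕ} (f g : (Lam K).obj p) (s : Fin (p + 1) → K) :
    lamV ((mulL K).app p f g) s = lamV f s * lamV g s := rfl

/-- the action of scalar functions -/
def actL {K : Type} [Group K] {A : CosMod (ZMod 2)} (a : Act K A) : Bil (Lam K) (hG a) (hG a) :=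
  hG.bil (Act.triv K One) a a (actO A) (fun p g x y => ((a.act p g).map_smul (x : ZMod 2) y).symm)

theorem actL_fn {K : Type} [Group K] {A : CosMod (ZMod 2)} (a : Act K A) {p : ℕ}
    (f : (Lam K).obj p) (x : (hG a).obj p) (s : Fin (p + 1) → K) :
    hG.fn ((actL a).app p f x) s = lamV f s • hG.fn x s := rfl

/-! ### The class of degree one -/

section

variable {K : Type} [Group K] (ε : K →* C2)

/-- the constant function one -/
def oneL (K : Type) [Group K] : (Lam K).obj 0 := hG.mk _ (fun _ => (1 : ZMod 2)) (fun _ _ => rfl)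

/-- the cocycle of degree one -/
def v1 : (Lam K).obj 1 := uc ε (Act.triv K One) 0 (oneL K)

theorem v1_fn (s : Fin 2 → K) :
    lamV (v1 ε) s = if ε (s 0) = ε (s 1) then 0 else 1 := rfl

theorem oneL_mem_Z : oneL K ∈ (Lam K).Z 0 := by
  rw [mem_Z]
  refine hG.ext fun s => ?_
  rw [hG_d_fn, Finset.sum_range_succ, Finset.sum_range_succ, Finset.sum_range_zero]
  exact (by decide : (0 : ZMod 2) + 1 + 1 = 0)

theorem v1_mem_Z : v1 ε ∈ (Lam K).Z 1 := uc_mem_Z ε _ oneL_mem_Z

theorem bk_one (n : ℕ) : bk n (n + 1) = dl n 0 := by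
  ext i
  rw [bk_val, dl_val, if_neg (Nat.not_lt_zero _)]
  have := i.2
  omega

theorem fr_eq {p n : ℕ} (x : Fin (p + 1)) (y : Fin (n + 1)) (h : x.1 = y.1) : fr p n x = y := by
  apply Fin.ext
  rw [fr_val]
  have := y.2
  omega

/-- multiplication with the class of degree one is the cup product with `v1` -/
theorem cup_v1 {A : CosMod (ZMod 2)} (a : Act K A) {n : ℕ} (x : (hG a).obj n) :
    (actL a).cup (n + 1) (v1 ε) x = uc ε a n x := by
  refine hG.ext fun s => ?_
  have h1 : hG.fn ((actL a).cup (n + 1) (v1 ε) x) s =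
      lamV (v1 ε) (s ∘ fr 1 (n + 1)) •
        A.map (bk n (n + 1)) (hG.fn x (s ∘ bk n (n + 1))) := rfl
  rw [h1, uc_fn, v1_fn, bk_one]
  have e0 : (s ∘ fr 1 (n + 1)) 0 = s 0 := congrArg s (fr_eq _ _ rfl)
  have e1 : (s ∘ fr 1 (n + 1)) 1 = s 1 := congrArg s (fr_eq _ _ rfl)
  rw [e0, e1]
  split_ifs
  · rw [zero_smul]
  · rw [one_smul]

theorem cupH_v1 {A : CosMod (ZMod 2)} (a : Act K A) {n : ℕ} (h : n + 1 = 1 + n) (x : (hG a).H n) :
    (actL a).cupH h ((Lam K).cls 1 ⟨v1 ε, v1_mem_Z ε⟩) x = uH ε a n x := by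
  induction x using H_ind with
  | h x =>
    rw [Bil.cupH_cls, uH_cls]
    exact congrArg _ (Subtype.ext (cup_v1 ε a x.1))

end

/-! ### The Cartan formula -/

section

variable {K : Type} [Group K] (ε : K →* C2) {A B : CosMod (ZMod 2)} {a : Act K A} {b : Act K B}
  {μ : Bil A A B}
  (hμ : ∀ p g x y, μ.app p (a.act p g x) (a.act p g y) = b.act p g (μ.app p x y))
  {c : Act C2 B} (hs : Sym μ c) (hc : Act.Comm c b)

/-- the external square of homotopy fixed points -/
def Phg {n : ℕ} : (hG a).H n → (hG (c.onHG b hc)).H (n + n) :=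
  P (hG.bil a a b μ hμ) (c.onHG b hc) (sym_hbil hμ hs hc)

/-- the action of scalar functions on iterated homotopy fixed points -/
def actL2 {b : Act K B} {c : Act C2 B} (hc : Act.Comm c b) :
    Bil (hG (Act.triv C2 (Lam K))) (hG (c.onHG b hc)) (hG (c.onHG b hc)) :=
  hG.bil (Act.triv C2 (Lam K)) (c.onHG b hc) (c.onHG b hc) (actL b)
    (fun p g x y => hG.ext fun s =>
      ((c.act p g).map_smul (lamV x s) (hG.fn y s)).symm)

theorem actL2_fn {b : Act K B} {c : Act C2 B} (hc : Act.Comm c b) {p : ℕ}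
    (f : (hG (Act.triv C2 (Lam K))).obj p) (x : (hG (c.onHG b hc)).obj p)
    (s : Fin (p + 1) → C2) (t : Fin (p + 1) → K) :
    hG.fn (hG.fn ((actL2 hc).app p f x) s) t =
      lamV (hG.fn f s) t • hG.fn (hG.fn x s) t := rfl

theorem bk_two (n : ℕ) : bk n (n + 1 + 1) = (dl (n + 1) 0).comp (dl n 0) := by
  ext i
  show (bk n (n + 1 + 1) i).1 = (dl (n + 1) 0 (dl n 0 i)).1
  rw [bk_val, dl_val, if_neg (Nat.not_lt_zero _), dl_val, if_neg (Nat.not_lt_zero _)]
  have := i.2
  omega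

/-- the explicit cocycle of degree two acts as `v v + u v` -/
theorem cup_e1L {b : Act K B} {c : Act C2 B} (hc : Act.Comm c b) {n : ℕ}
    (F : (hG (c.onHG b hc)).obj n) :
    (actL2 hc).cup (n + 1 + 1) (P1.e1 (mulL K) (Act.triv C2 (Lam K)) (mulL_sym K) (v1 ε)) F =
      vinc ε c b hc (n + 1) (vinc ε c b hc n F) +
        uc idC (c.onHG b hc) (n + 1) (vinc ε c b hc n F) := by
  refine hG.ext fun s => hG.ext fun t => ?_
  have h1 : hG.fn (hG.fn ((actL2 hc).cup (n + 1 + 1)
      (P1.e1 (mulL K) (Act.triv C2 (Lam K)) (mulL_sym K) (v1 ε)) F) s) t =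
      lamV (hG.fn (P1.e1 (mulL K) (Act.triv C2 (Lam K)) (mulL_sym K) (v1 ε))
        (s ∘ fr 2 (n + 1 + 1))) (t ∘ fr 2 (n + 1 + 1)) •
        B.map (bk n (n + 1 + 1)) (hG.fn (hG.fn F (s ∘ bk n (n + 1 + 1)))
          (t ∘ bk n (n + 1 + 1))) := rfl
  have s0 : (s ∘ fr 2 (n + 1 + 1)) 0 = s 0 := congrArg s (fr_eq _ _ rfl)
  have s1 : (s ∘ fr 2 (n + 1 + 1)) 1 = s 1 := congrArg s (fr_eq _ _ rfl)
  have t0 : (t ∘ fr 2 (n + 1 + 1)) 0 = t 0 := congrArg t (fr_eq _ _ rfl)
  have t1 : (t ∘ fr 2 (n + 1 + 1)) 1 = t 1 := congrArg t (fr_eq _ _ rfl)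
  have t2 : (t ∘ fr 2 (n + 1 + 1)) 2 = t 2 := congrArg t (fr_eq _ _ rfl)
  have h2 : lamV (hG.fn (P1.e1 (mulL K) (Act.triv C2 (Lam K)) (mulL_sym K) (v1 ε))
        (s ∘ fr 2 (n + 1 + 1))) (t ∘ fr 2 (n + 1 + 1)) =
      (if ε (t 0) = ε (t 1) then 0 else 1) * (if ε (t 1) = ε (t 2) then 0 else 1) +
        (if s 0 = s 1 then 0 else
          (if ε (t 1) = ε (t 2) then 0 else 1) * (if ε (t 1) = ε (t 2) then 0 else 1)) := by
    rw [P1.e1_fn, s0, s1, ← t0, ← t1, ← t2, lamV_add]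
    by_cases h : s 0 = s 1
    · rw [if_pos h, if_pos h]
      rfl
    · rw [if_neg h, if_neg h]
      rfl
  rw [h1, h2, hG.fn_add, hG.fn_add, vinc_fn, ucc_fn, vinc_fn, bk_two]
  have k1 : (if ε (t 0) = ε (t 1) then 0 else B.map (dl (n + 1) 0)
      (if ε ((t ∘ dl (n + 1) 0) 0) = ε ((t ∘ dl (n + 1) 0) 1) then 0 else
        B.map (dl n 0) (hG.fn (hG.fn F ((s ∘ dl (n + 1) 0) ∘ dl n 0))
          ((t ∘ dl (n + 1) 0) ∘ dl n 0)))) =
      ((if ε (t 0) = ε (t 1) then 0 else 1 : ZMod 2) * (if ε (t 1) = ε (t 2) then 0 else 1)) •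
        B.map ((dl (n + 1) 0).comp (dl n 0)) (hG.fn (hG.fn F (s ∘ (dl (n + 1) 0).comp (dl n 0)))
          (t ∘ (dl (n + 1) 0).comp (dl n 0))) := by
    simp only [Function.comp_apply, dl_zero_zero, dl_zero_one]
    split_ifs
    · rw [zero_mul, zero_smul]
    · rw [zero_mul, zero_smul]
    · rw [mul_zero, zero_smul, map_zero]
    · rw [one_mul, one_smul]
      exact B.map_map _ _ _
  have k2 : (if idC (s 0) = idC (s 1) then 0 else B.map (dl (n + 1) 0)
      (if ε ((t ∘ dl (n + 1) 0) 0) = ε ((t ∘ dl (n + 1) 0) 1) then 0 else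
        B.map (dl n 0) (hG.fn (hG.fn F ((s ∘ dl (n + 1) 0) ∘ dl n 0))
          ((t ∘ dl (n + 1) 0) ∘ dl n 0)))) =
      (if s 0 = s 1 then 0 else
          (if ε (t 1) = ε (t 2) then 0 else 1) * (if ε (t 1) = ε (t 2) then 0 else 1) : ZMod 2) •
        B.map ((dl (n + 1) 0).comp (dl n 0)) (hG.fn (hG.fn F (s ∘ (dl (n + 1) 0).comp (dl n 0)))
          (t ∘ (dl (n + 1) 0).comp (dl n 0))) := by
    simp only [Function.comp_apply, dl_zero_zero, dl_zero_one, MonoidHom.id_apply]
    split_ifs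
    · rw [zero_smul]
    · rw [mul_zero, zero_smul, map_zero]
    · rw [one_mul, one_smul]
      exact B.map_map _ _ _
  refine Eq.trans ?_ (congrArg₂ (· + ·) k1 k2).symm
  exact add_smul _ _ _

/-- the class of the explicit cocycle of degree two acts as `v v + u v` -/
theorem cupH_e1L {b : Act K B} {c : Act C2 B} (hc : Act.Comm c b) {n k : ℕ}
    (hk : k = 1 + 1 + n) (h : k = n + 1 + 1) (w : (hG (c.onHG b hc)).H n) :
    castH (hG (c.onHG b hc)) h ((actL2 hc).cupH hk
      ((hG (Act.triv C2 (Lam K))).cls 2 ⟨P1.e1 (mulL K) (Act.triv C2 (Lam K)) (mulL_sym K) (v1 ε),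
        P1.e1_cocycle _ _ _ (v1_mem_Z ε)⟩) w) =
      vinH ε c b hc (n + 1) (vinH ε c b hc n w) +
        uH idC (c.onHG b hc) (n + 1) (vinH ε c b hc n w) := by
  subst h
  induction w using H_ind with
  | h F =>
    rw [Bil.cupH_cls, castH_rfl, vinH_cls, vinH_cls, uH_cls, ← map_add]
    exact congrArg _ (Subtype.ext (cup_e1L ε hc F.1))

/-- **Cartan formula**: `P (u z) = v v P z + u v P z`. -/
theorem Phg_uH {n : ℕ} (h : n + 1 + (n + 1) = n + n + 1 + 1) (z : (hG a).H n) :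
    castH (hG (c.onHG b hc)) h (Phg hμ hs hc (uH ε a n z)) =
      vinH ε c b hc (n + n + 1) (vinH ε c b hc (n + n) (Phg hμ hs hc z)) +
        uH idC (c.onHG b hc) (n + n + 1) (vinH ε c b hc (n + n) (Phg hμ hs hc z)) := by
  have hk : n + 1 = 1 + n := by omega
  have hkk : n + 1 + (n + 1) = 1 + 1 + (n + n) := by omega
  rw [← cupH_v1 ε a hk z]
  have h1 := P_mul (mulL K) (Act.triv C2 (Lam K)) (mulL_sym K) (hG.bil a a b μ hμ)
    (c.onHG b hc) (sym_hbil hμ hs hc) (hG.bil a a b μ hμ) (c.onHG b hc) (sym_hbil hμ hs hc)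
    (actL a) (actL b) (fun p g x y => hG.ext fun s =>
      ((c.act p g).map_smul (lamV x s) (hG.fn y s)).symm)
    (fun p x y x' y' => hG.ext fun s => by
      show (lamV x s * lamV y s) • μ.app p (hG.fn x' s) (hG.fn y' s) =
        μ.app p (lamV x s • hG.fn x' s) (lamV y s • hG.fn y' s)
      rw [map_smul, map_smul, LinearMap.smul_apply, smul_smul, mul_comm])
    hk hkk ((Lam K).cls 1 ⟨v1 ε, v1_mem_Z ε⟩) z
  rw [P1.P_cls_one] at h1
  exact (congrArg (castH (hG (c.onHG b hc)) h) h1).trans (cupH_e1L ε hc hkk h _)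

end

end Vale.Agent.P263.S
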