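import Vale.Agent.P263.S.HBil

/-!
# P263, block S: graded commutativity of products over `F_2` (helper587)
-/

noncomputable section

namespace Vale.Agent.P263.S

open CosMod

variable {A B C : CosMod (ZMod 2)}

theorem commH_tens {A' B' : CosMod (ZMod 2)} (f : Hom A A') (g : Hom B B') (p : ℕ)
    (x : (tensor A B).obj p) :
    (commH A' B').app p ((f.tens g).app p x) = (g.tens f).app p ((commH A B).app p x) := by
  have h : (TensorProduct.comm (ZMod 2) (A'.obj p) (B'.obj p)).toLinearMap.comp
      (TensorProduct.map (f.app p) (g.app p)) =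
      (TensorProduct.map (g.app p) (f.app p)).comp
        (TensorProduct.comm (ZMod 2) (A.obj p) (B.obj p)).toLinearMap := by
    apply TensorProduct.ext'
    intro a b
    rfl
  exact LinearMap.congr_fun h x

/-- The swap carries `x × y` to `y × x` up to a coboundary. -/
theorem commH_cr (hM : ∀ n, Good (M (ZMod 2) n) n (iotaM (ZMod 2) n)) {m n N : ℕ}
    (h : N = m + n) {x : A.obj m} {y : B.obj n} (hx : x ∈ A.Z m) (hy : y ∈ B.Z n) :
    (commH A B).app N (cr N x y) - cr N y x ∈ (tensor B A).Bd N := by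
  subst h
  have h1 := (hM m).tens (hM n)
  have h2 : Good (tensor (M (ZMod 2) n) (M (ZMod 2) m)) (m + n)
      (cr (m + n) (iotaM (ZMod 2) n) (iotaM (ZMod 2) m)) := by
    have h3 := (hM n).tens (hM m)
    rwa [Nat.add_comm n m] at h3
  have key := h1.map_sub_mem h2 (commH _ _) (commH _ _) (commH_commH _ _ _)
  have e := ((ofM y hy).tens (ofM x hx)).app_mem_Bd key
  rw [map_sub, cr_nat, ofM_iota, ofM_iota, ← commH_tens, cr_nat, ofM_iota, ofM_iota] at e
  exact e

/-- Graded commutativity, cochain form. -/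
theorem Bil.cup_comm (hM : ∀ n, Good (M (ZMod 2) n) n (iotaM (ZMod 2) n)) (μ : Bil A B C)
    {m n N : ℕ} (h : N = m + n) {x : A.obj m} {y : B.obj n} (hx : x ∈ A.Z m) (hy : y ∈ B.Z n) :
    μ.cup N x y - μ.flip.cup N y x ∈ C.Bd N := by
  have e1 : μ.cup N x y = μ.flip.lift.app N ((commH A B).app N (cr N x y)) := rfl
  rw [e1, ← Bil.lift_cr, ← map_sub]
  exact μ.flip.lift.app_mem_Bd (commH_cr hM h hx hy)

/-- **Graded commutativity** over `F_2`. -/
theorem Bil.cupH_comm (hM : ∀ n, Good (M (ZMod 2) n) n (iotaM (ZMod 2) n)) (μ : Bil A B C)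
    {m n N : ℕ} (h : N = m + n) (h' : N = n + m) (x : A.H m) (y : B.H n) :
    μ.cupH h x y = μ.flip.cupH h' y x := by
  induction x using H_ind with
  | h x =>
    induction y using H_ind with
    | h y =>
      rw [Bil.cupH_cls, Bil.cupH_cls, cls_eq_iff]
      exact μ.cup_comm hM h x.2 y.2

end Vale.Agent.P263.S
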