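import Vale.Agent.P263.S.Core
import Mathlib.LinearAlgebra.Finsupp.LSum

/-!
# P263, block S: the chains of the standard simplex

`bdL R n p : C_{n+1}(Δ^p) → C_n(Δ^p)` (all monotone maps, not normalised), the cone operator
`kap R n p : C_n(Δ^p) → C_{n+1}(Δ^p)` with vertex `0`, the augmentation `aug`, and exactness.
-/

namespace Vale.Agent.P263.S.Cn

open Vale.Agent.P263.S

section ops

/-- the cone `(0, t_0, …, t_n)` -/
def coneOp {n p : ℕ} (t : Op n p) : Op (n + 1) p where
  toFun x := if h : x.1 = 0 then 0 else t ⟨x.1 - 1, by have := x.2; omega⟩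
  monotone' x y h := by
    have := x.2; have := y.2
    simp only [Fin.le_def] at h
    show (if h : x.1 = 0 then (0 : Fin (p + 1)) else t ⟨x.1 - 1, by omega⟩) ≤
      (if h : y.1 = 0 then (0 : Fin (p + 1)) else t ⟨y.1 - 1, by omega⟩)
    split_ifs with h1 h2
    · exact le_rfl
    · exact Fin.zero_le _
    · omega
    · exact t.monotone (by simp only [Fin.le_def]; omega)

theorem coneOp_apply {n p : ℕ} (t : Op n p) (x : Fin (n + 2)) :
    coneOp t x = if h : x.1 = 0 then 0 else t ⟨x.1 - 1, by have := x.2; omega⟩ := rfl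

theorem coneOp_dl_zero {n p : ℕ} (t : Op n p) : (coneOp t).comp (dl n 0) = t := by
  apply OrderHom.ext
  funext x
  show coneOp t (dl n 0 x) = t x
  rw [coneOp_apply, dif_neg (by rw [dl_val]; simp)]
  congr 1

theorem coneOp_dl_succ {n p : ℕ} (t : Op (n + 1) p) (i : ℕ) :
    (coneOp t).comp (dl (n + 1) (i + 1)) = coneOp (t.comp (dl n i)) := by
  apply OrderHom.ext
  funext x
  show coneOp t (dl (n + 1) (i + 1) x) = coneOp (t.comp (dl n i)) x
  rw [coneOp_apply, coneOp_apply]
  by_cases hx : x.1 = 0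
  · rw [dif_pos hx, dif_pos (by rw [dl_val, hx]; simp)]
  · have hy : ¬ (dl (n + 1) (i + 1) x).1 = 0 := by
      intro h
      rw [dl_val] at h
      split_ifs at h
      exact hx h
    rw [dif_neg hx, dif_neg hy]
    show _ = t (dl n i ⟨x.1 - 1, _⟩)
    congr 1
    apply Fin.ext
    simp only [dl_val]
    split_ifs <;> omega

/-- the constant map with value `0` -/
def zOp (n p : ℕ) : Op n p := ⟨fun _ => 0, fun _ _ _ => le_rfl⟩

theorem coneOp_dl_one {p : ℕ} (t : Op 0 p) : (coneOp t).comp (dl 0 1) = zOp 0 p := by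
  apply OrderHom.ext
  funext x
  show coneOp t (dl 0 1 x) = 0
  have := x.2
  rw [coneOp_apply, dif_pos (by rw [dl_val, if_pos (by omega)]; omega)]

end ops

variable (R : Type) [CommRing R]

/-- the boundary `C_{n+1}(Δ^p) → C_n(Δ^p)` -/
noncomputable def bdL (n p : ℕ) : (Op (n + 1) p →₀ R) →ₗ[R] (Op n p →₀ R) :=
  ∑ i ∈ Finset.range (n + 2),
    ((-1 : ℤ) ^ i) • Finsupp.lmapDomain R R (fun t : Op (n + 1) p => t.comp (dl n i))

theorem bdL_single (n p : ℕ) (t : Op (n + 1) p) (r : R) :
    bdL R n p (Finsupp.single t r) =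
      ∑ i ∈ Finset.range (n + 2), sn i (Finsupp.single (t.comp (dl n i)) r) := by
  simp [bdL, sn, LinearMap.sum_apply, Finsupp.mapDomain_single]

/-- the cone operator `C_n(Δ^p) → C_{n+1}(Δ^p)` -/
noncomputable def kap (n p : ℕ) : (Op n p →₀ R) →ₗ[R] (Op (n + 1) p →₀ R) :=
  Finsupp.lmapDomain R R coneOp

theorem kap_single (n p : ℕ) (t : Op n p) (r : R) :
    kap R n p (Finsupp.single t r) = Finsupp.single (coneOp t) r := by
  simp [kap, Finsupp.mapDomain_single]

/-- the augmentation `C_0(Δ^p) → R` -/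
noncomputable def augL (p : ℕ) : (Op 0 p →₀ R) →ₗ[R] R :=
  Finsupp.lsum R (fun _ => LinearMap.id)

@[simp] theorem augL_single (p : ℕ) (t : Op 0 p) (r : R) :
    augL R p (Finsupp.single t r) = r := by
  simp [augL]

theorem bdL_kap_succ (n p : ℕ) (x : Op (n + 1) p →₀ R) :
    bdL R (n + 1) p (kap R (n + 1) p x) = x - kap R n p (bdL R n p x) := by
  induction x using Finsupp.induction_linear with
  | zero => simp
  | add x y hx hy => rw [map_add, map_add, hx, hy, map_add, map_add]; abel
  | single t r =>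
    have h0 : sn 0 (Finsupp.single ((coneOp t).comp (dl (n + 1) 0)) r) = Finsupp.single t r := by
      rw [coneOp_dl_zero]; simp [sn]
    have h2 : ∑ i ∈ Finset.range (n + 2),
        sn (i + 1) (Finsupp.single ((coneOp t).comp (dl (n + 1) (i + 1))) r) =
        - kap R n p (bdL R n p (Finsupp.single t r)) := by
      rw [bdL_single, map_sum, ← Finset.sum_neg_distrib]
      refine Finset.sum_congr rfl fun i _ => ?_
      rw [coneOp_dl_succ, sn_succ, CosMod.sn_lin, kap_single]
    rw [kap_single, bdL_single, Finset.sum_range_succ', h0, h2]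
    abel

theorem bdL_kap_zero (p : ℕ) (x : Op 0 p →₀ R) :
    bdL R 0 p (kap R 0 p x) = x - Finsupp.single (zOp 0 p) (augL R p x) := by
  induction x using Finsupp.induction_linear with
  | zero => simp
  | add x y hx hy =>
    rw [map_add, map_add, hx, hy, map_add, Finsupp.single_add]; abel
  | single t r =>
    have h0 : sn 0 (Finsupp.single ((coneOp t).comp (dl 0 0)) r) = Finsupp.single t r := by
      rw [coneOp_dl_zero]; simp [sn]
    have h1 : sn 1 (Finsupp.single ((coneOp t).comp (dl 0 1)) r) =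
        - Finsupp.single (zOp 0 p) r := by
      rw [coneOp_dl_one]; simp [sn]
    rw [kap_single, bdL_single, augL_single, Finset.sum_range_succ, Finset.sum_range_succ,
      Finset.sum_range_zero]
    show 0 + sn 0 (Finsupp.single ((coneOp t).comp (dl 0 0)) r) +
      sn 1 (Finsupp.single ((coneOp t).comp (dl 0 1)) r) = _
    rw [h0, h1]
    abel

theorem bdL_bdL (n p : ℕ) (x : Op (n + 2) p →₀ R) : bdL R n p (bdL R (n + 1) p x) = 0 := by
  induction x using Finsupp.induction_linear with
  | zero => simp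
  | add x y hx hy => rw [map_add, map_add, hx, hy, add_zero]
  | single t r =>
    rw [bdL_single, map_sum]
    have e : ∀ i ∈ Finset.range (n + 1 + 2),
        bdL R n p (sn i (Finsupp.single (t.comp (dl (n + 1) i)) r)) =
        ∑ j ∈ Finset.range (n + 2),
          sn (i + j) (Finsupp.single ((t.comp (dl (n + 1) i)).comp (dl n j)) r) := by
      intro i _
      rw [CosMod.sn_lin, bdL_single, sn_sum]
      refine Finset.sum_congr rfl fun j _ => ?_
      rw [sn_sn]
    rw [Finset.sum_congr rfl e]
    refine CosMod.dd_sum (n + 1)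
      (fun i j => Finsupp.single ((t.comp (dl (n + 1) i)).comp (dl n j)) r) fun i j hij _ => ?_
    show Finsupp.single (t.comp ((dl (n + 1) (j + 1)).comp (dl n i))) r =
      Finsupp.single (t.comp ((dl (n + 1) i).comp (dl n j))) r
    rw [dl_dl hij]

theorem augL_bdL (p : ℕ) (x : Op 1 p →₀ R) : augL R p (bdL R 0 p x) = 0 := by
  induction x using Finsupp.induction_linear with
  | zero => simp
  | add x y hx hy => rw [map_add, map_add, hx, hy, add_zero]
  | single t r =>
    rw [bdL_single, Finset.sum_range_succ, Finset.sum_range_succ, Finset.sum_range_zero]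
    simp [sn]

/-- **Exactness** of the chains of `Δ^p` in positive degrees. -/
theorem bdL_eq_zero_iff (n p : ℕ) (x : Op (n + 1) p →₀ R) :
    bdL R n p x = 0 ↔ ∃ y, bdL R (n + 1) p y = x := by
  constructor
  · intro h
    refine ⟨kap R (n + 1) p x, ?_⟩
    rw [bdL_kap_succ, h, map_zero, sub_zero]
  · rintro ⟨y, rfl⟩
    exact bdL_bdL R n p y

/-- **Exactness** in degree `0`. -/
theorem augL_eq_zero_iff (p : ℕ) (x : Op 0 p →₀ R) :
    augL R p x = 0 ↔ ∃ y, bdL R 0 p y = x := by
  constructor
  · intro h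
    refine ⟨kap R 0 p x, ?_⟩
    rw [bdL_kap_zero, h, Finsupp.single_zero, sub_zero]
  · rintro ⟨y, rfl⟩
    exact augL_bdL R p y

/-- the functoriality in `p` -/
noncomputable def mapL (n : ℕ) {p q : ℕ} (f : Op p q) : (Op n p →₀ R) →ₗ[R] (Op n q →₀ R) :=
  Finsupp.lmapDomain R R (fun t => f.comp t)

@[simp] theorem mapL_single (n : ℕ) {p q : ℕ} (f : Op p q) (t : Op n p) (r : R) :
    mapL R n f (Finsupp.single t r) = Finsupp.single (f.comp t) r := by
  simp [mapL, Finsupp.mapDomain_single]

theorem bdL_mapL (n : ℕ) {p q : ℕ} (f : Op p q) (x : Op (n + 1) p →₀ R) :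
    bdL R n q (mapL R (n + 1) f x) = mapL R n f (bdL R n p x) := by
  induction x using Finsupp.induction_linear with
  | zero => simp
  | add x y hx hy => rw [map_add, map_add, hx, hy, map_add, map_add]
  | single t r =>
    rw [mapL_single, bdL_single, bdL_single, map_sum]
    refine Finset.sum_congr rfl fun i _ => ?_
    rw [CosMod.sn_lin, mapL_single]
    rfl

theorem augL_mapL {p q : ℕ} (f : Op p q) (x : Op 0 p →₀ R) :
    augL R q (mapL R 0 f x) = augL R p x := by
  induction x using Finsupp.induction_linear with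
  | zero => simp
  | add x y hx hy => rw [map_add, map_add, hx, hy, map_add]
  | single t r => simp

/-- the retraction `C_n(Δ^p) → C_{n+1}(Δ^p) / B_{n+1}(Δ^p)` of the boundary -/
noncomputable def retL (n p : ℕ) :
    (Op n p →₀ R) →ₗ[R] ((Op (n + 1) p →₀ R) ⧸ LinearMap.range (bdL R (n + 1) p)) :=
  (Submodule.mkQ _).comp (kap R n p)

theorem retL_bdL (n p : ℕ) (x : Op (n + 1) p →₀ R) :
    retL R n p (bdL R n p x) = Submodule.Quotient.mk x := by
  have h : kap R n p (bdL R n p x) = x - bdL R (n + 1) p (kap R (n + 1) p x) := by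
    rw [bdL_kap_succ]; abel
  show Submodule.Quotient.mk (kap R n p (bdL R n p x)) = _
  rw [h, Submodule.Quotient.mk_sub, sub_eq_self, Submodule.Quotient.mk_eq_zero]
  exact ⟨_, rfl⟩

end Vale.Agent.P263.S.Cn
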