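import Vale.Agent.P263.S.GoodM

/-!
# P263, block S6: the exterior product is commutative in cohomology (helper774)
-/

open scoped TensorProduct

namespace Vale.Agent.P263.S

theorem commH_nat {R : Type} [CommRing R] {A B A' B' : CosMod R} (f : Hom A A') (g : Hom B B')
    (p : ℕ) (x : (tensor A B).obj p) :
    (commH A' B').app p ((f.tens g).app p x) = (g.tens f).app p ((commH A B).app p x) := by
  have h : ((commH A' B').app p).comp ((f.tens g).app p) =
      ((g.tens f).app p).comp ((commH A B).app p) := by
    apply TensorProduct.ext'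
    intro a b
    rfl
  exact LinearMap.congr_fun h x

theorem Good.tens' {K K' : CosMod (ZMod 2)} {n n' N : ℕ} {e : K.obj n} {e' : K'.obj n'}
    (h : Good K n e) (h' : Good K' n' e') (hN : N = n + n') :
    Good (tensor K K') N (cr N e e') := by
  subst hN
  exact h.tens h'

/-- the exterior product of cocycles is commutative up to coboundaries -/
theorem cr_comm {A B : CosMod (ZMod 2)} {m n N : ℕ} (hN : N = m + n)
    {a : A.obj m} {b : B.obj n} (ha : a ∈ A.Z m) (hb : b ∈ B.Z n) :
    (commH A B).app N (cr N a b) - cr N b a ∈ (tensor B A).Bd N := by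
  have gm := good_M (R := ZMod 2) m
  have gn := good_M (R := ZMod 2) n
  have h1 := (gm.tens' gn hN).map_sub_mem (gn.tens' gm (hN.trans (add_comm m n)))
    (commH (M (ZMod 2) m) (M (ZMod 2) n)) (commH (M (ZMod 2) n) (M (ZMod 2) m))
    (fun x => commH_commH _ _ N x)
  have h2 := ((ofM b hb).tens (ofM a ha)).app_mem_Bd h1
  rw [map_sub, ← commH_nat, cr_nat, cr_nat, ofM_iota, ofM_iota] at h2
  exact h2

end Vale.Agent.P263.S
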