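import Vale.Agent.P263.S.Defs
import Vale.Agent.P263.S.AW
import Vale.Agent.P263.TJ.SCo

/-!
# P263, block S5b: Steenrod's cup-i products for pairings of cosimplicial `F_2`-modules (helper888)

`cupi μ j N x y : C.obj N` for `μ : Bil A B C`, `x ∈ A^m`, `y ∈ B^n` is the product `x ∪_{j-1} y`
(`j` break points); it vanishes unless `N + j = m + n + 1`.  `cupiT` is the product with the two
blocks exchanged.  `d_cupi` is the coboundary formula (deduced from `H83.dd_cupJ`).
-/

noncomputable section

open Finset

namespace Vale.Agent.P263.S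

open Vale.Agent.P263.H83 Vale.Agent.P263.TJ

/-! ### break point sums with values in an `F_2`-module -/

section cupG

variable {X : Type*} [AddCommGroup X] [Module (ZMod 2) X]

/-- the sum over the sets of `j` break points -/
def cupG (j : ℕ) (F : Finset ℕ → Finset ℕ → X) (S : Finset ℕ) : X :=
  ∑ J ∈ S.powersetCard j, F (fA S J) (fB S J)

/-- the universal function of two sets -/
def sgF (P Q : Finset ℕ) : (Finset ℕ × Finset ℕ) →₀ ZMod 2 := Finsupp.single (P, Q) 1

theorem sgF_apply (P Q P' Q' : Finset ℕ) :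
    sgF P Q (P', Q') = (if P = P' then 1 else 0) * (if Q = Q' then 1 else 0) := by
  rw [sgF, Finsupp.single_apply]
  by_cases h1 : P = P' <;> by_cases h2 : Q = Q' <;> simp [h1, h2]

/-- evaluation of formal sums -/
def evF (F : Finset ℕ → Finset ℕ → X) : ((Finset ℕ × Finset ℕ) →₀ ZMod 2) →ₗ[ZMod 2] X :=
  Finsupp.linearCombination (ZMod 2) (fun a : Finset ℕ × Finset ℕ => F a.1 a.2)

theorem evF_sgF (F : Finset ℕ → Finset ℕ → X) (P Q : Finset ℕ) : evF F (sgF P Q) = F P Q := by
  rw [evF, sgF, Finsupp.linearCombination_single, one_smul]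

theorem cupG_eq (j : ℕ) (F : Finset ℕ → Finset ℕ → X) (S : Finset ℕ) :
    cupG j F S = evF F (cupG j sgF S) := by
  rw [cupG, cupG, map_sum]
  exact sum_congr rfl fun J _ => (evF_sgF F _ _).symm

theorem cupG_sgF_apply (j : ℕ) (S P Q : Finset ℕ) :
    cupG j sgF S (P, Q) = cupJ j (fun T => if T = P then 1 else 0) (fun T => if T = Q then 1 else 0)
      S := by
  rw [cupG, cupJ, Finsupp.finsetSum_apply]
  exact sum_congr rfl fun J _ => sgF_apply _ _ _ _

/-- the formal coboundary formula -/
theorem cupG_formal (j : ℕ) (S : Finset ℕ) :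
    ∑ k ∈ S, cupG (j + 1) sgF (S.erase k) =
      cupG (j + 1) (fun P Q => ∑ k ∈ P, sgF (P.erase k) Q) S +
      cupG (j + 1) (fun P Q => ∑ k ∈ Q, sgF P (Q.erase k)) S +
      cupG j sgF S + cupG j (fun P Q => sgF Q P) S := by
  ext ⟨P, Q⟩
  have h := congrFun (dd_cupJ j (fun T => if T = P then (1 : ZMod 2) else 0)
    (fun T => if T = Q then (1 : ZMod 2) else 0)) S
  rw [dd] at h
  simp only [Pi.add_apply] at h
  have e0 : (∑ k ∈ S, cupG (j + 1) sgF (S.erase k)) (P, Q) =
      ∑ k ∈ S, cupJ (j + 1) (fun T => if T = P then (1 : ZMod 2) else 0)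
        (fun T => if T = Q then (1 : ZMod 2) else 0) (S.erase k) := by
    rw [Finsupp.finsetSum_apply]
    exact sum_congr rfl fun k _ => cupG_sgF_apply _ _ _ _
  have e1 : (cupG (j + 1) (fun P Q => ∑ k ∈ P, sgF (P.erase k) Q) S) (P, Q) =
      cupJ (j + 1) (dd fun T => if T = P then (1 : ZMod 2) else 0)
        (fun T => if T = Q then (1 : ZMod 2) else 0) S := by
    rw [cupG, cupJ, Finsupp.finsetSum_apply]
    refine sum_congr rfl fun J _ => ?_
    rw [Finsupp.finsetSum_apply, dd, sum_mul]
    exact sum_congr rfl fun k _ => sgF_apply _ _ _ _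
  have e2 : (cupG (j + 1) (fun P Q => ∑ k ∈ Q, sgF P (Q.erase k)) S) (P, Q) =
      cupJ (j + 1) (fun T => if T = P then (1 : ZMod 2) else 0)
        (dd fun T => if T = Q then (1 : ZMod 2) else 0) S := by
    rw [cupG, cupJ, Finsupp.finsetSum_apply]
    refine sum_congr rfl fun J _ => ?_
    rw [Finsupp.finsetSum_apply, dd, mul_sum]
    exact sum_congr rfl fun k _ => sgF_apply _ _ _ _
  have e4 : (cupG j (fun P Q => sgF Q P) S) (P, Q) =
      cupJ j (fun T => if T = Q then (1 : ZMod 2) else 0)
        (fun T => if T = P then (1 : ZMod 2) else 0) S := by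
    rw [cupG, cupJ, Finsupp.finsetSum_apply]
    refine sum_congr rfl fun J _ => ?_
    rw [sgF_apply, mul_comm]
  rw [Finsupp.add_apply, Finsupp.add_apply, Finsupp.add_apply, e0, e1, e2, e4, cupG_sgF_apply, h]

/-- the coboundary formula for sums over break points -/
theorem cupG_d (j : ℕ) (F : Finset ℕ → Finset ℕ → X) (S : Finset ℕ) :
    ∑ k ∈ S, cupG (j + 1) F (S.erase k) =
      cupG (j + 1) (fun P Q => ∑ k ∈ P, F (P.erase k) Q) S +
      cupG (j + 1) (fun P Q => ∑ k ∈ Q, F P (Q.erase k)) S +
      cupG j F S + cupG j (fun P Q => F Q P) S := by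
  have h := congrArg (evF F) (cupG_formal j S)
  simp only [map_add, map_sum, ← cupG_eq] at h
  rw [h]
  congr 1
  · congr 1
    congr 1
    · rw [cupG, cupG, map_sum]
      refine sum_congr rfl fun J _ => ?_
      rw [map_sum]
      exact sum_congr rfl fun k _ => evF_sgF F _ _
    · rw [cupG, cupG, map_sum]
      refine sum_congr rfl fun J _ => ?_
      rw [map_sum]
      exact sum_congr rfl fun k _ => evF_sgF F _ _
  · rw [cupG, cupG, map_sum]
    exact sum_congr rfl fun J _ => evF_sgF F _ _

theorem cupG_congr {j : ℕ} {F F' : Finset ℕ → Finset ℕ → X} {S : Finset ℕ}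
    (h : ∀ P ⊆ S, ∀ Q ⊆ S, F P Q = F' P Q) : cupG j F S = cupG j F' S := by
  rw [cupG, cupG]
  exact sum_congr rfl fun J _ => h _ (filter_subset _ _) _ (filter_subset _ _)

theorem cupG_image {e : ℕ → ℕ} (he : StrictMono e) (j : ℕ) (F : Finset ℕ → Finset ℕ → X)
    (S : Finset ℕ) :
    cupG j (fun P Q => F (P.image e) (Q.image e)) S = cupG j F (S.image e) := by
  have key : cupG j (fun P Q => sgF (P.image e) (Q.image e)) S = cupG j sgF (S.image e) := by
    ext ⟨P, Q⟩
    rw [cupG_sgF_apply, ← cupJ_image he, cupG, cupJ, Finsupp.finsetSum_apply]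
    exact sum_congr rfl fun J _ => sgF_apply _ _ _ _
  rw [cupG_eq j F, ← key, cupG, cupG, map_sum]
  exact sum_congr rfl fun J _ => (evF_sgF F _ _).symm

theorem cupG_add (j : ℕ) (F F' : Finset ℕ → Finset ℕ → X) (S : Finset ℕ) :
    cupG j (fun P Q => F P Q + F' P Q) S = cupG j F S + cupG j F' S := by
  rw [cupG, cupG, cupG, sum_add_distrib]

theorem map_cupG {Y : Type*} [AddCommGroup Y] [Module (ZMod 2) Y] (f : X →ₗ[ZMod 2] Y) (j : ℕ)
    (F : Finset ℕ → Finset ℕ → X) (S : Finset ℕ) :
    f (cupG j F S) = cupG j (fun P Q => f (F P Q)) S := by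
  rw [cupG, cupG, map_sum]

theorem cupG_eq_zero {j : ℕ} {F : Finset ℕ → Finset ℕ → X} {S : Finset ℕ}
    (h : ∀ J ⊆ S, J.card = j → F (fA S J) (fB S J) = 0) : cupG j F S = 0 := by
  rw [cupG]
  refine sum_eq_zero fun J hJ => ?_
  obtain ⟨h1, h2⟩ := mem_powersetCard.1 hJ
  exact h J h1 h2

end cupG

/-! ### faces of a cochain -/

/-- in characteristic two there are no signs -/
theorem sn_two_cupI {V : Type*} [AddCommGroup V] [Module (ZMod 2) V] (k : ℕ) (x : V) : sn k x = x := by
  have h : x + x = 0 := by
    have : (2 : ZMod 2) • x = x + x := two_smul _ x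
    rw [← this, show (2 : ZMod 2) = 0 from rfl, zero_smul]
  have h' : -x = x := neg_eq_of_add_eq_zero_left h
  rw [sn]
  rcases Nat.even_or_odd k with hk | hk
  · rw [hk.neg_one_pow, one_smul]
  · rw [hk.neg_one_pow, neg_smul, one_smul, h']

theorem add_self_two {V : Type*} [AddCommGroup V] [Module (ZMod 2) V] (x : V) : x + x = 0 := by
  have : (2 : ZMod 2) • x = x + x := two_smul _ x
  rw [← this, show (2 : ZMod 2) = 0 from rfl, zero_smul]

variable {A B C : CosMod (ZMod 2)}

theorem cl_congr {p q : ℕ} {e e' : ℕ → ℕ} (he : Monotone e) (he' : Monotone e')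
    (h : ∀ x ≤ p, min (e x) q = min (e' x) q) : cl p q e = cl p q e' := by
  apply OrderHom.ext
  funext x
  apply Fin.ext
  rw [cl_val he, cl_val he', h x (by have := x.2; omega)]

/-- the face of `x ∈ A^n` with vertex set `S`, as an element of `A^p` -/
def fc {n : ℕ} (x : A.obj n) (p : ℕ) (S : Finset ℕ) : A.obj p :=
  if S.card = n + 1 then A.map (cl n p (enu S)) x else 0

theorem fc_of_card {n : ℕ} {x : A.obj n} {p : ℕ} {S : Finset ℕ} (h : S.card = n + 1) :
    fc x p S = A.map (cl n p (enu S)) x := if_pos h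

theorem fc_of_ne {n : ℕ} {x : A.obj n} {p : ℕ} {S : Finset ℕ} (h : S.card ≠ n + 1) :
    fc x p S = 0 := if_neg h

/-- faces of faces -/
theorem map_fc {n : ℕ} (x : A.obj n) {p q : ℕ} {e : ℕ → ℕ} (he : StrictMono e)
    {T : Finset ℕ} (hT : T ⊆ range (p + 1)) :
    A.map (cl p q e) (fc x p T) = fc x q (T.image e) := by
  have hc : (T.image e).card = T.card := card_image_of_injective _ he.injective
  by_cases h0 : T.card = n + 1
  · rw [fc_of_card h0, fc_of_card (by rw [hc, h0]), A.map_map,
      cl_comp he.monotone (enu_strictMono T).monotone]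
    · refine congrArg (fun f : Op n q => A.map f x)
        (cl_congr (he.comp (enu_strictMono T)).monotone (enu_strictMono _).monotone ?_)
      intro y hy
      rw [enu_image he (by omega)]
    · intro y hy
      have := mem_range.1 (hT (enu_mem (S := T) (x := y) (by omega)))
      omega
  · rw [fc_of_ne h0, fc_of_ne (by rwa [hc]), map_zero]

/-- the face maps as functions on natural numbers -/
theorem dlf_strictMono (i : ℕ) : StrictMono (fun x => if x < i then x else x + 1) := by
  intro x y h
  simp only
  split_ifs <;> omega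

theorem range_image_dlf {p i : ℕ} (hi : i < p + 2) :
    (range (p + 1)).image (fun x => if x < i then x else x + 1) = (range (p + 2)).erase i := by
  ext w
  simp only [mem_image, mem_range, mem_erase]
  constructor
  · rintro ⟨a, ha, rfl⟩
    split_ifs <;> omega
  · rintro ⟨h1, h2⟩
    rcases Nat.lt_or_gt_of_ne h1 with h | h
    · exact ⟨w, by omega, if_pos h⟩
    · exact ⟨w - 1, by omega, by rw [if_neg (by omega)]; omega⟩

theorem map_dl_fc {n : ℕ} (x : A.obj n) {p i : ℕ} {T : Finset ℕ} (hT : T ⊆ range (p + 1)) :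
    A.map (dl p i) (fc x p T) = fc x (p + 1) (T.image fun x => if x < i then x else x + 1) := by
  rw [dl_eq_cl]
  exact map_fc x (dlf_strictMono i) hT

theorem d_two {p : ℕ} (x : A.obj p) :
    A.d p x = ∑ i ∈ range (p + 2), A.map (dl p i) x := by
  rw [A.d_apply]
  exact sum_congr rfl fun i _ => sn_two_cupI _ _

/-- the coboundary in terms of faces -/
theorem sum_fc_erase {n : ℕ} (x : A.obj n) (q : ℕ) (P : Finset ℕ) :
    ∑ k ∈ P, fc x q (P.erase k) = fc (A.d n x) q P := by
  by_cases h : P.card = n + 2
  · rw [fc_of_card (n := n + 1) h, d_two, map_sum]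
    have hP : P = (range (n + 2)).image (enu P) := by
      have := image_enu P
      rw [h] at this
      exact this.symm
    conv_lhs => rw [hP]
    rw [sum_image fun a _ b _ hab => (enu_strictMono P).injective hab]
    refine sum_congr rfl fun i hi => ?_
    rw [mem_range] at hi
    have h1 : ((range (n + 2)).image (enu P)).erase (enu P i) =
        ((range (n + 1)).image fun x => if x < i then x else x + 1).image (enu P) := by
      rw [range_image_dlf hi]
      ext w
      simp only [mem_image, mem_erase]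
      constructor
      · rintro ⟨h1, a, h2, rfl⟩
        exact ⟨a, ⟨fun h => h1 (h ▸ rfl), h2⟩, rfl⟩
      · rintro ⟨a, ⟨h1, h2⟩, rfl⟩
        exact ⟨fun h => h1 ((enu_strictMono P).injective h), a, h2, rfl⟩
    rw [h1, image_image]
    have h2 : ((range (n + 1)).image (enu P ∘ fun x => if x < i then x else x + 1)).card =
        n + 1 := by
      rw [card_image_of_injective _ ((enu_strictMono P).comp (dlf_strictMono i)).injective,
        card_range]
    rw [fc_of_card h2, A.map_map, dl_eq_cl,
      cl_comp (enu_strictMono P).monotone (dlf_strictMono i).monotone (by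
        intro x hx
        split_ifs <;> omega)]
    refine congrArg (fun f : Op n q => A.map f x) (cl_congr (enu_strictMono _).monotone
      ((enu_strictMono P).comp (dlf_strictMono i)).monotone ?_)
    intro y hy
    rw [enu_image ((enu_strictMono P).comp (dlf_strictMono i)) (by rw [card_range]; omega),
      enu_range (by omega)]
    rfl
  · rw [fc_of_ne (n := n + 1) h]
    refine sum_eq_zero fun k hk => fc_of_ne ?_
    rw [card_erase_of_mem hk]
    have := card_pos.2 ⟨k, hk⟩
    omega

theorem fc_add {n : ℕ} (x x' : A.obj n) (p : ℕ) (S : Finset ℕ) :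
    fc (x + x') p S = fc x p S + fc x' p S := by
  by_cases h : S.card = n + 1
  · rw [fc_of_card h, fc_of_card h, fc_of_card h, map_add]
  · rw [fc_of_ne h, fc_of_ne h, fc_of_ne h, add_zero]

theorem fc_zero (n p : ℕ) (S : Finset ℕ) : fc (0 : A.obj n) p S = 0 := by
  by_cases h : S.card = n + 1
  · rw [fc_of_card h, map_zero]
  · rw [fc_of_ne h]

theorem app_fc (f : Hom A B) {n : ℕ} (x : A.obj n) (p : ℕ) (S : Finset ℕ) :
    f.app p (fc x p S) = fc (f.app n x) p S := by
  by_cases h : S.card = n + 1
  · rw [fc_of_card h, fc_of_card h, f.nat]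
  · rw [fc_of_ne h, fc_of_ne h, map_zero]

/-! ### cup-i products -/

/-- the product `x ∪_{j-1} y` in degree `N` (it vanishes unless `N + j = m + n + 1`) -/
def cupi (μ : Bil A B C) (j N : ℕ) {m n : ℕ} (x : A.obj m) (y : B.obj n) : C.obj N :=
  cupG j (fun P Q => μ.app N (fc x N P) (fc y N Q)) (range (N + 1))

/-- the product `x ∪_{j-1} y` with the two blocks exchanged -/
def cupiT (μ : Bil A B C) (j N : ℕ) {m n : ℕ} (x : A.obj m) (y : B.obj n) : C.obj N :=
  cupG j (fun P Q => μ.app N (fc x N Q) (fc y N P)) (range (N + 1))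

/-- **The coboundary formula** -/
theorem d_cupi (μ : Bil A B C) (j N : ℕ) {m n : ℕ} (x : A.obj m) (y : B.obj n) :
    C.d N (cupi μ (j + 1) N x y) =
      cupi μ (j + 1) (N + 1) (A.d m x) y + cupi μ (j + 1) (N + 1) x (B.d n y) +
      cupi μ j (N + 1) x y + cupiT μ j (N + 1) x y := by
  rw [d_two]
  have h1 : ∀ i ∈ range (N + 2), C.map (dl N i) (cupi μ (j + 1) N x y) =
      cupG (j + 1) (fun P Q => μ.app (N + 1) (fc x (N + 1) P) (fc y (N + 1) Q))
        ((range (N + 2)).erase i) := by
    intro i hi
    rw [cupi, map_cupG, ← range_image_dlf (mem_range.1 hi), ← cupG_image (dlf_strictMono i)]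
    refine cupG_congr fun P hP Q hQ => ?_
    rw [← μ.nat, map_dl_fc x hP, map_dl_fc y hQ]
  rw [sum_congr rfl h1, cupG_d]
  have h2 : cupG (j + 1) (fun P Q => ∑ k ∈ P, μ.app (N + 1) (fc x (N + 1) (P.erase k))
      (fc y (N + 1) Q)) (range (N + 2)) = cupi μ (j + 1) (N + 1) (A.d m x) y := by
    refine cupG_congr fun P _ Q _ => ?_
    rw [← sum_fc_erase, map_sum, LinearMap.sum_apply]
  have h3 : cupG (j + 1) (fun P Q => ∑ k ∈ Q, μ.app (N + 1) (fc x (N + 1) P)
      (fc y (N + 1) (Q.erase k))) (range (N + 2)) = cupi μ (j + 1) (N + 1) x (B.d n y) := by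
    refine cupG_congr fun P _ Q _ => ?_
    rw [← sum_fc_erase, map_sum]
  rw [h2, h3]
  rfl

theorem cupi_zero (μ : Bil A B C) (N : ℕ) {m n : ℕ} (x : A.obj m) (y : B.obj n) :
    cupi μ 0 N x y = 0 := by
  refine cupG_eq_zero fun J _ hJ => ?_
  rw [card_eq_zero.1 hJ]
  have : fB (range (N + 1)) ∅ = ∅ := by
    ext v; simp [fB, ev]
  rw [this, fc_of_ne (x := y) (by rw [card_empty]; omega), map_zero]

theorem cupiT_zero (μ : Bil A B C) (N : ℕ) {m n : ℕ} (x : A.obj m) (y : B.obj n) :
    cupiT μ 0 N x y = 0 := by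
  refine cupG_eq_zero fun J _ hJ => ?_
  rw [card_eq_zero.1 hJ]
  have : fB (range (N + 1)) ∅ = ∅ := by
    ext v; simp [fB, ev]
  rw [this, fc_of_ne (x := x) (by rw [card_empty]; omega), map_zero, LinearMap.zero_apply]

/-- cup-i products vanish in degrees below the degree of a factor -/
theorem cupi_eq_zero_left (μ : Bil A B C) {j N m n : ℕ} (h : N < m) (x : A.obj m) (y : B.obj n) :
    cupi μ j N x y = 0 := by
  refine cupG_eq_zero fun J _ _ => ?_
  have h1 : (fA (range (N + 1)) J).card ≤ N + 1 :=
    (card_le_card (filter_subset _ _)).trans (by rw [card_range])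
  rw [fc_of_ne (x := x) (by omega), map_zero, LinearMap.zero_apply]

theorem cupi_eq_zero_right (μ : Bil A B C) {j N m n : ℕ} (h : N < n) (x : A.obj m) (y : B.obj n) :
    cupi μ j N x y = 0 := by
  refine cupG_eq_zero fun J _ _ => ?_
  have h1 : (fB (range (N + 1)) J).card ≤ N + 1 :=
    (card_le_card (filter_subset _ _)).trans (by rw [card_range])
  rw [fc_of_ne (x := y) (by omega), map_zero]

/-- the lowest cup-i product: `x ∪_n y = μ x y` for `x`, `y` of degree `n` -/
theorem cupi_top (μ : Bil A B C) {n : ℕ} (x : A.obj n) (y : B.obj n) :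
    cupi μ (n + 1) n x y = μ.app n x y := by
  have h : (range (n + 1)).powersetCard (n + 1) = {range (n + 1)} := by
    have := powersetCard_self (range (n + 1))
    rwa [card_range] at this
  rw [cupi, cupG, h, sum_singleton]
  have hA : fA (range (n + 1)) (range (n + 1)) = range (n + 1) :=
    filter_true_of_mem fun v hv => Or.inl hv
  have hB : fB (range (n + 1)) (range (n + 1)) = range (n + 1) :=
    filter_true_of_mem fun v hv => Or.inl hv
  have hid : cl n n (enu (range (n + 1))) = OrderHom.id := by
    refine cl_id (enu_strictMono _).monotone fun x hx => enu_range (by omega)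
  rw [hA, hB, fc_of_card (x := x) (card_range _), fc_of_card (x := y) (card_range _), hid,
    A.map_id_apply, B.map_id_apply]

theorem enu_range_add {a b : ℕ} {x : ℕ} (h : x < b) :
    enu ((range b).image (fun y => a + y)) x = a + x := by
  have he : StrictMono (fun y : ℕ => a + y) := fun y z hyz => by
    show a + y < a + z
    omega
  rw [enu_image he (by rwa [card_range]), enu_range h]

/-- one break point: the Alexander-Whitney product -/
theorem cupi_one (μ : Bil A B C) {m n N : ℕ} (h : N = m + n) (x : A.obj m) (y : B.obj n) :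
    cupi μ 1 N x y = μ.app N (A.map (fr m N) x) (B.map (bk n N) y) := by
  subst h
  rw [cupi, cupG, powersetCard_one, sum_map]
  have hA : ∀ a, a < m + n + 1 → fA (range (m + n + 1)) {a} = range (a + 1) := by
    intro a ha
    ext v
    simp only [fA, mem_filter, mem_range, mem_singleton, ev, filter_singleton]
    by_cases hv : a < v
    · simp [hv]; omega
    · simp [hv]; omega
  have hB : ∀ a, a < m + n + 1 → fB (range (m + n + 1)) {a} =
      (range (m + n + 1 - a)).image (fun y => a + y) := by
    intro a ha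
    ext v
    simp only [fB, mem_filter, mem_range, mem_singleton, ev, filter_singleton, mem_image]
    by_cases hv : a < v
    · simp [hv]
      constructor
      · intro h
        exact ⟨v - a, by omega, by omega⟩
      · rintro ⟨w, h1, h2⟩
        omega
    · simp [hv]
      constructor
      · rintro ⟨h1, h2⟩
        exact ⟨0, by omega, by omega⟩
      · rintro ⟨w, h1, h2⟩
        omega
  rw [sum_eq_single m]
  · show μ.app (m + n) (fc x (m + n) (fA (range (m + n + 1)) {m}))
      (fc y (m + n) (fB (range (m + n + 1)) {m})) = _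
    have hc : ((range (m + n + 1 - m)).image (fun y => m + y)).card = n + 1 := by
      rw [card_image_of_injective _ (fun a b h => by simpa using h), card_range]
      omega
    rw [hA m (by omega), hB m (by omega), fc_of_card (x := x) (card_range _),
      fc_of_card (x := y) hc]
    have e1 : cl m (m + n) (enu (range (m + 1))) = fr m (m + n) := by
      apply OrderHom.ext
      funext z
      apply Fin.ext
      have := z.2
      rw [cl_val (enu_strictMono _).monotone, enu_range (by omega), fr_val]
    have e2 : cl n (m + n) (enu ((range (m + n + 1 - m)).image (fun y => m + y))) =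
        bk n (m + n) := by
      apply OrderHom.ext
      funext z
      apply Fin.ext
      have := z.2
      rw [cl_val (enu_strictMono _).monotone, enu_range_add (by omega), bk_val]
      congr 1
      omega
    rw [e1, e2]
  · intro a ha hne
    rw [mem_range] at ha
    show μ.app (m + n) (fc x (m + n) (fA (range (m + n + 1)) {a})) _ = 0
    rw [hA a ha, fc_of_ne (x := x) (by rw [card_range]; omega), map_zero, LinearMap.zero_apply]
  · intro hm
    exact absurd (mem_range.2 (by omega)) hm

end Vale.Agent.P263.S
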