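import Vale.Agent.P263.S.Comm
import Vale.Agent.P263.S.GoodM
import Vale.Agent.P263.S.HG

/-!
# P263, block S6: the cohomology of `D_2` (helper587)

`A, C` over `F_2`, a pairing `μ : Bil A A C`, an action `c` of `C2` on `C` with `τ μ(a,b) = μ(b,a)`.
If `H(C)` has the basis `x_i ∪ x_j` (Künneth) then every class of `H^d(hG c)` is
`tr y + ∑_q u^(d-2q) P(x_q)` (`span`), and classes `∑ u^j P(x)`, `j ≥ 1`, are detected on the
diagonal (`det`).

The operations `u^j P` enter as a family `up j q d h` with the three properties in `D2In`.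
-/

noncomputable section

namespace Vale.Agent.P263.S

open CosMod

/-! ### Linear algebra: invariants of a permutation module -/

section inv

variable {I : Type} [LinearOrder I] {P : I × I → Prop} {V : Type} [AddCommGroup V]
  [Module (ZMod 2) V]

/-- Invariants of the swap on a module with basis `e (i,j)`, `P (i,j)`. -/
theorem inv_decomp (hP : ∀ s, P s → P s.swap) (b : Module.Basis {s : I × I // P s} (ZMod 2) V)
    (τ : V →ₗ[ZMod 2] V) (hτ : ∀ s : {s : I × I // P s}, τ (b s) = b ⟨s.1.swap, hP _ s.2⟩)
    (v : V) (hv : τ v = v) :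
    ∃ (y : V) (F : Finset I) (hF : ∀ i ∈ F, P (i, i)),
      v = y + τ y + ∑ i : F, b ⟨((i : I), (i : I)), hF _ i.2⟩ := by
  classical
  set f := b.repr v with hf
  have hsym : ∀ s : {s : I × I // P s}, f ⟨s.1.swap, hP _ s.2⟩ = f s := by
    have hinj : Function.Injective
        (fun s : {s : I × I // P s} => (⟨s.1.swap, hP _ s.2⟩ : {s : I × I // P s})) := by
      intro s t h
      have := congrArg Subtype.val h
      exact Subtype.ext (Prod.swap_injective this)
    have key : b.repr (τ v) = f.mapDomain
        (fun s : {s : I × I // P s} => (⟨s.1.swap, hP _ s.2⟩ : {s : I × I // P s})) := by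
      have hlin : ∀ g : {s : I × I // P s} →₀ ZMod 2,
          b.repr (τ (b.repr.symm g)) = g.mapDomain
          (fun s : {s : I × I // P s} => (⟨s.1.swap, hP _ s.2⟩ : {s : I × I // P s})) := by
        intro g
        induction g using Finsupp.induction_linear with
        | zero => simp
        | add g h hg hh => simp only [map_add, hg, hh, Finsupp.mapDomain_add]
        | single s r =>
          rw [b.repr_symm_single, map_smul, hτ, map_smul, b.repr_self, Finsupp.mapDomain_single,
            Finsupp.smul_single, smul_eq_mul, mul_one]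
      have := hlin f
      rwa [hf, LinearEquiv.symm_apply_apply] at this
    intro s
    have h1 : f = f.mapDomain
        (fun s : {s : I × I // P s} => (⟨s.1.swap, hP _ s.2⟩ : {s : I × I // P s})) := by
      rw [← key, hv]
    have h2 := congrArg (fun g => g (⟨s.1.swap, hP _ s.2⟩ : {s : I × I // P s})) h1
    exact h2.trans (Finsupp.mapDomain_apply hinj f s)
  -- the half-sum
  let g : {s : I × I // P s} →₀ ZMod 2 := f.filter (fun s => s.1.1 < s.1.2)
  let y : V := b.repr.symm g
  have hy : b.repr y = g := LinearEquiv.apply_symm_apply _ _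
  have hτy : ∀ s : {s : I × I // P s}, b.repr (τ y) s = g ⟨s.1.swap, hP _ s.2⟩ := by
    have hinj : Function.Injective
        (fun s : {s : I × I // P s} => (⟨s.1.swap, hP _ s.2⟩ : {s : I × I // P s})) := by
      intro s t h
      have := congrArg Subtype.val h
      exact Subtype.ext (Prod.swap_injective this)
    have hlin : ∀ g : {s : I × I // P s} →₀ ZMod 2,
        b.repr (τ (b.repr.symm g)) = g.mapDomain
        (fun s : {s : I × I // P s} => (⟨s.1.swap, hP _ s.2⟩ : {s : I × I // P s})) := by
      intro g
      induction g using Finsupp.induction_linear with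
      | zero => simp
      | add g h hg hh => simp only [map_add, hg, hh, Finsupp.mapDomain_add]
      | single s r =>
        rw [b.repr_symm_single, map_smul, hτ, map_smul, b.repr_self, Finsupp.mapDomain_single,
          Finsupp.smul_single, smul_eq_mul, mul_one]
    intro s
    change b.repr (τ (b.repr.symm g)) s = _
    rw [hlin g]
    have hs : s = (fun s : {s : I × I // P s} => (⟨s.1.swap, hP _ s.2⟩ : {s : I × I // P s}))
        ⟨s.1.swap, hP _ s.2⟩ := by
      apply Subtype.ext
      simp
    conv_lhs => rw [hs]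
    exact Finsupp.mapDomain_apply hinj g _
  let F : Finset I := (f.support.filter (fun s => s.1.1 = s.1.2)).image (fun s => s.1.1)
  have hF : ∀ i ∈ F, P (i, i) := by
    intro i hi
    obtain ⟨s, hs, rfl⟩ := Finset.mem_image.1 hi
    have h1 := (Finset.mem_filter.1 hs).2
    have h2 : s.1 = (s.1.1, s.1.1) := Prod.ext rfl h1.symm
    have h3 := s.2
    rwa [h2] at h3
  have hFmem : ∀ (i : I) (h : P (i, i)), i ∈ F ↔ f ⟨(i, i), h⟩ = 1 := by
    intro i h
    constructor
    · intro hi
      obtain ⟨s, hs, hsi⟩ := Finset.mem_image.1 hi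
      have h1 := Finset.mem_filter.1 hs
      have h2 : s = ⟨(i, i), h⟩ := by
        apply Subtype.ext
        refine Prod.ext hsi ?_
        rw [← h1.2]; exact hsi
      rw [← h2]
      have h3 := Finsupp.mem_support_iff.1 h1.1
      have : ∀ a : ZMod 2, a ≠ 0 → a = 1 := by decide
      exact this _ h3
    · intro hi
      refine Finset.mem_image.2 ⟨⟨(i, i), h⟩, ?_, rfl⟩
      refine Finset.mem_filter.2 ⟨?_, rfl⟩
      rw [Finsupp.mem_support_iff, hi]
      decide
  refine ⟨y, F, hF, ?_⟩
  apply b.repr.injective
  ext s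
  rw [map_add, map_add, map_sum, Finsupp.add_apply, Finsupp.add_apply, hy, hτy,
    Finsupp.finsetSum_apply]
  simp only [b.repr_self]
  have hsum : (∑ i : F, (Finsupp.single (⟨((i : I), (i : I)), hF _ i.2⟩ : {s : I × I // P s})
      (1 : ZMod 2)) s) = if s.1.1 = s.1.2 then f s else 0 := by
    split_ifs with h
    · obtain ⟨⟨i, j⟩, hs⟩ := s
      simp only at h
      subst h
      by_cases hi : i ∈ F
      · rw [Finset.sum_eq_single ⟨i, hi⟩]
        · rw [Finsupp.single_eq_same, (hFmem i hs).1 hi]
        · intro j _ hj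
          rw [Finsupp.single_eq_of_ne]
          intro he
          apply hj
          have := congrArg (fun s : {s : I × I // P s} => s.1.1) he
          exact Subtype.ext this.symm
        · intro h'; exact absurd (Finset.mem_univ _) h'
      · rw [Finset.sum_eq_zero]
        · have h0 : f ⟨(i, i), hs⟩ ≠ 1 := fun h1 => hi ((hFmem i hs).2 h1)
          have : ∀ a : ZMod 2, a ≠ 1 → 0 = a := by decide
          exact this _ h0
        · intro j _
          rw [Finsupp.single_eq_of_ne]
          intro he
          apply hi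
          have := congrArg (fun s : {s : I × I // P s} => s.1.1) he
          simp only at this
          rw [this]
          exact j.2
    · rw [Finset.sum_eq_zero]
      intro j _
      rw [Finsupp.single_eq_of_ne]
      intro he
      apply h
      have h1 := congrArg (fun s : {s : I × I // P s} => s.1.1) he
      have h2 := congrArg (fun s : {s : I × I // P s} => s.1.2) he
      simp only at h1 h2
      rw [h1, h2]
  rw [hsum]
  change f s = (f.filter (fun s => s.1.1 < s.1.2)) s +
    (f.filter (fun s => s.1.1 < s.1.2)) ⟨s.1.swap, hP _ s.2⟩ + _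
  rw [Finsupp.filter_apply, Finsupp.filter_apply, hsym s]
  rcases lt_trichotomy s.1.1 s.1.2 with h | h | h
  · simp [h, h.ne, not_lt.2 h.le]
  · simp [h]
  · simp [h, h.ne', not_lt.2 h.le]

end inv

/-! ### Spanning -/

variable {A C : CosMod (ZMod 2)}

/-- The input of the spanning theorem. -/
structure D2In (μ : Bil A A C) (c : Act C2 C) (tau : C2) where
  /-- multiplication by `u` -/
  U : ∀ n, (hG c).H n →ₗ[ZMod 2] (hG c).H (n + 1)
  /-- `u^j P(x)` -/
  up : ∀ j q d : ℕ, j + 2 * q = d → A.H q → (hG c).H d
  res_zero : ∀ w : (hG c).H 0, (hG.res c).mapH 0 w = 0 → w = 0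
  res_succ : ∀ n (w : (hG c).H (n + 1)), (hG.res c).mapH (n + 1) w = 0 → ∃ w', U n w' = w
  U_tr : ∀ n (y : C.H n), U n ((hG.tr c).mapH n y) = 0
  res_tr : ∀ n (y : C.H n), (hG.res c).mapH n ((hG.tr c).mapH n y) = y + (c.hom tau).mapH n y
  res_inv : ∀ n (w : (hG c).H n),
    (c.hom tau).mapH n ((hG.res c).mapH n w) = (hG.res c).mapH n w
  res_up : ∀ q d (h : 0 + 2 * q = d) (h' : d = q + q) (x : A.H q),
    (hG.res c).mapH d (up 0 q d h x) = μ.cupH h' x x
  up_succ : ∀ j q d (h : j + 2 * q = d) (h' : j + 1 + 2 * q = d + 1) (x : A.H q),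
    up (j + 1) q (d + 1) h' x = U d (up j q d h x)
  up_add : ∀ q d (h : 0 + 2 * q = d) (h' : d = q + q) (x y : A.H q),
    up 0 q d h (x + y) = up 0 q d h x + up 0 q d h y + (hG.tr c).mapH d (μ.cupH h' x y)
  up_zero : ∀ q d (h : 0 + 2 * q = d), up 0 q d h 0 = 0

/-- The Künneth input: `H(C)` has the basis `x_i ∪ x_j`. -/
structure KunBasis (μ : Bil A A C) (c : Act C2 C) (tau : C2) where
  I : Type
  [lin : LinearOrder I]
  deg : I → ℕ
  x : ∀ i, A.H (deg i)
  b : ∀ N, Module.Basis {s : I × I // N = deg s.1 + deg s.2} (ZMod 2) (C.H N)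
  hb : ∀ N (s : {s : I × I // N = deg s.1 + deg s.2}), b N s = μ.cupH s.2 (x s.1.1) (x s.1.2)
  hτ : ∀ N (s : {s : I × I // N = deg s.1 + deg s.2}),
    (c.hom tau).mapH N (b N s) = μ.cupH (s.2.trans (Nat.add_comm _ _)) (x s.1.2) (x s.1.1)

attribute [instance] KunBasis.lin

section
variable {μ : Bil A A C} {c : Act C2 C} {tau : C2} (D : D2In μ c tau)

/-- The term `u^(d-2q) P(x)`, zero if `2q > d`. -/
def D2In.term (d q : ℕ) (x : A.H q) : (hG c).H d :=
  if h : 2 * q ≤ d then D.up (d - 2 * q) q d (by omega) x else 0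

theorem D2In.U_term (d q : ℕ) (hq : 2 * q ≤ d) (x : A.H q) :
    D.U d (D.term d q x) = D.term (d + 1) q x := by
  unfold D2In.term
  rw [dif_pos hq, dif_pos (by omega)]
  have key : ∀ (k : ℕ) (hk : k = d - 2 * q + 1) (h : k + 2 * q = d + 1),
      D.U d (D.up (d - 2 * q) q d (by omega) x) = D.up k q (d + 1) h x := by
    rintro k rfl h
    exact (D.up_succ _ _ _ _ _ x).symm
  exact key _ (by omega) _

/-- sums of squares -/
theorem D2In.sum_up {ι : Type} (q d : ℕ) (h : 0 + 2 * q = d) (F : Finset ι) (x : ι → A.H q) :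
    ∃ y : C.H d, ∑ i ∈ F, D.up 0 q d h (x i) =
      D.up 0 q d h (∑ i ∈ F, x i) + (hG.tr c).mapH d y := by
  classical
  induction F using Finset.induction_on with
  | empty => exact ⟨0, by simp [D.up_zero]⟩
  | insert a F ha ih =>
    obtain ⟨y, hy⟩ := ih
    refine ⟨y - μ.cupH (by omega) (x a) (∑ i ∈ F, x i), ?_⟩
    rw [Finset.sum_insert ha, Finset.sum_insert ha, hy, D.up_add q d h (by omega), map_sub]
    abel

/-- **The spanning theorem.** -/
theorem D2In.span (K : KunBasis μ c tau) : ∀ (d : ℕ) (w : (hG c).H d),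
    ∃ (y : C.H d) (x : ∀ q, A.H q),
      w = (hG.tr c).mapH d y + ∑ q ∈ Finset.range (d + 1), D.term d q (x q) := by
  intro d
  -- the reduction modulo `ker res`
  have red : ∀ (d : ℕ) (w : (hG c).H d), ∃ (y : C.H d) (z : A.H (d / 2)),
      (hG.res c).mapH d (w - (hG.tr c).mapH d y -
        (if h : 0 + 2 * (d / 2) = d then D.up 0 (d / 2) d h z else 0)) = 0 := by
    intro d w
    obtain ⟨y, F, hF, hv⟩ := inv_decomp (P := fun s : K.I × K.I => d = K.deg s.1 + K.deg s.2)
      (fun s hs => hs.trans (Nat.add_comm _ _)) (K.b d) ((c.hom tau).mapH d)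
      (fun s => by rw [K.hτ, K.hb]; rfl) ((hG.res c).mapH d w) (D.res_inv d w)
    by_cases hd : 0 + 2 * (d / 2) = d
    · have hdeg : ∀ i : F, K.deg i = d / 2 := fun i => by
        have := hF i.1 i.2
        simp only at this
        omega
      have hup : ∀ i : F, ∃ z : A.H (d / 2), (hG.res c).mapH d (D.up 0 (d / 2) d hd z) =
          K.b d ⟨((i : K.I), (i : K.I)), hF _ i.2⟩ := by
        intro i
        have key : ∀ (e : ℕ) (he : K.deg i = e) (h : 0 + 2 * e = d) ,
            ∃ z : A.H e, (hG.res c).mapH d (D.up 0 e d h z) =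
              K.b d ⟨((i : K.I), (i : K.I)), hF _ i.2⟩ := by
          rintro e rfl h
          refine ⟨K.x i, ?_⟩
          rw [D.res_up _ _ h (by omega), K.hb]
        exact key _ (hdeg i) hd
      choose z hz using hup
      obtain ⟨y', hy'⟩ := D.sum_up (d / 2) d hd Finset.univ z
      refine ⟨y - y', ∑ i : F, z i, ?_⟩
      rw [dif_pos hd]
      have h1 : w - (hG.tr c).mapH d (y - y') - D.up 0 (d / 2) d hd (∑ i : F, z i) =
          w - (hG.tr c).mapH d y - ∑ i : F, D.up 0 (d / 2) d hd (z i) +
            ((hG.tr c).mapH d y' + (hG.tr c).mapH d y') := by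
        rw [hy', map_sub]; abel
      have h2 : ∀ a : (hG c).H d, a + a = 0 := fun a => by
        rw [← two_smul (ZMod 2) a, show (2 : ZMod 2) = 0 from rfl, zero_smul]
      rw [h1, h2, add_zero, map_sub, map_sub, map_sum, D.res_tr, hv]
      simp only [hz]
      abel
    · refine ⟨y, 0, ?_⟩
      have hF' : IsEmpty F := ⟨fun i => hd (by
        have := hF i.1 i.2
        simp only at this
        omega)⟩
      rw [dif_neg hd, sub_zero, map_sub, D.res_tr, hv]
      simp
  induction d with
  | zero =>
    intro w
    obtain ⟨y, z, h⟩ := red 0 w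
    have h1 := D.res_zero _ h
    refine ⟨y, fun q => if hq : q = 0 then hq ▸ z else 0, ?_⟩
    rw [Finset.sum_range_one]
    have h2 : D.term 0 0 z = D.up 0 0 0 rfl z := by
      unfold D2In.term
      rw [dif_pos (by omega)]
    simp only [dif_pos]
    change w = _ + D.term 0 0 z
    rw [h2]
    rw [dif_pos (by rfl), sub_sub, sub_eq_zero] at h1
    exact h1
  | succ d ih =>
    intro w
    obtain ⟨y, z, h⟩ := red (d + 1) w
    obtain ⟨w', hw'⟩ := D.res_succ _ _ h
    obtain ⟨y', x', hx'⟩ := ih w'
    -- the new family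
    have hUw : D.U d w' = ∑ q ∈ Finset.range (d + 1),
        (if 2 * q ≤ d then D.term (d + 1) q (x' q) else 0) := by
      rw [hx', map_add, D.U_tr, zero_add, map_sum]
      refine Finset.sum_congr rfl fun q _ => ?_
      split_ifs with hq
      · exact D.U_term d q hq _
      · unfold D2In.term
        rw [dif_neg hq, map_zero]
    by_cases hd : 0 + 2 * ((d + 1) / 2) = d + 1
    · refine ⟨y, fun q => if hq : q = (d + 1) / 2 then hq ▸ z else x' q, ?_⟩
      rw [dif_pos hd] at hw'
      have e1 : w = (hG.tr c).mapH (d + 1) y + (D.U d w' + D.up 0 ((d + 1) / 2) (d + 1) hd z) := by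
        rw [hw']; abel
      rw [e1, hUw]
      congr 1
      have hmem : (d + 1) / 2 ∈ Finset.range (d + 1 + 1) := by
        rw [Finset.mem_range]; omega
      rw [← Finset.add_sum_erase _ _ hmem]
      refine (add_comm _ _).trans ?_
      congr 1
      · beta_reduce
        rw [dif_pos rfl]
        unfold D2In.term
        rw [dif_pos (by omega)]
        have key : ∀ (k : ℕ) (hk : k = 0) (h : k + 2 * ((d + 1) / 2) = d + 1),
            D.up 0 ((d + 1) / 2) (d + 1) hd z = D.up k ((d + 1) / 2) (d + 1) h z := by
          rintro k rfl h; rfl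
        exact key _ (by omega) _
      · -- compare the two sums
        rw [← Finset.sum_filter]
        have hsub : Finset.filter (fun q => 2 * q ≤ d) (Finset.range (d + 1)) ⊆
            (Finset.range (d + 1 + 1)).erase ((d + 1) / 2) := by
          intro q hq
          rw [Finset.mem_filter, Finset.mem_range] at hq
          rw [Finset.mem_erase, Finset.mem_range]
          omega
        rw [Finset.sum_subset_zero_on_sdiff hsub (f := fun q => D.term (d + 1) q (x' q))
          (g := fun q => D.term (d + 1) q
            (if hq : q = (d + 1) / 2 then hq ▸ z else x' q))]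
        · intro q hq
          rw [Finset.mem_sdiff, Finset.mem_erase, Finset.mem_range, Finset.mem_filter,
            Finset.mem_range] at hq
          unfold D2In.term
          rw [dif_neg (by omega)]
        · intro q hq
          rw [Finset.mem_filter, Finset.mem_range] at hq
          rw [dif_neg (by omega)]
    · refine ⟨y, x', ?_⟩
      rw [dif_neg hd, sub_zero] at hw'
      have e1 : w = (hG.tr c).mapH (d + 1) y + D.U d w' := by
        rw [hw']; abel
      rw [e1, hUw]
      congr 1
      rw [← Finset.sum_filter]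
      refine Finset.sum_subset_zero_on_sdiff ?_ ?_ ?_
      · intro q hq
        rw [Finset.mem_filter, Finset.mem_range] at hq
        rw [Finset.mem_range]
        omega
      · intro q hq
        rw [Finset.mem_sdiff, Finset.mem_range, Finset.mem_filter, Finset.mem_range] at hq
        unfold D2In.term
        rw [dif_neg (by omega)]
      · intro q _
        rfl

/-- **Detection on the diagonal.** Let `cf q` be a family of additive maps with
`cf q (u^j P(x)) = x` for `x ∈ H^q` and `cf q (u^j P(x)) = 0` for `x ∈ H^q'`, `q < q'`. -/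
theorem D2In.det (d : ℕ) (cf : ∀ q, (hG c).H d →ₗ[ZMod 2] A.H q)
    (h_eq : ∀ q (x : A.H q), 2 * q < d → cf q (D.term d q x) = x)
    (h_lt : ∀ q q' (x : A.H q'), q < q' → 2 * q' < d → cf q (D.term d q' x) = 0)
    (h_zero : ∀ q, 2 * q < d → D.term d q 0 = 0)
    (x : ∀ q, A.H q)
    (hx : ∀ q, cf q (∑ q ∈ Finset.range d, if 2 * q < d then D.term d q (x q) else 0) = 0) :
    ∀ q, 2 * q < d → x q = 0 := by
  intro q
  induction q using Nat.strong_induction_on with
  | _ q ih =>
    intro hq
    have h1 := hx q
    rw [map_sum, Finset.sum_eq_single q] at h1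
    · rw [if_pos hq, h_eq q _ hq] at h1
      exact h1
    · intro q' _ hq'
      split_ifs with h
      · rcases Nat.lt_or_ge q q' with h2 | h2
        · exact h_lt q q' _ h2 h
        · rw [ih q' (by omega) h, h_zero q' h, map_zero]
      · exact map_zero _
    · intro h2
      exact absurd (Finset.mem_range.2 (by omega)) h2

end

end Vale.Agent.P263.S
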