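import Vale.Agent.P263.S.LCP
import Vale.Agent.P263.S.Five

/-!
# P263, block S: homotopy fixed points preserve cohomology isomorphisms (helper801)

If `f : B → C` is equivariant, bijective on `H^i` for `i < m` and injective on `H^m`, then the same
holds for `hG f : hG B → hG C`.
-/

namespace Vale.Agent.P263.S

open CosMod

variable {R : Type} [CommRing R] {G : Type}

section fnE

variable {B C : CosMod R}

/-- functoriality of `fnE` -/
def fnE.mapHom (G : Type) (f : Hom B C) : Hom (fnE G B) (fnE G C) where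
  app p :=
    { toFun := fun F s => f.app p (F s)
      map_add' := fun F F' => by funext s; exact map_add _ _ _
      map_smul' := fun r F => by funext s; exact map_smul _ _ _ }
  nat φ F := by funext s; exact f.nat φ _

@[simp] theorem fnE.mapHom_apply (f : Hom B C) {p : ℕ} (F : (fnE G B).obj p)
    (s : Fin (p+1) → G) : (fnE.mapHom G f).app p F s = f.app p (F s) := rfl

variable [Group G]

variable (G) in
theorem resE_inj (B : CosMod R) (n : ℕ) : (resE B (G := G)).Inj n :=
  Hom.inj_iff.2 fun _ hx h => fnE_mem_Bd B hx h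

variable (G) in
theorem resE_surj (B : CosMod R) (n : ℕ) : (resE B (G := G)).Surj n := by
  intro y
  refine ⟨(constE B).mapH n y, ?_⟩
  rw [← Hom.mapH_comp]
  exact Hom.mapH_id n y

variable (G) in
theorem resE_bijective (B : CosMod R) (n : ℕ) : Function.Bijective ((resE B (G := G)).mapH n) :=
  ⟨resE_inj G B n, resE_surj G B n⟩

variable (G) in
theorem constE_bijective (B : CosMod R) (n : ℕ) :
    Function.Bijective ((constE B (G := G)).mapH n) := by
  have h : ∀ y, (resE B (G := G)).mapH n ((constE B).mapH n y) = y := fun y => by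
    rw [← Hom.mapH_comp]
    exact Hom.mapH_id n y
  refine ⟨fun x y e => ?_, fun x => ⟨(resE B).mapH n x, ?_⟩⟩
  · rw [← h x, ← h y, e]
  · apply (resE_inj G B n)
    rw [h]

theorem resE_nat (f : Hom B C) (n : ℕ) (x : (fnE G B).H n) :
    (resE C).mapH n ((fnE.mapHom G f).mapH n x) = f.mapH n ((resE B).mapH n x) := by
  rw [← Hom.mapH_comp, ← Hom.mapH_comp]
  rfl

theorem fnE.inj {f : Hom B C} {n : ℕ} (h : f.Inj n) : (fnE.mapHom G f).Inj n := by
  intro x y e
  apply resE_inj G B n
  apply h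
  rw [← resE_nat, ← resE_nat, e]

theorem fnE.surj {f : Hom B C} {n : ℕ} (h : f.Surj n) : (fnE.mapHom G f).Surj n := by
  intro y
  obtain ⟨z, hz⟩ := h ((resE C).mapH n y)
  obtain ⟨x, rfl⟩ := resE_surj G B n z
  refine ⟨x, ?_⟩
  apply resE_inj G C n
  rw [resE_nat, hz]

end fnE

variable [Group G]

section kco

variable {B C : CosMod R}

/-- functoriality of `kco` -/
def kco.mapHom (G : Type) [Group G] (f : Hom B C) : Hom (kco G B) (kco G C) where
  app p := (LinearMap.compLeft (f.app p) G).restrict (fun F hF => by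
    rw [LinearMap.mem_ker, LinearMap.proj_apply] at hF ⊢
    change f.app p (F 1) = 0
    rw [hF, map_zero])
  nat φ F := by
    apply Subtype.ext; funext x; exact f.nat φ _

theorem kco.mapHom_apply (f : Hom B C) {p : ℕ} (F : (kco G B).obj p) (x : G) :
    ((kco.mapHom G f).app p F).1 x = f.app p (F.1 x) := rfl

theorem kco.mem_Z {p : ℕ} {F : (kco G B).obj p} :
    F ∈ (kco G B).Z p ↔ ∀ x, F.1 x ∈ B.Z p := by
  rw [CosMod.mem_Z]
  constructor
  · intro h x
    rw [CosMod.mem_Z, ← kco_d_apply, h]; rfl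
  · intro h
    apply Subtype.ext; funext x
    rw [kco_d_apply]; exact h x

/-- evaluation -/
def kco.ev (x : G) : Hom (kco G B) B where
  app _ := (LinearMap.proj x).comp (Submodule.subtype _)
  nat _ _ := rfl

theorem kco.mem_Bd {p : ℕ} {F : (kco G B).obj p} :
    F ∈ (kco G B).Bd p ↔ ∀ x, F.1 x ∈ B.Bd p :=
  ⟨fun h x => (kco.ev x).app_mem_Bd h, kco_mem_Bd⟩

theorem kco.inj {f : Hom B C} {n : ℕ} (h : f.Inj n) : (kco.mapHom G f).Inj n := by
  rw [Hom.inj_iff] at h ⊢
  intro x hx hx'
  rw [kco.mem_Bd]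
  intro g
  exact h _ (kco.mem_Z.1 hx g) (kco.mem_Bd.1 hx' g)

theorem kco.surj {f : Hom B C} {n : ℕ} (h : f.Surj n) : (kco.mapHom G f).Surj n := by
  classical
  rw [Hom.surj_iff] at h ⊢
  intro y hy
  have h' : ∀ g : G, ∃ x ∈ B.Z n, f.app n x - y.1 g ∈ C.Bd n := fun g => h _ (kco.mem_Z.1 hy g)
  choose x hx hxy using h'
  have h0 : (fun g => if g = 1 then 0 else x g : G → B.obj n) ∈
      LinearMap.ker (LinearMap.proj (R := R) (φ := fun _ : G => B.obj n) 1) := by
    rw [LinearMap.mem_ker, LinearMap.proj_apply, if_pos rfl]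
  refine ⟨⟨fun g => if g = 1 then 0 else x g, h0⟩, ?_, ?_⟩
  · refine kco.mem_Z.2 ?_
    intro g
    change (if g = 1 then 0 else x g) ∈ B.Z n
    split_ifs
    · exact Submodule.zero_mem _
    · exact hx g
  · refine kco.mem_Bd.2 ?_
    intro g
    change f.app n (if g = 1 then 0 else x g) - y.1 g ∈ C.Bd n
    split_ifs with hg
    · rw [map_zero, hg, kco_one, sub_zero]; exact Submodule.zero_mem _
    · exact hxy g

theorem kco.mapHom_eqv (a : Act G B) (c : Act G C) (f : Hom B C)
    (hf : ∀ p (g : G) (x : B.obj p), f.app p (a.act p g x) = c.act p g (f.app p x))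
    (p : ℕ) (g : G) (x : (kco G B).obj p) :
    (kco.mapHom G f).app p ((kcoAct a).act p g x) =
      (kcoAct c).act p g ((kco.mapHom G f).app p x) := by
  apply Subtype.ext; funext y
  change f.app p (x.1 (y * g) - a.act p y (x.1 g)) =
    f.app p (x.1 (y * g)) - c.act p y (f.app p (x.1 g))
  rw [map_sub, hf]

end kco

section main

variable {B C : CosMod R}

/-- the morphism of dimension shifting sequences -/
def shMor (a : Act G B) (c : Act G C) (f : Hom B C)
    (hf : ∀ p (g : G) (x : B.obj p), f.app p (a.act p g x) = c.act p g (f.app p x)) :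
    SESHom (shSES a) (shSES c) where
  fA := hG.mapHom a c f hf
  fB := fnE.mapHom G f
  fC := hG.mapHom (kcoAct a) (kcoAct c) (kco.mapHom G f) (kco.mapHom_eqv a c f hf)
  hi _ _ := rfl
  hp n F := by
    apply Subtype.ext; funext s; apply Subtype.ext; funext x
    change f.app n (F _ - a.act n x (F s)) = f.app n (F _) - c.act n x (f.app n (F s))
    rw [map_sub, hf]

theorem hG_inj_surj (j : ℕ) :
    (∀ (B C : CosMod R) (a : Act G B) (c : Act G C) (f : Hom B C)
      (hf : ∀ p (g : G) (x : B.obj p), f.app p (a.act p g x) = c.act p g (f.app p x)),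
      (∀ i, i < j → f.Inj i ∧ f.Surj i) → f.Inj j → (hG.mapHom a c f hf).Inj j) ∧
    (∀ (B C : CosMod R) (a : Act G B) (c : Act G C) (f : Hom B C)
      (hf : ∀ p (g : G) (x : B.obj p), f.app p (a.act p g x) = c.act p g (f.app p x)),
      (∀ i, i < j → f.Inj i ∧ f.Surj i) → f.Inj j → f.Surj j →
      (hG.mapHom a c f hf).Surj j) := by
  induction j with
  | zero =>
    have h0 : ∀ (B C : CosMod R) (a : Act G B) (c : Act G C) (f : Hom B C)
      (hf : ∀ p (g : G) (x : B.obj p), f.app p (a.act p g x) = c.act p g (f.app p x)),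
      (∀ i, i < 0 → f.Inj i ∧ f.Surj i) → f.Inj 0 → (hG.mapHom a c f hf).Inj 0 := by
      intro B C a c f hf _ h
      exact (shMor a c f hf).inj_A_zero (fnE.inj h)
    refine ⟨h0, ?_⟩
    intro B C a c f hf hlt h1 h2
    exact (shMor a c f hf).surj_A_zero (fnE.surj h2)
      (h0 _ _ _ _ _ (kco.mapHom_eqv a c f hf) (fun i hi => absurd hi (Nat.not_lt_zero i))
        (kco.inj h1))
  | succ j ih =>
    have h0 : ∀ (B C : CosMod R) (a : Act G B) (c : Act G C) (f : Hom B C)
      (hf : ∀ p (g : G) (x : B.obj p), f.app p (a.act p g x) = c.act p g (f.app p x)),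
      (∀ i, i < j + 1 → f.Inj i ∧ f.Surj i) → f.Inj (j+1) →
      (hG.mapHom a c f hf).Inj (j+1) := by
      intro B C a c f hf hlt h
      have hj := hlt j (Nat.lt_succ_self j)
      exact (shMor a c f hf).inj_A (fnE.surj hj.2)
        (ih.1 _ _ _ _ _ (kco.mapHom_eqv a c f hf) (fun i hi => ⟨kco.inj (hlt i (Nat.lt_succ_of_lt hi)).1,
          kco.surj (hlt i (Nat.lt_succ_of_lt hi)).2⟩) (kco.inj hj.1)) (fnE.inj h)
    refine ⟨h0, ?_⟩
    intro B C a c f hf hlt h1 h2
    have hj := hlt j (Nat.lt_succ_self j)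
    exact (shMor a c f hf).surj_A
      (ih.2 _ _ _ _ _ (kco.mapHom_eqv a c f hf) (fun i hi => ⟨kco.inj (hlt i (Nat.lt_succ_of_lt hi)).1,
          kco.surj (hlt i (Nat.lt_succ_of_lt hi)).2⟩) (kco.inj hj.1) (kco.surj hj.2))
      (fnE.surj h2)
      (h0 _ _ _ _ _ (kco.mapHom_eqv a c f hf) (fun i hi => ⟨kco.inj (hlt i hi).1, kco.surj (hlt i hi).2⟩) (kco.inj h1))

variable (a : Act G B) (c : Act G C) (f : Hom B C)
  (hf : ∀ p (g : G) (x : B.obj p), f.app p (a.act p g x) = c.act p g (f.app p x))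

/-- **homotopy fixed points preserve isomorphisms in a range** -/
theorem hG_inj {m : ℕ} (h : ∀ i, i < m → f.Inj i ∧ f.Surj i) (hm : f.Inj m) :
    (hG.mapHom a c f hf).Inj m := (hG_inj_surj m).1 B C a c f hf h hm

theorem hG_surj {m : ℕ} (h : ∀ i, i ≤ m → f.Inj i ∧ f.Surj i) :
    (hG.mapHom a c f hf).Surj m :=
  (hG_inj_surj m).2 B C a c f hf (fun i hi => h i hi.le) (h m le_rfl).1 (h m le_rfl).2

theorem hG_bij_range {m : ℕ} (h : ∀ i, i < m → Function.Bijective (f.mapH i)) (j : ℕ)
    (hj : j < m) : Function.Bijective ((hG.mapHom a c f hf).mapH j) :=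
  ⟨hG_inj a c f hf (fun i hi => h i (hi.trans hj)) (h j hj).1,
    hG_surj a c f hf (fun i hi => h i (lt_of_le_of_lt hi hj))⟩

/-- the range statement in one piece: bijective below `m`, injective at `m` -/
theorem hG_range {m : ℕ} (h : ∀ i, i < m → Function.Bijective (f.mapH i))
    (hm : Function.Injective (f.mapH m)) :
    (∀ i, i < m → Function.Bijective ((hG.mapHom a c f hf).mapH i)) ∧
      Function.Injective ((hG.mapHom a c f hf).mapH m) :=
  ⟨fun i hi => hG_bij_range a c f hf h i hi, hG_inj a c f hf h hm⟩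

/-- homotopy fixed points preserve isomorphisms on cohomology -/
theorem hG_bijective (h : ∀ i, Function.Bijective (f.mapH i)) (j : ℕ) :
    Function.Bijective ((hG.mapHom a c f hf).mapH j) :=
  hG_bij_range a c f hf (m := j+1) (fun i _ => h i) j (Nat.lt_succ_self j)

end main

end Vale.Agent.P263.S
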