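import Vale.Agent.P263.S.Inner
import Vale.Agent.P263.S.GysTriv

/-!
# P263, block S5 (helper915): coefficients of the inner variable

For the trivial outer action of `C2` on `hG b` the coefficients `cf` of `v z` are
`cf (n + 1) (j + 1) (v z) = u (cf n j z)` and `cf (n + 1) 0 (v z) = 0`.
-/

noncomputable section

namespace Vale.Agent.P263.S

open CosMod

variable {K : Type} [Group K] (ε : K →* C2) {B : CosMod (ZMod 2)} (b : Act K B)

/-- the inner variable for the trivial outer action of `C2` -/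
def vin (n : ℕ) : (hG (Act.triv C2 (hG b))).H n →ₗ[ZMod 2] (hG (Act.triv C2 (hG b))).H (n + 1) :=
  vinH ε (Act.triv C2 B) b (Act.Comm.triv_left b) n

theorem vin_pstar (n : ℕ) (w : (hG b).H n) :
    vin ε b n ((hG.pstar C2 (hG b)).mapH n w) = (hG.pstar C2 (hG b)).mapH (n + 1) (uH ε b n w) :=
  vinH_pstar ε b n w

theorem res_vin (n : ℕ) (z : (hG (Act.triv C2 (hG b))).H n) :
    (hG.res (Act.triv C2 (hG b))).mapH (n + 1) (vin ε b n z) =
      uH ε b n ((hG.res (Act.triv C2 (hG b))).mapH n z) :=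
  res_vinH ε (Act.triv C2 B) b (Act.Comm.triv_left b) n z

theorem vin_uH (n : ℕ) (z : (hG (Act.triv C2 (hG b))).H n) :
    vin ε b (n + 1) (uH idC (Act.triv C2 (hG b)) n z) =
      uH idC (Act.triv C2 (hG b)) (n + 1) (vin ε b n z) :=
  vinH_uH ε (Act.triv C2 B) b (Act.Comm.triv_left b) idC n z

theorem eq_pstar_zero (A : CosMod (ZMod 2)) (x : (hG (Act.triv C2 A)).H 0) :
    x = (hG.pstar C2 A).mapH 0 ((hG.res (Act.triv C2 A)).mapH 0 x) := by
  rw [← sub_eq_zero]
  apply gys_res_zero
  rw [map_sub, hG.mapH_res_pstar, sub_self]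

/-- the coefficients of `v z` -/
theorem cf_vin (n j : ℕ) (z : (hG (Act.triv C2 (hG b))).H n) :
    cf (hG b) (n + 1) (j + 1) (vin ε b n z) = uH ε b j (cf (hG b) n j z) := by
  induction n with
  | zero =>
    rw [eq_pstar_zero (hG b) z, vin_pstar]
    rcases eq_or_ne 0 j with h | h
    · subst h
      rw [cf_pstar_self, cf_pstar_self]
    · rw [cf_pstar_ne _ (by omega), cf_pstar_ne _ h, map_zero]
  | succ n ih =>
    rw [eq_pstar_add (hG b) n z]
    simp only [map_add]
    rw [vin_pstar, vin_uH, cf_uH, ih, cf_uH]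
    congr 1
    rcases eq_or_ne (n + 1) j with h | h
    · subst h
      rw [cf_pstar_self, cf_pstar_self]
    · rw [cf_pstar_ne _ (by omega), cf_pstar_ne _ h, map_zero]

/-- the coefficient of degree zero of `v z` -/
theorem cf_vin_zero (n : ℕ) (z : (hG (Act.triv C2 (hG b))).H n) :
    cf (hG b) (n + 1) 0 (vin ε b n z) = 0 := by
  induction n with
  | zero =>
    rw [eq_pstar_zero (hG b) z, vin_pstar, cf_pstar_ne _ (by omega)]
  | succ n ih =>
    rw [eq_pstar_add (hG b) n z]
    simp only [map_add]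
    rw [vin_pstar, vin_uH, cf_uH, ih, cf_pstar_ne _ (by omega), add_zero]

end Vale.Agent.P263.S
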