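import Vale.Agent.P263.S.Good
import Mathlib.RingTheory.Flat.Basic
import Mathlib.Algebra.BigOperators.NatAntidiagonal

/-!
# P263, block S: the Künneth theorem for the levelwise tensor product (helper718)

`R` is a ring over which all modules are flat (`AllFlat`, e.g. a field).  No normalisation, no
Eilenberg-Zilber: only the path object (`Dec`) and dimension shifting.
-/

noncomputable section

open scoped TensorProduct

namespace Vale.Agent.P263.S

open CosMod

/-- all modules are flat (e.g. fields) -/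
class AllFlat (R : Type) [CommRing R] : Prop where
  flat : ∀ (M : Type) [AddCommGroup M] [Module R M], Module.Flat R M

instance AllFlat.ofField (k : Type) [Field k] : AllFlat k := ⟨fun _ _ _ => inferInstance⟩

instance AllFlat.zmod2 : AllFlat (ZMod 2) := AllFlat.ofField (ZMod 2)

variable {R : Type} [CommRing R]

/-! ### Cokernels -/

/-- the cokernel of a map -/
def coker {A B : CosMod R} (f : Hom A B) : CosMod R :=
  quot B (fun p => LinearMap.range (f.app p)) (by
    rintro p q φ _ ⟨y, rfl⟩
    exact ⟨A.map φ y, f.nat φ y⟩)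

/-- the projection to the cokernel -/
def cokerHom {A B : CosMod R} (f : Hom A B) : Hom B (coker f) :=
  quotHom B (fun p => LinearMap.range (f.app p)) (by
    rintro p q φ _ ⟨y, rfl⟩
    exact ⟨A.map φ y, f.nat φ y⟩)

/-- the short exact sequence of an injective map -/
def sesCoker {A B : CosMod R} (f : Hom A B) (hf : ∀ p, Function.Injective (f.app p)) :
    SES A B (coker f) where
  i := f
  p := cokerHom f
  inj := hf
  surj _ := Submodule.Quotient.mk_surjective _
  pi p x := (Submodule.Quotient.mk_eq_zero (LinearMap.range (f.app p))).2 ⟨x, rfl⟩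
  ex p x hx := by
    obtain ⟨y, hy⟩ := (Submodule.Quotient.mk_eq_zero (LinearMap.range (f.app p))).1 hx
    exact ⟨y, hy⟩

/-- Tensoring a short exact sequence with a cosimplicial module. -/
def SES.tens [AllFlat R] {A B C : CosMod R} (S : SES A B C) (D : CosMod R) :
    SES (tensor A D) (tensor B D) (tensor C D) where
  i := S.i.tens (Hom.id D)
  p := S.p.tens (Hom.id D)
  inj p := by
    have := AllFlat.flat (R := R) (D.obj p)
    exact Module.Flat.rTensor_preserves_injective_linearMap (M := D.obj p) (S.i.app p) (S.inj p)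
  surj p := LinearMap.rTensor_surjective (D.obj p) (S.surj p)
  pi p x := by
    have h : Function.Exact (S.i.app p) (S.p.app p) := fun y =>
      ⟨fun hy => S.ex p y hy, fun ⟨a, ha⟩ => by rw [← ha]; exact S.pi p a⟩
    exact ((rTensor_exact (D.obj p) h (S.surj p)) _).2 ⟨x, rfl⟩
  ex p x hx := by
    have h : Function.Exact (S.i.app p) (S.p.app p) := fun y =>
      ⟨fun hy => S.ex p y hy, fun ⟨a, ha⟩ => by rw [← ha]; exact S.pi p a⟩
    exact ((rTensor_exact (D.obj p) h (S.surj p)) x).1 hx

/-! ### The exterior product in cohomology -/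

section crH

variable {A B : CosMod R}

/-- the exterior product of cocycles, in cohomology -/
def crZ {n m N : ℕ} (h : N = n + m) : A.Z n →ₗ[R] B.Z m →ₗ[R] (tensor A B).H N :=
  LinearMap.mk₂ R (fun x y => (tensor A B).cls N ⟨cr N x.1 y.1, cr_mem_Z h x.2 y.2⟩)
    (fun x x' y => by
      rw [← map_add]; congr 1; apply Subtype.ext; exact cr_add_left _ _ _)
    (fun r x y => by
      rw [← map_smul]; congr 1; apply Subtype.ext; exact cr_smul_left _ _ _)
    (fun x y y' => by
      rw [← map_add]; congr 1; apply Subtype.ext; exact cr_add_right _ _ _)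
    (fun r x y => by
      rw [← map_smul]; congr 1; apply Subtype.ext; exact cr_smul_right _ _ _)

/-- The exterior product in cohomology (zero unless `N = n + m`). -/
def crH (n m N : ℕ) : A.H n →ₗ[R] B.H m →ₗ[R] (tensor A B).H N :=
  if h : N = n + m then
    liftH
      { toFun := fun x => liftH (crZ h x)
          (fun y hy => cls_eq_zero_iff.2 (cr_mem_Bd_right h x.2 hy))
        map_add' := fun x x' => H_hom_ext fun y =>
          LinearMap.congr_fun (map_add (crZ h) x x') y
        map_smul' := fun r x => H_hom_ext fun y =>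
          LinearMap.congr_fun (map_smul (crZ h) r x) y }
      (fun x hx => H_hom_ext fun y => by
        exact cls_eq_zero_iff.2 (cr_mem_Bd_left h hx y.2))
  else 0

theorem crH_cls {n m N : ℕ} (h : N = n + m) (x : A.Z n) (y : B.Z m) :
    crH n m N (A.cls n x) (B.cls m y) =
      (tensor A B).cls N ⟨cr N x.1 y.1, cr_mem_Z h x.2 y.2⟩ := by
  rw [crH, dif_pos h]
  rfl

theorem crH_of_ne {n m N : ℕ} (h : ¬ N = n + m) (x : A.H n) (y : B.H m) :
    crH n m N x y = 0 := by
  rw [crH, dif_neg h]
  rfl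

theorem crH_nat {A' B' : CosMod R} (f : Hom A A') (g : Hom B B') (n m N : ℕ) (x : A.H n)
    (y : B.H m) : (f.tens g).mapH N (crH n m N x y) = crH n m N (f.mapH n x) (g.mapH m y) := by
  by_cases h : N = n + m
  · induction x using H_ind with
    | h x =>
      induction y using H_ind with
      | h y =>
        rw [crH_cls h, Hom.mapH_cls, Hom.mapH_cls, Hom.mapH_cls, crH_cls h]
        congr 1
        exact Subtype.ext (cr_nat f g x.1 y.1)
  · rw [crH_of_ne h, crH_of_ne h, map_zero]

theorem conn_crH [AllFlat R] {A B C D : CosMod R} (S : SES A B C) (n m N : ℕ) (x : C.H n)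
    (y : D.H m) : (S.tens D).conn N (crH n m N x y) = crH (n + 1) m (N + 1) (S.conn n x) y := by
  by_cases h : N = n + m
  · induction x using H_ind with
    | h x =>
      induction y using H_ind with
      | h y =>
        obtain ⟨b, a, hb, ha, hc⟩ := S.conn_exists n x
        rw [hc, crH_cls h, crH_cls (by omega)]
        refine (S.tens D).conn_cls (b := cr N b y.1) ?_ ?_
        · have := cr_nat (N := N) S.p (Hom.id D) b y.1
          rw [hb] at this
          exact this
        · have h1 := cr_nat (N := N + 1) S.i (Hom.id D) a.1 y.1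
          rw [ha] at h1
          have h2 := d_cr h b y.1
          rw [mem_Z.1 y.2, cr_zero_right, sn_zero_val, add_zero] at h2
          rw [h2]
          exact h1
  · rw [crH_of_ne h, crH_of_ne (by omega), map_zero]

/-- the exterior product on the tensor product of the cohomologies -/
def kap (A B : CosMod R) (n m N : ℕ) : A.H n ⊗[R] B.H m →ₗ[R] (tensor A B).H N :=
  TensorProduct.lift (crH n m N)

@[simp] theorem kap_tmul (n m N : ℕ) (x : A.H n) (y : B.H m) :
    kap A B n m N (x ⊗ₜ y) = crH n m N x y := TensorProduct.lift.tmul _ _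

theorem kap_nat {A' B' : CosMod R} (f : Hom A A') (g : Hom B B') (n m N : ℕ)
    (t : A.H n ⊗[R] B.H m) : (f.tens g).mapH N (kap A B n m N t) =
      kap A' B' n m N (TensorProduct.map (f.mapH n) (g.mapH m) t) := by
  induction t using TensorProduct.induction_on with
  | zero => simp
  | tmul x y => rw [kap_tmul, crH_nat, TensorProduct.map_tmul, kap_tmul]
  | add x y hx hy => rw [map_add, map_add, hx, hy, map_add, map_add]

theorem conn_kap [AllFlat R] {A B C D : CosMod R} (S : SES A B C) (n m N : ℕ)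
    (t : C.H n ⊗[R] D.H m) : (S.tens D).conn N (kap C D n m N t) =
      kap A D (n + 1) m (N + 1) (TensorProduct.map (S.conn n) LinearMap.id t) := by
  induction t using TensorProduct.induction_on with
  | zero => simp
  | tmul x y => rw [kap_tmul, conn_crH, TensorProduct.map_tmul, kap_tmul]; rfl
  | add x y hx hy => rw [map_add, map_add, hx, hy, map_add, map_add]

end crH

/-! ### Degree zero -/

/-- `H^0(A) = 0` implies `H^0(A ⊗ B) = 0`. -/
theorem tensor_Z_zero [AllFlat R] {A : CosMod R} (hA : A.Z 0 ≤ A.Bd 0) (B : CosMod R) :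
    (tensor A B).Z 0 ≤ (tensor A B).Bd 0 := by
  intro z hz
  have key : (TensorProduct.map (LinearMap.id : A.obj 1 →ₗ[R] A.obj 1) (B.map (sg 0 0))).comp
      ((tensor A B).d 0) = LinearMap.rTensor (B.obj 0) (A.d 0) := by
    apply TensorProduct.ext'
    intro a b
    have e : ∀ j, (sg 0 0).comp (dl 0 j) = OrderHom.id := by
      intro j
      apply OrderHom.ext
      funext y
      exact Subsingleton.elim (α := Fin 1) _ _
    have h1 : (tensor A B).d 0 (a ⊗ₜ[R] b) = ∑ i ∈ Finset.range (0 + 2),
        sn i (A.map (dl 0 i) a ⊗ₜ[R] B.map (dl 0 i) b) := (tensor A B).d_apply 0 _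
    refine (congrArg (TensorProduct.map (LinearMap.id : A.obj 1 →ₗ[R] A.obj 1)
      (B.map (sg 0 0))) h1).trans ?_
    rw [map_sum, LinearMap.rTensor_tmul, A.d_apply, TensorProduct.sum_tmul]
    refine Finset.sum_congr rfl fun i _ => ?_
    rw [CosMod.sn_lin, TensorProduct.map_tmul, B.map_map, e, B.map_id_apply, LinearMap.id_apply]
    simp [sn, TensorProduct.smul_tmul']
  have hinj : Function.Injective (A.d 0) := by
    rw [injective_iff_map_eq_zero]
    intro a ha
    exact mem_Bd_zero.1 (hA ha)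
  have := AllFlat.flat (R := R) (B.obj 0)
  have hinj' := Module.Flat.rTensor_preserves_injective_linearMap (M := B.obj 0) (A.d 0) hinj
  rw [mem_Z] at hz
  have h2 : LinearMap.rTensor (B.obj 0) (A.d 0) z = 0 :=
    (LinearMap.congr_fun key z).symm.trans
      ((congrArg (TensorProduct.map (LinearMap.id : A.obj 1 →ₗ[R] A.obj 1)
        (B.map (sg 0 0))) hz).trans (map_zero _))
  rw [mem_Bd_zero]
  exact hinj' (h2.trans (map_zero _).symm)

/-! ### The path object -/

namespace Kun

/-- the constant map `0` -/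
def zr (n p : ℕ) : Op n p := ⟨fun _ => 0, fun _ _ _ => le_rfl⟩

theorem zr_val (n p : ℕ) (x : Fin (n + 1)) : zr n p x = 0 := rfl

/-- `0 ↦ 0`, `i + 1 ↦ f i + 1` -/
def up {p q : ℕ} (f : Op p q) : Op (p + 1) (q + 1) where
  toFun x := if h : x.1 = 0 then 0 else
    ⟨(f ⟨x.1 - 1, by have := x.2; omega⟩).1 + 1, by omega⟩
  monotone' x y h := by
    have hx := x.2
    have hy := y.2
    simp only [Fin.le_def] at h
    by_cases h1 : x.1 = 0
    · simp only [h1, dite_true]
      exact Fin.zero_le _
    · have h2 : ¬ y.1 = 0 := by omega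
      simp only [h1, h2, dite_false, Fin.le_def]
      have := f.monotone (show (⟨x.1 - 1, by omega⟩ : Fin (p + 1)) ≤ ⟨y.1 - 1, by omega⟩ by
        simp only [Fin.le_def]; omega)
      simp only [Fin.le_def] at this
      omega

theorem up_zero {p q : ℕ} (f : Op p q) (x : Fin (p + 2)) (h : x.1 = 0) : (up f x).1 = 0 := by
  show (if h : x.1 = 0 then (0 : Fin (q + 2)) else _).1 = 0
  rw [dif_pos h]
  rfl

theorem up_pos {p q : ℕ} (f : Op p q) (x : Fin (p + 2)) (h : ¬ x.1 = 0) (y : Fin (p + 1))
    (hy : y.1 = x.1 - 1) : (up f x).1 = (f y).1 + 1 := by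
  show (if h : x.1 = 0 then (0 : Fin (q + 2)) else
    ⟨(f ⟨x.1 - 1, by have := x.2; omega⟩).1 + 1, by omega⟩).1 = (f y).1 + 1
  have e : (⟨x.1 - 1, by have := x.2; omega⟩ : Fin (p + 1)) = y := Fin.ext hy.symm
  rw [dif_neg h]
  exact congrArg (fun z => (f z).1 + 1) e

theorem up_id (p : ℕ) : up (OrderHom.id : Op p p) = OrderHom.id := by
  apply OrderHom.ext
  funext x
  apply Fin.ext
  have hx := x.2
  by_cases h : x.1 = 0
  · rw [up_zero _ x h]; exact h.symm
  · rw [up_pos _ x h ⟨x.1 - 1, by omega⟩ rfl]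
    show x.1 - 1 + 1 = x.1
    omega

theorem up_comp {p q r : ℕ} (f : Op q r) (g : Op p q) : up (f.comp g) = (up f).comp (up g) := by
  apply OrderHom.ext
  funext x
  apply Fin.ext
  have hx := x.2
  show (up (f.comp g) x).1 = (up f (up g x)).1
  by_cases h : x.1 = 0
  · rw [up_zero _ x h, up_zero _ _ (up_zero _ x h)]
  · have h1 := up_pos g x h ⟨x.1 - 1, by omega⟩ rfl
    rw [up_pos _ x h ⟨x.1 - 1, by omega⟩ rfl, up_pos f (up g x) (by omega) (g ⟨x.1 - 1, by omega⟩)
      (by omega)]
    rfl

theorem up_dl {p q : ℕ} (f : Op p q) : (up f).comp (dl p 0) = (dl q 0).comp f := by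
  apply OrderHom.ext
  funext x
  apply Fin.ext
  show (up f (dl p 0 x)).1 = (dl q 0 (f x)).1
  have h1 : (dl p 0 x).1 = x.1 + 1 := by rw [dl_val, if_neg (Nat.not_lt_zero _)]
  rw [up_pos f _ (by omega) x (by omega), dl_val, if_neg (Nat.not_lt_zero _)]

theorem up_zr {p q n : ℕ} (f : Op p q) : (up f).comp (zr n (p + 1)) = zr n (q + 1) := by
  apply OrderHom.ext
  funext x
  apply Fin.ext
  exact up_zero f (zr n (p + 1) x) rfl

/-- the homotopy: `0 ↦ 0`, `i + 1 ↦ i + 1` if `θ i = 1` and `0` else -/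
def hh {p : ℕ} (θ : Op p 1) : Op (p + 1) (p + 1) where
  toFun x := if h : x.1 = 0 then 0 else
    if θ ⟨x.1 - 1, by have := x.2; omega⟩ = 1 then x else 0
  monotone' x y h := by
    have hx := x.2
    have hy := y.2
    simp only [Fin.le_def] at h
    by_cases h1 : x.1 = 0
    · simp only [h1, dite_true]
      exact Fin.zero_le _
    · have h2 : ¬ y.1 = 0 := by omega
      simp only [h1, h2, dite_false]
      by_cases h3 : θ ⟨x.1 - 1, by omega⟩ = 1
      · have h4 : θ ⟨y.1 - 1, by omega⟩ = 1 := by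
          have := θ.monotone (show (⟨x.1 - 1, by omega⟩ : Fin (p + 1)) ≤ ⟨y.1 - 1, by omega⟩ by
            simp only [Fin.le_def]; omega)
          rw [h3] at this
          exact le_antisymm (Fin.le_last _) this
        rw [if_pos h3, if_pos h4]
        exact h
      · rw [if_neg h3]
        exact Fin.zero_le _

theorem hh_zero {p : ℕ} (θ : Op p 1) (x : Fin (p + 2)) (h : x.1 = 0) : (hh θ x).1 = 0 := by
  show (if h : x.1 = 0 then (0 : Fin (p + 2)) else _).1 = 0
  rw [dif_pos h]
  rfl

theorem hh_one {p : ℕ} (θ : Op p 1) (x : Fin (p + 2)) (h : ¬ x.1 = 0) (y : Fin (p + 1))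
    (hy : y.1 = x.1 - 1) (hθ : θ y = 1) : (hh θ x).1 = x.1 := by
  have e : (⟨x.1 - 1, by have := x.2; omega⟩ : Fin (p + 1)) = y := Fin.ext hy.symm
  show (if h : x.1 = 0 then (0 : Fin (p + 2)) else
    if θ ⟨x.1 - 1, by have := x.2; omega⟩ = 1 then x else 0).1 = x.1
  rw [dif_neg h, if_pos ((congrArg θ e).trans hθ)]

theorem hh_neg {p : ℕ} (θ : Op p 1) (x : Fin (p + 2)) (h : ¬ x.1 = 0) (y : Fin (p + 1))
    (hy : y.1 = x.1 - 1) (hθ : ¬ θ y = 1) : (hh θ x).1 = 0 := by
  have e : (⟨x.1 - 1, by have := x.2; omega⟩ : Fin (p + 1)) = y := Fin.ext hy.symm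
  show (if h : x.1 = 0 then (0 : Fin (p + 2)) else
    if θ ⟨x.1 - 1, by have := x.2; omega⟩ = 1 then x else 0).1 = 0
  rw [dif_neg h, if_neg (fun h' => hθ ((congrArg θ e).symm.trans h'))]
  rfl

theorem hh_up {p q : ℕ} (α : Op p q) (θ : Op q 1) :
    (hh θ).comp (up α) = (up α).comp (hh (θ.comp α)) := by
  apply OrderHom.ext
  funext x
  apply Fin.ext
  have hx := x.2
  show (hh θ (up α x)).1 = (up α (hh (θ.comp α) x)).1
  by_cases h : x.1 = 0
  · rw [hh_zero _ _ (up_zero _ x h), up_zero _ _ (hh_zero _ x h)]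
  · have h1 := up_pos α x h ⟨x.1 - 1, by omega⟩ rfl
    by_cases h2 : θ (α ⟨x.1 - 1, by omega⟩) = 1
    · rw [hh_one θ _ (by omega) (α ⟨x.1 - 1, by omega⟩) (by omega) h2]
      congr 2
      exact Fin.ext (hh_one (θ.comp α) x h ⟨x.1 - 1, by omega⟩ rfl h2).symm
    · rw [hh_neg θ _ (by omega) (α ⟨x.1 - 1, by omega⟩) (by omega) h2]
      exact (up_zero _ _ (hh_neg (θ.comp α) x h ⟨x.1 - 1, by omega⟩ rfl h2)).symm

theorem hh_c1 (p : ℕ) : hh (c1 p) = OrderHom.id := by
  apply OrderHom.ext
  funext x
  apply Fin.ext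
  have hx := x.2
  by_cases h : x.1 = 0
  · rw [hh_zero _ x h]; exact h.symm
  · exact hh_one _ x h ⟨x.1 - 1, by omega⟩ rfl (c1_val _ _)

theorem hh_c0 (p : ℕ) : hh (c0 p) = (zr 0 (p + 1)).comp (zr (p + 1) 0) := by
  apply OrderHom.ext
  funext x
  apply Fin.ext
  have hx := x.2
  by_cases h : x.1 = 0
  · exact hh_zero _ x h
  · exact hh_neg _ x h ⟨x.1 - 1, by omega⟩ rfl (by rw [c0_val]; decide)

theorem hh_zr {p n : ℕ} (θ : Op p 1) : (hh θ).comp (zr n (p + 1)) = zr n (p + 1) := by
  apply OrderHom.ext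
  funext x
  apply Fin.ext
  exact hh_zero θ (zr n (p + 1) x) rfl

/-- the decalage -/
def Dec (A : CosMod R) : CosMod R where
  obj p := A.obj (p + 1)
  map f := A.map (up f)
  map_id := by
    intro p
    rw [up_id, A.map_id]
  map_comp f g := by rw [up_comp, A.map_comp]

/-- the path object modulo constants -/
def PD (A : CosMod R) : CosMod R :=
  quot (Dec A) (fun p => LinearMap.range (A.map (zr 0 (p + 1)))) (by
    rintro p q φ _ ⟨y, rfl⟩
    refine ⟨y, ?_⟩
    show A.map (zr 0 (q + 1)) y = A.map (up φ) (A.map (zr 0 (p + 1)) y)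
    rw [A.map_map, up_zr])

/-- `A → PD A` -/
def toPD (A : CosMod R) : Hom A (PD A) where
  app p := (Submodule.mkQ (LinearMap.range (A.map (zr 0 (p + 1))))).comp (A.map (dl p 0))
  nat {p q} f x := by
    show Submodule.Quotient.mk (A.map (dl q 0) (A.map f x)) =
      Submodule.Quotient.mk (A.map (up f) (A.map (dl p 0) x))
    rw [A.map_map, A.map_map, up_dl]

/-- the contraction of `PD A` -/
def PDprism (A : CosMod R) : Prism (PD A) (PD A) where
  h p θ := Submodule.mapQ (LinearMap.range (A.map (zr 0 (p + 1))))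
    (LinearMap.range (A.map (zr 0 (p + 1)))) (A.map (hh θ)) (by
      rintro _ ⟨y, rfl⟩
      refine ⟨y, ?_⟩
      rw [A.map_map, hh_zr])
  nat {p q} α θ x := by
    obtain ⟨x, rfl⟩ := Submodule.Quotient.mk_surjective _ x
    have key : ∀ x : A.obj (p + 1), A.map (hh θ) (A.map (up α) x) =
        A.map (up α) (A.map (hh (θ.comp α)) x) := fun x => by
      rw [A.map_map, A.map_map, hh_up]
    exact congrArg Submodule.Quotient.mk (key x)

theorem PDprism_c1 (A : CosMod R) (p : ℕ) (x : (PD A).obj p) : (PDprism A).h p (c1 p) x = x := by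
  obtain ⟨x, rfl⟩ := Submodule.Quotient.mk_surjective _ x
  have key : ∀ x : A.obj (p + 1), A.map (hh (c1 p)) x = x := fun x => by
    rw [hh_c1, A.map_id_apply]
  exact congrArg Submodule.Quotient.mk (key x)

theorem PDprism_c0 (A : CosMod R) (p : ℕ) (x : (PD A).obj p) : (PDprism A).h p (c0 p) x = 0 := by
  obtain ⟨x, rfl⟩ := Submodule.Quotient.mk_surjective _ x
  have key : ∀ x : A.obj (p + 1), A.map (hh (c0 p)) x ∈
      LinearMap.range (A.map (zr 0 (p + 1))) := fun x => by
    rw [hh_c0, ← A.map_map]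
    exact ⟨_, rfl⟩
  exact (Submodule.Quotient.mk_eq_zero (LinearMap.range (A.map (zr 0 (p + 1))))).2 (key x)

theorem PD_acyclic (A B : CosMod R) (p : ℕ) :
    (tensor (PD A) B).Z p ≤ (tensor (PD A) B).Bd p :=
  tensor_Z_le_Bd (PDprism A) (PDprism_c1 A) (PDprism_c0 A) B p

theorem PD_acyclic' (A : CosMod R) (p : ℕ) : (PD A).Z p ≤ (PD A).Bd p :=
  CosMod.Z_le_Bd_of_prism (PDprism A) (PDprism_c1 A) (PDprism_c0 A) p

/-- all maps `[0] → [q]` agree on `H^0` -/
theorem map_eq_of_mem_Z {A : CosMod R} {v : A.obj 0} (hv : v ∈ A.Z 0) {q : ℕ} (g g' : Op 0 q) :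
    A.map g v = A.map g' v := by
  have hd : A.map (dl 0 0) v = A.map (dl 0 1) v := by
    rw [mem_Z, A.d_apply] at hv
    simp only [zero_add, Finset.sum_range_succ, Finset.sum_range_zero] at hv
    simpa [sn, ← sub_eq_add_neg, sub_eq_zero] using hv
  have key : ∀ g g' : Op 0 q, g 0 ≤ g' 0 → A.map g v = A.map g' v := by
    intro g g' h
    let e : Op 1 q := ⟨fun x => if x.1 = 0 then g 0 else g' 0, by
      intro x y hxy
      simp only [Fin.le_def] at hxy
      by_cases h1 : x.1 = 0
      · by_cases h2 : y.1 = 0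
        · simp only [h1, h2, if_true, le_refl]
        · simp only [h1, h2, if_true, if_false]
          exact h
      · have h2 : ¬ y.1 = 0 := by omega
        simp only [h1, h2, if_false, le_refl]⟩
    have e0 : e.comp (dl 0 1) = g := by
      apply OrderHom.ext
      funext x
      obtain rfl : x = 0 := Subsingleton.elim (α := Fin 1) _ _
      rfl
    have e1 : e.comp (dl 0 0) = g' := by
      apply OrderHom.ext
      funext x
      obtain rfl : x = 0 := Subsingleton.elim (α := Fin 1) _ _
      rfl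
    rw [← e0, ← e1, ← A.map_map, ← A.map_map, hd]
  rcases le_total (g 0) (g' 0) with h | h
  · exact key g g' h
  · exact (key g' g h).symm

theorem toPD_injective {A : CosMod R} (hA : A.Z 0 ≤ A.Bd 0) (p : ℕ) :
    Function.Injective ((toPD A).app p) := by
  rw [injective_iff_map_eq_zero]
  intro x hx
  obtain ⟨a, ha⟩ := (Submodule.Quotient.mk_eq_zero (LinearMap.range (A.map (zr 0 (p + 1))))).1 hx
  have hs : (sg p 0).comp (dl p 0) = OrderHom.id := by
    apply OrderHom.ext
    funext y
    apply Fin.ext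
    have := y.2
    show (sg p 0 (dl p 0 y)).1 = y.1
    rw [sg_val, dl_val]
    split_ifs <;> omega
  have hx' : x = A.map (zr 0 p) a := by
    have h1 : (sg p 0).comp (zr 0 (p + 1)) = zr 0 p := by
      apply OrderHom.ext
      funext y
      apply Fin.ext
      show (sg p 0 0).1 = 0
      rw [sg_val]
      simp
    rw [← A.map_id_apply x, ← hs, ← A.map_map, ← ha, A.map_map, h1]
  have haZ : a ∈ A.Z 0 := by
    let e : Op (p + 1) 1 := ⟨fun x => if x.1 = 0 then 0 else 1, by
      intro x y hxy
      simp only [Fin.le_def] at hxy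
      by_cases h1 : x.1 = 0
      · simp only [h1, if_true]
        exact Fin.zero_le _
      · have h2 : ¬ y.1 = 0 := by omega
        simp only [h1, h2, if_false, le_refl]⟩
    have e0 : e.comp (zr 0 (p + 1)) = dl 0 1 := by
      apply OrderHom.ext
      funext x
      apply Fin.ext
      obtain rfl : x = 0 := Subsingleton.elim (α := Fin 1) _ _
      rfl
    have e1 : (e.comp (dl p 0)).comp (zr 0 p) = dl 0 0 := by
      apply OrderHom.ext
      funext x
      obtain rfl : x = 0 := Subsingleton.elim (α := Fin 1) _ _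
      show (if (dl p 0 0).1 = 0 then (0 : Fin 2) else 1) = dl 0 0 0
      rw [dl_val]
      rfl
    have h2 : A.map (dl 0 1) a = A.map (dl 0 0) a := by
      rw [← e0, ← A.map_map, ha, hx', A.map_map, A.map_map, e1]
    rw [mem_Z, A.d_apply]
    simp only [zero_add, Finset.sum_range_succ, Finset.sum_range_zero]
    rw [h2]
    simp [sn]
  rw [hx', mem_Bd_zero.1 (hA haZ), map_zero]

/-- `H^0(A) → A` -/
def zIncl (A : CosMod R) : Hom (const (A.Z 0)) A where
  app p := (A.map (zr 0 p)).comp (A.Z 0).subtype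
  nat {p q} f x := by
    have key : ∀ x : A.Z 0, A.map (zr 0 q) x.1 = A.map f (A.map (zr 0 p) x.1) := fun x => by
      rw [A.map_map]
      exact map_eq_of_mem_Z x.2 _ _
    exact key x

theorem zIncl_injective (A : CosMod R) (p : ℕ) : Function.Injective ((zIncl A).app p) := by
  rw [injective_iff_map_eq_zero]
  intro x hx
  have h : A.map (zr p 0) (A.map (zr 0 p) (Subtype.val (p := fun x => x ∈ A.Z 0) x)) = 0 :=
    (congrArg (A.map (zr p 0)) hx).trans (map_zero _)
  have h1 : (zr p 0).comp (zr 0 p) = OrderHom.id := by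
    apply OrderHom.ext
    funext y
    exact Subsingleton.elim (α := Fin 1) _ _
  rw [A.map_map, h1, A.map_id_apply] at h
  exact Subtype.ext h

section const

variable {V : Type} [AddCommGroup V] [Module R V]

theorem const_d (p : ℕ) (v : V) :
    (const V : CosMod R).d p v = if Odd p then v else (0 : V) := by
  have h : ∀ n : ℕ, ∑ i ∈ Finset.range n, sn i v = if Odd n then v else 0 := by
    intro n
    induction n with
    | zero => simp
    | succ n ih =>
      rw [Finset.sum_range_succ, ih]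
      by_cases hn : Odd n
      · rw [if_pos hn, if_neg (by rw [Nat.odd_add_one]; simpa using hn)]
        obtain ⟨m, rfl⟩ := hn
        rw [sn_succ, two_mul, sn_double, add_neg_cancel]
      · rw [if_neg hn, if_pos (by rw [Nat.odd_add_one]; exact hn), zero_add]
        rw [Nat.not_odd_iff_even] at hn
        obtain ⟨m, rfl⟩ := hn
        exact sn_double m v
  refine ((const V : CosMod R).d_apply p v).trans ((h (p + 2)).trans ?_)
  by_cases hp : Odd p
  · rw [if_pos hp, if_pos (by rw [Nat.odd_add]; simp [hp])]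
  · rw [if_neg hp, if_neg (by rw [Nat.odd_add]; simp [hp])]

theorem const_Z_le_Bd (p : ℕ) : (const V : CosMod R).Z (p + 1) ≤ (const V : CosMod R).Bd (p + 1) := by
  intro x hx
  by_cases hp : Odd p
  · refine ⟨x, ?_⟩
    refine (const_d p x).trans ?_
    rw [if_pos hp]
  · have h : x = 0 := by
      have := (const_d (R := R) (p + 1) x).symm.trans hx
      rwa [if_pos (by rw [Nat.odd_add_one]; exact hp)] at this
    rw [h]
    exact zero_mem _

theorem const_mem_Z (v : V) : (show (const V : CosMod R).obj 0 from v) ∈ (const V : CosMod R).Z 0 := by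
  rw [mem_Z]
  exact (const_d 0 v).trans (if_neg (by decide))

/-- a constant as a cocycle -/
def cst0 : V →ₗ[R] (const V : CosMod R).Z 0 where
  toFun v := ⟨v, const_mem_Z v⟩
  map_add' _ _ := rfl
  map_smul' _ _ := rfl

/-- the class of a constant -/
def cl0 : V →ₗ[R] (const V : CosMod R).H 0 := ((const V : CosMod R).cls 0).comp cst0

theorem const_tensor_d (B : CosMod R) (N : ℕ) :
    (tensor (const V) B).d N = LinearMap.lTensor V (B.d N) := by
  apply TensorProduct.ext'
  intro a b
  have h1 : (tensor (const V) B).d N (a ⊗ₜ[R] b) = ∑ i ∈ Finset.range (N + 2),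
      sn i (a ⊗ₜ[R] B.map (dl N i) b) := (tensor (const V) B).d_apply N _
  refine h1.trans ?_
  show _ = a ⊗ₜ[R] (B.d N b)
  rw [B.d_apply, TensorProduct.tmul_sum]
  refine Finset.sum_congr rfl fun i _ => ?_
  simp [sn]

/-- the cocycles of `V ⊗ B` -/
def phi (V : Type) [AddCommGroup V] [Module R V] (B : CosMod R) (N : ℕ) :
    V ⊗[R] B.Z N →ₗ[R] (tensor (const V) B).obj N :=
  LinearMap.lTensor V (B.Z N).subtype

theorem phi_mem_Z (B : CosMod R) (N : ℕ) (t : V ⊗[R] B.Z N) :
    phi V B N t ∈ (tensor (const V) B).Z N := by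
  have h : (B.d N).comp (B.Z N).subtype = 0 := by
    ext x
    exact x.2
  have h2 : (LinearMap.lTensor V (B.d N)).comp (LinearMap.lTensor V (B.Z N).subtype) = 0 := by
    rw [← LinearMap.lTensor_comp, h, LinearMap.lTensor_zero]
  rw [mem_Z, const_tensor_d]
  exact LinearMap.congr_fun h2 t

theorem phi_surj [AllFlat R] (B : CosMod R) (N : ℕ) {z : (tensor (const V) B).obj N}
    (hz : z ∈ (tensor (const V) B).Z N) : ∃ t : V ⊗[R] B.Z N, phi V B N t = z := by
  have := AllFlat.flat (R := R) V
  have hex : Function.Exact (B.Z N).subtype (B.d N) := by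
    intro x
    constructor
    · intro h; exact ⟨⟨x, h⟩, rfl⟩
    · rintro ⟨y, rfl⟩; exact y.2
  rw [mem_Z, const_tensor_d] at hz
  have h3 : Function.Exact (LinearMap.lTensor V (B.Z N).subtype) (LinearMap.lTensor V (B.d N)) :=
    Module.Flat.lTensor_exact (R := R) V hex
  exact (h3 z).1 hz

theorem phi_inj [AllFlat R] (B : CosMod R) (N : ℕ) : Function.Injective (phi V B N) := by
  have := AllFlat.flat (R := R) V
  exact Module.Flat.lTensor_preserves_injective_linearMap (M := V) (B.Z N).subtype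
    (Submodule.subtype_injective _)

/-- a cocycle `phi t` is a coboundary iff `t` dies in `V ⊗ H(B)` -/
theorem phi_mem_Bd [AllFlat R] (B : CosMod R) (N : ℕ) (t : V ⊗[R] B.Z N)
    (h : phi V B N t ∈ (tensor (const V) B).Bd N) :
    LinearMap.lTensor V (B.cls N) t = 0 := by
  cases N with
  | zero =>
    rw [mem_Bd_zero] at h
    have : t = 0 := phi_inj B 0 (h.trans (map_zero _).symm)
    rw [this, map_zero]
  | succ N =>
    obtain ⟨y, hy⟩ := h
    rw [const_tensor_d] at hy
    let dZ : B.obj N →ₗ[R] B.Z (N + 1) := (B.d N).codRestrict (B.Z (N + 1)) (fun x => B.d_d N x)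
    have e : (B.Z (N + 1)).subtype.comp dZ = B.d N := by
      ext x; rfl
    have h1 : phi V B (N + 1) (LinearMap.lTensor V dZ y) = phi V B (N + 1) t := by
      refine Eq.trans ?_ hy
      rw [← e, LinearMap.lTensor_comp]
      rfl
    have h2 := phi_inj B (N + 1) h1
    have e2 : (B.cls (N + 1)).comp dZ = 0 := by
      ext x
      exact cls_eq_zero_iff.2 ⟨x, rfl⟩
    have e3 : (LinearMap.lTensor V (B.cls (N + 1))).comp (LinearMap.lTensor V dZ) = 0 := by
      rw [← LinearMap.lTensor_comp, e2, LinearMap.lTensor_zero]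
    rw [← h2]
    exact LinearMap.congr_fun e3 y

/-- the comparison `V ⊗ H^N(B) → H^N(V ⊗ B)` -/
theorem kap_cl0 (B : CosMod R) (N : ℕ) (t : V ⊗[R] B.Z N) :
    kap (const V) B 0 N N (TensorProduct.map cl0 (B.cls N) t) =
      (tensor (const V) B).cls N ⟨phi V B N t, phi_mem_Z B N t⟩ := by
  induction t using TensorProduct.induction_on with
  | zero =>
    rw [map_zero, map_zero]
    symm
    rw [cls_eq_zero_iff]
    simp only [map_zero]
    exact zero_mem _
  | tmul v b =>
    rw [TensorProduct.map_tmul, kap_tmul]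
    refine (crH_cls (n := 0) (m := N) (N := N) (by omega) (cst0 v) b).trans ?_
    congr 1
    apply Subtype.ext
    show v ⊗ₜ[R] B.map (bk N N) b.1 = v ⊗ₜ[R] b.1
    rw [bk_self, B.map_id_apply]
  | add x y hx hy =>
    rw [map_add, map_add, hx, hy, ← map_add]
    congr 1
    apply Subtype.ext
    exact (map_add (phi V B N) x y).symm

theorem map_cl0 (B : CosMod R) (N : ℕ) (t : V ⊗[R] B.Z N) :
    TensorProduct.map cl0 LinearMap.id (LinearMap.lTensor V (B.cls N) t) =
      TensorProduct.map (cl0 (R := R)) (B.cls N) t := by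
  have h : (TensorProduct.map (cl0 (R := R)) LinearMap.id).comp (LinearMap.lTensor V (B.cls N)) =
      TensorProduct.map (cl0 (R := R)) (B.cls N) := by
    apply TensorProduct.ext'
    intro a b
    rfl
  exact LinearMap.congr_fun h t

/-- `V ⊗ H^N(B) = H^N(V ⊗ B)`: surjectivity -/
theorem const_surj [AllFlat R] (B : CosMod R) (N : ℕ) (z : (tensor (const V) B).H N) :
    ∃ t : V ⊗[R] B.H N, kap (const V) B 0 N N (TensorProduct.map cl0 LinearMap.id t) = z := by
  obtain ⟨z, rfl⟩ := cls_surjective _ N z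
  obtain ⟨t, ht⟩ := phi_surj B N z.2
  refine ⟨LinearMap.lTensor V (B.cls N) t, ?_⟩
  rw [map_cl0, kap_cl0]
  congr 1
  exact Subtype.ext ht

/-- `V ⊗ H^N(B) = H^N(V ⊗ B)`: injectivity -/
theorem const_inj [AllFlat R] (B : CosMod R) (N : ℕ) (t : V ⊗[R] B.H N)
    (h : kap (const V) B 0 N N (TensorProduct.map cl0 LinearMap.id t) = 0) : t = 0 := by
  obtain ⟨t, rfl⟩ := LinearMap.lTensor_surjective V (B.cls_surjective N) t
  rw [map_cl0, kap_cl0, cls_eq_zero_iff] at h
  exact phi_mem_Bd B N t h

end const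

/-! ### The induction -/

/-- `A / H^0(A)` -/
def Q1 (A : CosMod R) : CosMod R := coker (zIncl A)

/-- `H^0(A) → A → Q1 A` -/
def ses1 (A : CosMod R) : SES (const (A.Z 0)) A (Q1 A) := sesCoker (zIncl A) (zIncl_injective A)

theorem Q1_zero (A : CosMod R) : (Q1 A).Z 0 ≤ (Q1 A).Bd 0 := by
  rw [← H_eq_zero_iff]
  intro x
  have h1 : (ses1 A).conn 0 x = 0 := H_eq_zero_iff.2 (const_Z_le_Bd 0) _
  obtain ⟨y, rfl⟩ := ((ses1 A).exact_C 0 x).1 h1
  induction y using H_ind with
  | h z =>
    have h2 : (ses1 A).i.mapH 0 (cl0 z) = A.cls 0 z := by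
      show A.cls 0 _ = A.cls 0 z
      congr 1
      apply Subtype.ext
      show A.map (zr 0 0) z.1 = z.1
      have : zr 0 0 = OrderHom.id := by
        apply OrderHom.ext
        funext y
        exact Subsingleton.elim (α := Fin 1) _ _
      rw [this, A.map_id_apply]
    rw [← h2]
    exact ((ses1 A).exact_B 0 _).2 ⟨_, rfl⟩

theorem ses1_surj (A : CosMod R) (n : ℕ) : Function.Surjective ((ses1 A).p.mapH n) := by
  intro x
  have h1 : (ses1 A).conn n x = 0 := H_eq_zero_iff.2 (const_Z_le_Bd n) _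
  exact ((ses1 A).exact_C n x).1 h1

theorem ses1_inj (A : CosMod R) (n : ℕ) : Function.Injective ((ses1 A).p.mapH (n + 1)) := by
  rw [injective_iff_map_eq_zero]
  intro x hx
  obtain ⟨y, rfl⟩ := ((ses1 A).exact_B (n + 1) x).1 hx
  have h1 : y = 0 := H_eq_zero_iff.2 (const_Z_le_Bd n) y
  rw [h1, map_zero]

/-- the cokernel of `A → PD A` -/
def Q2 (A : CosMod R) : CosMod R := coker (toPD A)

/-- `A → PD A → Q2 A` when `H^0(A) = 0` -/
def ses2 {A : CosMod R} (hA : A.Z 0 ≤ A.Bd 0) : SES A (PD A) (Q2 A) :=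
  sesCoker (toPD A) (toPD_injective hA)

theorem ses2_bij {A : CosMod R} (hA : A.Z 0 ≤ A.Bd 0) (n : ℕ) :
    Function.Bijective ((ses2 hA).conn n) :=
  (ses2 hA).conn_bijective n (H_eq_zero_iff.2 (PD_acyclic' A n))
    (H_eq_zero_iff.2 (PD_acyclic' A (n + 1)))

theorem ses2_tens_bij [AllFlat R] {A : CosMod R} (hA : A.Z 0 ≤ A.Bd 0) (B : CosMod R) (n : ℕ) :
    Function.Bijective (((ses2 hA).tens B).conn n) :=
  ((ses2 hA).tens B).conn_bijective n (H_eq_zero_iff.2 (PD_acyclic A B n))
    (H_eq_zero_iff.2 (PD_acyclic A B (n + 1)))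

/-- the span of the exterior products in degree `N` -/
def crSpan (A B : CosMod R) (N : ℕ) : Submodule R ((tensor A B).H N) :=
  Submodule.span R {w | ∃ (n m : ℕ) (x : A.H n) (y : B.H m), N = n + m ∧ w = crH n m N x y}

theorem crH_mem_crSpan {A B : CosMod R} {n m N : ℕ} (x : A.H n) (y : B.H m) :
    crH n m N x y ∈ crSpan A B N := by
  by_cases h : N = n + m
  · exact Submodule.subset_span ⟨n, m, x, y, h, rfl⟩
  · rw [crH_of_ne h]
    exact zero_mem _

theorem kap_mem_crSpan {A B : CosMod R} {n m N : ℕ} (t : A.H n ⊗[R] B.H m) :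
    kap A B n m N t ∈ crSpan A B N := by
  induction t using TensorProduct.induction_on with
  | zero => rw [map_zero]; exact zero_mem _
  | tmul x y => rw [kap_tmul]; exact crH_mem_crSpan x y
  | add x y hx hy => rw [map_add]; exact add_mem hx hy

/-- the image of the exterior products is everything if this holds for `Q1 A` -/
theorem span_step [AllFlat R] (A B : CosMod R) (N : ℕ)
    (h1 : ∀ z : (tensor (Q1 A) B).H N, z ∈ crSpan (Q1 A) B N) (z : (tensor A B).H N) :
    z ∈ crSpan A B N := by
  -- products lift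
  have hl : ∀ w ∈ crSpan (Q1 A) B N, ∃ w' ∈ crSpan A B N, ((ses1 A).tens B).p.mapH N w' = w := by
    intro w hw
    induction hw using Submodule.span_induction with
    | mem w hw =>
      obtain ⟨n, m, x, y, h, rfl⟩ := hw
      obtain ⟨x', rfl⟩ := ses1_surj A n x
      refine ⟨crH n m N x' y, crH_mem_crSpan _ _, ?_⟩
      have := crH_nat (ses1 A).p (Hom.id B) n m N x' y
      rw [Hom.mapH_id] at this
      exact this
    | zero => exact ⟨0, zero_mem _, map_zero _⟩
    | add w v _ _ hw hv =>
      obtain ⟨w', hw', rfl⟩ := hw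
      obtain ⟨v', hv', rfl⟩ := hv
      exact ⟨w' + v', add_mem hw' hv', map_add _ _ _⟩
    | smul r w _ hw =>
      obtain ⟨w', hw', rfl⟩ := hw
      exact ⟨r • w', Submodule.smul_mem _ _ hw', map_smul _ _ _⟩
  obtain ⟨w', hw', hw⟩ := hl _ (h1 (((ses1 A).tens B).p.mapH N z))
  have h2 : ((ses1 A).tens B).p.mapH N (z - w') = 0 := by rw [map_sub, hw, sub_self]
  obtain ⟨y, hy⟩ := (((ses1 A).tens B).exact_B N _).1 h2
  obtain ⟨t, rfl⟩ := const_surj B N y
  have h3 : z - w' ∈ crSpan A B N := by
    rw [← hy]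
    have := kap_nat (ses1 A).i (Hom.id B) 0 N N (TensorProduct.map cl0 LinearMap.id t)
    have h4 : ((ses1 A).tens B).i.mapH N
        (kap (const (A.Z 0)) B 0 N N (TensorProduct.map cl0 LinearMap.id t)) =
        kap A B 0 N N (TensorProduct.map ((ses1 A).i.mapH 0) ((Hom.id B).mapH N)
          (TensorProduct.map cl0 LinearMap.id t)) := this
    rw [h4]
    exact kap_mem_crSpan _
  have := add_mem h3 hw'
  rwa [sub_add_cancel] at this

end Kun

open Kun

/-- **Künneth, surjectivity.** Every class of `H^N(A ⊗ B)` is a sum of exterior products. -/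
theorem kun_span [AllFlat R] (N : ℕ) : ∀ (A B : CosMod R) (z : (tensor A B).H N),
    z ∈ crSpan A B N := by
  induction N with
  | zero =>
    intro A B z
    refine span_step A B 0 (fun z => ?_) z
    have : z = 0 := H_eq_zero_iff.2 (tensor_Z_zero (Q1_zero A) B) z
    rw [this]
    exact zero_mem _
  | succ N ih =>
    intro A B z
    refine span_step A B (N + 1) (fun z => ?_) z
    obtain ⟨y, rfl⟩ := (ses2_tens_bij (Q1_zero A) B N).2 z
    have hy := ih (Q2 (Q1 A)) B y
    induction hy using Submodule.span_induction with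
    | mem w hw =>
      obtain ⟨n, m, x, y, h, rfl⟩ := hw
      rw [conn_crH]
      exact crH_mem_crSpan _ _
    | zero => rw [map_zero]; exact zero_mem _
    | add w v _ _ hw hv => rw [map_add]; exact add_mem hw hv
    | smul r w _ hw => rw [map_smul]; exact Submodule.smul_mem _ _ hw

end Vale.Agent.P263.S

end
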