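import Vale.Agent.P263.S.Kun
import Mathlib.LinearAlgebra.TensorProduct.Basis
import Mathlib.LinearAlgebra.StdBasis

/-!
# P263, block S: the Künneth theorem, injectivity and basis form (helper718)
-/

noncomputable section

open scoped TensorProduct

namespace Vale.Agent.P263.S

open CosMod Kun

variable {R : Type} [CommRing R]

namespace Kun

theorem ses1_tens_surj [AllFlat R] (A B : CosMod R) (N : ℕ) :
    Function.Surjective (((ses1 A).tens B).p.mapH N) := by
  intro w
  have hw := kun_span N (Q1 A) B w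
  induction hw using Submodule.span_induction with
  | mem w hw =>
    obtain ⟨n, m, x, y, h, rfl⟩ := hw
    obtain ⟨x', rfl⟩ := ses1_surj A n x
    refine ⟨crH n m N x' y, ?_⟩
    have := crH_nat (ses1 A).p (Hom.id B) n m N x' y
    rw [Hom.mapH_id] at this
    exact this
  | zero => exact ⟨0, map_zero _⟩
  | add w v _ _ hw hv =>
    obtain ⟨w', rfl⟩ := hw
    obtain ⟨v', rfl⟩ := hv
    exact ⟨w' + v', map_add _ _ _⟩
  | smul r w _ hw =>
    obtain ⟨w', rfl⟩ := hw
    exact ⟨r • w', map_smul _ _ _⟩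

theorem ses1_tens_inj [AllFlat R] (A B : CosMod R) (N : ℕ) (x : (tensor (const (A.Z 0)) B).H N)
    (h : ((ses1 A).tens B).i.mapH N x = 0) : x = 0 := by
  cases N with
  | zero => exact ((ses1 A).tens B).inj_zero x h
  | succ N =>
    obtain ⟨y, rfl⟩ := (((ses1 A).tens B).exact_A N x).1 h
    obtain ⟨y', rfl⟩ := ses1_tens_surj A B N y
    exact (((ses1 A).tens B).exact_C N _).2 ⟨_, rfl⟩

theorem i_cl0 (A : CosMod R) (z : A.Z 0) : (ses1 A).i.mapH 0 (cl0 z) = A.cls 0 z := by
  show A.cls 0 _ = A.cls 0 z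
  congr 1
  apply Subtype.ext
  show A.map (zr 0 0) z.1 = z.1
  have : zr 0 0 = OrderHom.id := by
    apply OrderHom.ext
    funext y
    exact Subsingleton.elim (α := Fin 1) _ _
  rw [this, A.map_id_apply]

/-- injectivity of the Künneth map in degree `N` -/
def Inj (A B : CosMod R) (N : ℕ) : Prop :=
  ∀ t : ∀ n m, A.H n ⊗[R] B.H m,
    ∑ p ∈ Finset.HasAntidiagonal.antidiagonal N, kap A B p.1 p.2 N (t p.1 p.2) = 0 →
      ∀ n m, n + m = N → t n m = 0

theorem inj_step [AllFlat R] {A B : CosMod R} {N : ℕ} (h1 : Inj (Q1 A) B N) : Inj A B N := by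
  intro t ht
  have hn : ∀ n m, n + 1 + m = N → t (n + 1) m = 0 := by
    have h2 := h1 (fun n m => TensorProduct.map ((ses1 A).p.mapH n) LinearMap.id (t n m)) (by
      have h3 := congrArg (((ses1 A).tens B).p.mapH N) ht
      rw [map_sum, map_zero] at h3
      rw [← h3]
      refine Finset.sum_congr rfl fun p _ => ?_
      have h4 := kap_nat (ses1 A).p (Hom.id B) p.1 p.2 N (t p.1 p.2)
      have h5 : (Hom.id B).mapH p.2 = LinearMap.id := LinearMap.ext fun x => Hom.mapH_id _ x
      rw [h5] at h4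
      exact h4.symm)
    intro n m h
    have h3 := h2 (n + 1) m h
    have := AllFlat.flat (R := R) (B.H m)
    have h4 := Module.Flat.rTensor_preserves_injective_linearMap (M := B.H m)
      ((ses1 A).p.mapH (n + 1)) (ses1_inj A n)
    exact h4 (h3.trans (map_zero _).symm)
  have h0 : t 0 N = 0 := by
    have h3 : kap A B 0 N N (t 0 N) = 0 := by
      rw [← ht]
      symm
      refine Finset.sum_eq_single (0, N) ?_ ?_
      · rintro ⟨n, m⟩ hp hne
        rw [Finset.HasAntidiagonal.mem_antidiagonal] at hp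
        cases n with
        | zero =>
          exfalso
          apply hne
          have : m = N := by simpa using hp
          rw [this]
        | succ n =>
          show kap A B (n + 1) m N (t (n + 1) m) = 0
          rw [hn n m hp, map_zero]
      · intro h
        exfalso
        apply h
        rw [Finset.HasAntidiagonal.mem_antidiagonal]
        simp
    -- lift `t 0 N`
    let f : A.Z 0 →ₗ[R] A.H 0 := ((ses1 A).i.mapH 0).comp cl0
    have hf : Function.Surjective f := by
      intro x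
      obtain ⟨z, rfl⟩ := A.cls_surjective 0 x
      exact ⟨z, i_cl0 A z⟩
    obtain ⟨s, hs⟩ := LinearMap.rTensor_surjective (B.H N) hf (t 0 N)
    have h4 : TensorProduct.map ((ses1 A).i.mapH 0) ((Hom.id B).mapH N)
        (TensorProduct.map cl0 LinearMap.id s) = t 0 N := by
      rw [← hs]
      have : (TensorProduct.map ((ses1 A).i.mapH 0) ((Hom.id B).mapH N)).comp
          (TensorProduct.map (cl0 (R := R) (V := A.Z 0)) (LinearMap.id : B.H N →ₗ[R] B.H N)) =
          LinearMap.rTensor (B.H N) f := by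
        apply TensorProduct.ext'
        intro a b
        show (ses1 A).i.mapH 0 (cl0 a) ⊗ₜ[R] (Hom.id B).mapH N b = f a ⊗ₜ[R] b
        rw [Hom.mapH_id]
        rfl
      exact LinearMap.congr_fun this s
    have h5 : ((ses1 A).tens B).i.mapH N
        (kap (const (A.Z 0)) B 0 N N (TensorProduct.map cl0 LinearMap.id s)) = 0 := by
      have h6 := kap_nat (ses1 A).i (Hom.id B) 0 N N (TensorProduct.map cl0 LinearMap.id s)
      rw [h4, h3] at h6
      exact h6
    have h6 := const_inj B N s (ses1_tens_inj A B N _ h5)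
    rw [← hs, h6, map_zero]
  intro n m h
  cases n with
  | zero =>
    obtain rfl : m = N := by omega
    exact h0
  | succ n => exact hn n m h

end Kun

/-- **Künneth, injectivity.** -/
theorem kun_inj [AllFlat R] (N : ℕ) : ∀ A B : CosMod R, Kun.Inj A B N := by
  induction N with
  | zero =>
    intro A B
    refine inj_step (fun t _ n m h => ?_)
    obtain rfl : n = 0 := by omega
    have h0 : ∀ x : (Q1 A).H 0, x = 0 := H_eq_zero_iff.2 (Q1_zero A)
    generalize t 0 m = s
    induction s using TensorProduct.induction_on with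
    | zero => rfl
    | tmul x y => rw [h0 x, TensorProduct.zero_tmul]
    | add x y hx hy => rw [hx, hy, add_zero]
  | succ N ih =>
    intro A B
    refine inj_step (fun t ht => ?_)
    have h0 : ∀ m, t 0 m = 0 := by
      have h0 : ∀ x : (Q1 A).H 0, x = 0 := H_eq_zero_iff.2 (Q1_zero A)
      intro m
      generalize t 0 m = s
      induction s using TensorProduct.induction_on with
      | zero => rfl
      | tmul x y => rw [h0 x, TensorProduct.zero_tmul]
      | add x y hx hy => rw [hx, hy, add_zero]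
    let e : ∀ n, (Q2 (Q1 A)).H n ≃ₗ[R] (Q1 A).H (n + 1) := fun n =>
      LinearEquiv.ofBijective ((ses2 (Q1_zero A)).conn n) (ses2_bij (Q1_zero A) n)
    let t' : ∀ n m, (Q2 (Q1 A)).H n ⊗[R] B.H m := fun n m =>
      TensorProduct.map (e n).symm.toLinearMap LinearMap.id (t (n + 1) m)
    have ht' : ∀ n m, TensorProduct.map ((ses2 (Q1_zero A)).conn n) LinearMap.id (t' n m) =
        t (n + 1) m := by
      intro n m
      have : (TensorProduct.map ((ses2 (Q1_zero A)).conn n)
          (LinearMap.id : B.H m →ₗ[R] B.H m)).comp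
          (TensorProduct.map (e n).symm.toLinearMap LinearMap.id) = LinearMap.id := by
        rw [← TensorProduct.map_comp]
        have : ((ses2 (Q1_zero A)).conn n).comp (e n).symm.toLinearMap = LinearMap.id :=
          LinearMap.ext fun x => (e n).apply_symm_apply x
        rw [this, LinearMap.id_comp, TensorProduct.map_id]
      exact LinearMap.congr_fun this _
    rw [Finset.Nat.sum_antidiagonal_succ] at ht
    have h1 : ∑ p ∈ Finset.HasAntidiagonal.antidiagonal N, kap (Q2 (Q1 A)) B p.1 p.2 N (t' p.1 p.2) = 0 := by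
      apply (ses2_tens_bij (Q1_zero A) B N).1
      rw [map_sum, map_zero]
      rw [h0 (N + 1), map_zero, zero_add] at ht
      refine Eq.trans (Finset.sum_congr rfl fun p _ => ?_) ht
      rw [conn_kap, ht']
    have h2 := ih (Q2 (Q1 A)) B t' h1
    intro n m h
    cases n with
    | zero => exact h0 m
    | succ n => rw [← ht', h2 n m (by omega), map_zero]

/-! ### The Künneth isomorphism -/

/-- the Künneth map -/
def kunMap (A B : CosMod R) (N : ℕ) :
    (∀ p : Finset.HasAntidiagonal.antidiagonal N, A.H p.1.1 ⊗[R] B.H p.1.2) →ₗ[R] (tensor A B).H N :=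
  ∑ p : Finset.HasAntidiagonal.antidiagonal N, (kap A B p.1.1 p.1.2 N).comp (LinearMap.proj p)

theorem kunMap_apply (A B : CosMod R) (N : ℕ)
    (t : ∀ p : Finset.HasAntidiagonal.antidiagonal N, A.H p.1.1 ⊗[R] B.H p.1.2) :
    kunMap A B N t = ∑ p : Finset.HasAntidiagonal.antidiagonal N, kap A B p.1.1 p.1.2 N (t p) := by
  rw [kunMap, LinearMap.sum_apply]
  rfl

/-- **Künneth.** -/
theorem kun_bijective [AllFlat R] (A B : CosMod R) (N : ℕ) :
    Function.Bijective (kunMap A B N) := by
  constructor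
  · rw [injective_iff_map_eq_zero]
    intro t ht
    rw [kunMap_apply] at ht
    let t' : ∀ n m, A.H n ⊗[R] B.H m := fun n m =>
      if h : n + m = N then t ⟨(n, m), Finset.HasAntidiagonal.mem_antidiagonal.2 h⟩ else 0
    have e : ∀ p : Finset.HasAntidiagonal.antidiagonal N, t' p.1.1 p.1.2 = t p := by
      rintro ⟨⟨n, m⟩, hp⟩
      exact dif_pos (Finset.HasAntidiagonal.mem_antidiagonal.1 hp)
    have h1 : ∑ p ∈ Finset.HasAntidiagonal.antidiagonal N, kap A B p.1 p.2 N (t' p.1 p.2) = 0 := by
      rw [← Finset.sum_coe_sort, ← ht]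
      exact Finset.sum_congr rfl fun p _ => by rw [e]
    have h2 := kun_inj N A B t' h1
    funext p
    rw [← e p]
    exact h2 _ _ (Finset.HasAntidiagonal.mem_antidiagonal.1 p.2)
  · intro z
    have hz := kun_span N A B z
    induction hz using Submodule.span_induction with
    | mem w hw =>
      obtain ⟨n, m, x, y, h, rfl⟩ := hw
      let p₀ : Finset.HasAntidiagonal.antidiagonal N := ⟨(n, m), Finset.HasAntidiagonal.mem_antidiagonal.2 h.symm⟩
      refine ⟨Pi.single p₀ (x ⊗ₜ[R] y), ?_⟩
      rw [kunMap_apply, Finset.sum_eq_single p₀]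
      · rw [Pi.single_eq_same]
        exact kap_tmul _ _ _ _ _
      · intro p _ hp
        rw [Pi.single_eq_of_ne hp, map_zero]
      · intro h
        exact absurd (Finset.mem_univ _) h
    | zero => exact ⟨0, map_zero _⟩
    | add w v _ _ hw hv =>
      obtain ⟨w', rfl⟩ := hw
      obtain ⟨v', rfl⟩ := hv
      exact ⟨w' + v', map_add _ _ _⟩
    | smul r w _ hw =>
      obtain ⟨w', rfl⟩ := hw
      exact ⟨r • w', map_smul _ _ _⟩

/-- **Künneth** as an isomorphism. -/
def kunEquiv [AllFlat R] (A B : CosMod R) (N : ℕ) :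
    (∀ p : Finset.HasAntidiagonal.antidiagonal N, A.H p.1.1 ⊗[R] B.H p.1.2) ≃ₗ[R] (tensor A B).H N :=
  LinearEquiv.ofBijective (kunMap A B N) (kun_bijective A B N)

/-! ### The basis form -/

/-- the index set of the Künneth basis -/
abbrev KIdx (ι κ : ℕ → Type) (N : ℕ) : Type :=
  {p : (Σ q, ι q) × (Σ q, κ q) // p.1.1 + p.2.1 = N}

/-- reindexing -/
def kidxEquiv (ι κ : ℕ → Type) (N : ℕ) :
    (Σ p : Finset.HasAntidiagonal.antidiagonal N, ι p.1.1 × κ p.1.2) ≃ KIdx ι κ N where
  toFun s := ⟨(⟨s.1.1.1, s.2.1⟩, ⟨s.1.1.2, s.2.2⟩), Finset.HasAntidiagonal.mem_antidiagonal.1 s.1.2⟩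
  invFun s := ⟨⟨(s.1.1.1, s.1.2.1), Finset.HasAntidiagonal.mem_antidiagonal.2 s.2⟩, (s.1.1.2, s.1.2.2)⟩
  left_inv := by rintro ⟨⟨⟨n, m⟩, h⟩, ⟨i, j⟩⟩; rfl
  right_inv := by rintro ⟨⟨⟨n, i⟩, ⟨m, j⟩⟩, h⟩; rfl

/-- **The Künneth basis** of `H^N(A ⊗ B)`. -/
def kunBasis [AllFlat R] {A B : CosMod R} {ι κ : ℕ → Type} (b : ∀ q, Module.Basis (ι q) R (A.H q))
    (b' : ∀ q, Module.Basis (κ q) R (B.H q)) (N : ℕ) :
    Module.Basis (KIdx ι κ N) R ((tensor A B).H N) :=
  ((Pi.basis fun p : Finset.HasAntidiagonal.antidiagonal N =>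
    (b p.1.1).tensorProduct (b' p.1.2)).map (kunEquiv A B N)).reindex (kidxEquiv ι κ N)

theorem kunBasis_apply [AllFlat R] {A B : CosMod R} {ι κ : ℕ → Type}
    (b : ∀ q, Module.Basis (ι q) R (A.H q)) (b' : ∀ q, Module.Basis (κ q) R (B.H q)) (N : ℕ)
    (s : KIdx ι κ N) :
    kunBasis b b' N s = crH s.1.1.1 s.1.2.1 N (b s.1.1.1 s.1.1.2) (b' s.1.2.1 s.1.2.2) := by
  classical
  rw [kunBasis, Module.Basis.reindex_apply, Module.Basis.map_apply, Pi.basis_apply]
  show kunMap A B N _ = _
  rw [kunMap_apply, Finset.sum_eq_single ((kidxEquiv ι κ N).symm s).1]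
  · rw [Pi.single_eq_same, Module.Basis.tensorProduct_apply]
    exact kap_tmul _ _ _ _ _
  · intro p _ hp
    rw [Pi.single_eq_of_ne hp, map_zero]
  · intro h
    exact absurd (Finset.mem_univ _) h

end Vale.Agent.P263.S

end
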