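import Mathlib.LinearAlgebra.Finsupp.Defs
import Mathlib.LinearAlgebra.Finsupp.LinearCombination
import Vale.Agent.P263.S.Defs

/-!
# P263, block S2: the universal cosimplicial modules `L n` and `M n`

(`L`, `M`, `bdL`, `prM` are defined in `Defs.lean`.)
* `incl R n : Hom (M R (n + 1)) (L R n)`, levelwise injective, with levelwise retraction `retr`.
* `sesM R n : SES (M R (n + 1)) (L R n) (M R n)`, levelwise split.
* `Lprism R n` : `L R n` is contractible (as a cosimplicial module).
-/

open scoped TensorProduct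

noncomputable section

namespace Vale.Agent.P263.S

variable (R : Type) [CommRing R]

/-- the basis element of `L R n` -/
def sgl {n p : ℕ} (τ : Op n p) (r : R) : (L R n).obj p := Finsupp.single τ r

theorem L_map_sgl {n p q : ℕ} (α : Op p q) (τ : Op n p) (r : R) :
    (L R n).map α (sgl R τ r) = sgl R (α.comp τ) r := Finsupp.mapDomain_single

theorem L_ext {n p : ℕ} {X : Type*} [AddCommGroup X] [Module R X]
    {f g : (L R n).obj p →ₗ[R] X} (h : ∀ τ : Op n p, f (sgl R τ 1) = g (sgl R τ 1)) : f = g := by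
  refine Finsupp.lhom_ext fun τ r => ?_
  have e : (Finsupp.single τ r : Op n p →₀ R) = r • sgl R τ 1 := by
    rw [sgl]; exact (Finsupp.smul_single_one τ r).symm
  exact (congrArg f e).trans ((map_smul f r _).trans
    ((congrArg (r • ·) (h τ)).trans ((map_smul g r _).symm.trans (congrArg g e).symm)))

theorem bdL_sgl {n p : ℕ} (τ : Op (n + 1) p) (r : R) :
    (bdL R n).app p (sgl R τ r) =
      ∑ i ∈ Finset.range (n + 2), sn i (sgl R (τ.comp (dl n i)) r) := by
  have e0 : (bdL R n).app p (sgl R τ r) = r • (L R n).map τ ((L R n).d n (iotaL R n)) :=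
    ofL_single _ τ r
  have e1 : iotaL R n = sgl R OrderHom.id 1 := rfl
  rw [e0, CosMod.d_apply, map_sum, Finset.smul_sum]
  refine Finset.sum_congr rfl fun i _ => ?_
  rw [CosMod.sn_lin, ← CosMod.sn_smul, CosMod.map_map, e1, L_map_sgl]
  have e2 : r • sgl R ((τ.comp (dl n i)).comp OrderHom.id) 1 =
      sgl R ((τ.comp (dl n i)).comp OrderHom.id) r := Finsupp.smul_single_one _ r
  rw [e2]
  rfl

theorem bd_bd (n p : ℕ) (x : (L R (n + 2)).obj p) : (bdL R n).app p ((bdL R (n + 1)).app p x) = 0 := by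
  have h : ((bdL R n).app p).comp ((bdL R (n + 1)).app p) = 0 := by
    refine L_ext R fun τ => ?_
    rw [LinearMap.comp_apply, bdL_sgl, map_sum, LinearMap.zero_apply]
    have e : ∀ i ∈ Finset.range (n + 3), (bdL R n).app p (sn i (sgl R (τ.comp (dl (n + 1) i)) 1)) =
        ∑ j ∈ Finset.range (n + 2),
          sn (i + j) (sgl R (τ.comp ((dl (n + 1) i).comp (dl n j))) 1) := by
      intro i _
      rw [CosMod.sn_lin, bdL_sgl, sn_sum]
      refine Finset.sum_congr rfl fun j _ => ?_
      rw [sn_sn]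
      rfl
    rw [Finset.sum_congr rfl e]
    exact CosMod.dd_sum (n + 1) (fun i j => sgl R (τ.comp ((dl (n + 1) i).comp (dl n j))) 1)
      fun i j hij _ => by rw [dl_dl hij]
  exact LinearMap.congr_fun h x

theorem M_ext {n p : ℕ} {X : Type*} [AddCommGroup X] [Module R X]
    {f g : (M R n).obj p →ₗ[R] X}
    (h : ∀ τ : Op n p, f ((prM R n).app p (sgl R τ 1)) = g ((prM R n).app p (sgl R τ 1))) :
    f = g := by
  apply Submodule.linearMap_qext
  exact L_ext R h

theorem prM_bd (n p : ℕ) (x : (L R (n + 1)).obj p) :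
    (prM R n).app p ((bdL R n).app p x) = 0 := prM_eq_zero.2 ⟨x, rfl⟩

/-- the inclusion `M R (n + 1) → L R n` -/
def incl (n : ℕ) : Hom (M R (n + 1)) (L R n) :=
  quotLift (bdL_range_map R (n + 1)) (bdL R n) (by
    rintro p _ ⟨x, rfl⟩
    exact bd_bd R n p x)

theorem incl_prM (n p : ℕ) (x : (L R (n + 1)).obj p) :
    (incl R n).app p ((prM R (n + 1)).app p x) = (bdL R n).app p x := rfl

/-! ### the cone operator -/

/-- put the vertex `0` in front -/
def cons0 {n p : ℕ} (τ : Op n p) : Op (n + 1) p where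
  toFun x := if h : x.1 = 0 then 0 else τ ⟨x.1 - 1, by have := x.2; omega⟩
  monotone' x y hxy := by
    show (if h : x.1 = 0 then (0 : Fin (p + 1)) else τ ⟨x.1 - 1, _⟩) ≤
      (if h : y.1 = 0 then (0 : Fin (p + 1)) else τ ⟨y.1 - 1, _⟩)
    rw [Fin.le_def] at hxy
    split_ifs with h1 h2 h2
    · exact le_rfl
    · exact Fin.zero_le _
    · omega
    · apply τ.monotone
      rw [Fin.le_def]
      show x.1 - 1 ≤ y.1 - 1
      omega

theorem cons0_val {n p : ℕ} (τ : Op n p) (x : Fin (n + 2)) :
    cons0 τ x = if h : x.1 = 0 then 0 else τ ⟨x.1 - 1, by have := x.2; omega⟩ := rfl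

theorem cons0_dl_zero {n p : ℕ} (τ : Op n p) : (cons0 τ).comp (dl n 0) = τ := by
  apply OrderHom.ext
  funext x
  show cons0 τ (dl n 0 x) = τ x
  rw [cons0_val, dif_neg (by rw [dl_val, if_neg (Nat.not_lt_zero _)]; omega)]
  congr 1

theorem cons0_dl_succ {n p : ℕ} (τ : Op (n + 1) p) (i : ℕ) :
    (cons0 τ).comp (dl (n + 1) (i + 1)) = cons0 (τ.comp (dl n i)) := by
  apply OrderHom.ext
  funext x
  show cons0 τ (dl (n + 1) (i + 1) x) = cons0 (τ.comp (dl n i)) x
  rw [cons0_val, cons0_val]
  by_cases h : x.1 = 0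
  · rw [dif_pos h, dif_pos (by rw [dl_val, if_pos (by omega)]; exact h)]
  · have hx := x.2
    have e : (dl (n + 1) (i + 1) x).1 ≠ 0 := by
      rw [dl_val]; split_ifs <;> omega
    rw [dif_neg h, dif_neg e]
    show τ _ = τ (dl n i _)
    congr 1
    apply Fin.ext
    show (if x.1 < i + 1 then x.1 else x.1 + 1) - 1 = if x.1 - 1 < i then x.1 - 1 else x.1 - 1 + 1
    split_ifs <;> omega

/-- the cone operator -/
def cn (n p : ℕ) : (L R n).obj p →ₗ[R] (L R (n + 1)).obj p :=
  Finsupp.lmapDomain R R (fun τ : Op n p => cons0 τ)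

theorem cn_sgl {n p : ℕ} (τ : Op n p) (r : R) : cn R n p (sgl R τ r) = sgl R (cons0 τ) r :=
  Finsupp.mapDomain_single

/-- The simplex is acyclic. -/
theorem bd_cn (n p : ℕ) (x : (L R (n + 1)).obj p) :
    (bdL R (n + 1)).app p (cn R (n + 1) p x) + cn R n p ((bdL R n).app p x) = x := by
  have h : ((bdL R (n + 1)).app p).comp (cn R (n + 1) p) + (cn R n p).comp ((bdL R n).app p) =
      LinearMap.id := by
    refine L_ext R fun τ => ?_
    rw [LinearMap.add_apply, LinearMap.comp_apply, LinearMap.comp_apply, cn_sgl, bdL_sgl, bdL_sgl,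
      map_sum, Finset.sum_range_succ', cons0_dl_zero, add_assoc, add_comm (sn 0 _), ← add_assoc,
      ← Finset.sum_add_distrib, Finset.sum_eq_zero, zero_add]
    · simp [sn]
    · intro i _
      rw [cons0_dl_succ, CosMod.sn_lin, cn_sgl, sn_succ, neg_add_cancel]
  exact LinearMap.congr_fun h x

/-- the levelwise retraction of `incl` -/
def retr (n p : ℕ) : (L R n).obj p →ₗ[R] (M R (n + 1)).obj p :=
  ((prM R (n + 1)).app p).comp (cn R n p)

theorem retr_incl (n p : ℕ) (x : (M R (n + 1)).obj p) :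
    retr R n p ((incl R n).app p x) = x := by
  obtain ⟨x, rfl⟩ := prM_surjective (n + 1) p x
  rw [incl_prM, retr, LinearMap.comp_apply]
  conv_rhs => rw [← bd_cn R n p x, map_add, prM_bd, zero_add]

theorem incl_injective (n p : ℕ) : Function.Injective ((incl R n).app p) :=
  Function.LeftInverse.injective (retr_incl R n p)

theorem exact_incl_prM (n p : ℕ) :
    Function.Exact ((incl R n).app p) ((prM R n).app p) := by
  intro x
  constructor
  · intro hx
    obtain ⟨y, hy⟩ := prM_eq_zero.1 hx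
    exact ⟨(prM R (n + 1)).app p y, hy⟩
  · rintro ⟨y, rfl⟩
    obtain ⟨y, rfl⟩ := prM_surjective (n + 1) p y
    exact prM_bd R n p y

/-- `0 → M (n + 1) → L n → M n → 0`, tensored with any cosimplicial module. -/
def sesM (n : ℕ) (B : CosMod R) :
    SES (tensor (M R (n + 1)) B) (tensor (L R n) B) (tensor (M R n) B) where
  i := (incl R n).tens (Hom.id B)
  p := (prM R n).tens (Hom.id B)
  inj p := by
    have h : (TensorProduct.map (retr R n p) (LinearMap.id : B.obj p →ₗ[R] B.obj p)).comp
        (TensorProduct.map ((incl R n).app p) (LinearMap.id : B.obj p →ₗ[R] B.obj p)) =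
        LinearMap.id := by
      rw [← TensorProduct.map_comp]
      have e : (retr R n p).comp ((incl R n).app p) = LinearMap.id :=
        LinearMap.ext (retr_incl R n p)
      rw [e, LinearMap.id_comp, TensorProduct.map_id]
    exact Function.LeftInverse.injective (LinearMap.congr_fun h)
  surj p := LinearMap.rTensor_surjective (B.obj p) (prM_surjective n p)
  pi p x := by
    have := (rTensor_exact (B.obj p) (exact_incl_prM R n p) (prM_surjective n p))
    exact (this _).2 ⟨x, rfl⟩
  ex p x hx := by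
    have := (rTensor_exact (B.obj p) (exact_incl_prM R n p) (prM_surjective n p))
    exact (this x).1 hx

/-! ### the contraction of `L n` -/

open Classical in
/-- the contraction of `L R n` -/
def hL (n p : ℕ) (θ : Op p 1) : (L R n).obj p →ₗ[R] (L R n).obj p :=
  Finsupp.lsum R fun τ : Op n p =>
    if θ.comp τ = c1 n then (Finsupp.lsingle τ : R →ₗ[R] (Op n p →₀ R)) else 0

theorem hL_pos {n p : ℕ} {θ : Op p 1} {τ : Op n p} (h : θ.comp τ = c1 n) (r : R) :
    hL R n p θ (sgl R τ r) = sgl R τ r := by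
  classical
  have e := Finsupp.lsum_single R (fun τ : Op n p =>
    if θ.comp τ = c1 n then (Finsupp.lsingle τ : R →ₗ[R] (Op n p →₀ R)) else 0) τ r
  rw [if_pos h] at e
  exact e

theorem hL_neg {n p : ℕ} {θ : Op p 1} {τ : Op n p} (h : ¬ θ.comp τ = c1 n) (r : R) :
    hL R n p θ (sgl R τ r) = 0 := by
  classical
  have e := Finsupp.lsum_single R (fun τ : Op n p =>
    if θ.comp τ = c1 n then (Finsupp.lsingle τ : R →ₗ[R] (Op n p →₀ R)) else 0) τ r
  rw [if_neg h] at e
  exact e

/-- the contraction of `L R n` -/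
def Lprism (n : ℕ) : Prism (L R n) (L R n) where
  h p θ := hL R n p θ
  nat {p q} α θ x := by
    have h : (hL R n q θ).comp ((L R n).map α) = ((L R n).map α).comp (hL R n p (θ.comp α)) := by
      refine L_ext R fun τ => ?_
      rw [LinearMap.comp_apply, LinearMap.comp_apply, L_map_sgl]
      by_cases hc : θ.comp (α.comp τ) = c1 n
      · rw [hL_pos R hc, hL_pos R (show (θ.comp α).comp τ = c1 n from hc), L_map_sgl]
      · rw [hL_neg R hc, hL_neg R (show ¬ (θ.comp α).comp τ = c1 n from hc), map_zero]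
    exact LinearMap.congr_fun h x

theorem Lprism_c1 (n p : ℕ) (x : (L R n).obj p) : (Lprism R n).h p (c1 p) x = x := by
  have h : hL R n p (c1 p) = LinearMap.id := by
    refine L_ext R fun τ => ?_
    rw [hL_pos R (c1_comp τ)]
    rfl
  exact LinearMap.congr_fun h x

theorem Lprism_c0 (n p : ℕ) (x : (L R n).obj p) : (Lprism R n).h p (c0 p) x = 0 := by
  have h : hL R n p (c0 p) = 0 := by
    refine L_ext R fun τ => ?_
    have hne : ¬ (c0 p).comp τ = c1 n := by
      intro h
      rw [c0_comp] at h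
      have := congrArg (fun f : Op n 1 => f 0) h
      simp only [c0_val, c1_val] at this
      exact absurd this (by decide)
    rw [hL_neg R hne]
    rfl
  exact LinearMap.congr_fun h x

/-- `L n ⊗ B` is acyclic. -/
theorem L_acyclic (n : ℕ) (B : CosMod R) (p : ℕ) :
    (tensor (L R n) B).Z p ≤ (tensor (L R n) B).Bd p :=
  tensor_Z_le_Bd (Lprism R n) (Lprism_c1 R n) (Lprism_c0 R n) B p

end Vale.Agent.P263.S

end
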