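import Vale.Agent.P263.S.Core
import Mathlib.Algebra.BigOperators.Intervals

/-!
# P263, block S: normalisation (helper659)

Every cocycle of a cosimplicial module is cohomologous to a cocycle killed by all codegeneracies.
-/

namespace Vale.Agent.P263.S

variable {R : Type} [CommRing R]

namespace CosMod

variable (B : CosMod R)

/-- The composite of a codegeneracy and the coboundary. -/
theorem map_sg_d {p i : ℕ} (hi : i ≤ p + 1) (y : B.obj (p + 1)) :
    B.map (sg (p + 1) i) (B.d (p + 1) y) =
      ∑ l ∈ Finset.range i, sn l (B.map (dl p l) (B.map (sg p (i - 1)) y)) +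
      ∑ l ∈ Finset.Ico (i + 2) (p + 3), sn l (B.map (dl p (l - 1)) (B.map (sg p i) y)) := by
  rw [d_apply, map_sum]
  have e : ∀ l ∈ Finset.range (p + 1 + 2), B.map (sg (p + 1) i) (sn l (B.map (dl (p + 1) l) y)) =
      sn l (B.map ((sg (p + 1) i).comp (dl (p + 1) l)) y) := by
    intro l _
    rw [sn_lin, B.map_map]
  rw [Finset.sum_congr rfl e]
  have h1 : Finset.range (p + 1 + 2) = Finset.range i ∪ (Finset.Ico i (i + 2) ∪
      Finset.Ico (i + 2) (p + 3)) := by
    ext l
    simp only [Finset.mem_range, Finset.mem_union, Finset.mem_Ico]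
    omega
  rw [h1, Finset.sum_union, Finset.sum_union]
  · have h2 : ∑ l ∈ Finset.Ico i (i + 2),
        sn l (B.map ((sg (p + 1) i).comp (dl (p + 1) l)) y) = 0 := by
      rw [Finset.sum_Ico_succ_top (by omega), Finset.sum_Ico_succ_top (by omega),
        Finset.Ico_self, Finset.sum_empty, zero_add, sg_dl_self hi, sg_dl_succ hi,
        sn_succ, add_neg_cancel]
    rw [h2, zero_add]
    congr 1
    · refine Finset.sum_congr rfl fun l hl => ?_
      rw [Finset.mem_range] at hl
      rw [sg_dl_lt hl hi, ← B.map_map]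
    · refine Finset.sum_congr rfl fun l hl => ?_
      rw [Finset.mem_Ico] at hl
      rw [sg_dl_gt (by omega) (by omega), ← B.map_map]
  · rw [Finset.disjoint_left]
    intro l h3 h4
    rw [Finset.mem_Ico] at h3 h4
    omega
  · rw [Finset.disjoint_left]
    intro l h3 h4
    rw [Finset.mem_range] at h3
    rw [Finset.mem_union, Finset.mem_Ico, Finset.mem_Ico] at h4
    omega

theorem sg_sg {p i k : ℕ} (h : i < k) (hk : k ≤ p + 1) :
    (sg p i).comp (sg (p + 1) k) = (sg p (k - 1)).comp (sg (p + 1) i) := by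
  ext x
  have := x.2
  simp only [OrderHom.comp_coe, Function.comp, sg_val]
  split_ifs <;> omega

/-- one step of the normalisation -/
theorem norm_step {m k : ℕ} (hk : k ≤ m) {z : B.obj (m + 1)} (hz : z ∈ B.Z (m + 1))
    (h : ∀ i, i < k → B.map (sg m i) z = 0) :
    ∀ i, i ≤ k → B.map (sg m i) (z - sn k (B.d m (B.map (sg m k) z))) = 0 := by
  set y := B.map (sg m k) z with hy
  -- the relation
  have h1 : ∑ l ∈ Finset.Ico (k + 1) (m + 2), sn l (B.map (dl m l) y) = 0 := by
    have h2 := B.map_sg_d (p := m) (i := k) (by omega) z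
    rw [mem_Z.1 hz, map_zero, Finset.sum_eq_zero, zero_add] at h2
    · have h3 : ∑ l ∈ Finset.Ico (k + 2) (m + 3), sn l (B.map (dl m (l - 1)) y) =
          ∑ l ∈ Finset.Ico (k + 1) (m + 2), sn (l + 1) (B.map (dl m l) y) := by
        rw [Finset.sum_Ico_eq_sum_range, Finset.sum_Ico_eq_sum_range,
          show m + 3 - (k + 2) = m + 2 - (k + 1) by omega]
        refine Finset.sum_congr rfl fun l _ => ?_
        rw [show k + 2 + l - 1 = k + 1 + l by omega, show k + 1 + l + 1 = k + 2 + l by omega]
      rw [h3] at h2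
      simp only [sn_succ, Finset.sum_neg_distrib] at h2
      rw [← neg_eq_zero]
      exact h2.symm
    · intro l hl
      rw [Finset.mem_range] at hl
      rw [h (k - 1) (by omega), map_zero, sn_zero_val]
  have h4 : B.d m y = ∑ l ∈ Finset.range (k + 1), sn l (B.map (dl m l) y) := by
    rw [d_apply, ← Finset.sum_range_add_sum_Ico _ (show k + 1 ≤ m + 2 by omega), h1, add_zero]
  -- the degeneracies of `y`
  have h5 : ∀ i l, i ≤ k → l ≤ k → B.map (sg m i) (B.map (dl m l) y) =
      if l = i ∨ l = i + 1 then y else 0 := by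
    intro i l hi hl
    cases m with
    | zero =>
      obtain rfl : k = 0 := by omega
      obtain rfl : i = 0 := by omega
      obtain rfl : l = 0 := by omega
      rw [if_pos (Or.inl rfl), B.map_map]
      have : (sg 0 0).comp (dl 0 0) = OrderHom.id := by
        ext x; omega
      rw [this, B.map_id_apply]
    | succ p =>
      have hy0 : ∀ j, j < k → B.map (sg p j) y = 0 := by
        intro j hj
        rw [hy, B.map_map, sg_sg hj hk, ← B.map_map, h j hj, map_zero]
      rw [B.map_map]
      rcases lt_trichotomy l i with h6 | h6 | h6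
      · rw [sg_dl_lt h6 (by omega), ← B.map_map, hy0 _ (by omega), map_zero, if_neg (by omega)]
      · subst h6
        rw [sg_dl_self (by omega), B.map_id_apply, if_pos (Or.inl rfl)]
      · rcases Nat.lt_or_ge (i + 1) l with h7 | h7
        · rw [sg_dl_gt h7 (by omega), ← B.map_map, hy0 _ (by omega), map_zero, if_neg (by omega)]
        · obtain rfl : l = i + 1 := by omega
          rw [sg_dl_succ (by omega), B.map_id_apply, if_pos (Or.inr rfl)]
  intro i hi
  rw [map_sub, sn_lin, h4, map_sum]
  have h8 : ∀ l ∈ Finset.range (k + 1), B.map (sg m i) (sn l (B.map (dl m l) y)) =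
      (if l = i then sn l y else 0) + (if l = i + 1 then sn l y else 0) := by
    intro l hl
    rw [Finset.mem_range] at hl
    rw [sn_lin, h5 i l hi (by omega)]
    by_cases h9 : l = i
    · rw [if_pos (Or.inl h9), if_pos h9, if_neg (by omega), add_zero]
    · by_cases h10 : l = i + 1
      · rw [if_pos (Or.inr h10), if_neg h9, if_pos h10, zero_add]
      · rw [if_neg (by omega), if_neg h9, if_neg h10, sn_zero_val, add_zero]
  rw [Finset.sum_congr rfl h8, Finset.sum_add_distrib, Finset.sum_ite_eq' (Finset.range (k + 1)) i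
    (fun l => sn l y), Finset.sum_ite_eq' (Finset.range (k + 1)) (i + 1) (fun l => sn l y),
    if_pos (Finset.mem_range.2 (by omega))]
  rcases Nat.lt_or_ge i k with h11 | h11
  · rw [if_pos (Finset.mem_range.2 (by omega)), sn_succ, add_neg_cancel, sn_zero_val, h i h11,
      sub_zero]
  · obtain rfl : i = k := by omega
    rw [if_neg (by rw [Finset.mem_range]; omega), add_zero, sn_sn, sn_double, ← hy, sub_self]

/-- Every cocycle is cohomologous to a normalised one. -/
theorem exists_norm {m : ℕ} {z : B.obj (m + 1)} (hz : z ∈ B.Z (m + 1)) :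
    ∃ z' ∈ B.Z (m + 1), z - z' ∈ B.Bd (m + 1) ∧ ∀ i, i ≤ m → B.map (sg m i) z' = 0 := by
  have key : ∀ k, k ≤ m + 1 → ∃ z' ∈ B.Z (m + 1), z - z' ∈ B.Bd (m + 1) ∧
      ∀ i, i < k → B.map (sg m i) z' = 0 := by
    intro k
    induction k with
    | zero => exact fun _ => ⟨z, hz, by rw [sub_self]; exact Submodule.zero_mem _, fun i hi => by omega⟩
    | succ k ih =>
      intro hk
      obtain ⟨z', h1, h2, h3⟩ := ih (by omega)
      have h4 := B.norm_step (k := k) (by omega) h1 h3
      have h5 : sn k (B.d m (B.map (sg m k) z')) ∈ B.Bd (m + 1) := by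
        rw [← sn_lin]
        exact B.d_mem_Bd _
      refine ⟨_, Submodule.sub_mem _ h1 (B.Bd_le_Z _ h5), ?_, fun i hi => h4 i (by omega)⟩
      rw [sub_sub_eq_add_sub, add_sub_right_comm]
      exact Submodule.add_mem _ h2 h5
  obtain ⟨z', h1, h2, h3⟩ := key (m + 1) le_rfl
  exact ⟨z', h1, h2, fun i hi => h3 i (by omega)⟩

/-- Vanishing of the cohomology in degrees without normalised elements. -/
theorem Z_le_Bd_of_norm {m : ℕ}
    (h : ∀ x : B.obj (m + 1), (∀ i, i ≤ m → B.map (sg m i) x = 0) → x = 0) :
    B.Z (m + 1) ≤ B.Bd (m + 1) := by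
  intro z hz
  obtain ⟨z', -, h2, h3⟩ := B.exists_norm hz
  rw [h z' h3, sub_zero] at h2
  exact h2

end CosMod

end Vale.Agent.P263.S
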