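import Vale.Agent.P263.S.CupI
import Vale.Agent.P263.S.Pow
import Vale.Agent.P263.S.GysTriv

/-!
# P263, block S5b: the external square in terms of cup-i products (helper888)

* `tw c y` : the twisted constant function `s ↦ s₀ · y` of `hG c`, `d_tw`.
* `W c y m = ∑ u^(m-i) tw (y_i)` for a family `y_i ∈ C^i` (`W_zero`, `W_succ`), `d_W`.
* `Wsq μ c x` : the cocycle `∑ u^k tw (x ∪_k x)` of `hG c` (degree `n + n`), for a symmetric
  pairing `μ` and a cocycle `x`.
* `Pz_sub_Wsq`, `P_cls_eq` : **`P μ c x` is the class of `Wsq μ c x`.**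
-/

noncomputable section

open Finset

open scoped TensorProduct

namespace Vale.Agent.P263.S

open Vale.Agent.P263.H83 Vale.Agent.P263.TJ

variable {A C : CosMod (ZMod 2)}

/-! ### twisted constants -/

section tw

variable (c : Act C2 C)

/-- the twisted constant `s ↦ s₀ · y` -/
def tw (p : ℕ) : C.obj p →ₗ[ZMod 2] (hG c).obj p where
  toFun y := hG.mk c (fun s => c.act p (s 0) y) (fun g s => by
    rw [map_mul]; rfl)
  map_add' y y' := hG.ext fun s => by simp
  map_smul' r y := hG.ext fun s => by simp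

theorem tw_fn (p : ℕ) (y : C.obj p) (s : Fin (p + 1) → C2) :
    hG.fn (tw c p y) s = c.act p (s 0) y := rfl

theorem tw_res (p : ℕ) (y : C.obj p) : (hG.res c).app p (tw c p y) = y := by
  show c.act p 1 y = y
  exact act_one c p y

theorem uc_res (p : ℕ) (f : (hG c).obj p) : (hG.res c).app (p + 1) (uc idC c p f) = 0 := by
  show hG.fn (uc idC c p f) (fun _ => 1) = 0
  rw [uc_fn, if_pos rfl]

/-- `1 + t` on `C` -/
def tt (p : ℕ) (y : C.obj p) : C.obj p := y + c.act p C2.t y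

theorem act_add_act (p : ℕ) (g h : C2) (y : C.obj p) :
    c.act p g y + c.act p h y = if g = h then 0 else tt c p y := by
  rcases C2.cases g with rfl | rfl <;> rcases C2.cases h with rfl | rfl
  · rw [if_pos rfl, add_self_two]
  · rw [if_neg (by decide), act_one]; rfl
  · rw [if_neg (by decide), act_one, add_comm]; rfl
  · rw [if_pos rfl, add_self_two]

theorem act_tt (p : ℕ) (g : C2) (y : C.obj p) : c.act p g (tt c p y) = tt c p y := by
  rcases C2.cases g with rfl | rfl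
  · exact act_one _ _ _
  · rw [tt, map_add, ← Module.End.mul_apply, ← map_mul, C2.t_mul_t, act_one, add_comm]

theorem d_tw_aux {V : Type*} [AddCommGroup V] [Module (ZMod 2) V] (a b x : V) :
    a + b = a + x + (b + x) := by
  rw [add_add_add_comm, add_self_two, add_zero]

theorem d_tw (p : ℕ) (y : C.obj p) :
    (hG c).d p (tw c p y) = tw c (p + 1) (C.d p y) + uc idC c p (tw c p (tt c p y)) := by
  apply hG.ext
  intro s
  rw [hG_d_fn, hG.fn_add, tw_fn, uc_fn, tw_fn, act_tt, d_apply_two]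
  have h0 : ∀ i, C.map (dl p i) (hG.fn (tw c p y) (s ∘ dl p i)) =
      C.map (dl p i) (c.act p (s (dl p i 0)) y) := fun i => rfl
  rw [map_sum, sum_congr rfl fun i _ => h0 i, sum_range_succ', sum_range_succ' (n := p + 1)]
  have h1 : ∀ i, dl p (i + 1) 0 = 0 := dl_succ_zero p
  have h2 : dl p 0 0 = 1 := dl_zero_zero p
  have h3 : ∀ i ∈ range (p + 1), C.map (dl p (i + 1)) (c.act p (s (dl p (i + 1) 0)) y) =
      c.act (p + 1) (s 0) (C.map (dl p (i + 1)) y) := by
    intro i _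
    rw [h1, c.nat]
  rw [sum_congr rfl h3, h2]
  have h4 := act_add_act c p (s 1) (s 0) y
  have h5 : C.map (dl p 0) (c.act p (s 1) y) + c.act (p + 1) (s 0) (C.map (dl p 0) y) =
      if idC (s 0) = idC (s 1) then 0 else C.map (dl p 0) (tt c p y) := by
    rw [c.nat, ← map_add, h4]
    by_cases h : s 0 = s 1
    · rw [if_pos h.symm, if_pos (show idC (s 0) = idC (s 1) from h), map_zero]
    · rw [if_neg (Ne.symm h), if_neg (show ¬ idC (s 0) = idC (s 1) from h)]
  refine Eq.trans ?_ (congrArg _ h5)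
  exact d_tw_aux _ _ _

theorem add_add_two {V : Type*} [AddCommGroup V] [Module (ZMod 2) V] (a x : V) : a + x + x = a := by
  rw [add_assoc, add_self_two, add_zero]

/-- `∑ u^(m-i) tw (y_i)` -/
def W (y : ∀ m, C.obj m) : (m : ℕ) → (hG c).obj m
  | 0 => tw c 0 (y 0)
  | m + 1 => tw c (m + 1) (y (m + 1)) + uc idC c m (W y m)

theorem W_zero (y : ∀ m, C.obj m) : W c y 0 = tw c 0 (y 0) := rfl

theorem W_succ (y : ∀ m, C.obj m) (m : ℕ) :
    W c y (m + 1) = tw c (m + 1) (y (m + 1)) + uc idC c m (W c y m) := rfl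

theorem W_res (y : ∀ m, C.obj m) (m : ℕ) : (hG.res c).app m (W c y m) = y m := by
  cases m with
  | zero => exact tw_res c 0 _
  | succ m => rw [W_succ, map_add, tw_res, uc_res, add_zero]

/-- the coboundary of `W` -/
theorem d_W (y : ∀ m, C.obj m) (N : ℕ) (h0 : tt c 0 (y 0) = 0)
    (h : ∀ m < N, C.d m (y m) = tt c (m + 1) (y (m + 1))) :
    ∀ m ≤ N, (hG c).d m (W c y m) = tw c (m + 1) (C.d m (y m)) := by
  intro m
  induction m with
  | zero =>
    intro _
    rw [W_zero, d_tw, h0, map_zero, map_zero, add_zero]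
  | succ m ih =>
    intro hm
    rw [W_succ, map_add, d_tw, d_uc, ih (by omega), h m (by omega)]
    exact add_add_two _ _

end tw

/-! ### naturality -/

theorem cupi_nat {A' B B' C' : CosMod (ZMod 2)} {μ : Bil A B C} {μ' : Bil A' B' C'}
    (f : Hom A A') (g : Hom B B') (k : Hom C C')
    (hk : ∀ p a b, k.app p (μ.app p a b) = μ'.app p (f.app p a) (g.app p b))
    (j N : ℕ) {m n : ℕ} (x : A.obj m) (y : B.obj n) :
    k.app N (cupi μ j N x y) = cupi μ' j N (f.app m x) (g.app n y) := by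
  rw [cupi, cupi, map_cupG]
  refine cupG_congr fun P _ Q _ => ?_
  rw [hk, app_fc, app_fc]

theorem mapHom_tw {C' : CosMod (ZMod 2)} (c : Act C2 C) (c' : Act C2 C') (k : Hom C C')
    (hk : ∀ p (g : C2) (x : C.obj p), k.app p (c.act p g x) = c'.act p g (k.app p x)) (p : ℕ)
    (y : C.obj p) :
    (hG.mapHom c c' k hk).app p (tw c p y) = tw c' p (k.app p y) := by
  apply hG.ext
  intro s
  rw [hG.mapHom_fn, tw_fn, tw_fn, hk]

theorem mapHom_W {C' : CosMod (ZMod 2)} (c : Act C2 C) (c' : Act C2 C') (k : Hom C C')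
    (hk : ∀ p (g : C2) (x : C.obj p), k.app p (c.act p g x) = c'.act p g (k.app p x))
    (y : ∀ m, C.obj m) (m : ℕ) :
    (hG.mapHom c c' k hk).app m (W c y m) = W c' (fun m => k.app m (y m)) m := by
  induction m with
  | zero => exact mapHom_tw c c' k hk 0 _
  | succ m ih => rw [W_succ, W_succ, map_add, mapHom_tw, uc_mapHom, ih]

/-! ### the explicit external square -/

section Wsq

variable {n : ℕ} (μ : Bil A A C) (c : Act C2 C)

/-- the family `x ∪_k x` -/
def sqf (x : A.obj n) (m : ℕ) : C.obj m := cupi μ (n + n + 1 - m) m x x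

/-- the explicit external square `∑ u^k tw (x ∪_k x)` -/
def Wsq (x : A.obj n) : (hG c).obj (n + n) := W c (sqf μ x) (n + n)

variable {μ c}

theorem cupiT_self (h : Sym μ c) (j N : ℕ) (x : A.obj n) :
    cupiT μ j N x x = c.act N C2.t (cupi μ j N x x) := by
  rw [cupiT, cupi, map_cupG]
  refine cupG_congr fun P _ Q _ => ?_
  rw [h]

theorem sqf_zero (h : Sym μ c) (x : A.obj n) : tt c 0 (sqf μ x 0) = 0 := by
  cases n with
  | zero =>
    have e : sqf μ x 0 = μ.app 0 x x := cupi_top μ x x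
    rw [e, tt, h, add_self_two]
  | succ n =>
    rw [sqf, cupi_eq_zero_left μ (by omega), tt, map_zero, add_zero]

theorem d_sqf (h : Sym μ c) {x : A.obj n} (hx : x ∈ A.Z n) (m : ℕ) (hm : m ≤ n + n) :
    C.d m (sqf μ x m) = tt c (m + 1) (sqf μ x (m + 1)) := by
  have e : n + n + 1 - m = (n + n + 1 - (m + 1)) + 1 := by omega
  rw [sqf, e, d_cupi, CosMod.mem_Z.1 hx]
  have e1 : ∀ (j N : ℕ), cupi μ j N (0 : A.obj (n + 1)) x = 0 := fun j N => by
    refine cupG_eq_zero fun J _ _ => ?_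
    rw [fc_zero, map_zero, LinearMap.zero_apply]
  have e2 : ∀ (j N : ℕ), cupi μ j N x (0 : A.obj (n + 1)) = 0 := fun j N => by
    refine cupG_eq_zero fun J _ _ => ?_
    rw [fc_zero, map_zero]
  rw [e1, e2, add_zero, zero_add, cupiT_self h]
  rfl

theorem Wsq_mem_Z (h : Sym μ c) {x : A.obj n} (hx : x ∈ A.Z n) :
    Wsq μ c x ∈ (hG c).Z (n + n) := by
  rw [CosMod.mem_Z, Wsq, d_W c (sqf μ x) (n + n) (sqf_zero h x)
    (fun m hm => d_sqf h hx m hm.le) (n + n) le_rfl, d_sqf h hx _ le_rfl]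
  have e : sqf μ x (n + n + 1) = 0 := by
    rw [sqf, Nat.sub_self]
    exact cupi_zero μ _ x x
  rw [e, tt, map_zero, add_zero, map_zero]

theorem Wsq_res (x : A.obj n) :
    (hG.res c).app (n + n) (Wsq μ c x) = μ.lift.app (n + n) (cr (n + n) x x) := by
  rw [Wsq, W_res, lift_cr, sqf, Nat.add_sub_cancel_left]
  exact cupi_one μ rfl x x

/-- naturality of the explicit square -/
theorem mapHom_Wsq {A' C' : CosMod (ZMod 2)} (μ' : Bil A' A' C') (c' : Act C2 C') (f : Hom A A')
    (k : Hom C C')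
    (hk : ∀ p (g : C2) (x : C.obj p), k.app p (c.act p g x) = c'.act p g (k.app p x))
    (hf : ∀ p a b, k.app p (μ.app p a b) = μ'.app p (f.app p a) (f.app p b)) (x : A.obj n) :
    (hG.mapHom c c' k hk).app (n + n) (Wsq μ c x) = Wsq μ' c' (f.app n x) := by
  rw [Wsq, Wsq, mapHom_W]
  congr 1
  funext m
  exact cupi_nat f f k hf _ _ x x

/-- the universal case -/
theorem univP_sub (n : ℕ) :
    Pz (Bil.univ (M (ZMod 2) n) (M (ZMod 2) n)) (swapAct (M (ZMod 2) n)) (sym_univ _)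
        (iotaM (ZMod 2) n) (iotaM_mem_Z (ZMod 2) n) -
      Wsq (Bil.univ (M (ZMod 2) n) (M (ZMod 2) n)) (swapAct (M (ZMod 2) n))
        (iotaM (ZMod 2) n) ∈ (hG (swapAct (M (ZMod 2) n))).Bd (n + n) := by
  refine Pz_unique (fun i hi => (good_MM (ZMod 2) n).H_low hi) _ _ _
    (Wsq_mem_Z (sym_univ _) (iotaM_mem_Z (ZMod 2) n)) ?_
  rw [Wsq_res, lift_cr]
  show cr (n + n) (iotaM (ZMod 2) n) (iotaM (ZMod 2) n) - cr (n + n) _ _ ∈ _
  rw [sub_self]
  exact zero_mem _

/-- **The external square in terms of cup-i products** (cochain level). -/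
theorem Pz_sub_Wsq (h : Sym μ c) (x : A.obj n) (hx : x ∈ A.Z n) :
    Pz μ c h x hx - Wsq μ c x ∈ (hG c).Bd (n + n) := by
  have hg : ∀ p a b, (sqHom μ x hx).app p
      ((Bil.univ (M (ZMod 2) n) (M (ZMod 2) n)).app p a b) =
      μ.app p ((ofM x hx).app p a) ((ofM x hx).app p b) := by
    intro p a b
    exact Bil.lift_tmul μ p _ _
  have h1 := Pz_nat' (Bil.univ (M (ZMod 2) n) (M (ZMod 2) n)) (swapAct (M (ZMod 2) n))
    (sym_univ _) μ c h (ofM x hx) (sqHom μ x hx) (sqHom_equiv h x hx) hg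
    (iotaM (ZMod 2) n) (iotaM_mem_Z (ZMod 2) n) x hx (ofM_iota x hx)
  have h2 := mapHom_Wsq (μ := Bil.univ (M (ZMod 2) n) (M (ZMod 2) n))
    (c := swapAct (M (ZMod 2) n)) μ c (ofM x hx) (sqHom μ x hx) (sqHom_equiv h x hx) hg
    (iotaM (ZMod 2) n)
  rw [ofM_iota] at h2
  rw [h1, ← h2, ← map_sub]
  exact Hom.app_mem_Bd _ (univP_sub n)

/-- **The external square in terms of cup-i products.** -/
theorem P_cls_eq (h : Sym μ c) (x : A.Z n) :
    P μ c h (A.cls n x) = (hG c).cls (n + n) ⟨Wsq μ c x.1, Wsq_mem_Z h x.2⟩ := by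
  rw [P_cls, CosMod.cls_eq_iff]
  exact Pz_sub_Wsq h x.1 x.2

end Wsq

end Vale.Agent.P263.S
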