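import Vale.Agent.P263.S.Good
import Vale.Agent.P263.S.LCP
import Vale.Agent.P263.S.HBil

/-!
# P263, block S4: multiplicativity of the power operation, universal case (helper35)

* `mid4H A B C D : (A ⊗ B) ⊗ (C ⊗ D) → (A ⊗ C) ⊗ (B ⊗ D)` : the middle four exchange.
* `hG.cup_sub_mem_Bd` : products in homotopy fixed points are determined by their restriction (if the
  target has no cohomology below the degree of the product).
* `hG.cup_sub_mem_Bd_good` : over `F_2`, the product of two classes of `hG` which restrict to lowest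
  classes is the class which restricts to the lowest class.
-/

open scoped TensorProduct

noncomputable section

namespace Vale.Agent.P263.S

variable {R : Type} [CommRing R]

/-! ### The middle four exchange -/

/-- the middle four exchange -/
def mid4H (A B C D : CosMod R) :
    Hom (tensor (tensor A B) (tensor C D)) (tensor (tensor A C) (tensor B D)) where
  app p := (TensorProduct.tensorTensorTensorComm R (A.obj p) (B.obj p) (C.obj p)
    (D.obj p)).toLinearMap
  nat {p q} φ x := by
    have h : (TensorProduct.tensorTensorTensorComm R (A.obj q) (B.obj q) (C.obj q)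
          (D.obj q)).toLinearMap.comp
        (TensorProduct.map (TensorProduct.map (A.map φ) (B.map φ))
          (TensorProduct.map (C.map φ) (D.map φ))) =
        (TensorProduct.map (TensorProduct.map (A.map φ) (C.map φ))
          (TensorProduct.map (B.map φ) (D.map φ))).comp
        (TensorProduct.tensorTensorTensorComm R (A.obj p) (B.obj p) (C.obj p)
          (D.obj p)).toLinearMap := by
      apply TensorProduct.ext_fourfold'
      intro a b c d
      rfl
    exact LinearMap.congr_fun h x

theorem mid4H_tmul (A B C D : CosMod R) (p : ℕ) (a : A.obj p) (b : B.obj p) (c : C.obj p)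
    (d : D.obj p) :
    (mid4H A B C D).app p ((a ⊗ₜ[R] b) ⊗ₜ[R] (c ⊗ₜ[R] d) :
      (A.obj p ⊗[R] B.obj p) ⊗[R] (C.obj p ⊗[R] D.obj p)) = (a ⊗ₜ[R] c) ⊗ₜ[R] (b ⊗ₜ[R] d) := rfl

theorem mid4H_mid4H (A B C D : CosMod R) (p : ℕ) (x : (tensor (tensor A B) (tensor C D)).obj p) :
    (mid4H A C B D).app p ((mid4H A B C D).app p x) = x := by
  have h : ((mid4H A C B D).app p).comp ((mid4H A B C D).app p) = LinearMap.id := by
    apply TensorProduct.ext_fourfold'
    intro a b c d
    rfl
  exact LinearMap.congr_fun h x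

/-- a pairing is the composite of the universal pairing with its linearisation -/
theorem Good.lift_sub_mem {X Y T : CosMod (ZMod 2)} {i j N : ℕ} (hN : N = i + j) {x : X.obj i}
    {y : Y.obj j} {t : T.obj N} (hx : Good X i x) (hy : Good Y j y) (ht : Good T N t)
    (μ : Bil X Y T) (ν : Hom T (tensor X Y)) (h : ∀ z, ν.app N (μ.lift.app N z) = z) :
    μ.cup N x y - t ∈ T.Bd N := by
  subst hN
  rw [← Bil.lift_cr]
  exact (hx.tens hy).map_sub_mem ht μ.lift ν h

section

variable {G : Type} [Group G] {X Y T : CosMod R} (a : Act G X) (b : Act G Y) (c : Act G T)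
  (μ : Bil X Y T)
  (hμ : ∀ p g x y, μ.app p (a.act p g x) (b.act p g y) = c.act p g (μ.app p x y))

/-- Products in homotopy fixed points are determined by their restriction if there is no cohomology
below their degree. -/
theorem hG.cup_sub_mem_Bd {i j N : ℕ} (hN : N = i + j) (hT : ∀ k, k < N → T.Z k ≤ T.Bd k)
    {U : (hG a).obj i} (hU : U ∈ (hG a).Z i) {V : (hG b).obj j} (hV : V ∈ (hG b).Z j)
    {W : (hG c).obj N} (hW : W ∈ (hG c).Z N)
    (h : μ.cup N ((hG.res a).app i U) ((hG.res b).app j V) - (hG.res c).app N W ∈ T.Bd N) :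
    (hG.bil a b c μ hμ).cup N U V - W ∈ (hG c).Bd N := by
  refine hG_mem_Bd N T c hT _ (sub_mem ((hG.bil a b c μ hμ).cup_mem_Z hN hU hV) hW) ?_
  rw [map_sub, hG.res_cup]
  exact h

end

/-- Over `F_2`: the product of two classes of homotopy fixed points which restrict to lowest classes
is THE class which restricts to the lowest class. -/
theorem hG.cup_sub_mem_Bd_good {G : Type} [Group G] {X Y T : CosMod (ZMod 2)} (a : Act G X)
    (b : Act G Y) (c : Act G T) (μ : Bil X Y T)
    (hμ : ∀ p g x y, μ.app p (a.act p g x) (b.act p g y) = c.act p g (μ.app p x y))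
    {i j N : ℕ} (hN : N = i + j) {x : X.obj i} {y : Y.obj j} {t : T.obj N} (hx : Good X i x)
    (hy : Good Y j y) (ht : Good T N t) (ν : Hom T (tensor X Y))
    (h : ∀ z, ν.app N (μ.lift.app N z) = z)
    {U : (hG a).obj i} (hU : U ∈ (hG a).Z i) (hUx : (hG.res a).app i U - x ∈ X.Bd i)
    {V : (hG b).obj j} (hV : V ∈ (hG b).Z j) (hVy : (hG.res b).app j V - y ∈ Y.Bd j)
    {W : (hG c).obj N} (hW : W ∈ (hG c).Z N)
    (hWt : (hG.res c).app N W - t ∈ T.Bd N) :
    (hG.bil a b c μ hμ).cup N U V - W ∈ (hG c).Bd N := by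
  refine hG.cup_sub_mem_Bd a b c μ hμ hN (fun k hk => ht.H_low hk) hU hV hW ?_
  have h1 := μ.cup_mem_Bd_left hN hUx ((hG.res b).app_mem_Z hV)
  have h2 := μ.cup_mem_Bd_right hN hx.cyc hVy
  have h3 := hx.lift_sub_mem hN hy ht μ ν h
  rw [μ.cup_sub_left] at h1
  rw [μ.cup_sub_right] at h2
  have := sub_mem (add_mem (add_mem h1 h2) h3) hWt
  convert this using 1
  abel

end Vale.Agent.P263.S
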