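import Vale.Agent.P263.S.LES
import Mathlib.LinearAlgebra.Pi
import Mathlib.LinearAlgebra.Finsupp.Pi
import Mathlib.Algebra.Module.Submodule.Range

/-!
# P263, block S: products and direct sums of cosimplicial modules

* `prodC B` : the product of a family `B : ι → CosMod R`; `prodC.equivH : (prodC B).H p ≃ ∀ i, (B i).H p`,
  with components `(prodC.proj B i).mapH p`.
* `fnC X B` : functions from a type `X` to `B` (the constant family).
* `fsC ι B` : the direct sum of copies of `B`, `obj p = ι →₀ B.obj p`;
  `fsC.equivH : (fsC ι B).H p ≃ ι →₀ B.H p`.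
-/

noncomputable section

namespace Vale.Agent.P263.S

open CosMod

variable {R : Type} [CommRing R] {ι : Type}

/-! ### products -/

/-- The product of a family of cosimplicial modules. -/
def prodC (B : ι → CosMod R) : CosMod R where
  obj p := ∀ i, (B i).obj p
  map φ := LinearMap.pi fun i => ((B i).map φ).comp (LinearMap.proj i)
  map_id {p} := by
    refine LinearMap.ext fun x => funext fun i => ?_
    exact (B i).map_id_apply (x i)
  map_comp g f := by
    refine LinearMap.ext fun x => funext fun i => ?_
    exact ((B i).map_map g f (x i)).symm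

namespace prodC

variable (B : ι → CosMod R)

@[simp] theorem map_apply {p q : ℕ} (φ : Op p q) (x : ∀ i, (B i).obj p) (i : ι) :
    ((prodC B).map φ x : ∀ i, (B i).obj q) i = (B i).map φ (x i) := rfl

/-- The projections. -/
def proj (i : ι) : Hom (prodC B) (B i) where
  app _ := LinearMap.proj i
  nat _ _ := rfl

@[simp] theorem proj_app (i : ι) (p : ℕ) (x : (prodC B).obj p) :
    (proj B i).app p x = (x : ∀ i, (B i).obj p) i := rfl

variable {B}

theorem d_apply {p : ℕ} (x : (prodC B).obj p) (i : ι) :
    ((prodC B).d p x : ∀ i, (B i).obj (p + 1)) i = (B i).d p ((x : ∀ i, (B i).obj p) i) :=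
  (proj B i).app_d p x

theorem mem_Z {p : ℕ} {x : (prodC B).obj p} :
    x ∈ (prodC B).Z p ↔ ∀ i, (x : ∀ i, (B i).obj p) i ∈ (B i).Z p := by
  constructor
  · intro h i
    exact (proj B i).app_mem_Z h
  · intro h
    refine CosMod.mem_Z.2 (funext fun i => ?_)
    rw [d_apply]
    exact h i

theorem mem_Bd {p : ℕ} {x : (prodC B).obj p} :
    x ∈ (prodC B).Bd p ↔ ∀ i, (x : ∀ i, (B i).obj p) i ∈ (B i).Bd p := by
  constructor
  · intro h i
    exact (proj B i).app_mem_Bd h
  · intro h
    cases p with
    | zero => exact CosMod.mem_Bd_zero.2 (funext fun i => h i)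
    | succ p =>
      choose y hy using h
      exact ⟨y, funext fun i => (d_apply (B := B) y i).trans (hy i)⟩

variable (B)

/-- The components of a class. -/
def toPi (p : ℕ) : (prodC B).H p →ₗ[R] ∀ i, (B i).H p :=
  LinearMap.pi fun i => (proj B i).mapH p

@[simp] theorem toPi_apply (p : ℕ) (x : (prodC B).H p) (i : ι) :
    toPi B p x i = (proj B i).mapH p x := rfl

theorem toPi_injective (p : ℕ) : Function.Injective (toPi B p) := by
  rw [← LinearMap.ker_eq_bot, LinearMap.ker_eq_bot']
  intro x
  induction x using H_ind with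
  | h z =>
    intro h
    refine cls_eq_zero_iff.2 (mem_Bd.2 fun i => ?_)
    exact cls_eq_zero_iff.1 (congrFun h i)

theorem toPi_surjective (p : ℕ) : Function.Surjective (toPi B p) := by
  intro y
  choose z hz using fun i => (B i).cls_surjective p (y i)
  refine ⟨(prodC B).cls p ⟨fun i => (z i : (B i).obj p), mem_Z.2 fun i => (z i).2⟩, ?_⟩
  funext i
  exact hz i

/-- **The cohomology of a product.** -/
def equivH (p : ℕ) : (prodC B).H p ≃ₗ[R] ∀ i, (B i).H p :=
  LinearEquiv.ofBijective (toPi B p) ⟨toPi_injective B p, toPi_surjective B p⟩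

@[simp] theorem equivH_apply (p : ℕ) (x : (prodC B).H p) (i : ι) :
    equivH B p x i = (proj B i).mapH p x := rfl

theorem ext_H {p : ℕ} {x y : (prodC B).H p}
    (h : ∀ i, (proj B i).mapH p x = (proj B i).mapH p y) : x = y :=
  toPi_injective B p (funext h)

/-- A family of maps induces a map into the product. -/
def lift {A : CosMod R} (f : ∀ i, Hom A (B i)) : Hom A (prodC B) where
  app p := LinearMap.pi fun i => (f i).app p
  nat φ x := funext fun i => (f i).nat φ x

@[simp] theorem lift_app {A : CosMod R} (f : ∀ i, Hom A (B i)) (p : ℕ) (x : A.obj p) (i : ι) :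
    ((lift B f).app p x : ∀ i, (B i).obj p) i = (f i).app p x := rfl

/-- The product of a family of maps. -/
def mapHom {A : ι → CosMod R} (f : ∀ i, Hom (A i) (B i)) : Hom (prodC A) (prodC B) where
  app p := LinearMap.pi fun i => ((f i).app p).comp (LinearMap.proj i)
  nat φ x := funext fun i => (f i).nat φ _

@[simp] theorem mapHom_app {A : ι → CosMod R} (f : ∀ i, Hom (A i) (B i)) (p : ℕ)
    (x : (prodC A).obj p) (i : ι) :
    ((mapHom B f).app p x : ∀ i, (B i).obj p) i = (f i).app p ((x : ∀ i, (A i).obj p) i) := rfl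

theorem mapHom_mapH {A : ι → CosMod R} (f : ∀ i, Hom (A i) (B i)) (p : ℕ)
    (x : (prodC A).H p) (i : ι) :
    (proj B i).mapH p ((mapHom B f).mapH p x) = (f i).mapH p ((proj A i).mapH p x) := by
  rw [← Hom.mapH_comp, ← Hom.mapH_comp]
  rfl

end prodC

/-- Functions from a type to a cosimplicial module. -/
abbrev fnC (X : Type) (B : CosMod R) : CosMod R := prodC fun _ : X => B

/-- Precomposition with a map of index types. -/
def fnC.pull {X Y : Type} (u : X → Y) (B : CosMod R) : Hom (fnC Y B) (fnC X B) where
  app p := LinearMap.funLeft R (B.obj p) u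
  nat _ _ := rfl

/-- The constant functions. -/
def fnC.cst (X : Type) (B : CosMod R) : Hom B (fnC X B) := prodC.lift _ fun _ => Hom.id B

/-- The sum over a finite type. -/
def fnC.sum (X : Type) [Fintype X] (B : CosMod R) : Hom (fnC X B) B where
  app p :=
    { toFun := fun x : X → B.obj p => ∑ i, x i
      map_add' := fun x y => Finset.sum_add_distrib
      map_smul' := fun r x => (Finset.smul_sum (r := r) (f := x) (s := Finset.univ)).symm }
  nat {p q} φ x := (map_sum (B.map φ) (fun i => (x : X → B.obj p) i) Finset.univ).symm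

@[simp] theorem fnC.sum_app (X : Type) [Fintype X] (B : CosMod R) (p : ℕ) (x : X → B.obj p) :
    (fnC.sum X B).app p x = ∑ i, x i := rfl

/-! ### direct sums of copies -/

/-- The direct sum of copies of a cosimplicial module. -/
def fsC (ι : Type) (B : CosMod R) : CosMod R where
  obj p := ι →₀ B.obj p
  map φ := Finsupp.mapRange.linearMap (B.map φ)
  map_id {p} := by
    rw [B.map_id, Finsupp.mapRange.linearMap_id]
  map_comp g f := by
    rw [B.map_comp, Finsupp.mapRange.linearMap_comp]

namespace fsC

variable {B : CosMod R}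

/-- The underlying finitely supported function. -/
def co {p : ℕ} (x : (fsC ι B).obj p) : ι →₀ B.obj p := x

/-- Make an element of the direct sum. -/
def mk {p : ℕ} (x : ι →₀ B.obj p) : (fsC ι B).obj p := x

@[simp] theorem co_mk {p : ℕ} (x : ι →₀ B.obj p) : co (mk x) = x := rfl

theorem ext {p : ℕ} {x y : (fsC ι B).obj p} (h : ∀ i, co x i = co y i) : x = y := Finsupp.ext h

@[simp] theorem co_map {p q : ℕ} (φ : Op p q) (x : (fsC ι B).obj p) (i : ι) :
    co ((fsC ι B).map φ x) i = B.map φ (co x i) := rfl

@[simp] theorem co_zero {p : ℕ} (i : ι) : co (0 : (fsC ι B).obj p) i = 0 := rfl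

@[simp] theorem co_add {p : ℕ} (x y : (fsC ι B).obj p) (i : ι) :
    co (x + y) i = co x i + co y i := rfl

variable (B)

/-- The projections. -/
def proj (i : ι) : Hom (fsC ι B) B where
  app _ := Finsupp.lapply i
  nat _ _ := rfl

@[simp] theorem proj_app (i : ι) (p : ℕ) (x : (fsC ι B).obj p) :
    (proj B i).app p x = co x i := rfl

/-- The inclusions. -/
def incl (i : ι) : Hom B (fsC ι B) where
  app _ := Finsupp.lsingle i
  nat {p q} φ x := by
    change Finsupp.single i (B.map φ x) = Finsupp.mapRange.linearMap (B.map φ) (Finsupp.single i x)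
    rw [Finsupp.mapRange.linearMap_apply, Finsupp.mapRange_single]

theorem incl_app (i : ι) (p : ℕ) (x : B.obj p) :
    (incl B i).app p x = mk (Finsupp.single i x) := rfl

variable {B}

theorem co_d {p : ℕ} (x : (fsC ι B).obj p) (i : ι) :
    co ((fsC ι B).d p x) i = B.d p (co x i) := (proj B i).app_d p x

theorem mem_Z {p : ℕ} {x : (fsC ι B).obj p} :
    x ∈ (fsC ι B).Z p ↔ ∀ i, co x i ∈ B.Z p := by
  constructor
  · intro h i
    exact (proj B i).app_mem_Z h
  · intro h
    refine CosMod.mem_Z.2 (fsC.ext fun i => ?_)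
    rw [co_d]
    exact h i

theorem mem_Bd {p : ℕ} {x : (fsC ι B).obj p} :
    x ∈ (fsC ι B).Bd p ↔ ∀ i, co x i ∈ B.Bd p := by
  classical
  constructor
  · intro h i
    exact (proj B i).app_mem_Bd h
  · intro h
    cases p with
    | zero => exact CosMod.mem_Bd_zero.2 (fsC.ext fun i => h i)
    | succ p =>
      choose y hy using h
      refine ⟨mk (Finsupp.onFinset (co x).support
        (fun i => if co x i = 0 then 0 else y i) ?_), fsC.ext fun i => ?_⟩
      · intro i hi
        rw [Finsupp.mem_support_iff]
        intro h0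
        exact hi (if_pos h0)
      · rw [co_d]
        show B.d p (if co x i = 0 then 0 else y i) = _
        by_cases h0 : co x i = 0
        · rw [if_pos h0, map_zero, h0]
        · rw [if_neg h0]; exact hy i

variable (B)

/-- The classes of the inclusions. -/
def ofFs (ι : Type) (p : ℕ) : (ι →₀ B.H p) →ₗ[R] (fsC ι B).H p :=
  Finsupp.lsum R fun i => (incl B i).mapH p

@[simp] theorem ofFs_single (p : ℕ) (i : ι) (x : B.H p) :
    ofFs B ι p (Finsupp.single i x) = (incl B i).mapH p x := by
  simp [ofFs]

theorem proj_mapH_incl [DecidableEq ι] (p : ℕ) (i j : ι) (x : B.H p) :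
    (proj B j).mapH p ((incl B i).mapH p x) = if i = j then x else 0 := by
  induction x using H_ind with
  | h z =>
    by_cases hij : i = j
    · subst hij
      rw [if_pos rfl, Hom.mapH_cls, Hom.mapH_cls]
      congr 1
      apply Subtype.ext
      show (Finsupp.single i (z : B.obj p) : ι →₀ B.obj p) i = z
      simp
    · rw [if_neg hij, Hom.mapH_cls, Hom.mapH_cls]
      refine cls_eq_zero_iff.2 ?_
      show (Finsupp.single i (z : B.obj p) : ι →₀ B.obj p) j ∈ B.Bd p
      rw [Finsupp.single_apply, if_neg hij]
      exact zero_mem _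

theorem proj_ofFs (p : ℕ) (j : ι) (x : ι →₀ B.H p) : (proj B j).mapH p (ofFs B ι p x) = x j := by
  classical
  induction x using Finsupp.induction_linear with
  | zero => simp
  | add x y hx hy => rw [map_add, map_add, hx, hy, Finsupp.add_apply]
  | single i a => rw [ofFs_single, proj_mapH_incl, Finsupp.single_apply]

theorem ext_H {p : ℕ} {x y : (fsC ι B).H p}
    (h : ∀ i, (proj B i).mapH p x = (proj B i).mapH p y) : x = y := by
  rw [← sub_eq_zero]
  have h' : ∀ i, (proj B i).mapH p (x - y) = 0 := fun i => by rw [map_sub, h i, sub_self]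
  generalize x - y = w at h'
  induction w using H_ind with
  | h z =>
    refine cls_eq_zero_iff.2 (mem_Bd.2 fun i => ?_)
    exact cls_eq_zero_iff.1 (h' i)

theorem ofFs_injective (p : ℕ) : Function.Injective (ofFs B ι p) := by
  intro x y h
  refine Finsupp.ext fun i => ?_
  rw [← proj_ofFs, ← proj_ofFs, h]

theorem ofFs_surjective (p : ℕ) : Function.Surjective (ofFs B ι p) := by
  classical
  intro x
  induction x using H_ind with
  | h z =>
    have hz : ∀ i, co (z : (fsC ι B).obj p) i ∈ B.Z p := mem_Z.1 z.2
    refine ⟨Finsupp.onFinset (co (z : (fsC ι B).obj p)).support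
      (fun i => B.cls p ⟨co (z : (fsC ι B).obj p) i, hz i⟩) ?_, ?_⟩
    · intro i hi
      rw [Finsupp.mem_support_iff]
      intro h0
      apply hi
      refine cls_eq_zero_iff.2 ?_
      show co (z : (fsC ι B).obj p) i ∈ B.Bd p
      rw [h0]
      exact zero_mem _
    · refine ext_H B fun i => ?_
      rw [proj_ofFs]
      rfl

/-- **The cohomology of a direct sum of copies.** -/
def equivH (ι : Type) (p : ℕ) : (ι →₀ B.H p) ≃ₗ[R] (fsC ι B).H p :=
  LinearEquiv.ofBijective (ofFs B ι p) ⟨ofFs_injective B p, ofFs_surjective B p⟩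

@[simp] theorem equivH_single (p : ℕ) (i : ι) (x : B.H p) :
    equivH B ι p (Finsupp.single i x) = (incl B i).mapH p x := ofFs_single B p i x

theorem equivH_symm_apply (p : ℕ) (x : (fsC ι B).H p) (i : ι) :
    (equivH B ι p).symm x i = (proj B i).mapH p x := by
  obtain ⟨y, rfl⟩ := (equivH B ι p).surjective x
  rw [LinearEquiv.symm_apply_apply]
  exact (proj_ofFs B p i y).symm

end fsC

end Vale.Agent.P263.S

end
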