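import Vale.Agent.P263.E.SqAlg
import Vale.Agent.P263.EX.BM

/-!
# P263, block S5 (helper915): the algebra of the squares

Everything here is pure algebra of graded `F_2[u]`-modules (`E.GU`, `E.GU.Free` of helper659).
`Sq q j : E q → E j` is `Sq^(j-q)`.

* `scalar_BM` : the swap symmetry of the iterated total square gives the Bullett-Macdonald
  relations (scalar form).
-/

namespace Vale.Agent.P263.S

open Polynomial Finset Vale.Agent.P263.EX

/-- From the swap symmetry to the Bullett-Macdonald relation, scalar form. -/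
theorem scalar_BM (q N : ℕ) (g : ℕ → ZMod 2) (h1 : ∀ a, q < a → g a = 0)
    (h2 : ∀ a, q + 2 * a < N → g a = 0)
    (sw : ∀ s t, s + t + N = 3 * q → ∑ a ∈ range (N + 1), g a * (BM.cc (q - a) s : ZMod 2) =
      ∑ a ∈ range (N + 1), g a * (BM.cc (q - a) t : ZMod 2)) :
    ∑ a ∈ range (N + 1), C (g a) * BM.wt (ZMod 2) (N - a) a = 0 := by
  have hX : (X : (ZMod 2)[X]) ≠ 0 := X_ne_zero
  have hX1 : ((1 : (ZMod 2)[X]) + X) ≠ 0 := by
    rw [add_comm]
    exact (monic_X_add_C (1 : ZMod 2)).ne_zero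
  have hFG : ∑ a ∈ range (N + 1), C (g a) * (X ^ (q - a) * (1 + X) ^ (q - a)) =
      ∑ a ∈ range (N + 1), C (g a) * (X ^ (q + 2 * a - N) * ((1 : (ZMod 2)[X]) + X) ^ (q - a)) := by
    ext t
    rw [finsetSum_coeff, finsetSum_coeff]
    have e2 : ∀ a ∈ range (N + 1), (C (g a) * (X ^ (q + 2 * a - N) *
        ((1 : (ZMod 2)[X]) + X) ^ (q - a))).coeff t =
        if t + N ≤ 3 * q then g a * (BM.cc (q - a) (3 * q - N - t) : ZMod 2) else 0 := by
      intro a ha
      have ha' := mem_range.mp ha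
      rcases Nat.lt_or_ge q a with hq | hq
      · rw [h1 a hq]; simp
      rcases Nat.lt_or_ge (q + 2 * a) N with hN | hN
      · rw [h2 a hN]; simp
      rw [coeff_C_mul, coeff_X_pow_mul']
      split_ifs with c1 c2 c2
      · rw [coeff_one_add_X_pow]
        congr 1
        unfold BM.cc
        rcases Nat.lt_or_ge (q - a) (t - (q + 2 * a - N)) with c3 | c3
        · rw [Nat.choose_eq_zero_of_lt c3, if_neg (by omega)]
        · rw [if_pos (by omega), ← Nat.choose_symm c3]
          congr 2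
          omega
      · rw [coeff_one_add_X_pow, Nat.choose_eq_zero_of_lt (by omega)]
        simp
      · unfold BM.cc
        split_ifs with c3
        · rw [Nat.choose_eq_zero_of_lt (by omega)]; simp
        · simp
      · simp
    have e1 : ∀ a ∈ range (N + 1), (C (g a) * (X ^ (q - a) *
        ((1 : (ZMod 2)[X]) + X) ^ (q - a))).coeff t = g a * (BM.cc (q - a) t : ZMod 2) := by
      intro a _
      rw [BM.coeff_second]
    rw [Finset.sum_congr rfl e1, Finset.sum_congr rfl e2]
    rcases Nat.lt_or_ge (3 * q) (t + N) with c | c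
    · rw [Finset.sum_eq_zero, Finset.sum_eq_zero]
      · intro a _
        rw [if_neg (by omega)]
      · intro a _
        rcases Nat.lt_or_ge q a with hq | hq
        · rw [h1 a hq]; simp
        rcases Nat.lt_or_ge (q + 2 * a) N with hN | hN
        · rw [h2 a hN]; simp
        · unfold BM.cc
          split_ifs
          · rw [Nat.choose_eq_zero_of_lt (by omega)]; simp
          · simp
    · rw [sw t (3 * q - N - t) (by omega)]
      refine Finset.sum_congr rfl fun a _ => ?_
      rw [if_pos (by omega)]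
  have key : (X * (1 + X)) ^ q * ∑ a ∈ range (N + 1), C (g a) * BM.wt (ZMod 2) (N - a) a = 0 := by
    have hz : (X * (1 + X)) ^ N * (∑ a ∈ range (N + 1), C (g a) * (X ^ (q - a) * (1 + X) ^ (q - a)) +
      ∑ a ∈ range (N + 1), C (g a) *
        (X ^ (q + 2 * a - N) * ((1 : (ZMod 2)[X]) + X) ^ (q - a))) = 0 := by
      rw [hFG, CharTwo.add_self_eq_zero, mul_zero]
    rw [← hz, ← Finset.sum_add_distrib, Finset.mul_sum, Finset.mul_sum]
    refine Finset.sum_congr rfl fun a ha => ?_
    have ha' := mem_range.mp ha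
    rcases Nat.lt_or_ge q a with hq | hq
    · rw [h1 a hq]; simp
    rcases Nat.lt_or_ge (q + 2 * a) N with hN | hN
    · rw [h2 a hN]; simp
    obtain ⟨k, rfl⟩ : ∃ k, q = a + k := ⟨q - a, by omega⟩
    obtain ⟨l, rfl⟩ : ∃ l, N = a + l := ⟨N - a, by omega⟩
    obtain ⟨m, hm⟩ : ∃ m, k + 2 * a = l + m := ⟨k + 2 * a - l, by omega⟩
    have x1 : a + l - a = l := by omega
    have x2 : a + k - a = k := by omega
    have x3 : a + k + 2 * a - (a + l) = m := by omega
    rw [x2, x3]
    unfold BM.wt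
    rw [x1]
    have x4 : (X : (ZMod 2)[X]) ^ (k + 2 * a) = X ^ (l + m) := by rw [hm]
    rw [pow_add, pow_add] at x4
    rw [mul_pow, mul_pow, pow_add, pow_add, pow_add, pow_add]
    linear_combination (C (g a) * X ^ a * (1 + X) ^ a * (1 + X) ^ k * (1 + X) ^ l) * x4
  exact (mul_eq_zero.mp key).resolve_left (pow_ne_zero _ (mul_ne_zero hX hX1))


/-! ### The binomial coefficients `cc a s`, the coefficient of `X^s` in `(X + X^2)^a` -/

theorem cc_succ_zero (a : ℕ) : BM.cc (a + 1) 0 = 0 := by simp [BM.cc]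

theorem cc_succ_one (a : ℕ) : BM.cc (a + 1) 1 = BM.cc a 0 := by
  unfold BM.cc
  cases a with
  | zero => simp
  | succ a => rw [if_neg (by omega), if_neg (by omega)]

theorem cc_succ_succ (a s : ℕ) : BM.cc (a + 1) (s + 2) = BM.cc a s + BM.cc a (s + 1) := by
  unfold BM.cc
  rcases Nat.lt_or_ge (s + 1) a with h | h
  · rw [if_neg (by omega), if_neg (by omega), if_neg (by omega)]
  · rw [if_pos (by omega), if_pos h]
    rcases Nat.lt_or_ge s a with h' | h'
    · have : a = s + 1 := by omega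
      subst this
      rw [if_neg (by omega)]
      simp
    · rw [if_pos h', show s + 2 - (a + 1) = s - a + 1 by omega, Nat.choose_succ_succ,
        show s + 1 - a = s - a + 1 by omega]

theorem cc_zero_left (s : ℕ) : BM.cc 0 s = if s = 0 then 1 else 0 := by
  unfold BM.cc
  cases s with
  | zero => simp
  | succ s => simp

theorem sum_range_of_zero {M : Type*} [AddCommMonoid M] {f : ℕ → M} {n m : ℕ} (h : n ≤ m)
    (h0 : ∀ a, n ≤ a → f a = 0) : ∑ a ∈ range m, f a = ∑ a ∈ range n, f a := by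
  obtain ⟨k, rfl⟩ := Nat.exists_eq_add_of_le h
  have h1 : ∑ x ∈ range k, f (n + x) = 0 := Finset.sum_eq_zero fun a _ => h0 _ (by omega)
  rw [Finset.sum_range_add, h1, add_zero]

theorem sum_range_eq_of_zero {M : Type*} [AddCommMonoid M] {f : ℕ → M} {n m : ℕ}
    (h0 : ∀ a, n ≤ a → f a = 0) (h1 : ∀ a, m ≤ a → f a = 0) :
    ∑ a ∈ range m, f a = ∑ a ∈ range n, f a := by
  rcases le_total n m with h | h
  · exact sum_range_of_zero h h0
  · exact (sum_range_of_zero h h1).symm

open Vale.Agent.P263.E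

universe v

/-- The squares on `E` and on `K = E[v]`, the Cartan formula for `v`. -/
structure CartanData (E : ℕ → Type v) [∀ j, AddCommGroup (E j)] [∀ j, Module (ZMod 2) (E j)] where
  /-- `E[v]` -/
  K : GU.{v}
  fr : GU.Free K E
  /-- the inflation `E → E[v]` -/
  infl : ∀ n, E n →ₗ[ZMod 2] K.H n
  cf_infl : ∀ n x, fr.cf n n (infl n x) = x
  cf_infl_ne : ∀ n j x, j ≠ n → fr.cf n j (infl n x) = 0
  /-- `Sq^(j-q)` on `E` -/
  sq : ∀ q j, E q →ₗ[ZMod 2] E j
  /-- `Sq^(j-m)` on `E[v]` -/
  sq1 : ∀ m j, K.H m →ₗ[ZMod 2] K.H j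
  sq1_infl : ∀ m j x, sq1 m j (infl m x) = infl j (sq m j x)
  cu0 : ∀ m x, sq1 (m + 1) 0 (K.u m x) = 0
  cu1 : ∀ m x, sq1 (m + 1) 1 (K.u m x) = K.u 0 (sq1 m 0 x)
  cu2 : ∀ m j x, sq1 (m + 1) (j + 2) (K.u m x) =
    K.u (j + 1) (K.u j (sq1 m j x)) + K.u (j + 1) (sq1 m (j + 1) x)

namespace CartanData

variable {E : ℕ → Type v} [∀ j, AddCommGroup (E j)] [∀ j, Module (ZMod 2) (E j)]
  (D : CartanData E)

theorem decomp_zero (z : D.K.H 0) : z = D.infl 0 (D.fr.cf 0 0 z) := by
  refine D.fr.ext' fun j => ?_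
  rcases Nat.eq_zero_or_pos j with h | h
  · subst h; rw [D.cf_infl]
  · rw [D.fr.cf_gt _ _ _ h, D.fr.cf_gt _ _ _ h]

theorem decomp (m : ℕ) (z : D.K.H (m + 1)) : ∃ z' : D.K.H m,
    z = D.infl (m + 1) (D.fr.cf (m + 1) (m + 1) z) + D.K.u m z' ∧
      ∀ j, j ≤ m → D.fr.cf m j z' = D.fr.cf (m + 1) j z := by
  obtain ⟨z', hz'⟩ := D.fr.surj m (fun j => D.fr.cf (m + 1) j z)
  refine ⟨z', D.fr.ext' fun j => ?_, hz'⟩
  rw [map_add, D.fr.cf_u]
  rcases lt_trichotomy j (m + 1) with h | h | h
  · rw [D.cf_infl_ne _ _ _ (by omega), zero_add, hz' j (by omega)]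
  · subst h
    rw [D.cf_infl, D.fr.cf_gt m (m + 1) z' (by omega), add_zero]
  · rw [D.cf_infl_ne _ _ _ (by omega), D.fr.cf_gt (m + 1) j z h, D.fr.cf_gt m j z' (by omega),
      add_zero]

/-- **Cartan formula on `E[v]`**: `Sq(∑ v^(m-r) z_r) = ∑ (v + v^2)^(m-r) Sq z_r`. -/
theorem cf_sq1 : ∀ (m j i : ℕ) (z : D.K.H m), i ≤ j → D.fr.cf j i (D.sq1 m j z) =
    ∑ r ∈ range (m + 1), (BM.cc (m - r) (j - i) : ZMod 2) • D.sq r i (D.fr.cf m r z) := by
  have hinfl : ∀ (m j i : ℕ) (y : E m), i ≤ j → D.fr.cf j i (D.sq1 m j (D.infl m y)) =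
      (BM.cc 0 (j - i) : ZMod 2) • D.sq m i y := by
    intro m j i y hij
    rw [D.sq1_infl, cc_zero_left]
    rcases Nat.eq_or_lt_of_le hij with h | h
    · subst h
      rw [D.cf_infl, if_pos (by omega)]
      simp
    · rw [D.cf_infl_ne _ _ _ (by omega), if_neg (by omega)]
      simp
  intro m
  induction m with
  | zero =>
    intro j i z hij
    rw [Finset.sum_range_one]
    conv_lhs => rw [D.decomp_zero z]
    exact hinfl 0 j i _ hij
  | succ m ih =>
    intro j i z hij
    obtain ⟨z', hz, hz'⟩ := D.decomp m z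
    conv_lhs => rw [hz]
    rw [map_add, map_add, Finset.sum_range_succ, Nat.sub_self, hinfl _ _ _ _ hij, add_comm]
    congr 1
    match j, hij with
    | 0, hij =>
      rw [D.cu0, map_zero, Finset.sum_eq_zero]
      intro r hr
      have := mem_range.mp hr
      rw [show m + 1 - r = (m - r) + 1 by omega, Nat.zero_sub, cc_succ_zero]
      simp
    | 1, hij =>
      rw [D.cu1, D.fr.cf_u]
      rcases Nat.eq_zero_or_pos i with h | h
      · subst h
        rw [ih 0 0 z' le_rfl]
        refine Finset.sum_congr rfl fun r hr => ?_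
        have := mem_range.mp hr
        rw [hz' r (by omega), show m + 1 - r = (m - r) + 1 by omega, Nat.sub_zero, cc_succ_one]
      · have : i = 1 := by omega
        subst this
        rw [D.fr.cf_gt _ _ _ (by omega), Finset.sum_eq_zero]
        intro r hr
        have := mem_range.mp hr
        rw [show m + 1 - r = (m - r) + 1 by omega, Nat.sub_self, cc_succ_zero]
        simp
    | j + 2, hij =>
      rw [D.cu2, map_add, D.fr.cf_u, D.fr.cf_u, D.fr.cf_u]
      rcases Nat.lt_or_ge j i with h | h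
      · rw [D.fr.cf_gt j i _ h, zero_add]
        rcases Nat.lt_or_ge (j + 1) i with h' | h'
        · have : i = j + 2 := by omega
          subst this
          rw [D.fr.cf_gt _ _ _ (by omega), Finset.sum_eq_zero]
          intro r hr
          have := mem_range.mp hr
          rw [show m + 1 - r = (m - r) + 1 by omega, Nat.sub_self, cc_succ_zero]
          simp
        · have : i = j + 1 := by omega
          subst this
          rw [ih (j + 1) (j + 1) z' le_rfl]
          refine Finset.sum_congr rfl fun r hr => ?_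
          have := mem_range.mp hr
          rw [hz' r (by omega), show m + 1 - r = (m - r) + 1 by omega, Nat.sub_self,
            show j + 2 - (j + 1) = 1 by omega, cc_succ_one]
      · rw [ih j i z' h, ih (j + 1) i z' (by omega), ← Finset.sum_add_distrib]
        refine Finset.sum_congr rfl fun r hr => ?_
        have := mem_range.mp hr
        rw [hz' r (by omega), show m + 1 - r = (m - r) + 1 by omega,
          show j + 2 - i = j - i + 2 by omega, show j + 1 - i = j - i + 1 by omega, cc_succ_succ,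
          Nat.cast_add, add_smul]

/-- The swap symmetry of the iterated total square on `E`. -/
structure SwapData extends CartanData E where
  /-- `P x = ∑ v^(2q-j) Sq q j x` -/
  P : ∀ q, E q → K.H (q + q)
  cf_P : ∀ q j x, fr.cf (q + q) j (P q x) = sq q j x
  /-- instability -/
  sq_neg : ∀ q j x, j < q → sq q j x = 0
  swap : ∀ (q : ℕ) (x : E q) (j j' i : ℕ), i ≤ j → i ≤ j' → j + j' = q + q + (q + q) + i →
    fr.cf j i (sq1 (q + q) j (P q x)) = fr.cf j' i (sq1 (q + q) j' (P q x))

end CartanData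

namespace CartanData.SwapData

variable {E : ℕ → Type v} [∀ j, AddCommGroup (E j)] [∀ j, Module (ZMod 2) (E j)]
  (D : CartanData.SwapData (E := E))

theorem sq_gt (q j : ℕ) (x : E q) (h : q + q < j) : D.sq q j x = 0 := by
  rw [← D.cf_P]
  exact D.fr.cf_gt _ _ _ h

theorem cf_sq1_P (q j i : ℕ) (x : E q) (hij : i ≤ j) : D.fr.cf j i (D.sq1 (q + q) j (D.P q x)) =
    ∑ a ∈ range (q + 1), (BM.cc (q - a) (j - i) : ZMod 2) • D.sq (q + a) i (D.sq q (q + a) x) := by
  rw [D.cf_sq1 _ _ _ _ hij, show q + q + 1 = q + (q + 1) by ring, Finset.sum_range_add,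
    Finset.sum_eq_zero, zero_add]
  · refine Finset.sum_congr rfl fun a ha => ?_
    rw [D.cf_P, show q + q - (q + a) = q - a by omega]
  · intro r hr
    rw [D.cf_P, D.sq_neg q r x (mem_range.mp hr), map_zero, smul_zero]

/-- **Bullett-Macdonald relations**, vector form. -/
theorem bm_vec (q N k : ℕ) (x : E q) :
    ∑ a ∈ range (N + 1), ((BM.wt (ZMod 2) (N - a) a).coeff k) •
      D.sq (q + a) (q + N) (D.sq q (q + a) x) = 0 := by
  rw [← Module.forall_dual_apply_eq_zero_iff (ZMod 2)]
  intro φ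
  have h := scalar_BM q N (fun a => φ (D.sq (q + a) (q + N) (D.sq q (q + a) x)))
    (fun a ha => by rw [D.sq_gt q (q + a) x (by omega), map_zero, map_zero])
    (fun a ha => by rw [D.sq_gt (q + a) (q + N) _ (by omega), map_zero]) ?_
  · have h2 := congrArg (fun p : (ZMod 2)[X] => p.coeff k) h
    simp only [finsetSum_coeff, coeff_zero, coeff_C_mul] at h2
    rw [map_sum, ← h2]
    refine Finset.sum_congr rfl fun a _ => ?_
    rw [map_smul, smul_eq_mul, mul_comm]
  · intro s t hst
    have e : ∀ s, ∑ a ∈ range (N + 1), φ (D.sq (q + a) (q + N) (D.sq q (q + a) x)) *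
        (BM.cc (q - a) s : ZMod 2) = φ (D.fr.cf (s + (q + N)) (q + N)
          (D.sq1 (q + q) (s + (q + N)) (D.P q x))) := by
      intro s
      rw [D.cf_sq1_P _ _ _ _ (by omega), map_sum, show s + (q + N) - (q + N) = s by omega]
      rw [← sum_range_eq_of_zero (n := q + 1) (m := N + 1)
        (f := fun a => φ ((BM.cc (q - a) s : ZMod 2) •
          D.sq (q + a) (q + N) (D.sq q (q + a) x)))]
      · refine Finset.sum_congr rfl fun a _ => ?_
        rw [map_smul, smul_eq_mul, mul_comm]
      · intro a ha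
        rw [D.sq_gt q (q + a) x (by omega), map_zero, smul_zero, map_zero]
      · intro a ha
        rw [D.sq_neg (q + a) (q + N) _ (by omega), smul_zero, map_zero]
    rw [e, e]
    exact congrArg φ (D.swap q x _ _ _ (by omega) (by omega) (by omega))

end CartanData.SwapData

/-! ### The total squares on the direct sum -/

section total

variable {E : ℕ → Type v} [∀ j, AddCommGroup (E j)] [∀ j, Module (ZMod 2) (E j)]

/-- `Sq^a` on the direct sum of all degrees -/
noncomputable def totSq (sq : ∀ q j, E q →ₗ[ZMod 2] E j) (a : ℕ) :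
    Module.End (ZMod 2) (DirectSum ℕ E) :=
  DirectSum.toModule (ZMod 2) ℕ _ fun q => (DirectSum.lof (ZMod 2) ℕ E (q + a)).comp (sq q (q + a))

theorem totSq_lof (sq : ∀ q j, E q →ₗ[ZMod 2] E j) (a q : ℕ) (x : E q) :
    totSq sq a (DirectSum.lof (ZMod 2) ℕ E q x) =
      DirectSum.lof (ZMod 2) ℕ E (q + a) (sq q (q + a) x) := by
  rw [totSq, DirectSum.toModule_lof]
  rfl

theorem lof_congr (sq : ∀ q j, E q →ₗ[ZMod 2] E j) {r i j : ℕ} (h : i = j) (y : E r) :
    DirectSum.lof (ZMod 2) ℕ E i (sq r i y) = DirectSum.lof (ZMod 2) ℕ E j (sq r j y) := by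
  subst h; rfl

theorem end_ext {s t : Module.End (ZMod 2) (DirectSum ℕ E)}
    (h : ∀ q x, s (DirectSum.lof (ZMod 2) ℕ E q x) = t (DirectSum.lof (ZMod 2) ℕ E q x)) :
    s = t :=
  DirectSum.linearMap_ext (ZMod 2) fun q => LinearMap.ext fun x => h q x

/-- The vector form of the Bullett-Macdonald relations gives `BM.Rel` on the direct sum. -/
theorem rel_of_vec (sq : ∀ q j, E q →ₗ[ZMod 2] E j)
    (h : ∀ (q N k : ℕ) (x : E q), ∑ a ∈ range (N + 1), ((BM.wt (ZMod 2) (N - a) a).coeff k) •
      sq (q + a) (q + N) (sq q (q + a) x) = 0) : BM.Rel (totSq sq) := by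
  apply BM.rel_of_coeff
  intro n j
  refine end_ext fun q x => ?_
  rw [LinearMap.sum_apply, LinearMap.zero_apply, ← Finset.sum_range_reflect]
  have e : ∀ a ∈ range (n + 1), (totSq sq (n + 1 - 1 - a) * totSq sq (n - (n + 1 - 1 - a)) *
      (((if 2 * (n - (n + 1 - 1 - a)) ≤ j then
        (n + 1 - 1 - a).choose (j - 2 * (n - (n + 1 - 1 - a))) else 0 : ℕ) :
          Module.End (ZMod 2) (DirectSum ℕ E)) +
        (BM.cc (n + 1 - 1 - a) j : Module.End (ZMod 2) (DirectSum ℕ E))))
        (DirectSum.lof (ZMod 2) ℕ E q x) =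
      DirectSum.lof (ZMod 2) ℕ E (q + n) (((BM.wt (ZMod 2) (n - a) a).coeff j) •
      sq (q + a) (q + n) (sq q (q + a) x)) := by
    intro a ha
    have ha' := mem_range.mp ha
    rw [show n + 1 - 1 - a = n - a by omega, show n - (n - a) = a by omega]
    have hw := BM.coeff_wt (R := ZMod 2) (n - a) a j 1
    rw [C_1, one_mul, one_mul, one_mul] at hw
    rw [hw, ← Nat.cast_add, ← Nat.cast_add]
    generalize (if 2 * a ≤ j then (n - a).choose (j - 2 * a) else 0) + BM.cc (n - a) j = c
    rw [Module.End.mul_apply, Module.End.natCast_apply, map_nsmul, Module.End.mul_apply, totSq_lof,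
      totSq_lof, lof_congr sq (show q + a + (n - a) = q + n by omega), map_smul,
      Nat.cast_smul_eq_nsmul]
  rw [Finset.sum_congr rfl e, ← map_sum, h, map_zero]

theorem CartanData.SwapData.rel (D : CartanData.SwapData (E := E)) : BM.Rel (totSq D.sq) :=
  rel_of_vec D.sq D.bm_vec

end total

end Vale.Agent.P263.S
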