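import Vale.Agent.P263.S.CartanU
import Vale.Agent.P263.S.SqAb
import Vale.Agent.P263.S.SqCf
import Vale.Agent.P263.S.PowAdd
import Vale.Agent.P263.S.Flip

/-!
# P263, block S5 (helper915): the Steenrod squares

For a symmetric pairing `μ : A × A → C` (trivial action on `C`), `Sq μ h q j : H^q(A) → H^j(C)` is
the coefficient of `u^(2q-j)` in the external square, i.e. `Sq^(j-q)`.

* `Sq_nat`, `Sq_gt`, `Sq_lt`, `Sq_top`, `Sq_self`, `Sq_bool`;
* `Sq_uH`, `Sq_uH_zero`, `Sq_uH_one` : `Sq (u z) = u Sq z + u u Sq z`;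
* `SqAlg` : commutative associative pairings; `cartanData`, `swapData`, `Sq_BM` (Bullett-Macdonald
  relations), `rel_Sq`.
-/

noncomputable section

namespace Vale.Agent.P263.S

open CosMod Vale.Agent.P263.EX

/-! ### Definition and first properties -/

section general

variable {A C : CosMod (ZMod 2)} (μ : Bil A A C) (h : Sym μ (Act.triv C2 C))

/-- The Steenrod square `Sq^(j-q) : H^q(A) → H^j(C)`. -/
def Sq (q j : ℕ) : A.H q →ₗ[ZMod 2] C.H j where
  toFun x := cf C (q + q) j (P μ (Act.triv C2 C) h x)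
  map_add' x y := by
    rw [P_add, map_add, map_add, tr_triv, map_zero, add_zero]
  map_smul' r x := by
    have key : ∀ r : ZMod 2, r = 0 ∨ r = 1 := by decide
    rcases key r with rfl | rfl
    · rw [zero_smul, P_zero, map_zero]
      exact (zero_smul (ZMod 2) _).symm
    · rw [one_smul]
      exact (one_smul (ZMod 2) _).symm

theorem Sq_apply (q j : ℕ) (x : A.H q) :
    Sq μ h q j x = cf C (q + q) j (P μ (Act.triv C2 C) h x) := rfl

/-- naturality -/
theorem Sq_nat {A' C' : CosMod (ZMod 2)} (μ' : Bil A' A' C') (h' : Sym μ' (Act.triv C2 C'))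
    (f : Hom A A') (g : Hom C C') (hg : ∀ p a b, g.app p (μ.app p a b) =
      μ'.app p (f.app p a) (f.app p b)) (q j : ℕ) (x : A.H q) :
    Sq μ' h' q j (f.mapH q x) = g.mapH j (Sq μ h q j x) := by
  rw [Sq_apply, Sq_apply, ← cf_nat]
  have h1 := P_nat μ (Act.triv C2 C) h μ' (Act.triv C2 C') h' f g (fun _ _ _ => rfl) hg x
  exact congrArg (cf C' (q + q) j) h1

/-- instability -/
theorem Sq_gt (q j : ℕ) (x : A.H q) (hj : q + q < j) : Sq μ h q j x = 0 := by
  rw [Sq_apply]
  exact cf_gt C (q + q) j _ hj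

/-- negative squares vanish -/
theorem Sq_lt (q j : ℕ) (x : A.H q) (hj : j < q) : Sq μ h q j x = 0 := by
  rw [Sq_apply]
  exact cf_P_of_lt μ h x j hj

/-- the top square is the cup square -/
theorem Sq_top (q : ℕ) (x : A.H q) : Sq μ h q (q + q) x = μ.cupH rfl x x := by
  rw [Sq_apply, cf_self, P_res]

/-- `Sq^0` is the levelwise square -/
theorem Sq_self (q : ℕ) (x : A.Z q) :
    Sq μ h q q (A.cls q x) = C.cls q ⟨μ.app q x.1 x.1, app_self_mem_Z μ h x.2⟩ := cf_P_self μ h x

/-- `Sq^0 = 1` on Boolean algebras -/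
theorem Sq_bool (f : Hom A C) (hf : ∀ p x, μ.app p x x = f.app p x) (q : ℕ) (x : A.H q) :
    Sq μ h q q x = f.mapH q x := by
  rw [Sq_apply]
  exact cf_P_bool μ h f hf x

theorem Sq_id {A : CosMod (ZMod 2)} (μ : Bil A A A) (h : Sym μ (Act.triv C2 A))
    (hb : ∀ p x, μ.app p x x = x) (q : ℕ) (x : A.H q) : Sq μ h q q x = x := by
  rw [Sq_bool μ h (Hom.id A) hb, Hom.mapH_id]

end general

/-! ### The Cartan formula for the class of degree one -/

theorem cf_castH (C : CosMod (ZMod 2)) {m n : ℕ} (h : m = n) (j : ℕ)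
    (x : (hG (Act.triv C2 C)).H m) : cf C n j (castH _ h x) = cf C m j x := by
  subst h; rfl

section cartan

variable {K : Type} [Group K] (ε : K →* C2) {A B : CosMod (ZMod 2)} {a : Act K A} {b : Act K B}
  {μ : Bil A A B}
  (hμ : ∀ p g x y, μ.app p (a.act p g x) (a.act p g y) = b.act p g (μ.app p x y))
  (hs : Sym μ (Act.triv C2 B))

include hs in
/-- the pairing of homotopy fixed points is symmetric -/
theorem sym_hG : Sym (hG.bil a a b μ hμ) (Act.triv C2 (hG b)) :=
  sym_hbil hμ hs (Act.Comm.triv_left b)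

/-- the squares of homotopy fixed points -/
def SqG (q j : ℕ) : (hG a).H q →ₗ[ZMod 2] (hG b).H j :=
  Sq (hG.bil a a b μ hμ) (sym_hG hμ hs) q j

theorem P_hG_uH {n : ℕ} (h : n + 1 + (n + 1) = n + n + 1 + 1) (z : (hG a).H n) :
    castH (hG (Act.triv C2 (hG b))) h
      (P (hG.bil a a b μ hμ) (Act.triv C2 (hG b)) (sym_hG hμ hs) (uH ε a n z)) =
      vin ε b (n + n + 1) (vin ε b (n + n)
        (P (hG.bil a a b μ hμ) (Act.triv C2 (hG b)) (sym_hG hμ hs) z)) +
      uH idC (Act.triv C2 (hG b)) (n + n + 1) (vin ε b (n + n)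
        (P (hG.bil a a b μ hμ) (Act.triv C2 (hG b)) (sym_hG hμ hs) z)) :=
  Phg_uH ε hμ hs (Act.Comm.triv_left b) h z

/-- **Cartan formula**: `Sq (u z) = u Sq z + u u Sq z` -/
theorem Sq_uH (n j : ℕ) (z : (hG a).H n) :
    SqG hμ hs (n + 1) (j + 2) (uH ε a n z) =
      uH ε b (j + 1) (SqG hμ hs n (j + 1) z) + uH ε b (j + 1) (uH ε b j (SqG hμ hs n j z)) := by
  have h : n + 1 + (n + 1) = n + n + 1 + 1 := by omega
  have h1 := congrArg (cf (hG b) (n + n + 1 + 1) (j + 2)) (P_hG_uH ε hμ hs h z)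
  rw [cf_castH, map_add, cf_vin, cf_vin, cf_uH, cf_vin] at h1
  exact h1.trans (add_comm _ _)

theorem Sq_uH_one (n : ℕ) (z : (hG a).H n) :
    SqG hμ hs (n + 1) 1 (uH ε a n z) = uH ε b 0 (SqG hμ hs n 0 z) := by
  have h : n + 1 + (n + 1) = n + n + 1 + 1 := by omega
  have h1 := congrArg (cf (hG b) (n + n + 1 + 1) 1) (P_hG_uH ε hμ hs h z)
  rw [cf_castH, map_add, cf_vin, cf_vin_zero, map_zero, zero_add, cf_uH, cf_vin] at h1
  exact h1

theorem Sq_uH_zero (n : ℕ) (z : (hG a).H n) : SqG hμ hs (n + 1) 0 (uH ε a n z) = 0 := by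
  have h : n + 1 + (n + 1) = n + n + 1 + 1 := by omega
  have h1 := congrArg (cf (hG b) (n + n + 1 + 1) 0) (P_hG_uH ε hμ hs h z)
  rw [cf_castH, map_add, cf_vin_zero, cf_uH, cf_vin_zero, zero_add] at h1
  exact h1

end cartan

/-! ### Commutative algebras -/

/-- A commutative and associative pairing. -/
structure SqAlg (A : CosMod (ZMod 2)) where
  mul : Bil A A A
  comm : ∀ (p : ℕ) (x y : A.obj p), mul.app p x y = mul.app p y x
  assoc : ∀ (p : ℕ) (x y z : A.obj p),
    mul.app p (mul.app p x y) z = mul.app p x (mul.app p y z)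

namespace SqAlg

variable {A : CosMod (ZMod 2)} (M : SqAlg A)

theorem sym : Sym M.mul (Act.triv C2 A) := fun p x y => M.comm p x y

/-- the squares of a commutative algebra -/
def sq (q j : ℕ) : A.H q →ₗ[ZMod 2] A.H j := Sq M.mul M.sym q j

theorem sq_def (q j : ℕ) : M.sq q j = Sq M.mul M.sym q j := rfl

/-- functions on `BC2` -/
def one : SqAlg (hG (Act.triv C2 A)) where
  mul := hG.bil (Act.triv C2 A) (Act.triv C2 A) (Act.triv C2 A) M.mul (fun _ _ _ _ => rfl)
  comm p x y := hG.ext fun s => M.comm p _ _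
  assoc p x y z := hG.ext fun s => M.assoc p _ _ _

theorem sq_one_pstar (q j : ℕ) (x : A.H q) :
    M.one.sq q j ((hG.pstar C2 A).mapH q x) = (hG.pstar C2 A).mapH j (M.sq q j x) :=
  Sq_nat M.mul M.sym M.one.mul M.one.sym (hG.pstar C2 A) (hG.pstar C2 A)
    (fun _ _ _ => rfl) q j x

/-- the data for the Cartan formula on `H(A)[v]` -/
def cartanData : CartanData A.H where
  K := guHG idC (Act.triv C2 A)
  fr := freeTriv A
  infl n := (hG.pstar C2 A).mapH n
  cf_infl n x := cf_pstar_self A n x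
  cf_infl_ne n j x hj := cf_pstar_ne A hj.symm x
  sq := M.sq
  sq1 := M.one.sq
  sq1_infl m j x := M.sq_one_pstar m j x
  cu0 m x := Sq_uH_zero idC (fun _ _ _ _ => rfl) M.sym m x
  cu1 m x := Sq_uH_one idC (fun _ _ _ _ => rfl) M.sym m x
  cu2 m j x := (Sq_uH (b := Act.triv C2 A) idC (fun _ _ _ _ => rfl) M.sym m j x).trans
    (add_comm _ _)

/-- the iterated external square is symmetric -/
theorem flip_P_P (q : ℕ) (x : A.H q) :
    flT A ((q + q) + (q + q)) (P M.one.mul (TT A) M.one.sym (P M.mul (Act.triv C2 A) M.sym x)) =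
      P M.one.mul (TT A) M.one.sym (P M.mul (Act.triv C2 A) M.sym x) :=
  P_P_swap M.mul (Act.triv C2 A) M.sym M.mul M.mul (Act.triv C2 A) M.sym M.mul
    (Act.triv C2 A) (Act.triv C2 A) (Act.Comm.triv_left _) (fun _ _ _ _ => rfl) M.sym
    (fun _ _ _ _ => rfl) M.sym (fun p w x y z => by
      rw [M.assoc, M.assoc, ← M.assoc p x y z, M.comm p x y, M.assoc]) x

/-- **the data for the Bullett-Macdonald relations** -/
def swapData : CartanData.SwapData (E := A.H) where
  toCartanData := M.cartanData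
  P q := P M.mul (Act.triv C2 A) M.sym
  cf_P q j x := rfl
  sq_neg q j x hj := Sq_lt M.mul M.sym q j x hj
  swap q x j j' i hij hij' hj := by
    have h := congrArg (fun z => cf A j i (cf2 A _ j z)) (M.flip_P_P q x)
    rw [cf_cf2_fl A _ j j' i hj] at h
    exact h.symm

/-- **The Bullett-Macdonald relations**, vector form. -/
theorem bm (q N k : ℕ) (x : A.H q) :
    ∑ a ∈ Finset.range (N + 1), ((BM.wt (ZMod 2) (N - a) a).coeff k) •
      M.sq (q + a) (q + N) (M.sq q (q + a) x) = 0 :=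
  M.swapData.bm_vec q N k x

/-- **The Bullett-Macdonald relations** for the total squares. -/
theorem rel : BM.Rel (totSq M.sq) := CartanData.SwapData.rel M.swapData

end SqAlg

end Vale.Agent.P263.S
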